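import Crest.Agent.R197.Walls

/-! R197: products over cliques and cubes.

`pr_insert`: `(insert v σ).sort` is a permutation of `σ.sort ++ [v]` and the generators pairwise
commute (`List.Perm.prod_eq'`).  The rest is `Finset.induction_on` (subsets of cliques are cliques),
with `wl_mul_lt_of_adj`, `eta_mul_gen`, `mem_sep_mul_lt`; walls of different type are different. -/

set_option autoImplicit false

namespace Crest.Agent.R197

open Finsupp

variable {V : Type} [LinearOrder V] {L : SimpleGraph V}

@[simp] theorem pr_empty : pr L ∅ = 1 := by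
  simp [pr]

@[simp] theorem pr_singleton (v : V) : pr L {v} = gen L v := by
  simp [pr]

@[simp] theorem htz_pr (σ : Finset V) : htz (pr L σ) = σ.card := by
  rw [pr, ← Finset.length_sort (· ≤ ·)]
  induction σ.sort (· ≤ ·) with
  | nil => simp
  | cons v l ih => rw [List.map_cons, List.prod_cons, htz_mul, ih, htz_gen, List.length_cons]; omega

theorem commute_gen_pr {v : V} {σ : Finset V} (h : ∀ u ∈ σ, u = v ∨ L.Adj v u) :
    Commute (gen L v) (pr L σ) := by
  refine Commute.list_prod_right _ _ fun x hx => ?_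
  obtain ⟨u, hu, rfl⟩ := List.mem_map.1 hx
  rcases h u ((Finset.mem_sort _).1 hu) with rfl | h'
  · exact Commute.refl _
  · exact gen_comm h'

theorem cube_adj {σ : Finset V} (h : L.IsClique (σ : Set V)) {u v : V} (hu : u ∈ σ) (hv : v ∈ σ) :
    v = u ∨ L.Adj u v := by
  by_cases e : v = u
  · exact Or.inl e
  · exact Or.inr (h hu hv (Ne.symm e))

omit [LinearOrder V] in
theorem cube_sub {σ τ : Finset V} (h : L.IsClique (σ : Set V)) (hτ : τ ⊆ σ) :
    L.IsClique (τ : Set V) := h.subset (Finset.coe_subset.2 hτ)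

theorem pr_insert {v : V} {σ : Finset V} (h : L.IsClique (↑(insert v σ) : Set V)) (hv : v ∉ σ) :
    pr L (insert v σ) = pr L σ * gen L v := by
  have h1 : ((insert v σ).sort (· ≤ ·)).Perm (σ.sort (· ≤ ·) ++ [v]) := by
    rw [← Multiset.coe_eq_coe, Finset.sort_eq, ← Multiset.coe_add, Finset.sort_eq,
      Finset.insert_val_of_notMem hv, add_comm]
    rfl
  rw [pr, (h1.map (gen L)).prod_eq', List.map_append, List.prod_append]
  · simp [pr]
  · rw [List.pairwise_map]
    refine List.pairwise_of_forall_mem_list fun a ha b hb => ?_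
    rcases cube_adj h ((Finset.mem_sort _).1 ha) ((Finset.mem_sort _).1 hb) with rfl | h'
    · exact Commute.refl _
    · exact gen_comm h'

theorem pr_erase {v : V} {σ : Finset V} (h : L.IsClique (σ : Set V)) (hv : v ∈ σ) :
    gen L v * pr L (σ.erase v) = pr L σ := by
  rw [(commute_gen_pr fun u hu => cube_adj h hv (Finset.mem_of_mem_erase hu)).eq,
    ← pr_insert (by rwa [Finset.insert_erase hv]) (Finset.notMem_erase v σ), Finset.insert_erase hv]

theorem pr_union {σ τ : Finset V} (h : L.IsClique (↑(σ ∪ τ) : Set V)) (hd : Disjoint σ τ) :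
    pr L (σ ∪ τ) = pr L σ * pr L τ := by
  induction τ using Finset.induction_on with
  | empty => simp
  | insert v τ hv ih =>
    rw [Finset.disjoint_insert_right] at hd
    have h1 := cube_sub h Finset.subset_union_right
    rw [Finset.union_insert] at h ⊢
    rw [pr_insert h (by simp [hv, hd.1]), ih (cube_sub h (Finset.subset_insert _ _)) hd.2,
      pr_insert h1 hv, mul_assoc]

theorem wl_mul_pr {s : V × Bool} {τ : Finset V} (h : ∀ u ∈ τ, L.Adj s.1 u) (g : RA L) :
    wl (g * pr L τ) s = wl g s := by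
  have key : ∀ l : List V, (∀ u ∈ l, L.Adj s.1 u) → ∀ g : RA L,
      wl (g * (l.map (gen L)).prod) s = wl g s := by
    intro l
    induction l with
    | nil => simp
    | cons v l ih =>
      intro hl g
      rw [List.map_cons, List.prod_cons, ← mul_assoc, ih fun u hu => hl u (List.mem_cons_of_mem _ hu)]
      exact wl_mul_lt_of_adj (t := (v, true)) (hl v List.mem_cons_self) g
  exact key _ (fun u hu => h u ((Finset.mem_sort _).1 hu)) g

/-- Seen from the vertex `g * pr τ` of a cube, the wall in direction `v`. -/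
theorem wl_mul_pr_of_mem {v : V} {τ : Finset V} (h : L.IsClique (τ : Set V)) (hv : v ∈ τ)
    (g : RA L) : wl (g * pr L τ) (v, false) = wl g (v, true) := by
  rw [← pr_erase h hv, ← mul_assoc, wl_mul_pr (s := (v, false)) fun u hu =>
    h hv (Finset.mem_of_mem_erase hu) (Finset.ne_of_mem_erase hu).symm]
  exact wl_mul_lt_self g (v, true)

theorem cube_wl {v : V} {τ : Finset V} (h : L.IsClique (↑(insert v τ) : Set V)) (hv : v ∉ τ)
    (g : RA L) (b : Bool) : wl (g * pr L τ) (v, b) = wl g (v, b) :=
  wl_mul_pr (s := (v, b)) (fun _ hu => h (Finset.mem_insert_self _ _) (Finset.mem_insert_of_mem hu)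
    fun e => hv (by rw [show v = _ from e]; exact hu)) g

theorem eta_mul_pr {τ : Finset V} (h : L.IsClique (τ : Set V)) (g : RA L) :
    eta (g * pr L τ) = eta g + ∑ v ∈ τ, single (wl g (v, true)) 1 := by
  induction τ using Finset.induction_on with
  | empty => simp
  | insert v τ hv ih =>
    rw [pr_insert h hv, ← mul_assoc, eta_mul_gen, ih (cube_sub h (Finset.subset_insert _ _)),
      cube_wl h hv, Finset.sum_insert hv]
    abel

theorem mem_sep_mul_pr {τ : Finset V} (h : L.IsClique (τ : Set V)) (g : RA L) (W : Wall L) :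
    W ∈ sep (g * pr L τ) ↔ (W ∈ sep g ↔ ∀ v ∈ τ, W ≠ wl g (v, true)) := by
  induction τ using Finset.induction_on with
  | empty => simp
  | insert v τ hv ih =>
    rw [pr_insert h hv, ← mul_assoc, ← lt_true, mem_sep_mul_lt,
      ih (cube_sub h (Finset.subset_insert _ _)), cube_wl h hv, Finset.forall_mem_insert]
    by_cases e : W = wl g (v, true)
    · have h1 : ∀ u ∈ τ, W ≠ wl g (u, true) := fun u hu e' =>
        hv (by rw [show v = u from congrArg Sigma.fst (e.symm.trans e')]; exact hu)
      tauto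
    · tauto

theorem mem_sep_apex {σ : Finset V} (h : L.IsClique (σ : Set V)) (g : RA L) (W : Wall L) :
    W ∈ sep (apex g σ) ↔ W ∈ sep g ∨ ∃ v ∈ σ, W = wl g (v, true) := by
  rw [apex, mem_sep_mul_pr (τ := asc g σ) (cube_sub h (Finset.filter_subset _ _))]
  by_cases hW : W ∈ sep g
  · exact iff_of_true (iff_of_true hW fun v hv e => (Finset.mem_filter.1 hv).2 (e ▸ hW)) (Or.inl hW)
  · constructor
    · intro h1
      by_contra h2
      exact hW (h1.2 fun v hv e => h2 (Or.inr ⟨v, (Finset.mem_filter.1 hv).1, e⟩))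
    · rintro (h1 | ⟨v, hv, e⟩)
      · exact absurd h1 hW
      · exact iff_of_false hW fun h2 => h2 v (Finset.mem_filter.2 ⟨hv, e ▸ hW⟩) e

theorem sep_subset_apex {σ τ : Finset V} (h : L.IsClique (σ : Set V)) (hτ : τ ⊆ σ) (g : RA L) :
    sep (g * pr L τ) ⊆ sep (apex g σ) := by
  intro W hW
  rw [mem_sep_mul_pr (cube_sub h hτ)] at hW
  rw [mem_sep_apex h]
  by_contra h1
  exact h1 (Or.inl (hW.2 fun v hv e => h1 (Or.inr ⟨v, hτ hv, e⟩)))

/-- Every direction of a cube is a descent of its apex. -/
theorem wl_apex {σ : Finset V} (h : L.IsClique (σ : Set V)) (g : RA L) {v : V} (hv : v ∈ σ) :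
    wl (apex g σ) (v, decide (wl g (v, true) ∈ sep g)) = wl g (v, true) := by
  by_cases hW : wl g (v, true) ∈ sep g
  · rw [decide_eq_true hW]
    refine wl_mul_pr (s := (v, true)) (fun u hu => ?_) g
    obtain ⟨h1, h2⟩ := Finset.mem_filter.1 hu
    exact h hv h1 fun e => h2 (by rw [← show v = u from e]; exact hW)
  · rw [decide_eq_false hW]
    exact wl_mul_pr_of_mem (cube_sub h (Finset.filter_subset _ _)) (Finset.mem_filter.2 ⟨hv, hW⟩) g

end Crest.Agent.R197
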