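import Crest.Agent.R197.Meet
import Crest.Agent.R197.Cube

/-! R197: small flat connections with non-trivial holonomy.

Fix `h : ℕ` large, `n = card V`, `y x = gen v0 ^ h * x` for `x : BB L`; all these points have height `h`,
so `h ≤ len ≤ ∑ v, Dw y v` (`abs_htz_le_len`, `len_le_sum_Dw`).  For `y : RA L` let `S y = {v | Dw y v ≠ 0}`,
`N u y = ∑ v, (Dw y v : ℝ) • (c u v : ℍ)`, `w y` a vertex maximising `Dw y` (`Dw y (w y) ≥ h / n > 0`).
Call `y, y', …` close if `sep y, sep y', … ⊆ sep a` for some `a`; then the elements of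
`S y ∪ S y' ∪ …` are pairwise equal or adjacent (`exists_of_Dw_ne_zero`, `init_adj`).  Vertices of a
common cube are close (`sep_subset_apex`).  If `u, u'` are equal or adjacent to each other and to all of
`S y` then `N u y = c u u' * N u' y`; `‖N (w y) y‖ ≥ re ≥ Dw y (w y)`; so `N u y ≠ 0` and
`nz u y = ‖N u y‖⁻¹ • N u y ∈ S3`.  Put `T y y' = (nz (w y) y)⁻¹ * nz (w y) y'`; for close `y, y'` and any
`u` equal or adjacent to all of `S y ∪ S y'` one has `T y y' = (nz u y)⁻¹ * nz u y'`.  So `T y y' * T y' y''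
= T y y''` for close triples, `T y y = 1`.  Let `α (a, x) = T (y x) (y x * piE a)`.
`dv (T y y') = ‖nz u y' - nz u y‖ ≤ 2 ‖N u y' - N u y‖ / ‖N u y‖ ≤ 2 * (4 n) / (h / n)` (`dv_inv_mul`,
`Dw_mul_lt_le` twice).  Flatness: `hol_mul`, `hol_inv`, `hol_of` on the cube with bottom
`y x * (gen u)⁻¹` resp. `y x * (gen v)⁻¹ * (gen w)⁻¹`.  Loop: for a dart `(u, v)` let `a` be the letter
`of ⟨(u,v), _⟩` or `(of ⟨(v,u), _⟩)⁻¹`, with image `(gen u)⁻¹ * gen v`; if `y x = gen u ^ h` then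
`hol (a ^ k) x = (nz u (gen u ^ h))⁻¹ * nz u (gen u ^ (h-k) * gen v ^ k)` for `k ≤ h` (walls in
`sep (gen u ^ i * gen v ^ j)` have type `u` or `v`, by `mem_sep_mul_lt`), which is `c u v` for `k = h`.
Induct along the walk: `w = ∏ a ^ h` has `gen v0 ^ h * lift w = gen v0 ^ h` and holonomy the product of
the `c`. -/

set_option autoImplicit false

namespace Crest.Agent.R197

variable {V : Type} [LinearOrder V] [Fintype V] {L : SimpleGraph V}

namespace Bk

open scoped Quaternion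

/-- Equal or adjacent. -/
def EA (L : SimpleGraph V) (u v : V) : Prop := u = v ∨ L.Adj u v

/-- `u` is equal or adjacent to all the directions of `y`. -/
def Ok (u : V) (y : RA L) : Prop := ∀ v, Dw y v ≠ 0 → EA L u v

/-- The weighted sum of the directions of `y`, in the chart `u`. -/
noncomputable def N (C : Coc L) (u : V) (y : RA L) : ℍ[ℝ] := ∑ v, (Dw y v : ℝ) • (C.c u v : ℍ[ℝ])

open Classical in
/-- The normalised sum. -/
noncomputable def nz (C : Coc L) (u : V) (y : RA L) : S3 :=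
  if h : N C u y = 0 then 1 else ⟨‖N C u y‖⁻¹ • N C u y, by
    rw [mem_sphere_zero_iff_norm, norm_smul, norm_inv, norm_norm,
      inv_mul_cancel₀ (norm_ne_zero_iff.2 h)]⟩

omit [LinearOrder V] in
theorem exists_w (C : Coc L) (y : RA L) : ∃ u, ∀ v, Dw y v ≤ Dw y u :=
  haveI : Nonempty V := ⟨C.v0⟩
  Finite.exists_max _

/-- A heaviest direction. -/
noncomputable def w (C : Coc L) (y : RA L) : V := (exists_w C y).choose

/-- The transition between close points. -/
noncomputable def T (C : Coc L) (y y' : RA L) : S3 := (nz C (w C y) y)⁻¹ * nz C (w C y) y'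

section
omit [LinearOrder V]

variable (C : Coc L)

theorem N_change {u u' : V} {y : RA L} (h : EA L u u') (h1 : Ok u y) (h2 : Ok u' y) :
    N C u y = C.c u u' * N C u' y := by
  rw [N, N, Finset.mul_sum]
  refine Finset.sum_congr rfl fun v _ => ?_
  by_cases hv : Dw y v = 0
  · simp [hv]
  · rw [mul_smul_comm, ← Metric.unitSphere.coe_mul, C.mul u u' v h (h2 v hv) (h1 v hv)]

theorem nz_change {u u' : V} {y : RA L} (h : EA L u u') (h1 : Ok u y) (h2 : Ok u' y)
    (h0 : N C u' y ≠ 0) : nz C u y = C.c u u' * nz C u' y := by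
  have e := N_change C h h1 h2
  have hn : ‖N C u y‖ = ‖N C u' y‖ := by rw [e, norm_mul, S3.norm_coe, one_mul]
  have h0' : N C u y ≠ 0 := by rwa [← norm_ne_zero_iff, hn, norm_ne_zero_iff]
  refine Subtype.ext ?_
  rw [Metric.unitSphere.coe_mul, nz, nz, dif_neg h0, dif_neg h0']
  simp only
  rw [hn, mul_smul_comm, ← e]

omit [Fintype V] in
theorem close {y y' a : RA L} (h : sep y ⊆ sep a) (h' : sep y' ⊆ sep a) {u : V}
    (hu : Dw y u ≠ 0) : Ok u y' := by
  intro v hv
  obtain ⟨b, hb⟩ := exists_of_Dw_ne_zero hu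
  obtain ⟨b', hb'⟩ := exists_of_Dw_ne_zero hv
  by_cases e : (u, b) = (v, b')
  · exact Or.inl (congrArg Prod.fst e)
  · exact Or.inr (init_adj (h hb) (h' hb') e)

theorem len_le_w (y : RA L) : len y ≤ Fintype.card V * Dw y (w C y) := by
  refine (len_le_sum_Dw y).trans ?_
  exact (Finset.sum_le_card_nsmul _ _ _ fun v _ => (exists_w C y).choose_spec v).trans
    (by rw [Finset.card_univ, smul_eq_mul]; rfl)

omit [Fintype V] in
theorem len_pos {y : RA L} (hy : 0 < htz y) : 0 < len y := by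
  have := (le_abs_self _).trans (abs_htz_le_len y)
  omega

theorem w_ne {y : RA L} (hy : 0 < htz y) : Dw y (w C y) ≠ 0 := by
  intro h
  have h1 := len_le_w C y
  have h2 := len_pos hy
  rw [h] at h1
  omega

theorem Dw_le_norm {u : V} {y : RA L} (h : Ok u y) : (Dw y u : ℝ) ≤ ‖N C u y‖ := by
  have h1 : (N C u y).re = ∑ v, (Dw y v : ℝ) * (C.c u v : ℍ[ℝ]).re := by
    rw [N]
    exact (map_sum (QuaternionAlgebra.reₗ (-1 : ℝ) 0 (-1)) _ _).trans
      (Finset.sum_congr rfl fun _ _ => rfl)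
  have h2 : ∀ v ∈ Finset.univ, 0 ≤ (Dw y v : ℝ) * (C.c u v : ℍ[ℝ]).re := fun v _ => by
    by_cases hv : Dw y v = 0
    · simp [hv]
    · refine mul_nonneg (Nat.cast_nonneg _) ?_
      rcases h v hv with rfl | h3
      · simp [C.refl]
      · exact C.re u v h3
  have h3 := Finset.single_le_sum h2 (Finset.mem_univ u)
  rw [← h1, C.refl] at h3
  have h4 : (N C u y).re ≤ ‖N C u y‖ := by
    refine abs_le_of_sq_le_sq' ?_ (norm_nonneg _) |>.2
    rw [sq ‖_‖, ← Quaternion.normSq_eq_norm_mul_self, Quaternion.normSq_def']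
    nlinarith [sq_nonneg (N C u y).imI, sq_nonneg (N C u y).imJ, sq_nonneg (N C u y).imK]
  refine le_trans ?_ h4
  simpa using h3

theorem norm_N_eq {u : V} {y : RA L} (hy : 0 < htz y) (h : Ok u y) :
    ‖N C u y‖ = ‖N C (w C y) y‖ := by
  rw [N_change C (h _ (w_ne C hy)) h (close subset_rfl subset_rfl (w_ne C hy)), norm_mul,
    S3.norm_coe, one_mul]

theorem N_ne {u : V} {y : RA L} (hy : 0 < htz y) (h : Ok u y) : N C u y ≠ 0 := by
  rw [← norm_pos_iff, norm_N_eq C hy h]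
  refine lt_of_lt_of_le ?_ (Dw_le_norm C (close subset_rfl subset_rfl (w_ne C hy)))
  exact_mod_cast Nat.pos_of_ne_zero (w_ne C hy)

theorem T_eq {y y' a : RA L} (hy : 0 < htz y) (hy' : 0 < htz y') (h : sep y ⊆ sep a)
    (h' : sep y' ⊆ sep a) {u : V} (h1 : Ok u y) (h2 : Ok u y') :
    T C y y' = (nz C u y)⁻¹ * nz C u y' := by
  have h3 := close h h (w_ne C hy)
  have h4 := close h h' (w_ne C hy)
  have h5 := h1 _ (w_ne C hy)
  rw [nz_change C h5 h1 h3 (N_ne C hy h3), nz_change C h5 h2 h4 (N_ne C hy' h4), T]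
  group

theorem T_mul {y y' y'' a : RA L} (hy : 0 < htz y) (hy' : 0 < htz y') (hy'' : 0 < htz y'')
    (h : sep y ⊆ sep a) (h' : sep y' ⊆ sep a) (h'' : sep y'' ⊆ sep a) :
    T C y y' * T C y' y'' = T C y y'' := by
  rw [T_eq C hy' hy'' h' h'' (close h h' (w_ne C hy)) (close h h'' (w_ne C hy)), T, T]
  group

theorem T_inv {y y' a : RA L} (hy : 0 < htz y) (hy' : 0 < htz y')
    (h : sep y ⊆ sep a) (h' : sep y' ⊆ sep a) : (T C y y')⁻¹ = T C y' y := by
  rw [inv_eq_iff_mul_eq_one, T_mul C hy hy' hy h h' h, T, inv_mul_cancel]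

theorem norm_normalize {a b : ℍ[ℝ]} (ha : a ≠ 0) (hb : b ≠ 0) :
    ‖‖b‖⁻¹ • b - ‖a‖⁻¹ • a‖ ≤ 2 * ‖b - a‖ / ‖a‖ := by
  have ha' := norm_pos_iff.2 ha
  have hb' := norm_pos_iff.2 hb
  have h1 : ‖b‖⁻¹ • b - ‖a‖⁻¹ • a = ‖a‖⁻¹ • (b - a) + (‖b‖⁻¹ - ‖a‖⁻¹) • b := by
    rw [smul_sub, sub_smul]; abel
  have h2 : ‖(‖b‖⁻¹ - ‖a‖⁻¹) • b‖ = |‖a‖ - ‖b‖| / ‖a‖ := by
    rw [norm_smul, Real.norm_eq_abs, ← abs_of_pos hb', ← abs_mul, abs_of_pos hb',
      eq_div_iff ha'.ne', ← abs_of_pos ha', ← abs_mul, abs_of_pos ha']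
    congr 1
    field_simp
  have h3 : |‖a‖ - ‖b‖| ≤ ‖b - a‖ := by
    rw [norm_sub_rev]; exact abs_norm_sub_norm_le a b
  rw [h1]
  refine (norm_add_le _ _).trans ?_
  rw [h2, norm_smul, norm_inv, norm_norm, inv_mul_eq_div, ← add_div]
  gcongr
  linarith

theorem N_sub_le (u : V) (y : RA L) (s t : V × Bool) :
    ‖N C u (y * lt L s * lt L t) - N C u y‖ ≤ 4 * Fintype.card V := by
  rw [N, N, ← Finset.sum_sub_distrib]
  refine (norm_sum_le _ _).trans ((Finset.sum_le_card_nsmul _ _ (4 : ℝ) fun v _ => ?_).trans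
    (by rw [Finset.card_univ, nsmul_eq_mul, mul_comm]))
  rw [← sub_smul, norm_smul, S3.norm_coe, mul_one, Real.norm_eq_abs, abs_le]
  have h1 := Dw_mul_lt_le y s v
  have h2 := Dw_mul_lt_le (y * lt L s) t v
  have h3 : Dw (y * lt L s * lt L t) v ≤ Dw y v + 4 := by omega
  have h4 : Dw y v ≤ Dw (y * lt L s * lt L t) v + 4 := by omega
  have h5 : (Dw (y * lt L s * lt L t) v : ℝ) ≤ Dw y v + 4 := by exact_mod_cast h3
  have h6 : (Dw y v : ℝ) ≤ Dw (y * lt L s * lt L t) v + 4 := by exact_mod_cast h4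
  constructor <;> linarith

theorem dv_T_le {y a : RA L} {s t : V × Bool} (hy : 0 < htz y)
    (hy' : 0 < htz (y * lt L s * lt L t)) (h : sep y ⊆ sep a)
    (h' : sep (y * lt L s * lt L t) ⊆ sep a) :
    dv (T C y (y * lt L s * lt L t)) * htz y ≤ 8 * Fintype.card V ^ 2 := by
  have h3 := close h h (w_ne C hy)
  have h4 := close h h' (w_ne C hy)
  have h5 := N_ne C hy h3
  have h6 := N_ne C hy' h4
  have h7 : dv (T C y (y * lt L s * lt L t)) ≤ 2 * (4 * Fintype.card V) / ‖N C (w C y) y‖ := by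
    rw [T, dv_inv_mul, nz, nz, dif_neg h5, dif_neg h6]
    refine (norm_normalize h5 h6).trans ?_
    gcongr
    exact N_sub_le C _ _ _ _
  have h8 : (htz y : ℝ) ≤ Fintype.card V * ‖N C (w C y) y‖ := by
    have h9 : htz y ≤ Fintype.card V * Dw y (w C y) := by
      refine ((le_abs_self _).trans (abs_htz_le_len y)).trans ?_
      exact_mod_cast len_le_w C y
    have h10 : (htz y : ℝ) ≤ Fintype.card V * Dw y (w C y) := by exact_mod_cast h9
    refine h10.trans ?_
    gcongr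
    exact Dw_le_norm C h3
  have h9 := norm_pos_iff.2 h5
  have h10 : (0 : ℝ) ≤ htz y := by exact_mod_cast hy.le
  calc dv (T C y (y * lt L s * lt L t)) * htz y
      ≤ 2 * (4 * Fintype.card V) / ‖N C (w C y) y‖ * (Fintype.card V * ‖N C (w C y) y‖) := by
        gcongr
    _ = 8 * Fintype.card V ^ 2 := by field_simp; ring

omit [Fintype V] in
theorem type_pow {P : V → Prop} {y : RA L} (h : ∀ W ∈ sep y, P W.1) {v : V} (hv : P v) (i : ℕ) :
    ∀ W ∈ sep (y * gen L v ^ i), P W.1 := by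
  induction i with
  | zero => simpa using h
  | succ i ih =>
    intro W hW
    rw [pow_succ, ← mul_assoc, ← lt_true, mem_sep_mul_lt] at hW
    by_cases e : W = wl (y * lt L (v, true) ^ i) (v, true)
    · rw [e]; exact hv
    · exact ih W (hW.2 e)

omit [Fintype V] in
theorem dir_pow {P : V → Prop} {u v : V} (hu : P u) (hv : P v) (k i : ℕ) {t : V}
    (ht : Dw (gen L u ^ k * gen L v ^ i) t ≠ 0) : P t := by
  obtain ⟨b, hb⟩ := exists_of_Dw_ne_zero ht
  have h := type_pow (L := L) (P := P) (y := 1) (by simp) hu k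
  rw [one_mul] at h
  exact type_pow h hv i _ hb

theorem nz_pow (v : V) (h : ℕ) : nz C v (gen L v ^ h) = 1 := by
  have h1 : N C v (gen L v ^ h) = (Dw (gen L v ^ h) v : ℝ) • (1 : ℍ[ℝ]) := by
    rw [N, Finset.sum_eq_single v, C.refl, Metric.unitSphere.coe_one]
    · intro t _ ht
      have : Dw (gen L v ^ h) t = 0 := by
        by_contra h2
        rw [← mul_one (gen L v ^ h), ← pow_zero (gen L v)] at h2
        exact ht (dir_pow (P := fun t => t = v) rfl rfl h 0 h2)
      simp [this]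
    · simp
  rw [nz]
  split_ifs with h2
  · rfl
  · refine Subtype.ext ?_
    have h3 : (Dw (gen L v ^ h) v : ℝ) ≠ 0 := fun h3 => h2 (by rw [h1, h3, zero_smul])
    simp only [h1, Metric.unitSphere.coe_one]
    rw [norm_smul, norm_one, mul_one, Real.norm_natCast, smul_smul, inv_mul_cancel₀ h3, one_smul]

end

omit [Fintype V] in
theorem sub1 {σ : Finset V} (h : L.IsClique (σ : Set V)) (g : RA L) {v : V} (hv : v ∈ σ) :
    sep (g * gen L v) ⊆ sep (apex g σ) := by
  have := sep_subset_apex h (Finset.singleton_subset_iff.2 hv) g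
  rwa [pr_singleton] at this

omit [Fintype V] in
theorem sub2 {σ : Finset V} (h : L.IsClique (σ : Set V)) (g : RA L) {u v : V} (hu : u ∈ σ)
    (hv : v ∈ σ) (huv : v ≠ u) : sep (g * gen L u * gen L v) ⊆ sep (apex g σ) := by
  have h1 : insert v {u} ⊆ σ := Finset.insert_subset hv (Finset.singleton_subset_iff.2 hu)
  have := sep_subset_apex h h1 g
  rwa [pr_insert (h.subset (Finset.coe_subset.2 h1)) (by simpa using huv), pr_singleton,
    ← mul_assoc] at this

omit [Fintype V] in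
theorem edge_close {u v : V} (h : L.Adj u v) (y : RA L) :
    ∃ a, sep y ⊆ sep a ∧ sep (y * (gen L u)⁻¹ * gen L v) ⊆ sep a := by
  have hc : L.IsClique (({u, v} : Finset V) : Set V) := by
    simpa using (SimpleGraph.isClique_pair.2 fun _ => h)
  refine ⟨apex (y * (gen L u)⁻¹) {u, v}, ?_, sub1 hc _ (by simp)⟩
  have := sub1 hc (y * (gen L u)⁻¹) (v := u) (by simp)
  rwa [inv_mul_cancel_right] at this

omit [Fintype V] in
theorem tri_clique (t : TriT L) :
    L.IsClique (({t.1.1, t.1.2.1, t.1.2.2} : Finset V) : Set V) :=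
  (SimpleGraph.is3Clique_triple_iff.2 ⟨t.2.2.2.1, t.2.2.2.2.2, t.2.2.2.2.1⟩).isClique

/-- The connection. -/
noncomputable def al (C : Coc L) (g : RA L) (p : EdgeT L × BB L) : S3 :=
  T C (g * p.2) (g * p.2 * (gen L p.1.1.1)⁻¹ * gen L p.1.1.2)

theorem al_eq (C : Coc L) (g : RA L) (e : EdgeT L) (x : BB L) :
    al C g (e, x) = T C (g * x) (g * x * (gen L e.1.1)⁻¹ * gen L e.1.2) := rfl

omit [Fintype V] in
theorem piE_coe (e : EdgeT L) : (piE L e : RA L) = (gen L e.1.1)⁻¹ * gen L e.1.2 := rfl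

omit [LinearOrder V] [Fintype V] in
theorem htz_bb (g : RA L) (x : BB L) : htz (g * (x : RA L)) = htz g := by
  rw [htz_mul, mem_BB.1 x.2, add_zero]

theorem flat (C : Coc L) {g : RA L} (hg : 0 < htz g) (i : TriT L × Bool) (x : BB L) :
    hol (piE L) (al C g) (relT L i) x = 1 := by
  obtain ⟨t, b⟩ := i
  have hc := tri_clique t
  have hy : 0 < htz (g * (x : RA L)) := by rwa [htz_bb]
  obtain ⟨u, hu⟩ : ∃ u, t.1.1 = u := ⟨_, rfl⟩
  obtain ⟨v, hv⟩ : ∃ v, t.1.2.1 = v := ⟨_, rfl⟩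
  obtain ⟨z, hz⟩ : ∃ z, t.1.2.2 = z := ⟨_, rfl⟩
  obtain ⟨h1, h2, h3, h4, h5⟩ := t.2
  have c1 := (gen_comm h3).eq
  have c2 := (gen_comm h4).eq
  have c3 := (gen_comm h5).eq
  have a1 : t.e01.1.1 = u := hu
  have a2 : t.e01.1.2 = v := hv
  have a3 : t.e12.1.1 = v := hv
  have a4 : t.e12.1.2 = z := hz
  have a5 : t.e02.1.1 = u := hu
  have a6 : t.e02.1.2 = z := hz
  simp only [hu, hv, hz] at hc h1 h2 c1 c2 c3
  cases b with
  | true =>
    simp only [relT, cond_true, hol_mul, hol_inv, hol_of, map_mul, FreeGroup.lift_apply_of, al_eq,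
      piE_coe, Subgroup.coe_mul, Subgroup.coe_inv, a1, a2, a3, a4, a5, a6]
    have e1 : g * (x * ((gen L u)⁻¹ * gen L v)) = g * x * (gen L u)⁻¹ * gen L v := by group
    have e2 : g * x * (gen L u)⁻¹ * gen L v * (gen L v)⁻¹ * gen L z =
        g * x * (gen L u)⁻¹ * gen L z := by group
    have e3 : g * (x * ((gen L u)⁻¹ * gen L v * ((gen L v)⁻¹ * gen L z)) *
        ((gen L u)⁻¹ * gen L z)⁻¹) = g * x := by group
    rw [e1, e2, e3]
    have s0 := sub1 hc (g * x * (gen L u)⁻¹) (v := u) (by simp)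
    rw [inv_mul_cancel_right] at s0
    rw [T_mul C hy (by simpa using hy) (by simpa using hy) s0 (sub1 hc _ (by simp))
      (sub1 hc _ (by simp)), mul_inv_cancel]
  | false =>
    simp only [relT, cond_false, hol_mul, hol_inv, hol_of, map_mul, map_inv,
      FreeGroup.lift_apply_of, al_eq, piE_coe, Subgroup.coe_mul, Subgroup.coe_inv, a1, a2, a3,
      a4, a5, a6]
    obtain ⟨b, hb⟩ : ∃ b, g * x = b * gen L v * gen L z :=
      ⟨g * x * (gen L z)⁻¹ * (gen L v)⁻¹, by group⟩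
    have e1 : g * (x * ((gen L u)⁻¹ * gen L v)⁻¹) = b * gen L u * gen L z := by
      calc _ = g * x * ((gen L v)⁻¹ * gen L u) := by group
        _ = b * (gen L v * gen L z) * ((gen L v)⁻¹ * gen L u) := by rw [hb, mul_assoc b]
        _ = b * (gen L z * gen L u) := by rw [c2]; group
        _ = _ := by rw [← c3, mul_assoc]
    have e2 : g * (x * ((gen L u)⁻¹ * gen L v)⁻¹ * ((gen L v)⁻¹ * gen L z)⁻¹) =
        b * gen L u * gen L v := by
      rw [← mul_assoc, e1]; group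
    have e3 : g * (x * (((gen L u)⁻¹ * gen L v)⁻¹ * ((gen L v)⁻¹ * gen L z)⁻¹)) =
        b * gen L u * gen L v := by
      rw [← e2]; group
    have e4 : b * gen L u * gen L z * (gen L u)⁻¹ * gen L v = b * gen L v * gen L z := by
      rw [mul_assoc b, c3, mul_assoc b (gen L v), c2]; group
    have e5 : b * gen L u * gen L v * (gen L v)⁻¹ * gen L z = b * gen L u * gen L z := by group
    have e6 : b * gen L u * gen L v * (gen L u)⁻¹ * gen L z = b * gen L v * gen L z := by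
      rw [mul_assoc b, c1]; group
    rw [e1, e2, e3, e4, e5, e6]
    rw [hb] at hy
    rw [← T_mul C (y := b * gen L u * gen L v) (y' := b * gen L u * gen L z)
      (by simpa using hy) (by simpa using hy) hy
      (sub2 hc b (by simp) (by simp) h1.ne') (sub2 hc b (by simp) (by simp) (h1.trans h2).ne')
      (sub2 hc b (by simp) (by simp) h2.ne')]
    group

theorem exists_letter (C : Coc L) {g : RA L} (hg : 0 < htz g) {u v : V} (h : L.Adj u v) :
    ∃ a : FreeGroup (EdgeT L), (FreeGroup.lift (piE L) a : RA L) = (gen L u)⁻¹ * gen L v ∧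
      ∀ x : BB L, hol (piE L) (al C g) a x = T C (g * x) (g * x * (gen L u)⁻¹ * gen L v) := by
  rcases lt_or_gt_of_ne h.ne with h1 | h1
  · obtain ⟨e, a1, a2⟩ : ∃ e : EdgeT L, e.1.1 = u ∧ e.1.2 = v := ⟨⟨(u, v), h1, h⟩, rfl, rfl⟩
    exact ⟨FreeGroup.of e, by simp [piE_coe, a1, a2], fun x => by rw [hol_of, al_eq, a1, a2]⟩
  · obtain ⟨e, a1, a2⟩ : ∃ e : EdgeT L, e.1.1 = v ∧ e.1.2 = u := ⟨⟨(v, u), h1, h.symm⟩, rfl, rfl⟩
    refine ⟨(FreeGroup.of e)⁻¹, by simp [piE_coe, a1, a2], fun x => ?_⟩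
    have hy : 0 < htz (g * (x : RA L)) := by rwa [htz_bb]
    obtain ⟨a, h2, h3⟩ := edge_close h (g * x)
    simp only [hol_inv, hol_of, FreeGroup.lift_apply_of, al_eq, piE_coe, Subgroup.coe_mul,
      Subgroup.coe_inv, a1, a2]
    have e1 : g * (x * ((gen L v)⁻¹ * gen L u)⁻¹) = g * x * (gen L u)⁻¹ * gen L v := by group
    have e2 : g * x * (gen L u)⁻¹ * gen L v * (gen L v)⁻¹ * gen L u = g * x := by group
    rw [e1, e2, T_inv C (by simpa using hy) hy h3 h2]

theorem dart (C : Coc L) {g : RA L} (hg : 0 < htz g) {u v : V} (h : L.Adj u v) (k i : ℕ)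
    (x : BB L) (hx : g * x = gen L u ^ k * gen L v ^ i) :
    ∃ a : FreeGroup (EdgeT L), g * (x * FreeGroup.lift (piE L) a : BB L) = gen L v ^ (i + k) ∧
      hol (piE L) (al C g) a x =
        (nz C u (gen L u ^ k * gen L v ^ i))⁻¹ * nz C u (gen L v ^ (i + k)) := by
  obtain ⟨a, ha, ha'⟩ := exists_letter C hg h
  induction k generalizing i x with
  | zero => exact ⟨1, by simpa using hx, by simp⟩
  | succ k ih =>
    have e : g * x * (gen L u)⁻¹ * gen L v = gen L u ^ k * gen L v ^ (i + 1) := by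
      rw [hx, pow_succ, mul_assoc (gen L u ^ k), ((gen_comm h).pow_right i).eq]
      group
    obtain ⟨b, hb, hb'⟩ := ih (i + 1) (x * FreeGroup.lift (piE L) a)
      (by rw [← e, Subgroup.coe_mul, ha]; group)
    have hy : 0 < htz (g * (x : RA L)) := by rwa [htz_bb]
    obtain ⟨c, h2, h3⟩ := edge_close h (g * x)
    have ok : ∀ k i, Ok u (gen L u ^ k * gen L v ^ i) := fun k i t ht =>
      dir_pow (P := EA L u) (Or.inl rfl) (Or.inr h) k i ht
    refine ⟨a * b, ?_, ?_⟩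
    · rw [map_mul, ← mul_assoc, hb, add_assoc, add_comm 1]
    · rw [hol_mul, hb', ha', T_eq C hy (by simpa using hy) h2 h3 (u := u) (hx ▸ ok _ _)
        (e ▸ ok _ _), e, hx, add_assoc, add_comm 1]
      group

theorem walk (C : Coc L) {g : RA L} {h : ℕ} (hh : 0 < h) (hg : 0 < htz g) {u z : V}
    (p : L.Walk u z) (x : BB L) (hx : g * x = gen L u ^ h) :
    ∃ a : FreeGroup (EdgeT L), g * (x * FreeGroup.lift (piE L) a : BB L) = gen L z ^ h ∧
      hol (piE L) (al C g) a x = (p.darts.map fun d => C.c d.fst d.snd).prod := by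
  induction p generalizing x with
  | nil => exact ⟨1, by simpa using hx, by simp⟩
  | @cons u v z huv p ih =>
    obtain ⟨a, ha, ha'⟩ := dart C hg huv h 0 x (by simpa using hx)
    rw [zero_add] at ha ha'
    obtain ⟨b, hb, hb'⟩ := ih _ ha
    have ok : ∀ {t}, EA L t v → Ok t (gen L v ^ h) := fun {t} ht s hs => by
      rw [← mul_one (gen L v ^ h), ← pow_zero (gen L v)] at hs
      exact dir_pow (P := EA L t) ht ht h 0 hs
    have h0 : 0 < htz (gen L v ^ h) := by simpa using hh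
    refine ⟨a * b, by rw [map_mul, ← mul_assoc, hb], ?_⟩
    rw [hol_mul, hb', ha', pow_zero, mul_one, nz_pow,
      nz_change C (Or.inr huv) (ok (Or.inr huv)) (ok (Or.inl rfl)) (N_ne C h0 (ok (Or.inl rfl))),
      nz_pow]
    simp

end Bk

theorem exists_background (C : Coc L) {ε : ℝ} (hε : 0 < ε) :
    ∃ α : EdgeT L × BB L → S3, (∀ p, dv (α p) ≤ ε) ∧
      (∀ i x, hol (piE L) α (relT L i) x = 1) ∧
      ∃ w, FreeGroup.lift (piE L) w = 1 ∧ hol (piE L) α w 1 ≠ 1 := by
  obtain ⟨h, hh⟩ := exists_nat_gt (8 * (Fintype.card V : ℝ) ^ 2 / ε)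
  have hh0 : (0 : ℝ) < h := lt_of_le_of_lt (by positivity) hh
  have hh1 : 0 < h := by exact_mod_cast hh0
  have hg : htz (gen L C.v0 ^ h) = h := by simp
  have hg0 : 0 < htz (gen L C.v0 ^ h) := by rw [hg]; exact_mod_cast hh1
  refine ⟨Bk.al C (gen L C.v0 ^ h), fun p => ?_, Bk.flat C hg0, ?_⟩
  · have hy : 0 < htz (gen L C.v0 ^ h * (p.2 : RA L)) := by rwa [Bk.htz_bb]
    obtain ⟨a, h2, h3⟩ := Bk.edge_close p.1.2.2 (gen L C.v0 ^ h * p.2)
    have h4 := Bk.dv_T_le C (s := (p.1.1.1, false)) (t := (p.1.1.2, true)) hy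
      (by simpa using hy) h2 h3
    rw [Bk.htz_bb, hg, Int.cast_natCast] at h4
    rw [div_lt_iff₀ hε] at hh
    refine le_of_mul_le_mul_right (h4.trans ?_) hh0
    linarith
  · obtain ⟨a, ha, ha'⟩ := Bk.walk C hh1 hg0 C.loop 1 (by simp)
    refine ⟨a, ?_, ha' ▸ C.hol⟩
    rw [one_mul, mul_eq_left] at ha
    exact Subtype.ext ha

end Crest.Agent.R197
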