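import Crest.Agent.R197.PFDefs

/-! R197: notation for CW complexes; radial deformations; the charts of the edge-word holonomy. -/

set_option autoImplicit false

namespace Crest.Agent.R197

open Set Metric Topology

variable (X : Type) [TopologicalSpace X] [CWComplex (univ : Set X)]

/-- The `n`-cells. -/
abbrev Cell (n : ℕ) : Type := RelCWComplex.cell (univ : Set X) n

variable {X} in
/-- The characteristic map of a cell. -/
abbrev chr (n : ℕ) (i : Cell X n) : PartialEquiv (Fin n → ℝ) X := RelCWComplex.map n i

/-- The union of the open cells of dimension `< n`. -/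
def Sk (n : ℕ) : Set X := ⋃ (m : ℕ) (_ : m < n) (j : Cell X m), chr m j '' ball 0 1

/-- The centres of the `n`-cells. -/
def ctr (n : ℕ) : Set X := range fun i : Cell X n => chr n i 0

/-- There are no cells above dimension two. -/
def Dim2 : Prop := ∀ n : ℕ, 2 < n → IsEmpty (Cell X n)

/-- The complement of the centres of the `2`-cells. -/
def Sp : Set X := (ctr X 2)ᶜ

variable {X}

open Classical in
/-- Radial push towards the boundary in the open `n`-cells. -/
noncomputable def rad (n : ℕ) (x : X) (s : ℝ) : X :=
  if h : ∃ i : Cell X n, x ∈ chr n i '' ball 0 1 then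
    chr n h.choose (((1 - s) + s / ‖(chr n h.choose).symm x‖) • (chr n h.choose).symm x)
  else x

/-- The edge path of a `1`-cell. -/
def ed (e : Cell X 1) (s : ℝ) : X := chr 1 e fun _ => 2 * s - 1

/-- The charts on `Sp X`. -/
def U1 : Option (Cell X 1) → Set X
  | none => Sp X ∩ {x | rad 2 x 1 ∉ ctr X 1}
  | some e => Sp X ∩ {x | rad 2 x 1 ∈ chr 1 e '' ball 0 1}

open Classical in
/-- The potentials on the charts. -/
noncomputable def f1 : Option (Cell X 1) → X → FreeGroup (Cell X 1)
  | none => fun x =>
      if h : ∃ e : Cell X 1, rad 2 x 1 ∈ chr 1 e '' {z | z ∈ ball 0 1 ∧ 0 < z 0} then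
        (FreeGroup.of h.choose)⁻¹ else 1
  | some _ => fun _ => 1

open Classical in
/-- The reference path from a vertex to `rad 2 x 1`. -/
noncomputable def beta1 (x : X) (s : ℝ) : X :=
  if h : ∃ e : Cell X 1, rad 2 x 1 ∈ chr 1 e '' ball 0 1 then
    chr 1 h.choose (seg (fun _ => -1) ((chr 1 h.choose).symm (rad 2 x 1)) s)
  else rad 2 x 1

/-- The reference path from `rad 2 x 1` to `x`. -/
noncomputable def beta2 (x : X) (s : ℝ) : X := rad 2 x (1 - s)

/-- The gauge of a path function at `x`. -/
noncomputable def gau {H : Type} [Group H] {S : Set X} (μ : PF S H) (x : X) : H :=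
  μ.val (beta1 x) * μ.val (beta2 x)

end Crest.Agent.R197
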