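import Crest.Agent.R197.CWDefs

/-! R197: elementary facts on CW complexes (Mathlib: `Topology/CWComplex/Classical/Basic.lean`;
`RelCWComplex.openCell n i` unfolds to `chr n i '' ball 0 1`, `Sk X n` is `skeletonLT univ n` by
`CWComplex.iUnion_openCell_eq_skeletonLT`).

`isClosed_Sk_union`: `CWComplex.isClosed_of_disjoint_openCell_or_isClosed_inter_closedCell` at level
`n`; the intersection with a closed `n`-cell `i` is the image of the compact set `B i ∪ sphere 0 1`;
a closed cell of dimension `< n` lies in `Sk X n`; open cells of dimension `> n` are disjoint from the set.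
`isClosed_iUnion_chr`: the same, the intersection with a closed cell of dimension `< n` is empty.
`continuousOn_rad`: let `A = Sk X (n+1) \ ctr X n`.  It suffices that the curried map
`A → C(Icc 0 1, X)` is continuous (`ContinuousMap.curry`, `continuous_eval`).  A map `g` on `A` is
continuous as soon as `g ∘ chr m j` is continuous on `closedBall 0 1 ∩ (chr m j) ⁻¹' A` for all cells
of dimension `m ≤ n`: for closed `Z`, `(A ∩ g ⁻¹' Z) ∪ ctr X n` meets each closed cell of dimension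
`≤ n` in the image of a compact set, and no open cell of larger dimension.  For `m < n` the map is
`z ↦ const (chr m j z)`, for `m = n` it is `(z, s) ↦ chr n j (((1 - s) + s / ‖z‖) • z)` on
`closedBall 0 1 \ {0}` (also on the sphere, where the factor is `1`). -/

set_option autoImplicit false

namespace Crest.Agent.R197

open Set Metric Topology

variable {X : Type} [TopologicalSpace X] [CWComplex (univ : Set X)] [T2Space X]

omit [T2Space X] in
theorem continuousOn_chr (n : ℕ) (i : Cell X n) : ContinuousOn (chr n i) (closedBall 0 1) :=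
  RelCWComplex.continuousOn n i

omit [T2Space X] in
theorem continuousOn_chr_symm (n : ℕ) (i : Cell X n) :
    ContinuousOn (chr n i).symm (chr n i '' ball 0 1) := by
  have h := RelCWComplex.continuousOn_symm n i
  rwa [← PartialEquiv.image_source_eq_target, RelCWComplex.source_eq] at h

omit [T2Space X] in
theorem chr_symm_chr (n : ℕ) (i : Cell X n) {z : Fin n → ℝ} (hz : z ∈ ball (0 : Fin n → ℝ) 1) :
    (chr n i).symm (chr n i z) = z :=
  (chr n i).left_inv (by rwa [RelCWComplex.source_eq])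

omit [T2Space X] in
theorem cwrad_sigma_eq {n m : ℕ} {i : Cell X n} {j : Cell X m} {z : Fin n → ℝ} {z' : Fin m → ℝ}
    (hz : z ∈ ball (0 : Fin n → ℝ) 1) (hz' : z' ∈ ball (0 : Fin m → ℝ) 1)
    (h : chr n i z = chr m j z') : (⟨n, i⟩ : Σ n, Cell X n) = ⟨m, j⟩ :=
  RelCWComplex.eq_of_not_disjoint_openCell
    (not_disjoint_iff.2 ⟨chr n i z, ⟨z, hz, rfl⟩, ⟨z', hz', h.symm⟩⟩)

omit [T2Space X] in
/-- Points of open cells determine the cell. -/
theorem cell_eq_of_chr_eq {n : ℕ} {i j : Cell X n} {z z' : Fin n → ℝ}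
    (hz : z ∈ ball (0 : Fin n → ℝ) 1) (hz' : z' ∈ ball (0 : Fin n → ℝ) 1)
    (h : chr n i z = chr n j z') : i = j ∧ z = z' := by
  have h1 := cwrad_sigma_eq hz hz' h
  obtain rfl : i = j := eq_of_heq (Sigma.mk.inj h1).2
  refine ⟨rfl, ?_⟩
  rw [← chr_symm_chr n i hz, h, chr_symm_chr n i hz']

omit [T2Space X] in
theorem cwrad_mem_Sk {n : ℕ} {x : X} :
    x ∈ Sk X n ↔ ∃ m < n, ∃ j : Cell X m, ∃ z ∈ ball (0 : Fin m → ℝ) 1, chr m j z = x := by
  simp only [Sk, mem_iUnion, mem_image, exists_prop]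

omit [T2Space X] in
theorem cwrad_Sk_mono {n m : ℕ} (h : n ≤ m) : Sk X n ⊆ Sk X m := fun _ hx => by
  obtain ⟨k, hk, r⟩ := cwrad_mem_Sk.1 hx
  exact cwrad_mem_Sk.2 ⟨k, by omega, r⟩

omit [T2Space X] in
theorem chr_not_mem_Sk {n m : ℕ} (hnm : n ≤ m) (i : Cell X m) {z : Fin m → ℝ}
    (hz : z ∈ ball (0 : Fin m → ℝ) 1) : chr m i z ∉ Sk X n := by
  intro h
  obtain ⟨k, hk, j, z', hz', e⟩ := cwrad_mem_Sk.1 h
  have := (Sigma.mk.inj (cwrad_sigma_eq hz' hz e)).1
  omega

omit [T2Space X] in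
theorem mem_Sk_succ {n : ℕ} {x : X} :
    x ∈ Sk X (n + 1) ↔ x ∈ Sk X n ∨ ∃ i : Cell X n, x ∈ chr n i '' ball 0 1 := by
  constructor
  · intro h
    obtain ⟨k, hk, j, z, hz, e⟩ := cwrad_mem_Sk.1 h
    rcases Nat.lt_succ_iff_lt_or_eq.1 hk with h1 | rfl
    · exact Or.inl (cwrad_mem_Sk.2 ⟨k, h1, j, z, hz, e⟩)
    · exact Or.inr ⟨j, z, hz, e⟩
  · rintro (h | ⟨j, z, hz, e⟩)
    · exact cwrad_Sk_mono (Nat.le_succ n) h
    · exact cwrad_mem_Sk.2 ⟨n, Nat.lt_succ_self n, j, z, hz, e⟩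

theorem chr_mem_Sk_of_sphere (n : ℕ) (i : Cell X n) {z : Fin n → ℝ}
    (hz : z ∈ sphere (0 : Fin n → ℝ) 1) : chr n i z ∈ Sk X n := by
  obtain ⟨I, hI⟩ := CWComplex.cellFrontier_subset_finite_openCell n i
  have h := hI ⟨z, hz, rfl⟩
  simp only [mem_iUnion, exists_prop] at h
  obtain ⟨m, hm, j, -, z', hz', e⟩ := h
  exact cwrad_mem_Sk.2 ⟨m, hm, j, z', hz', e⟩

theorem cwrad_chr_mem (n : ℕ) (i : Cell X n) {z : Fin n → ℝ}
    (hz : z ∈ closedBall (0 : Fin n → ℝ) 1) : chr n i z ∈ Sk X (n + 1) := by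
  rw [← sphere_union_ball] at hz
  rcases hz with hz | hz
  · exact mem_Sk_succ.2 (Or.inl (chr_mem_Sk_of_sphere n i hz))
  · exact mem_Sk_succ.2 (Or.inr ⟨i, z, hz, rfl⟩)

theorem cwrad_closed {A : Set X} {n : ℕ} (hA : A ⊆ Sk X (n + 1))
    (h : ∀ m ≤ n, ∀ j : Cell X m, IsClosed (closedBall 0 1 ∩ chr m j ⁻¹' A)) : IsClosed A := by
  refine CWComplex.isClosed_of_disjoint_openCell_or_isClosed_inter_closedCell (subset_univ A)
    fun m _ j => ?_
  rcases le_or_gt m n with hm | hm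
  · right
    have e : A ∩ RelCWComplex.closedCell m j = chr m j '' (closedBall 0 1 ∩ chr m j ⁻¹' A) := by
      rw [image_inter_preimage, inter_comm]; rfl
    rw [e]
    exact (((isCompact_closedBall _ _).of_isClosed_subset (h m hm j)
      inter_subset_left).image_of_continuousOn
      ((continuousOn_chr m j).mono inter_subset_left)).isClosed
  · left
    rw [disjoint_left]
    rintro _ hx ⟨z, hz, rfl⟩
    exact chr_not_mem_Sk hm j hz (hA hx)

omit [T2Space X] in
theorem Sk_three (h : Dim2 X) : Sk X 3 = univ := by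
  refine eq_univ_of_forall fun x => ?_
  have hx : x ∈ ⋃ (n : ℕ) (j : Cell X n), RelCWComplex.openCell n j := by
    rw [CWComplex.iUnion_openCell_eq_complex]; trivial
  simp only [mem_iUnion] at hx
  obtain ⟨n, j, z, hz, e⟩ := hx
  refine cwrad_mem_Sk.2 ⟨n, ?_, j, z, hz, e⟩
  by_contra hn
  exact (h n (by omega)).false j

theorem isClosed_Sk_union (n : ℕ) (B : Cell X n → Set (Fin n → ℝ)) (hB : ∀ i, B i ⊆ ball 0 1)
    (hc : ∀ i, IsClosed (B i ∪ sphere 0 1)) : IsClosed (Sk X n ∪ ⋃ i, chr n i '' B i) := by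
  refine cwrad_closed (n := n) ?_ fun m hm j => ?_
  · rintro x (hx | hx)
    · exact mem_Sk_succ.2 (Or.inl hx)
    · obtain ⟨i, hi⟩ := mem_iUnion.1 hx
      exact mem_Sk_succ.2 (Or.inr ⟨i, image_mono (hB i) hi⟩)
  rcases hm.lt_or_eq with hm | rfl
  · rw [inter_eq_left.2]
    · exact isClosed_closedBall
    · exact fun z hz => Or.inl (cwrad_Sk_mono hm (cwrad_chr_mem m j hz))
  · convert hc j using 1
    ext z
    constructor
    · rintro ⟨hz, h⟩
      rw [← sphere_union_ball] at hz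
      rcases hz with hz | hz
      · exact Or.inr hz
      rcases h with h | h
      · exact absurd h (chr_not_mem_Sk le_rfl j hz)
      · obtain ⟨i, z', hz', e⟩ := mem_iUnion.1 h
        obtain ⟨rfl, rfl⟩ := cell_eq_of_chr_eq (hB i hz') hz e
        exact Or.inl hz'
    · rintro (hz | hz)
      · exact ⟨ball_subset_closedBall (hB j hz), Or.inr (mem_iUnion.2 ⟨j, z, hz, rfl⟩)⟩
      · exact ⟨sphere_subset_closedBall hz, Or.inl (chr_mem_Sk_of_sphere m j hz)⟩

theorem isClosed_iUnion_chr (n : ℕ) (B : Cell X n → Set (Fin n → ℝ)) (hB : ∀ i, B i ⊆ ball 0 1)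
    (hc : ∀ i, IsClosed (B i)) : IsClosed (⋃ i, chr n i '' B i) := by
  refine cwrad_closed (n := n) ?_ fun m hm j => ?_
  · intro x hx
    obtain ⟨i, hi⟩ := mem_iUnion.1 hx
    exact mem_Sk_succ.2 (Or.inr ⟨i, image_mono (hB i) hi⟩)
  rcases hm.lt_or_eq with hm | rfl
  · convert isClosed_empty using 1
    refine eq_empty_of_forall_notMem ?_
    rintro z ⟨hz, h⟩
    obtain ⟨i, z', hz', e⟩ := mem_iUnion.1 h
    exact chr_not_mem_Sk le_rfl i (hB i hz') (e ▸ cwrad_Sk_mono hm (cwrad_chr_mem m j hz))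
  · convert hc j using 1
    ext z
    constructor
    · rintro ⟨hz, h⟩
      obtain ⟨i, z', hz', e⟩ := mem_iUnion.1 h
      rw [← sphere_union_ball] at hz
      rcases hz with hz | hz
      · exact absurd (e ▸ chr_mem_Sk_of_sphere m j hz) (chr_not_mem_Sk le_rfl i (hB i hz'))
      · obtain ⟨rfl, rfl⟩ := cell_eq_of_chr_eq (hB i hz') hz e
        exact hz'
    · intro hz
      exact ⟨ball_subset_closedBall (hB j hz), mem_iUnion.2 ⟨j, z, hz, rfl⟩⟩

theorem isClosed_ctr (n : ℕ) : IsClosed (ctr X n) := by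
  have h := isClosed_iUnion_chr (X := X) n (fun _ => {0}) (fun _ => by simp)
    fun _ => isClosed_singleton
  simp only [image_singleton, iUnion_singleton_eq_range] at h
  exact h

theorem isOpen_chr_image (h : Dim2 X) (r : Cell X 2) {O : Set (Fin 2 → ℝ)} (hO : IsOpen O)
    (hOb : O ⊆ ball 0 1) : IsOpen (chr 2 r '' O) := by
  classical
  have h1 := isClosed_Sk_union (X := X) 2 (fun i => ball 0 1 \ if i = r then O else ∅)
    (fun _ => sdiff_subset) (fun i => by
      have e : (ball 0 1 \ if i = r then O else ∅) ∪ sphere (0 : Fin 2 → ℝ) 1 =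
          closedBall 0 1 \ if i = r then O else ∅ := by
        rw [← sphere_union_ball, union_sdiff_distrib, union_comm,
          (sdiff_eq_left (x := sphere (0 : Fin 2 → ℝ) 1)).2]
        split_ifs
        · exact sphere_disjoint_ball.mono_right hOb
        · exact disjoint_empty _
      rw [e]
      refine isClosed_closedBall.sdiff ?_
      split_ifs
      exacts [hO, isOpen_empty])
  rw [← isClosed_compl_iff]
  convert h1 using 1
  ext x
  constructor
  · intro hx
    have h3 : x ∈ Sk X (2 + 1) := by rw [Sk_three h]; trivial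
    rcases mem_Sk_succ.1 h3 with h3 | ⟨i, z, hz, rfl⟩
    · exact Or.inl h3
    · refine Or.inr (mem_iUnion.2 ⟨i, z, ⟨hz, ?_⟩, rfl⟩)
      split_ifs with hi
      · subst hi
        exact fun hO => hx ⟨z, hO, rfl⟩
      · exact notMem_empty _
  · rintro (hx | hx) ⟨z, hz, rfl⟩
    · exact chr_not_mem_Sk le_rfl r (hOb hz) hx
    · obtain ⟨i, z', hz', e⟩ := mem_iUnion.1 hx
      obtain ⟨rfl, rfl⟩ := cell_eq_of_chr_eq hz'.1 (hOb hz) e
      exact hz'.2 (by simpa using hz)

theorem exists_vertex [Nonempty X] : (Sk X 1).Nonempty := by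
  have key : ∀ n, Cell X n → (Sk X 1).Nonempty := by
    intro n
    induction n using Nat.strong_induction_on with
    | _ n ih =>
      intro j
      rcases Nat.eq_zero_or_pos n with rfl | hn
      · exact ⟨_, cwrad_chr_mem 0 j (mem_closedBall_self zero_le_one)⟩
      · obtain ⟨_, z, hz, rfl⟩ := RelCWComplex.nonempty_cellFrontier hn.ne' j
        obtain ⟨m, hm, i, -⟩ := cwrad_mem_Sk.1 (chr_mem_Sk_of_sphere n j hz)
        exact ih m hm i
  obtain ⟨x⟩ := ‹Nonempty X›
  have hx : x ∈ ⋃ (n : ℕ) (j : Cell X n), RelCWComplex.openCell n j := by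
    rw [CWComplex.iUnion_openCell_eq_complex]; trivial
  simp only [mem_iUnion] at hx
  obtain ⟨n, j, -⟩ := hx
  exact key n j

theorem IsPath.eq_of_Sk_one {γ : ℝ → X} (hγ : IsPath (Sk X 1) γ) : γ 1 = γ 0 ∧
    EqOn γ (fun _ => γ 0) (Icc 0 1) := by
  have hcl : ∀ A ⊆ Sk X 1, IsClosed A := fun A hA =>
    cwrad_closed (n := 0) hA fun m hm j => by
      obtain rfl := Nat.le_zero.1 hm
      exact isClosed_discrete _
  have key : EqOn γ (fun _ => γ 0) (Icc 0 1) := by
    intro t ht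
    by_contra hne
    have hc : IsPreconnected (γ '' Icc 0 1) := isPreconnected_Icc.image _ hγ.1
    obtain ⟨y, -, h1, h2⟩ := isPreconnected_closed_iff.1 hc {γ 0} (Sk X 1 \ {γ 0})
      isClosed_singleton (hcl _ sdiff_subset)
      (by
        rintro _ ⟨u, hu, rfl⟩
        by_cases h : γ u = γ 0
        · exact Or.inl h
        · exact Or.inr ⟨hγ.2 hu, h⟩)
      ⟨γ 0, ⟨0, left_mem_Icc.2 zero_le_one, rfl⟩, rfl⟩
      ⟨γ t, ⟨t, ht, rfl⟩, hγ.2 ht, hne⟩
    exact h2.2 h1
  exact ⟨key (right_mem_Icc.2 zero_le_one), key⟩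

omit [T2Space X] in
theorem rad_chr (n : ℕ) (i : Cell X n) {z : Fin n → ℝ} (hz : z ∈ ball (0 : Fin n → ℝ) 1) (s : ℝ) :
    rad n (chr n i z) s = chr n i (((1 - s) + s / ‖z‖) • z) := by
  have h : ∃ j : Cell X n, chr n i z ∈ chr n j '' ball 0 1 := ⟨i, z, hz, rfl⟩
  have e : h.choose = i := by
    obtain ⟨z', hz', e⟩ := h.choose_spec
    exact (cell_eq_of_chr_eq hz' hz e).1
  rw [rad, dif_pos h, e, chr_symm_chr n i hz]

omit [T2Space X] in
theorem rad_of_mem_Sk {n : ℕ} {x : X} (hx : x ∈ Sk X n) (s : ℝ) : rad n x s = x := by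
  rw [rad, dif_neg]
  rintro ⟨i, z, hz, rfl⟩
  exact chr_not_mem_Sk le_rfl i hz hx

omit [T2Space X] in
theorem rad_zero (n : ℕ) (x : X) : rad n x 0 = x := by
  by_cases h : ∃ i : Cell X n, x ∈ chr n i '' ball 0 1
  · obtain ⟨i, z, hz, rfl⟩ := h
    rw [rad_chr n i hz]
    simp
  · rw [rad, dif_neg h]

theorem cwrad_norm {n : ℕ} {z : Fin n → ℝ} (hz : z ≠ 0) {s : ℝ} (hs : s ∈ Icc (0 : ℝ) 1) :
    ‖((1 - s) + s / ‖z‖) • z‖ = (1 - s) * ‖z‖ + s := by
  have h0 : 0 < ‖z‖ := norm_pos_iff.2 hz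
  have h1 : 0 ≤ (1 - s) + s / ‖z‖ := add_nonneg (sub_nonneg.2 hs.2) (div_nonneg hs.1 h0.le)
  rw [norm_smul, Real.norm_of_nonneg h1]
  field_simp

theorem cwrad_smul_mem {n : ℕ} {z : Fin n → ℝ} (hz : z ∈ closedBall (0 : Fin n → ℝ) 1 \ {0}) {s : ℝ}
    (hs : s ∈ Icc (0 : ℝ) 1) : ((1 - s) + s / ‖z‖) • z ∈ closedBall (0 : Fin n → ℝ) 1 \ {0} := by
  have h0 : 0 < ‖z‖ := norm_pos_iff.2 hz.2
  have h1 : ‖z‖ ≤ 1 := by simpa using hz.1
  have h2 := cwrad_norm hz.2 hs
  constructor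
  · rw [mem_closedBall_zero_iff, h2]
    nlinarith [hs.1, hs.2]
  · rw [mem_singleton_iff, ← norm_eq_zero, h2]
    nlinarith [hs.1, hs.2]

theorem cwrad_chr_mem_diff {n : ℕ} (i : Cell X n) {z : Fin n → ℝ}
    (hz : z ∈ closedBall (0 : Fin n → ℝ) 1 \ {0}) : chr n i z ∈ Sk X (n + 1) \ ctr X n := by
  refine ⟨cwrad_chr_mem n i hz.1, ?_⟩
  rintro ⟨j, e⟩
  obtain ⟨h1, h2⟩ := hz
  rw [← sphere_union_ball] at h1
  rcases h1 with h1 | h1
  · exact chr_not_mem_Sk le_rfl j (mem_ball_self one_pos)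
      (by have := chr_mem_Sk_of_sphere n i h1; rwa [← e] at this)
  · exact h2 (cell_eq_of_chr_eq (mem_ball_self one_pos) h1 e).2.symm

theorem cwrad_rad_chr {n : ℕ} (i : Cell X n) {z : Fin n → ℝ}
    (hz : z ∈ closedBall (0 : Fin n → ℝ) 1) (s : ℝ) :
    rad n (chr n i z) s = chr n i (((1 - s) + s / ‖z‖) • z) := by
  rw [← sphere_union_ball] at hz
  rcases hz with hz | hz
  · rw [rad_of_mem_Sk (chr_mem_Sk_of_sphere n i hz), mem_sphere_zero_iff_norm.1 hz]
    simp
  · exact rad_chr n i hz s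

omit [T2Space X] in
theorem cwrad_cases {n : ℕ} {x : X} (hx : x ∈ Sk X (n + 1) \ ctr X n) :
    x ∈ Sk X n ∨ ∃ (i : Cell X n) (z : Fin n → ℝ), z ∈ closedBall (0 : Fin n → ℝ) 1 \ {0} ∧
      chr n i z = x := by
  rcases mem_Sk_succ.1 hx.1 with h | ⟨i, z, hz, rfl⟩
  · exact Or.inl h
  · refine Or.inr ⟨i, z, ⟨ball_subset_closedBall hz, ?_⟩, rfl⟩
    rintro rfl
    exact hx.2 ⟨i, rfl⟩

theorem rad_mem {n : ℕ} {x : X} (hx : x ∈ Sk X (n + 1) \ ctr X n) {s : ℝ} (hs : s ∈ Icc (0 : ℝ) 1) :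
    rad n x s ∈ Sk X (n + 1) \ ctr X n := by
  rcases cwrad_cases hx with h | ⟨i, z, hz, rfl⟩
  · rwa [rad_of_mem_Sk h]
  · rw [cwrad_rad_chr i hz.1]
    exact cwrad_chr_mem_diff i (cwrad_smul_mem hz hs)

theorem rad_one_mem {n : ℕ} {x : X} (hx : x ∈ Sk X (n + 1) \ ctr X n) : rad n x 1 ∈ Sk X n := by
  rcases cwrad_cases hx with h | ⟨i, z, hz, rfl⟩
  · rwa [rad_of_mem_Sk h]
  · rw [cwrad_rad_chr i hz.1]
    refine chr_mem_Sk_of_sphere n i ?_
    rw [mem_sphere_zero_iff_norm, cwrad_norm hz.2 (right_mem_Icc.2 zero_le_one)]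
    simp

/-- clamp to the unit interval -/
noncomputable def cwradCl (s : ℝ) : ℝ := max 0 (min s 1)

theorem cwradCl_mem (s : ℝ) : cwradCl s ∈ Icc (0 : ℝ) 1 :=
  ⟨le_max_left _ _, max_le zero_le_one (min_le_right _ _)⟩

theorem cwradCl_eq {s : ℝ} (hs : s ∈ Icc (0 : ℝ) 1) : cwradCl s = s := by
  rw [cwradCl, min_eq_left hs.2, max_eq_right hs.1]

theorem continuous_cwradCl : Continuous cwradCl := by unfold cwradCl; fun_prop

theorem cwrad_cont_cell {n : ℕ} (i : Cell X n) :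
    ContinuousOn (fun p : (Fin n → ℝ) × ℝ => rad n (chr n i p.1) (cwradCl p.2))
      ((closedBall (0 : Fin n → ℝ) 1 \ {0}) ×ˢ univ) := by
  have h1 : ContinuousOn (fun p : (Fin n → ℝ) × ℝ =>
      ((1 - cwradCl p.2) + cwradCl p.2 / ‖p.1‖) • p.1)
      ((closedBall (0 : Fin n → ℝ) 1 \ {0}) ×ˢ univ) := by
    have hc : Continuous fun p : (Fin n → ℝ) × ℝ => cwradCl p.2 :=
      continuous_cwradCl.comp continuous_snd
    refine ContinuousOn.smul (ContinuousOn.add (continuous_const.sub hc).continuousOn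
      (hc.continuousOn.div continuous_fst.norm.continuousOn fun p hp => ?_))
      continuous_fst.continuousOn
    exact norm_ne_zero_iff.2 hp.1.2
  refine ((continuousOn_chr n i).comp h1 fun p hp =>
    (cwrad_smul_mem hp.1 (cwradCl_mem p.2)).1).congr fun p hp => ?_
  exact cwrad_rad_chr i hp.1.1 _

open Classical in
/-- the curried deformation -/
noncomputable def cwradG (n : ℕ) (x : X) : C(ℝ, X) :=
  if h : Continuous fun s => rad n x (cwradCl s) then ⟨_, h⟩ else ContinuousMap.const ℝ x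

theorem cwradG_apply {n : ℕ} {x : X} (hx : x ∈ Sk X (n + 1) \ ctr X n) (s : ℝ) :
    cwradG n x s = rad n x (cwradCl s) := by
  have h : Continuous fun s => rad n x (cwradCl s) := by
    rcases cwrad_cases hx with h | ⟨i, z, hz, rfl⟩
    · simp only [rad_of_mem_Sk h]
      exact continuous_const
    · exact (cwrad_cont_cell i).comp_continuous (Continuous.prodMk_right z)
        fun s => ⟨hz, mem_univ _⟩
  rw [cwradG, dif_pos h]
  rfl

theorem continuousOn_cwradG (n : ℕ) : ContinuousOn (cwradG n) (Sk X (n + 1) \ ctr X n) := by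
  rw [continuousOn_iff_isClosed]
  intro Z hZ
  have hctr : ∀ x ∈ Sk X n, x ∉ ctr X n := by
    rintro _ hx ⟨j, rfl⟩
    exact chr_not_mem_Sk le_rfl j (mem_ball_self one_pos) hx
  refine ⟨(cwradG n ⁻¹' Z ∩ (Sk X (n + 1) \ ctr X n)) ∪ ctr X n, ?_, ?_⟩
  · refine cwrad_closed (n := n) ?_ fun m hm j => ?_
    · rintro x (hx | ⟨j, rfl⟩)
      · exact hx.2.1
      · exact cwrad_chr_mem n j (mem_closedBall_self zero_le_one)
    rcases hm.lt_or_eq with hm | rfl
    · have hS : ∀ z ∈ closedBall (0 : Fin m → ℝ) 1, chr m j z ∈ Sk X n := fun z hz =>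
        cwrad_Sk_mono hm (cwrad_chr_mem m j hz)
      have hA : ∀ z ∈ closedBall (0 : Fin m → ℝ) 1, chr m j z ∈ Sk X (n + 1) \ ctr X n :=
        fun z hz => ⟨cwrad_Sk_mono (Nat.le_succ n) (hS z hz), hctr _ (hS z hz)⟩
      have hc : ContinuousOn (fun z => cwradG n (chr m j z)) (closedBall 0 1) := by
        refine (ContinuousMap.continuous_const'.comp_continuousOn
          (continuousOn_chr m j)).congr fun z hz => ?_
        ext s
        rw [cwradG_apply (hA z hz), rad_of_mem_Sk (hS z hz)]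
        rfl
      convert hc.preimage_isClosed_of_isClosed isClosed_closedBall hZ using 1
      ext z
      constructor
      · rintro ⟨hz, h | h⟩
        · exact ⟨hz, h.1⟩
        · exact absurd h (hctr _ (hS z hz))
      · rintro ⟨hz, h⟩
        exact ⟨hz, Or.inl ⟨h, hA z hz⟩⟩
    · have hc : ContinuousOn (fun z => cwradG m (chr m j z)) (closedBall 0 1 \ {0}) := by
        refine ContinuousMap.continuousOn_of_continuousOn_uncurry _
          ((cwrad_cont_cell j).congr fun p hp => ?_)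
        exact cwradG_apply (cwrad_chr_mem_diff j hp.1) _
      obtain ⟨u, hu, e⟩ := continuousOn_iff_isClosed.1 hc Z hZ
      convert (hu.inter isClosed_closedBall).union (isClosed_singleton (x := 0)) using 1
      ext z
      by_cases hz0 : z = 0
      · subst hz0
        exact ⟨fun _ => Or.inr rfl, fun _ => ⟨mem_closedBall_self zero_le_one, Or.inr ⟨j, rfl⟩⟩⟩
      constructor
      · rintro ⟨hz, h | h⟩
        · have h1 : z ∈ u ∩ (closedBall 0 1 \ {0}) := e ▸ ⟨h.1, hz, hz0⟩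
          exact Or.inl ⟨h1.1, hz⟩
        · exact absurd h (cwrad_chr_mem_diff j ⟨hz, hz0⟩).2
      · rintro (⟨h, hz⟩ | h)
        · have h1 : z ∈ (fun z => cwradG m (chr m j z)) ⁻¹' Z ∩ (closedBall 0 1 \ {0}) :=
            e ▸ ⟨h, hz, hz0⟩
          exact ⟨hz, Or.inl ⟨h1.1, cwrad_chr_mem_diff j ⟨hz, hz0⟩⟩⟩
        · exact absurd h hz0
  · ext x
    constructor
    · exact fun h => ⟨Or.inl h, h.2⟩
    · rintro ⟨h | h, hx⟩
      · exact h
      · exact absurd h hx.2

theorem continuousOn_rad (n : ℕ) :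
    ContinuousOn (fun p : X × ℝ => rad n p.1 p.2) ((Sk X (n + 1) \ ctr X n) ×ˢ Icc 0 1) := by
  have h1 : ContinuousOn (fun p : X × ℝ => (cwradG n p.1, p.2))
      ((Sk X (n + 1) \ ctr X n) ×ˢ Icc 0 1) :=
    ((continuousOn_cwradG n).comp continuous_fst.continuousOn fun p hp => hp.1).prodMk
      continuous_snd.continuousOn
  refine ((continuous_eval (F := C(ℝ, X))).comp_continuousOn h1).congr fun p hp => ?_
  change rad n p.1 p.2 = cwradG n p.1 p.2
  rw [cwradG_apply hp.1, cwradCl_eq hp.2]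

end Crest.Agent.R197
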