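import Crest.Agent.R197.K3Defs

/-! R197: the CW structure on `TT L`.

`cell n = ℤ × {σ : Cl L // σ.1.card = n}`.  For `(k, σ)` let `o = σ.1.orderIsoOfFin _ : Fin n ≃o σ.1` and
`tz z v = if h : v ∈ σ.1 then max 0 (min 1 ((z (o.symm ⟨v, h⟩) + 1) / 2)) else 0`; the characteristic map
sends `z` to `(fun v => ↑(tz z v), k + ∑ v, tz z v)` (the clamp makes it land in `TT L` for all `z` and is
invisible on `closedBall 0 1`), with source `ball 0 1`, target
`{q | (∀ v, q.1 v ≠ 0 ↔ v ∈ σ.1) ∧ q.2 = k + ∑ v, rep (q.1 v)}` where `rep = AddCircle.equivIco 1 0`, and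
inverse `q ↦ fun j => 2 * rep (q.1 (o j)) - 1` (continuous where `q.1 (o j) ≠ 0`:
`AddCircle.continuousAt_equivIco`).  The target determines `(k, σ)`, so open cells are disjoint, and
every `q` lies in one (`q.2 - ∑ rep` is an integer).  A point of the sphere lies in an open cell
`(k', σ')` with `σ' ⊂ σ`, `k ≤ k' ≤ k + n`: finitely many cells of lower dimension.  `closed'`: the closed
cells form a locally finite family (`k ≤ q.2 ≤ k + card V`, finitely many `σ`),
`LocallyFinite.isClosed_iUnion`. -/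

set_option autoImplicit false
set_option linter.unusedSectionVars false

namespace Crest.Agent.R197

open Set

variable {V : Type} [Fintype V] [LinearOrder V] {L : SimpleGraph V}

/-- The representative in `[0, 1)`. -/
noncomputable def cwtRep (x : AddCircle (1 : ℝ)) : ℝ := (AddCircle.equivIco 1 0 x : ℝ)

theorem cwtRep_nonneg (x : AddCircle (1 : ℝ)) : 0 ≤ cwtRep x := (AddCircle.equivIco 1 0 x).2.1

theorem cwtRep_lt (x : AddCircle (1 : ℝ)) : cwtRep x < 1 :=
  (AddCircle.equivIco 1 0 x).2.2.trans_eq (zero_add 1)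

theorem coe_cwtRep (x : AddCircle (1 : ℝ)) : (cwtRep x : AddCircle (1 : ℝ)) = x :=
  AddCircle.coe_equivIco

theorem cwtRep_coe {t : ℝ} (h0 : 0 ≤ t) (h1 : t < 1) : cwtRep (t : AddCircle (1 : ℝ)) = t :=
  AddCircle.equivIco_coe_of_mem ⟨h0, by simpa using h1⟩

theorem cwtRep_zero : cwtRep 0 = 0 := cwtRep_coe le_rfl one_pos

theorem cwtRep_pos {x : AddCircle (1 : ℝ)} (h : x ≠ 0) : 0 < cwtRep x := by
  refine (cwtRep_nonneg x).lt_of_ne fun h0 => h ?_
  rw [← coe_cwtRep x, ← h0]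
  rfl

theorem continuousAt_cwtRep {x : AddCircle (1 : ℝ)} (h : x ≠ 0) : ContinuousAt cwtRep x :=
  continuousAt_subtype_val.comp (AddCircle.continuousAt_equivIco 1 0 h)

theorem cwt_coe_sum (t : V → ℝ) :
    ((∑ v, t v : ℝ) : AddCircle (1 : ℝ)) = ∑ v, (t v : AddCircle (1 : ℝ)) :=
  map_sum (QuotientAddGroup.mk' (AddSubgroup.zmultiples (1 : ℝ))) _ _

/-- The clamp. -/
noncomputable def cwtCl (t : ℝ) : ℝ := max 0 (min 1 ((t + 1) / 2))

theorem cwtCl_nonneg (t : ℝ) : 0 ≤ cwtCl t := le_max_left _ _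

theorem cwtCl_le (t : ℝ) : cwtCl t ≤ 1 := max_le zero_le_one (min_le_left _ _)

theorem cwtCl_eq {t : ℝ} (h : |t| ≤ 1) : cwtCl t = (t + 1) / 2 := by
  have := abs_le.1 h
  rw [cwtCl, min_eq_right (by linarith), max_eq_right (by linarith)]

theorem continuous_cwtCl : Continuous cwtCl := by
  unfold cwtCl
  fun_prop

theorem coe_cwtCl {t : ℝ} (h : 1 ≤ |t|) : (cwtCl t : AddCircle (1 : ℝ)) = 0 := by
  rcases le_abs.1 h with h | h
  · rw [cwtCl, min_eq_left (by linarith), max_eq_right zero_le_one]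
    exact AddCircle.coe_period 1
  · rw [cwtCl, max_eq_left ((min_le_right _ _).trans (by linarith))]
    rfl

variable (L) in
/-- The cells. -/
def CwtCell (n : ℕ) : Type := ℤ × {σ : Cl L // σ.1.card = n}

namespace CwtCell

variable {n : ℕ} (c : CwtCell L n)

/-- The directions of a cell. -/
def o : Fin n → V := c.2.1.1.orderEmbOfFin c.2.2

theorem o_inj : Function.Injective c.o := (c.2.1.1.orderEmbOfFin c.2.2).injective

theorem mem_iff {v : V} : v ∈ c.2.1.1 ↔ ∃ j, c.o j = v := by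
  rw [← Finset.mem_coe, ← Finset.range_orderEmbOfFin c.2.1.1 c.2.2]
  rfl

/-- The coordinates of a point of a cell. -/
noncomputable def tz (z : Fin n → ℝ) : V → ℝ := Function.extend c.o (fun j => cwtCl (z j)) 0

theorem tz_o (z : Fin n → ℝ) (j : Fin n) : c.tz z (c.o j) = cwtCl (z j) :=
  c.o_inj.extend_apply _ _ _

theorem tz_not (z : Fin n → ℝ) {v : V} (h : v ∉ c.2.1.1) : c.tz z v = 0 :=
  Function.extend_apply' _ _ _ fun h' => h (c.mem_iff.2 h')

theorem tz_mem (z : Fin n → ℝ) (v : V) : 0 ≤ c.tz z v ∧ c.tz z v ≤ 1 := by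
  by_cases h : v ∈ c.2.1.1
  · obtain ⟨j, rfl⟩ := c.mem_iff.1 h
    rw [tz_o]
    exact ⟨cwtCl_nonneg _, cwtCl_le _⟩
  · rw [c.tz_not z h]
    exact ⟨le_rfl, zero_le_one⟩

theorem continuous_tz (v : V) : Continuous fun z => c.tz z v := by
  by_cases h : v ∈ c.2.1.1
  · obtain ⟨j, rfl⟩ := c.mem_iff.1 h
    simp only [tz_o]
    exact continuous_cwtCl.comp (continuous_apply j)
  · simp only [c.tz_not _ h]
    exact continuous_const

/-- The characteristic map. -/
noncomputable def fn (z : Fin n → ℝ) : TT L :=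
  ⟨(fun v => (c.tz z v : AddCircle (1 : ℝ)), (c.1 : ℝ) + ∑ v, c.tz z v), by
    refine ⟨SimpleGraph.IsClique.subset (fun v hv => ?_) c.2.1.2, ?_⟩
    · by_contra h0
      exact hv (by simp [c.tz_not z h0])
    · have h1 : ((c.1 : ℝ) : AddCircle (1 : ℝ)) = 0 :=
        (AddCircle.coe_eq_zero_iff _).2 ⟨c.1, by simp⟩
      simp only [AddCircle.coe_add, h1, zero_add]
      exact (cwt_coe_sum _).symm⟩

theorem continuous_fn : Continuous c.fn := by
  refine Continuous.subtype_mk (Continuous.prodMk (continuous_pi fun v => ?_) ?_) _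
  · exact (AddCircle.continuous_mk' 1).comp (c.continuous_tz v)
  · exact continuous_const.add (continuous_finsetSum _ fun v _ => c.continuous_tz v)

/-- The open cell. -/
def tgt : Set (TT L) :=
  {q | (∀ v, q.1.1 v ≠ 0 ↔ v ∈ c.2.1.1) ∧ q.1.2 = c.1 + ∑ v, cwtRep (q.1.1 v)}

theorem cwt_abs_lt {z : Fin n → ℝ} (hz : z ∈ Metric.ball (0 : Fin n → ℝ) 1) (j : Fin n) :
    |z j| < 1 :=
  (norm_le_pi_norm z j).trans_lt (mem_ball_zero_iff.1 hz)

theorem rep_tz {z : Fin n → ℝ} (hz : z ∈ Metric.ball (0 : Fin n → ℝ) 1) (v : V) :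
    cwtRep (c.tz z v : AddCircle (1 : ℝ)) = c.tz z v := by
  refine cwtRep_coe (c.tz_mem z v).1 ?_
  by_cases h : v ∈ c.2.1.1
  · obtain ⟨j, rfl⟩ := c.mem_iff.1 h
    have := cwt_abs_lt hz j
    rw [tz_o, cwtCl_eq this.le]
    linarith [(abs_lt.1 this).2]
  · rw [c.tz_not z h]
    exact one_pos

theorem tz_inv {q : TT L} (hq : q ∈ c.tgt) (v : V) :
    c.tz (fun j => 2 * cwtRep (q.1.1 (c.o j)) - 1) v = cwtRep (q.1.1 v) := by
  by_cases h : v ∈ c.2.1.1
  · obtain ⟨j, rfl⟩ := c.mem_iff.1 h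
    have h1 := cwtRep_nonneg (q.1.1 (c.o j))
    have h2 := cwtRep_lt (q.1.1 (c.o j))
    rw [tz_o, cwtCl_eq (abs_le.2 ⟨by linarith, by linarith⟩)]
    ring
  · rw [c.tz_not _ h, not_not.1 (mt (hq.1 v).1 h), cwtRep_zero]

/-- The characteristic map as a partial equivalence. -/
noncomputable def pe : PartialEquiv (Fin n → ℝ) (TT L) where
  toFun := c.fn
  invFun q j := 2 * cwtRep (q.1.1 (c.o j)) - 1
  source := Metric.ball 0 1
  target := c.tgt
  map_source' z hz := by
    refine ⟨fun v => ⟨fun hv => ?_, fun hv h0 => ?_⟩, ?_⟩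
    · by_contra h0
      exact hv (by simp [fn, c.tz_not z h0])
    · obtain ⟨j, rfl⟩ := c.mem_iff.1 hv
      have h1 := c.rep_tz hz (c.o j)
      have h2 := cwt_abs_lt hz j
      have h3 : (c.tz z (c.o j) : AddCircle (1 : ℝ)) = 0 := h0
      rw [h3, cwtRep_zero, tz_o, cwtCl_eq h2.le] at h1
      linarith [(abs_lt.1 h2).1]
    · simp only [fn, c.rep_tz hz]
  map_target' q hq := by
    rw [mem_ball_zero_iff, pi_norm_lt_iff one_pos]
    intro j
    have h1 := cwtRep_pos ((hq.1 (c.o j)).2 (c.mem_iff.2 ⟨j, rfl⟩))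
    have h2 := cwtRep_lt (q.1.1 (c.o j))
    rw [Real.norm_eq_abs, abs_lt]
    constructor <;> linarith
  left_inv' z hz := by
    funext j
    change 2 * cwtRep (c.tz z (c.o j) : AddCircle (1 : ℝ)) - 1 = z j
    rw [c.rep_tz hz, tz_o, cwtCl_eq (cwt_abs_lt hz j).le]
    ring
  right_inv' q hq := by
    refine Subtype.ext (Prod.ext (funext fun v => ?_) ?_)
    · simp only [fn, c.tz_inv hq, coe_cwtRep]
    · simp only [fn, c.tz_inv hq, hq.2]

theorem image_ball : c.pe '' Metric.ball 0 1 = c.tgt := c.pe.image_source_eq_target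

theorem tgt_subset : c.tgt ⊆ c.pe '' Metric.closedBall 0 1 :=
  c.image_ball ▸ image_mono Metric.ball_subset_closedBall

theorem fn_snd (z : Fin n → ℝ) :
    (c.1 : ℝ) ≤ (c.fn z).1.2 ∧ (c.fn z).1.2 ≤ c.1 + Fintype.card V := by
  have h1 : 0 ≤ ∑ v, c.tz z v := Finset.sum_nonneg fun v _ => (c.tz_mem z v).1
  have h2 : ∑ v, c.tz z v ≤ Fintype.card V := by
    simpa using Finset.sum_le_card_nsmul Finset.univ (c.tz z) 1 fun v _ => (c.tz_mem z v).2
  simp only [fn]
  constructor <;> linarith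

end CwtCell

theorem cwt_exists (q : TT L) : ∃ (n : ℕ) (c : CwtCell L n), q ∈ c.tgt := by
  classical
  have h1 : ((q.1.2 - ∑ v, cwtRep (q.1.1 v) : ℝ) : AddCircle (1 : ℝ)) = 0 := by
    rw [AddCircle.coe_sub, cwt_coe_sum]
    simp only [coe_cwtRep]
    rw [q.2.2, sub_self]
  obtain ⟨k, hk⟩ := (AddCircle.coe_eq_zero_iff _).1 h1
  refine ⟨_, (k, ⟨⟨Finset.univ.filter fun v => q.1.1 v ≠ 0, ?_⟩, rfl⟩), fun v => by simp, ?_⟩
  · simpa using q.2.1
  · simp only [zsmul_eq_mul, mul_one] at hk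
    simp only [hk, sub_add_cancel]

theorem cwt_inj : Function.Injective fun x : Σ n, CwtCell L n => (x.2.1, x.2.2.1) := by
  rintro ⟨n, k, σ, rfl⟩ ⟨n', k', σ', rfl⟩ h
  simp only [Prod.mk.injEq] at h
  obtain ⟨rfl, rfl⟩ := h
  rfl

theorem cwt_finite (a b : ℤ) : {x : Σ n, CwtCell L n | x.2.1 ∈ Icc a b}.Finite := by
  have : Finite (Cl L) := inferInstanceAs (Finite (Subtype _))
  have h := ((finite_Icc a b).prod (finite_univ (α := Cl L))).preimage cwt_inj.injOn
  exact h.subset fun x hx => ⟨hx, trivial⟩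

theorem cwt_finite' (a b : ℤ) (n : ℕ) : {c : CwtCell L n | c.1 ∈ Icc a b}.Finite :=
  (cwt_finite a b).preimage (f := Sigma.mk n) sigma_mk_injective.injOn

theorem cwt_locallyFinite :
    LocallyFinite fun x : Σ n, CwtCell L n => x.2.pe '' Metric.closedBall 0 1 := by
  intro q
  have hc : Continuous fun q : TT L => q.1.2 := continuous_snd.comp continuous_subtype_val
  refine ⟨(fun q : TT L => q.1.2) ⁻¹' Ioo (q.1.2 - 1) (q.1.2 + 1),
    hc.continuousAt.preimage_mem_nhds (Ioo_mem_nhds (by linarith) (by linarith)), ?_⟩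
  refine (cwt_finite (⌊q.1.2⌋ - 1 - Fintype.card V) (⌈q.1.2⌉ + 1)).subset ?_
  rintro x ⟨_, ⟨z, -, rfl⟩, h1, h2⟩
  have h3 := x.2.fn_snd z
  have h4 := Int.floor_le q.1.2
  have h5 := Int.le_ceil q.1.2
  change q.1.2 - 1 < (x.2.fn z).1.2 at h1
  change (x.2.fn z).1.2 < q.1.2 + 1 at h2
  constructor
  · have : ((⌊q.1.2⌋ - 1 - Fintype.card V : ℤ) : ℝ) ≤ (x.2.1 : ℝ) := by
      push_cast
      linarith [h3.2]
    exact_mod_cast this
  · have : (x.2.1 : ℝ) ≤ ((⌈q.1.2⌉ + 1 : ℤ) : ℝ) := by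
      push_cast
      linarith [h3.1]
    exact_mod_cast this

theorem cwt_mapsTo (n : ℕ) (c : CwtCell L n) : ∃ I : ∀ m, Finset (CwtCell L m),
    MapsTo c.pe (Metric.sphere 0 1) (⋃ (m < n) (j ∈ I m), j.pe '' Metric.closedBall 0 1) := by
  refine ⟨fun m => (cwt_finite' (c.1 - Fintype.card V) (c.1 + Fintype.card V) m).toFinset,
    fun z hz => ?_⟩
  obtain ⟨m, c', hc'⟩ := cwt_exists (c.fn z)
  simp only [mem_iUnion]
  refine ⟨m, ?_, c', ?_, c'.tgt_subset hc'⟩
  · obtain ⟨j, hj⟩ : ∃ j, 1 ≤ |z j| := by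
      by_contra h
      push Not at h
      exact ((pi_norm_lt_iff one_pos).2 h).ne (mem_sphere_zero_iff_norm.1 hz)
    rw [← c'.2.2, ← c.2.2]
    refine Finset.card_lt_card ⟨fun v hv => ?_, fun h => ?_⟩
    · by_contra h0
      exact (hc'.1 v).2 hv (by simp [CwtCell.fn, c.tz_not z h0])
    · refine (hc'.1 (c.o j)).2 (h (c.mem_iff.2 ⟨j, rfl⟩)) ?_
      change (c.tz z (c.o j) : AddCircle (1 : ℝ)) = 0
      rw [c.tz_o, coe_cwtCl hj]
  · obtain ⟨z', -, hz'⟩ := c'.tgt_subset hc'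
    have h1 := c.fn_snd z
    have h2 := c'.fn_snd z'
    have h3 : c'.fn z' = c.fn z := hz'
    rw [h3] at h2
    rw [Set.Finite.mem_toFinset]
    constructor
    · have : ((c.1 - Fintype.card V : ℤ) : ℝ) ≤ (c'.1 : ℝ) := by
        push_cast
        linarith [h1.1, h2.2]
      exact_mod_cast this
    · have : (c'.1 : ℝ) ≤ ((c.1 + Fintype.card V : ℤ) : ℝ) := by
        push_cast
        linarith [h1.2, h2.1]
      exact_mod_cast this

theorem cwt_union : ⋃ (n : ℕ) (j : CwtCell L n), j.pe '' Metric.closedBall 0 1 = univ := by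
  refine eq_univ_of_forall fun q => ?_
  obtain ⟨n, c, hc⟩ := cwt_exists q
  exact mem_iUnion₂.2 ⟨n, c, c.tgt_subset hc⟩

variable (L) in
/-- The CW structure. -/
@[reducible] noncomputable def cwtCW : Topology.CWComplex (univ : Set (TT L)) where
  cell := CwtCell L
  map _ c := c.pe
  source_eq _ _ := rfl
  continuousOn _ c := c.continuous_fn.continuousOn
  continuousOn_symm _ c := by
    refine continuousOn_pi.2 fun j q hq => ContinuousAt.continuousWithinAt ?_
    have h1 : Continuous fun q : TT L => q.1.1 (c.o j) :=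
      (continuous_apply _).comp (continuous_fst.comp continuous_subtype_val)
    have h2 := (continuousAt_cwtRep ((hq.1 (c.o j)).2 (c.mem_iff.2 ⟨j, rfl⟩))).comp
      (f := fun q : TT L => q.1.1 (c.o j)) h1.continuousAt
    exact (continuousAt_const.mul h2).sub continuousAt_const
  pairwiseDisjoint' := by
    intro x _ y _ hxy
    simp only [Function.onFun, CwtCell.image_ball]
    refine disjoint_left.2 fun q hx hy => hxy (cwt_inj (Prod.ext ?_ (Subtype.ext ?_)))
    · have : (x.2.1 : ℝ) = y.2.1 := add_right_cancel (hx.2.symm.trans hy.2)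
      exact_mod_cast this
    · ext v
      exact (hx.1 v).symm.trans (hy.1 v)
  mapsTo' := cwt_mapsTo
  closed' A _ h := by
    have h1 : A = ⋃ x : Σ n, CwtCell L n, A ∩ x.2.pe '' Metric.closedBall 0 1 := by
      rw [← inter_iUnion, iUnion_sigma, cwt_union, inter_univ]
    rw [h1]
    exact (cwt_locallyFinite.subset fun _ => inter_subset_right).isClosed_iUnion fun x => h x.1 x.2
  union' := cwt_union

theorem exists_cw_TT (h4 : NoK4 L) : ∃ _ : Topology.CWComplex (univ : Set (TT L)),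
    ∀ n : ℕ, 3 < n → IsEmpty (Topology.RelCWComplex.cell (univ : Set (TT L)) n) := by
  refine ⟨cwtCW L, fun n hn => ⟨fun c => ?_⟩⟩
  have c' : CwtCell L n := c
  have h1 := h4 c'.2.1
  have h2 := c'.2.2
  omega

end Crest.Agent.R197
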