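import Crest.Agent.R197.CertChk

/-! R197: the flag complex of `L21` is acyclic. -/

set_option autoImplicit false

namespace Crest.Agent.R197

open Finsupp

namespace Cert

theorem ev_cons (p : ℤ × List ℕ) (c : Ch) : ev (p :: c) = single (toCl p.2) p.1 + ev c := by
  simp [ev]

theorem ev_append (c d : Ch) : ev (c ++ d) = ev c + ev d := by simp [ev]

theorem ev_ins (p : ℤ × List ℕ) (c : Ch) : ev (ins p c) = ev (p :: c) := by
  induction c with
  | nil => rfl
  | cons q r ih =>
    rw [ins]
    split_ifs with h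
    · simp only [ev_cons, h, single_add, add_assoc]
    · rw [ev_cons, ih]; simp only [ev_cons]; abel

theorem ev_norm (c : Ch) : ev (c.foldr ins []) = ev c := by
  induction c with
  | nil => rfl
  | cons q r ih => rw [List.foldr_cons, ev_ins, ev_cons, ih, ev_cons]

theorem ev_eq_zero (c : Ch) (h : (c.all fun p => p.1 == 0) = true) : ev c = 0 := by
  induction c with
  | nil => rfl
  | cons q r ih =>
    simp only [List.all_cons, Bool.and_eq_true, beq_iff_eq] at h
    rw [ev_cons, ih h.2, h.1]; simp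

theorem ev_scale (n : ℤ) (c : Ch) : ev (c.map fun q => (n * q.1, q.2)) = n • ev c := by
  induction c with
  | nil => simp [ev]
  | cons q r ih => rw [List.map_cons, ev_cons, ih, ev_cons]; simp

theorem map_ev (f : (Cl L21 →₀ ℤ) →ₗ[ℤ] (Cl L21 →₀ ℤ)) (F : List ℕ → Ch)
    (hf : ∀ l, good l = true → f (single (toCl l) 1) = ev (F l)) (c : Ch)
    (h : (c.all fun p => good p.2) = true) : f (ev c) = ev (bnd F c) := by
  induction c with
  | nil => simp [ev, bnd]
  | cons q r ih =>
    simp only [List.all_cons, Bool.and_eq_true] at h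
    have : single (toCl q.2) q.1 = q.1 • single (toCl q.2) (1 : ℤ) := by simp
    rw [ev_cons, map_add, ih h.2, this, map_smul, hf _ h.1, ← ev_scale, ← ev_append]
    rfl

/-- The shapes of good lists. -/
theorem good_cases {l : List ℕ} (h : good l = true) : l = [] ∨ (∃ a : Fin 21, l = [a.1]) ∨
    (∃ a b : Fin 21, a < b ∧ L21.Adj a b ∧ l = [a.1, b.1]) ∨
    ∃ a b c : Fin 21, a < b ∧ b < c ∧ L21.Adj a b ∧ L21.Adj b c ∧ L21.Adj a c ∧
      l = [a.1, b.1, c.1] := by
  match l, h with
  | [], _ => exact .inl rfl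
  | [a], h => exact .inr (.inl ⟨⟨a, by simpa [good] using h⟩, rfl⟩)
  | [a, b], h =>
    simp only [good, Bool.and_eq_true, decide_eq_true_eq] at h
    exact .inr (.inr (.inl ⟨⟨a, by omega⟩, ⟨b, by omega⟩, h.1.1, h.2, rfl⟩))
  | [a, b, c], h =>
    simp only [good, Bool.and_eq_true, decide_eq_true_eq] at h
    exact .inr (.inr (.inr ⟨⟨a, by omega⟩, ⟨b, by omega⟩, ⟨c, by omega⟩, h.1.1.1.1.1, h.1.1.1.1.2,
      h.1.1.2, h.1.2, h.2, rfl⟩))

theorem fs_map (l : List (Fin 21)) : fs (l.map Fin.val) = l.toFinset := by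
  simp [fs, List.map_map, Function.comp_def]

theorem toCl_val (l : List (Fin 21)) (h : L21.IsClique (l.toFinset : Set (Fin 21))) :
    (toCl (l.map Fin.val)).1 = l.toFinset := by
  have h' : L21.IsClique (fs (l.map Fin.val) : Set (Fin 21)) := by rw [fs_map]; exact h
  exact (congrArg Subtype.val (dif_pos h' : toCl (l.map Fin.val) = ⟨_, h'⟩)).trans (fs_map l)

theorem toCl_key (σ : Cl L21) : toCl (key σ) = σ := by
  have h : (σ.1.sort (· ≤ ·)).toFinset = σ.1 := Finset.sort_toFinset _ _
  exact Subtype.ext ((toCl_val _ (by rw [h]; exact σ.2)).trans h)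

theorem good_key (σ : Cl L21) : good (key σ) = true := by
  have h1 : (σ.1.sort (· ≤ ·)).length ≤ 3 := by rw [Finset.length_sort]; exact noK4_L21 σ
  have h2 : (σ.1.sort (· ≤ ·)).Pairwise (· < ·) := (Finset.sortedLT_sort σ.1).pairwise
  have h3 : ∀ a ∈ σ.1.sort (· ≤ ·), ∀ b ∈ σ.1.sort (· ≤ ·), a < b → adjB a b = true :=
    fun a ha b hb hab => σ.2 (by simpa using ha) (by simpa using hb) hab.ne
  rw [key]
  generalize σ.1.sort (· ≤ ·) = l at h1 h2 h3
  match l, h1, h2, h3 with
  | [], _, _, _ => rfl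
  | [a], _, _, _ => simp [good]
  | [a, b], _, h2, h3 =>
    have hab : a < b := by simpa using h2
    simp [good, hab, h3 a (by simp) b (by simp) hab]
  | [a, b, c], _, h2, h3 =>
    simp only [List.pairwise_cons, List.mem_cons, List.not_mem_nil, or_false, forall_eq_or_imp,
      forall_eq] at h2
    simp [good, h2.1.1, h2.2.1, h3 a (by simp) b (by simp) h2.1.1,
      h3 b (by simp) c (by simp) h2.2.1, h3 a (by simp) c (by simp) h2.1.2]
  | _ :: _ :: _ :: _ :: _, h1, _, _ => simp only [List.length_cons] at h1; omega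

theorem clique_of_pw (l : List (Fin 21)) (h : l.Pairwise L21.Adj) :
    L21.IsClique (l.toFinset : Set (Fin 21)) := by
  intro a ha b hb hab
  have : Std.Symm L21.Adj := L21.symm
  exact List.Pairwise.forall h (by simpa using ha) (by simpa using hb) hab

theorem key_toCl (l : List (Fin 21)) (h : l.Pairwise L21.Adj) (h2 : l.Pairwise (· < ·)) :
    key (toCl (l.map Fin.val)) = l.map Fin.val := by
  rw [key, toCl_val _ (clique_of_pw l h)]
  congr 1
  exact (List.toFinset_sort _ (h2.imp ne_of_lt)).2 (h2.imp le_of_lt)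

theorem key_toCl_good {l : List ℕ} (h : good l = true) : key (toCl l) = l := by
  rcases good_cases h with rfl | ⟨a, rfl⟩ | ⟨a, b, h1, h2, rfl⟩ | ⟨a, b, c, h1, h2, h3, h4, h5, rfl⟩
  · exact key_toCl [] (by simp) (by simp)
  · exact key_toCl [a] (by simp) (by simp)
  · exact key_toCl [a, b] (by simp [h2]) (by simp [h1])
  · exact key_toCl [a, b, c] (by simp [h3, h4, h5]) (by simp [h1, h2, h1.trans h2])

theorem erase_eq (l l' : List (Fin 21)) (h : l.Pairwise L21.Adj) (h' : l'.Pairwise L21.Adj)
    (v : Fin 21) (e : l.toFinset.erase v = l'.toFinset) :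
    (toCl (l.map Fin.val)).erase v = toCl (l'.map Fin.val) := by
  refine Subtype.ext ?_
  rw [toCl_val _ (clique_of_pw l' h'), ← e, ← toCl_val _ (clique_of_pw l h)]
  rfl

theorem dL_list (l : List (Fin 21)) (h : l.Pairwise L21.Adj) :
    dL L21 (single (toCl (l.map Fin.val)) 1) = ∑ v ∈ l.toFinset,
      sg v l.toFinset • single ((toCl (l.map Fin.val)).erase v) (1 : ℤ) := by
  rw [← toCl_val _ (clique_of_pw l h)]
  simp [dL]

theorem dL_good {l : List ℕ} (h : good l = true) : dL L21 (single (toCl l) 1) = ev (dl l) := by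
  rcases good_cases h with rfl | ⟨a, rfl⟩ | ⟨a, b, h1, h2, rfl⟩ | ⟨a, b, c, h1, h2, h3, h4, h5, rfl⟩
  · simpa [dl, ev] using dL_list [] (by simp)
  · have hp : [a].Pairwise L21.Adj := by simp
    have e1 := erase_eq [a] [] hp (by simp) a (by simp)
    refine (dL_list [a] hp).trans ?_
    simp only [List.toFinset_cons, List.toFinset_nil, insert_empty_eq, Finset.sum_singleton, e1]
    simp [dl, ev, sg, Finset.filter_singleton]
  · have hp : [a, b].Pairwise L21.Adj := by simp [h2]
    have e1 := erase_eq [a, b] [b] hp (by simp) a (by ext x; simp; omega)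
    have e2 := erase_eq [a, b] [a] hp (by simp) b (by ext x; simp; omega)
    refine (dL_list [a, b] hp).trans ?_
    simp only [List.toFinset_cons, List.toFinset_nil, insert_empty_eq]
    rw [Finset.sum_pair h1.ne, e1, e2]
    simp [dl, ev, sg, Finset.filter_singleton, Finset.filter_insert, h1, h1.not_gt]
  · have hp : [a, b, c].Pairwise L21.Adj := by simp [h3, h4, h5]
    have e1 := erase_eq [a, b, c] [b, c] hp (by simp [h4]) a (by ext x; simp; omega)
    have e2 := erase_eq [a, b, c] [a, c] hp (by simp [h5]) b (by ext x; simp; omega)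
    have e3 := erase_eq [a, b, c] [a, b] hp (by simp [h3]) c (by ext x; simp; omega)
    refine (dL_list [a, b, c] hp).trans ?_
    simp only [List.toFinset_cons, List.toFinset_nil, insert_empty_eq]
    have h6 := h1.trans h2
    rw [Finset.sum_insert (by simp [h1.ne, h6.ne]), Finset.sum_pair h2.ne, e1, e2, e3]
    simp [dl, ev, sg, Finset.filter_singleton, Finset.filter_insert, h1, h1.not_gt, h2, h2.not_gt,
      h6, h6.not_gt, Finset.card_pair h1.ne]

theorem chk_good {l : List ℕ} (h : good l = true) : chk l = true := by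
  rcases good_cases h with rfl | ⟨a, rfl⟩ | ⟨a, b, -, -, rfl⟩ | ⟨a, b, c, -, -, -, -, -, rfl⟩
  · exact chk0
  · exact chk1 a
  · exact chk2 a b h
  · exact chk3 a b c h

end Cert

open Cert in
theorem acyc_L21 : Acyc L21 := by
  let k : (Cl L21 →₀ ℤ) →ₗ[ℤ] (Cl L21 →₀ ℤ) := linearCombination ℤ fun σ => ev (kl (key σ))
  have hk : ∀ l, good l = true → k (single (toCl l) 1) = ev (kl l) := fun l h => by
    simp [k, key_toCl_good h]
  refine ⟨k, chain_ext (f := dL L21 ∘ₗ k + k ∘ₗ dL L21) (g := LinearMap.id) fun σ => ?_⟩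
  have hg := good_key σ
  have hc := chk_good hg
  simp only [chk, Bool.and_eq_true] at hc
  have h0 := ev_eq_zero _ hc.2
  rw [ev_norm, ev_cons, ev_append] at h0
  rw [← toCl_key σ]
  simp only [LinearMap.add_apply, LinearMap.comp_apply, LinearMap.id_apply]
  rw [hk _ hg, dL_good hg, map_ev _ dl (fun _ => dL_good) _ hc.1.1, map_ev k kl hk _ hc.1.2]
  rw [single_neg, neg_add_eq_zero] at h0
  exact h0.symm

end Crest.Agent.R197
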