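import Crest.Agent.R197.CertDefs

/-! R197: the contraction of the flag complex of `L21`, checked on lists. -/

set_option autoImplicit false

namespace Crest.Agent.R197

open Finsupp

namespace Cert

abbrev Ch := List (ℤ × List ℕ)

def fs (l : List ℕ) : Finset (Fin 21) := (l.map (Fin.ofNat 21)).toFinset

open Classical in
noncomputable def toCl (l : List ℕ) : Cl L21 :=
  if h : L21.IsClique (fs l : Set (Fin 21)) then ⟨fs l, h⟩ else ⟨∅, by simp⟩

def key (σ : Cl L21) : List ℕ := (σ.1.sort (· ≤ ·)).map Fin.val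

noncomputable def ev (c : Ch) : Cl L21 →₀ ℤ := (c.map fun p => single (toCl p.2) p.1).sum

def good : List ℕ → Bool
  | [] => true
  | [a] => decide (a < 21)
  | [a, b] => decide (a < b) && decide (b < 21) && adjB a b
  | [a, b, c] => decide (a < b) && decide (b < c) && decide (c < 21) && adjB a b && adjB b c &&
      adjB a c
  | _ => false

def dl : List ℕ → Ch
  | [_] => [(1, [])]
  | [a, b] => [(1, [b]), (-1, [a])]
  | [a, b, c] => [(1, [b, c]), (-1, [a, c]), (1, [a, b])]
  | _ => []

def enc (l : List ℕ) : ℕ := l.foldl (fun x a => x * 32 + a + 1) 0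

def dec (x : ℕ) : ℤ × List ℕ :=
  (((x / 32768 : ℕ) : ℤ) - 4, ([x / 1024 % 32, x / 32 % 32, x % 32].filter (· != 0)).map (· - 1))

def row : ℕ → ℕ → Ch
  | 0, _ => []
  | f + 1, x => if x = 0 then [] else dec (x % 1048576) :: row f (x / 1048576)

def kl (l : List ℕ) : Ch := row 64 ((ktab.lookup (enc l)).getD 0)

def bnd (f : List ℕ → Ch) (c : Ch) : Ch := c.flatMap fun p => (f p.2).map fun q => (p.1 * q.1, q.2)

def ins (p : ℤ × List ℕ) : Ch → Ch
  | [] => [p]
  | q :: r => if p.2 = q.2 then (p.1 + q.1, q.2) :: r else q :: ins p r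

def chk (l : List ℕ) : Bool :=
  (kl l).all (fun p => good p.2) && (dl l).all (fun p => good p.2) &&
    (((-1, l) :: (bnd dl (kl l) ++ bnd kl (dl l))).foldr ins []).all fun p => p.1 == 0

theorem chk0 : chk [] = true := by decide +kernel
theorem chk1 : ∀ a : Fin 21, chk [a] = true := by decide +kernel
theorem chk2 : ∀ a b : Fin 21, good [a, b] = true → chk [a, b] = true := by decide +kernel
theorem chk3 : ∀ a b c : Fin 21, good [a, b, c] = true → chk [a, b, c] = true := by decide +kernel

end Cert

end Crest.Agent.R197
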