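import Crest.Agent.R197.CertDefs

/-! R197: the cocycle with values in the binary icosahedral group. -/

set_option autoImplicit false

namespace Crest.Agent.R197

open scoped Quaternion

namespace Cert

/-- Quaternions over `ℤ[√5]`. -/
structure Q5 where
  a : ℤ
  a' : ℤ
  b : ℤ
  b' : ℤ
  c : ℤ
  c' : ℤ
  d : ℤ
  d' : ℤ
  deriving DecidableEq

def Q5.mul (p q : Q5) : Q5 where
  a := p.a * q.a + 5 * p.a' * q.a' - p.b * q.b - 5 * p.b' * q.b' - p.c * q.c - 5 * p.c' * q.c' -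
    p.d * q.d - 5 * p.d' * q.d'
  a' := p.a * q.a' + p.a' * q.a - p.b * q.b' - p.b' * q.b - p.c * q.c' - p.c' * q.c -
    p.d * q.d' - p.d' * q.d
  b := p.a * q.b + 5 * p.a' * q.b' + p.b * q.a + 5 * p.b' * q.a' + p.c * q.d + 5 * p.c' * q.d' -
    p.d * q.c - 5 * p.d' * q.c'
  b' := p.a * q.b' + p.a' * q.b + p.b * q.a' + p.b' * q.a + p.c * q.d' + p.c' * q.d -
    p.d * q.c' - p.d' * q.c
  c := p.a * q.c + 5 * p.a' * q.c' - p.b * q.d - 5 * p.b' * q.d' + p.c * q.a + 5 * p.c' * q.a' +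
    p.d * q.b + 5 * p.d' * q.b'
  c' := p.a * q.c' + p.a' * q.c - p.b * q.d' - p.b' * q.d + p.c * q.a' + p.c' * q.a +
    p.d * q.b' + p.d' * q.b
  d := p.a * q.d + 5 * p.a' * q.d' + p.b * q.c + 5 * p.b' * q.c' - p.c * q.b - 5 * p.c' * q.b' +
    p.d * q.a + 5 * p.d' * q.a'
  d' := p.a * q.d' + p.a' * q.d + p.b * q.c' + p.b' * q.c - p.c * q.b' - p.c' * q.b +
    p.d * q.a' + p.d' * q.a

def Q5.four (p : Q5) : Q5 := ⟨4 * p.a, 4 * p.a', 4 * p.b, 4 * p.b', 4 * p.c, 4 * p.c', 4 * p.d, 4 * p.d'⟩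

noncomputable def Q5.toH (p : Q5) : ℍ[ℝ] :=
  ⟨(p.a + p.a' * √5) / 4, (p.b + p.b' * √5) / 4, (p.c + p.c' * √5) / 4, (p.d + p.d' * √5) / 4⟩

theorem sq5 : √5 * √5 = (5 : ℝ) := Real.mul_self_sqrt (by norm_num)

theorem toH_mul {p q r : Q5} (h : p.mul q = r.four) : p.toH * q.toH = r.toH := by
  simp only [Q5.mul, Q5.four, Q5.mk.injEq] at h
  obtain ⟨h1, h2, h3, h4, h5, h6, h7, h8⟩ := h
  have e1 := congrArg (Int.cast : ℤ → ℝ) h1
  have e2 := congrArg (Int.cast : ℤ → ℝ) h2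
  have e3 := congrArg (Int.cast : ℤ → ℝ) h3
  have e4 := congrArg (Int.cast : ℤ → ℝ) h4
  have e5 := congrArg (Int.cast : ℤ → ℝ) h5
  have e6 := congrArg (Int.cast : ℤ → ℝ) h6
  have e7 := congrArg (Int.cast : ℤ → ℝ) h7
  have e8 := congrArg (Int.cast : ℤ → ℝ) h8
  push_cast at e1 e2 e3 e4 e5 e6 e7 e8
  ext
  · rw [Quaternion.re_mul]
    simp only [Q5.toH]
    linear_combination e1 / 16 + √5 * e2 / 16 +
      (p.a' * q.a' - p.b' * q.b' - p.c' * q.c' - p.d' * q.d') * sq5 / 16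
  · rw [Quaternion.imI_mul]
    simp only [Q5.toH]
    linear_combination e3 / 16 + √5 * e4 / 16 +
      (p.a' * q.b' + p.b' * q.a' + p.c' * q.d' - p.d' * q.c') * sq5 / 16
  · rw [Quaternion.imJ_mul]
    simp only [Q5.toH]
    linear_combination e5 / 16 + √5 * e6 / 16 +
      (p.a' * q.c' - p.b' * q.d' + p.c' * q.a' + p.d' * q.b') * sq5 / 16
  · rw [Quaternion.imK_mul]
    simp only [Q5.toH]
    linear_combination e7 / 16 + √5 * e8 / 16 +
      (p.a' * q.d' + p.b' * q.c' - p.c' * q.b' + p.d' * q.a') * sq5 / 16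

def Q5.conj (p : Q5) : Q5 := ⟨p.a, p.a', -p.b, -p.b', -p.c, -p.c', -p.d, -p.d'⟩

def one5 : Q5 := ⟨4, 0, 0, 0, 0, 0, 0, 0⟩

theorem toH_one : one5.toH = 1 := by
  ext <;> simp [Q5.toH, one5]

theorem toH_conj (p : Q5) : p.conj.toH = star p.toH := by
  ext
  · rw [Quaternion.re_star]; rfl
  · rw [Quaternion.imI_star]; simp only [Q5.toH, Q5.conj]; push_cast; ring
  · rw [Quaternion.imJ_star]; simp only [Q5.toH, Q5.conj]; push_cast; ring
  · rw [Quaternion.imK_star]; simp only [Q5.toH, Q5.conj]; push_cast; ring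

theorem norm_toH {p : Q5} (h : p.mul p.conj = one5.four) : ‖p.toH‖ = 1 := by
  have h1 := toH_mul h
  rw [toH_conj, toH_one] at h1
  have h2 := congrArg norm h1
  rw [norm_mul, norm_star, norm_one] at h2
  exact (mul_self_eq_one_iff.1 h2).resolve_right (by linarith [norm_nonneg p.toH])

def cq (u v : Fin 21) : Q5 :=
  match cvals.getD ((ctab.getD u []).getD v 0) [] with
  | [a, a', b, b', c, c', d, d'] => ⟨a, a', b, b', c, c', d, d'⟩
  | _ => one5

theorem cq_norm : ∀ u v, (cq u v).mul (cq u v).conj = one5.four := by decide +kernel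

theorem cq_refl : ∀ u, cq u u = one5 := by decide +kernel

theorem cq_mul : ∀ u v, (u = v ∨ L21.Adj u v) → ∀ w, (v = w ∨ L21.Adj v w) →
    (u = w ∨ L21.Adj u w) → (cq u v).mul (cq v w) = (cq u w).four := by decide +kernel

theorem cq_re : ∀ u v, 0 ≤ (cq u v).a ∧ 0 ≤ (cq u v).a' := by decide +kernel

noncomputable def cS (u v : Fin 21) : S3 :=
  ⟨(cq u v).toH, by simpa using norm_toH (cq_norm u v)⟩

end Cert

open Cert in
/-- The cocycle. -/
noncomputable def coc21 : Coc L21 where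
  c := cS
  refl u := Subtype.ext (by simp [cS, cq_refl, toH_one])
  mul u v w h1 h2 h3 := Subtype.ext (toH_mul (cq_mul u v h1 w h2 h3))
  re u v _ := by
    obtain ⟨h1, h2⟩ := cq_re u v
    have h1' : (0 : ℝ) ≤ (cq u v).a := by exact_mod_cast h1
    have h2' : (0 : ℝ) ≤ (cq u v).a' := by exact_mod_cast h2
    simp only [cS, Q5.toH]
    positivity
  v0 := 0
  loop := .cons (v := 6) (by decide +kernel) (.cons (v := 1) (by decide +kernel)
    (.cons (v := 8) (by decide +kernel) (.cons (by decide +kernel) .nil)))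
  hol := by
    intro h
    have h1 : (cq 0 6).toH * ((cq 6 1).toH * ((cq 1 8).toH * (cq 8 0).toH)) = 1 := by
      simpa [cS] using congrArg Subtype.val h
    rw [show cq 0 6 = one5 by decide +kernel, show cq 6 1 = one5 by decide +kernel,
      show cq 8 0 = one5 by decide +kernel,
      show cq 1 8 = ⟨1, 1, 0, 0, -2, 0, -1, 1⟩ by decide +kernel, toH_one, one_mul, one_mul,
      mul_one] at h1
    have h2 := congrArg QuaternionAlgebra.imJ h1
    rw [Quaternion.imJ_one] at h2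
    norm_num [Q5.toH] at h2

end Crest.Agent.R197
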