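import Crest.Agent.R197.RADefs

/-! R197: the cube chain complex; a filtration lemma.

`dC_dC`: on a cell `(g, σ)` the terms for `(u, v)` and `(v, u)` cancel (`Finset.sum_involution` on
`σ.offDiag`, or `sum_comm`): `sg v σ * sg u (σ.erase v) = - sg u σ * sg v (σ.erase u)` for `u ≠ v` in `σ`,
`gen u`, `gen v` commute, `erase` commutes.
`filt`: let `k'` be `k` on cells of level `> t` and `0` on the others, `N = id - d k' - k' d`.  On a cell
of level `> t`, `N b = - d1 (k b) - k' (d1 b)` has smaller levels; on the other cells `N b = b`.  Induct on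
`m` for `c` supported on levels `≤ t + m`: `c - d (k' c) = N c` as `k' (d c) = 0`.
`deg_proj`: `dC` maps cells of degree `m + 1` to chains of degree `m` and cells of degree `0` to `0`, so
`(dC e).filter (deg = n) = dC (e.filter (deg = n + 1))`. -/

set_option autoImplicit false

namespace Crest.Agent.R197

open Finsupp

variable {V : Type} [LinearOrder V] {L : SimpleGraph V}

theorem sg_mul_sg_erase {u v : V} {σ : Finset V} (hu : u ∈ σ) (hv : v ∈ σ) (huv : u ≠ v) :
    sg v σ * sg u (σ.erase v) = -(sg u σ * sg v (σ.erase u)) := by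
  have key : ∀ {u v : V}, u ∈ σ → u < v →
      sg v σ = -sg v (σ.erase u) ∧ sg u (σ.erase v) = sg u σ := by
    intro u v hu h
    unfold sg
    constructor
    · rw [Finset.filter_erase, ← Finset.card_erase_add_one (a := u) (s := σ.filter (· < v))
        (Finset.mem_filter.2 ⟨hu, h⟩), pow_succ]
      ring
    · rw [Finset.filter_erase, Finset.erase_eq_of_notMem]
      simp [h.le]
  rcases lt_or_gt_of_ne huv with h | h
  · obtain ⟨h1, h2⟩ := key hu h
    rw [h1, h2]; ring
  · obtain ⟨h1, h2⟩ := key hv h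
    rw [h1, h2]; ring

theorem sg_mul_self (v : V) (σ : Finset V) : sg v σ * sg v σ = 1 := by
  unfold sg
  rw [← mul_pow]; simp

theorem dC_single (g : RA L) (σ : Cl L) : dC L (single (g, σ) 1) = ∑ v ∈ σ.1, sg v σ.1 •
    (single (g * gen L v, σ.erase v) (1 : ℤ) - single (g, σ.erase v) 1) := by
  simp [dC]

theorem chb_antisymm {B : Type} (σ : Finset V) (f : V → V → B →₀ ℤ)
    (h : ∀ u ∈ σ, ∀ v ∈ σ, u ≠ v → f v u = -f u v) : ∑ v ∈ σ, ∑ u ∈ σ.erase v, f v u = 0 := by
  have h1 : ∑ v ∈ σ, ∑ u ∈ σ.erase v, f v u = ∑ u ∈ σ, ∑ v ∈ σ.erase u, f v u :=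
    Finset.sum_comm' fun v u => by
      simp only [Finset.mem_erase]
      tauto
  have h2 : ∑ u ∈ σ, ∑ v ∈ σ.erase u, f v u = -∑ v ∈ σ, ∑ u ∈ σ.erase v, f v u := by
    rw [← Finset.sum_neg_distrib]
    refine Finset.sum_congr rfl fun u hu => ?_
    rw [← Finset.sum_neg_distrib]
    refine Finset.sum_congr rfl fun v hv => ?_
    exact h u hu v (Finset.mem_of_mem_erase hv) (Finset.ne_of_mem_erase hv).symm
  rw [h2] at h1
  ext b
  have := DFunLike.congr_fun h1 b
  rw [Finsupp.neg_apply] at this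
  rw [Finsupp.zero_apply]
  omega

theorem chb_supp {B : Type} (f : (B →₀ ℤ) →ₗ[ℤ] (B →₀ ℤ)) {A A' : Set B}
    (h : ∀ b ∈ A, ∀ b' ∈ (f (single b 1)).support, b' ∈ A') :
    ∀ c ∈ supported ℤ ℤ A, f c ∈ supported ℤ ℤ A' := by
  have : supported ℤ ℤ A ≤ (supported ℤ ℤ A').comap f := by
    rw [supported_eq_span_single, Submodule.span_le]
    rintro _ ⟨b, hb, rfl⟩
    exact h b hb
  exact fun c hc => this hc

theorem chb_deg (b : RA L × Cl L) :
    ∀ b' ∈ (dC L (single b 1)).support, b'.2.1.card + 1 = b.2.1.card := by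
  have : dC L (single b 1) ∈ supported ℤ ℤ {b' | b'.2.1.card + 1 = b.2.1.card} := by
    rw [dC_single b.1 b.2]
    refine Submodule.sum_mem _ fun v hv => Submodule.smul_mem _ _ (sub_mem ?_ ?_) <;>
      exact single_mem_supported _ _ (Finset.card_erase_add_one hv)
  exact this

theorem dC_dC (c : RA L × Cl L →₀ ℤ) : dC L (dC L c) = 0 := by
  have key : ∀ (g : RA L) (σ : Cl L), dC L (dC L (single (g, σ) 1)) = 0 := by
    intro g σ
    rw [dC_single, map_sum]
    simp only [map_smul, map_sub, dC_single, ← Finset.sum_sub_distrib, ← smul_sub, Finset.smul_sum,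
      smul_smul]
    refine chb_antisymm σ.1 _ fun u hu v hv huv => ?_
    have h1 : (σ.erase v).erase u = (σ.erase u).erase v := Subtype.ext Finset.erase_right_comm
    have h2 : g * gen L v * gen L u = g * gen L u * gen L v := by
      rw [mul_assoc, mul_assoc, (gen_comm (σ.2 hu hv huv)).eq]
    have h3 := sg_mul_sg_erase hu hv huv
    show (sg v σ.1 * sg u (σ.1.erase v)) • _ = -((sg u σ.1 * sg v (σ.1.erase u)) • _)
    rw [h1, h2, h3, neg_smul]
    congr 2
    abel
  induction c using Finsupp.induction_linear with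
  | zero => simp
  | add a b ha hb => rw [map_add, map_add, ha, hb, add_zero]
  | single b r =>
    rw [← mul_one r, ← smul_eq_mul, ← smul_single, map_smul, map_smul, key b.1 b.2, smul_zero]

theorem filt {B : Type} (d0 d1 k : (B →₀ ℤ) →ₗ[ℤ] (B →₀ ℤ)) (lev : B → ℤ) (t : ℤ)
    (hd : ∀ c, (d0 + d1) ((d0 + d1) c) = 0)
    (h0 : ∀ b, ∀ b' ∈ (d0 (single b 1)).support, lev b' = lev b)
    (h1 : ∀ b, ∀ b' ∈ (d1 (single b 1)).support, lev b' < lev b)
    (hk : ∀ b, ∀ b' ∈ (k (single b 1)).support, lev b' = lev b)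
    (hh : ∀ b, t < lev b → d0 (k (single b 1)) + k (d0 (single b 1)) = single b 1)
    (c : B →₀ ℤ) (hc : ∀ b ∈ ((d0 + d1) c).support, lev b ≤ t) :
    ∃ e, ∀ b ∈ (c - (d0 + d1) e).support, lev b ≤ t := by
  classical
  have main : ∀ (m : ℕ) (c : B →₀ ℤ), c ∈ supported ℤ ℤ {b | lev b ≤ t + m} →
      (d0 + d1) c ∈ supported ℤ ℤ {b | lev b ≤ t} →
      ∃ e, c - (d0 + d1) e ∈ supported ℤ ℤ {b | lev b ≤ t} := by
    intro m
    induction m with
    | zero => exact fun c h _ => ⟨0, by simpa using h⟩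
    | succ m ih =>
      intro c hc hdc
      obtain ⟨a, ha, hca⟩ : ∃ a ∈ supported ℤ ℤ {b | lev b = t + m + 1},
          c - a ∈ supported ℤ ℤ {b | lev b ≤ t + m} := by
        refine ⟨c.filter fun b => lev b = t + m + 1, fun b hb => ?_, fun b hb => ?_⟩
        · simp only [support_filter, Finset.coe_filter] at hb
          exact hb.2
        · have hb' : (c - c.filter fun b => lev b = t + m + 1) b ≠ 0 := mem_support_iff.1 hb
          rw [Finsupp.sub_apply, filter_apply] at hb'
          split_ifs at hb' with h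
          · simp at hb'
          · have h2 : lev b ≤ t + ((m + 1 : ℕ) : ℤ) := hc (mem_support_iff.2 (by simpa using hb'))
            show lev b ≤ t + m
            push_cast at h2
            omega
      have e0 : ∀ x ∈ supported ℤ ℤ {b | lev b ≤ t + m}, d0 x ∈ supported ℤ ℤ {b | lev b ≤ t + m} :=
        chb_supp d0 fun b hb b' hb' => (h0 b b' hb').le.trans hb
      have e1 : ∀ x ∈ supported ℤ ℤ {b | lev b ≤ t + m + 1},
          d1 x ∈ supported ℤ ℤ {b | lev b ≤ t + m} :=
        chb_supp d1 fun b hb b' hb' => Int.lt_add_one_iff.1 ((h1 b b' hb').trans_le hb)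
      have m1 : supported ℤ ℤ {b | lev b = t + m + 1} ≤ supported ℤ ℤ {b | lev b ≤ t + m + 1} :=
        supported_mono fun b hb => le_of_eq hb
      have m2 : supported ℤ ℤ {b | lev b ≤ t + m} ≤ supported ℤ ℤ {b | lev b ≤ t + m + 1} :=
        supported_mono fun b (hb : lev b ≤ t + m) => show lev b ≤ t + m + 1 by omega
      have m3 : supported ℤ ℤ {b | lev b ≤ t} ≤ supported ℤ ℤ {b | lev b ≤ t + m} :=
        supported_mono fun b (hb : lev b ≤ t) => show lev b ≤ t + m by omega
      have a1 : d0 a ∈ supported ℤ ℤ {b | lev b = t + m + 1} :=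
        chb_supp d0 (fun b hb b' hb' => (h0 b b' hb').trans hb) a ha
      have a2 : d0 a ∈ supported ℤ ℤ {b | lev b ≤ t + m} := by
        have : d0 a = (d0 + d1) c - d0 (c - a) - d1 (c - a) - d1 a := by
          simp only [LinearMap.add_apply, map_sub]; abel
        rw [this]
        exact sub_mem (sub_mem (sub_mem (m3 hdc) (e0 _ hca)) (e1 _ (m2 hca))) (e1 _ (m1 ha))
      have a3 : d0 a = 0 := by
        ext b
        by_contra hb
        have x1 : lev b = t + m + 1 := a1 (mem_support_iff.2 hb)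
        have x2 : lev b ≤ t + m := a2 (mem_support_iff.2 hb)
        omega
      have a4 : d0 (k a) + k (d0 a) = a := by
        have : supported ℤ ℤ {b | lev b = t + m + 1} ≤
            LinearMap.eqLocus (d0 ∘ₗ k + k ∘ₗ d0) LinearMap.id := by
          rw [supported_eq_span_single, Submodule.span_le]
          rintro _ ⟨b, hb, rfl⟩
          have hb' : lev b = t + m + 1 := hb
          exact hh b (by omega)
        exact this ha
      rw [a3, map_zero, add_zero] at a4
      have a5 : k a ∈ supported ℤ ℤ {b | lev b = t + m + 1} :=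
        chb_supp k (fun b hb b' hb' => (hk b b' hb').trans hb) a ha
      obtain ⟨e, he⟩ := ih (c - (d0 + d1) (k a)) (by
        rw [LinearMap.add_apply, a4, ← sub_sub]
        exact sub_mem hca (e1 _ (m1 a5))) (by rw [map_sub, hd, sub_zero]; exact hdc)
      exact ⟨k a + e, by rw [map_add, ← sub_sub]; exact he⟩
  obtain ⟨m, hm⟩ : ∃ m : ℕ, ∀ b ∈ c.support, lev b ≤ t + m :=
    ⟨c.support.sup fun b => (lev b - t).toNat, fun b hb => by
      have := Finset.le_sup (f := fun b => (lev b - t).toNat) hb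
      omega⟩
  exact main m c hm hc

theorem deg_proj (P : RA L × Cl L → Prop) (n : ℕ) (c e : RA L × Cl L →₀ ℤ)
    (hc : ∀ b ∈ c.support, b.2.1.card = n) (he : ∀ b ∈ (c - dC L e).support, P b) :
    ∃ e' : RA L × Cl L →₀ ℤ, (∀ b ∈ e'.support, b.2.1.card = n + 1) ∧
      ∀ b ∈ (c - dC L e').support, P b ∧ b.2.1.card = n := by
  classical
  have h1 : e.filter (fun b => b.2.1.card = n + 1) ∈ supported ℤ ℤ {b | b.2.1.card = n + 1} := by
    intro b hb
    simp only [support_filter, Finset.coe_filter] at hb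
    exact hb.2
  have h2 : e.filter (fun b => ¬ b.2.1.card = n + 1) ∈
      supported ℤ ℤ {b | ¬ b.2.1.card = n + 1} := by
    intro b hb
    simp only [support_filter, Finset.coe_filter] at hb
    exact hb.2
  have h3 : dC L (e.filter fun b => b.2.1.card = n + 1) ∈ supported ℤ ℤ {b | b.2.1.card = n} :=
    chb_supp (dC L) (fun b hb b' hb' => by
      have x1 := chb_deg b b' hb'
      have x2 : b.2.1.card = n + 1 := hb
      show b'.2.1.card = n
      omega) _ h1
  have h4 : dC L (e.filter fun b => ¬ b.2.1.card = n + 1) ∈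
      supported ℤ ℤ {b | ¬ b.2.1.card = n} :=
    chb_supp (dC L) (fun b hb b' hb' => by
      have x1 := chb_deg b b' hb'
      have x2 : ¬ b.2.1.card = n + 1 := hb
      show ¬ b'.2.1.card = n
      omega) _ h2
  refine ⟨e.filter fun b => b.2.1.card = n + 1, h1, fun b hb => ?_⟩
  have h5 : b.2.1.card = n := (sub_mem (show c ∈ supported ℤ ℤ {b | b.2.1.card = n} from hc) h3) hb
  refine ⟨he b ?_, h5⟩
  have h6 : dC L (e.filter fun b => ¬ b.2.1.card = n + 1) b = 0 := by
    by_contra h
    exact h4 (mem_support_iff.2 h) h5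
  rw [mem_support_iff] at hb ⊢
  rw [← filter_add_filter_not e fun b => b.2.1.card = n + 1, map_add]
  simpa [h6] using hb

end Crest.Agent.R197
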