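import Crest.Agent.R197.ChLen

/-! R197: the parts of the cube complex below and above level zero are acyclic.

Let `k` be the contraction of `Acyc`.  Let `d` come from `cube_exact` for `c` (degree `n + 1`).
`below_exact`: `filt` with `lev (g, σ) = htz g + card σ`, `t = 0`, `d0 (g, σ) = ∑ v, sg • (g * gen v, σ.erase v)`,
`d1 = -∑ v, sg • (g, σ.erase v)`.  With `T a : (Cl L →₀ ℤ) →ₗ (RA L × Cl L →₀ ℤ)`,
`σ ↦ (a * (pr σ)⁻¹, σ)` one has `d0 ∘ T a = T a ∘ dL` (`pr_erase`), and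
`K (g, σ) = T (g * pr σ) (k σ)` satisfies `K ∘ T a = T a ∘ k`.  `filt` gives `e` with `d - dC e` of level
`≤ 0`; `deg_proj` at degree `n + 1` gives `e'`, and `d - dC e'` is the answer (`dC_dC`).
`above_exact`: `lev (g, σ) = - htz g`, `d0 (g, σ) = -∑ v, sg • (g, σ.erase v)`, `T a σ = (a, σ)`,
`K (g, σ) = - T g (k σ)`. -/

set_option autoImplicit false

namespace Crest.Agent.R197

open Finsupp

variable {V : Type} [LinearOrder V] {L : SimpleGraph V}

theorem chht_gen (hL : Acyc L) (φ : RA L → Cl L → RA L) (α : RA L × Cl L → RA L)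
    (h1 : ∀ b, φ (α b) b.2 = b.1) (h2 : ∀ a σ, α (φ a σ, σ) = a) (ε : ℤ) (hε : ε * ε = 1)
    (l : RA L → ℤ)
    (hd1 : ∀ b : RA L × Cl L, ∀ b' ∈ (dC L (single b 1) - ε • ∑ v ∈ b.2.1, sg v b.2.1 •
      single (φ (α b) (b.2.erase v), b.2.erase v) (1 : ℤ)).support, l (α b') < l (α b))
    {n : ℕ} (hn : 1 ≤ n) (c : RA L × Cl L →₀ ℤ)
    (hc : ∀ b ∈ c.support, b.2.1.card = n ∧ l (α b) ≤ 0) (hd : dC L c = 0) :
    ∃ e : RA L × Cl L →₀ ℤ,
      (∀ b ∈ e.support, b.2.1.card = n + 1 ∧ l (α b) ≤ 0) ∧ dC L e = c := by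
  classical
  obtain ⟨k, hk⟩ := hL
  obtain ⟨d, hd0, hdc⟩ := cube_exact hn c (fun b hb => (hc b hb).1) hd
  let T : RA L → (Cl L →₀ ℤ) →ₗ[ℤ] (RA L × Cl L →₀ ℤ) := fun a =>
    lmapDomain ℤ ℤ fun σ => (φ a σ, σ)
  let U : ((Cl L →₀ ℤ) →ₗ[ℤ] (Cl L →₀ ℤ)) → (RA L × Cl L →₀ ℤ) →ₗ[ℤ] (RA L × Cl L →₀ ℤ) :=
    fun f => linearCombination ℤ fun b => ε • T (α b) (f (single b.2 1))
  have hT : ∀ a σ, T a (single σ 1) = single (φ a σ, σ) 1 := fun a σ => by
    simp only [T, lmapDomain_apply, mapDomain_single]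
  have hU : ∀ f b, U f (single b 1) = ε • T (α b) (f (single b.2 1)) := fun f b => by
    simp only [U, linearCombination_single, one_smul]
  have hUT : ∀ f a x, U f (T a x) = ε • T a (f x) := by
    intro f a x
    have : U f ∘ₗ T a = ε • (T a ∘ₗ f) := by
      refine Finsupp.lhom_ext' fun σ => LinearMap.ext_ring ?_
      simp only [LinearMap.comp_apply, lsingle_apply, LinearMap.smul_apply, hT, hU, h2]
    exact LinearMap.congr_fun this x
  have hsupp : ∀ f b, ∀ b' ∈ (U f (single b 1)).support, l (α b') = l (α b) := by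
    intro f b b' hb'
    rw [hU] at hb'
    have := mapDomain_support (support_smul hb')
    obtain ⟨σ, -, rfl⟩ := Finset.mem_image.1 this
    rw [h2]
  have hsum : U (dL L) + (dC L - U (dL L)) = dC L := add_sub_cancel _ _
  obtain ⟨e, he⟩ := filt (U (dL L)) (dC L - U (dL L)) (U k) (fun b => l (α b)) 0
    (fun c => by rw [hsum, dC_dC]) (hsupp _) (fun b b' hb' => by
      refine hd1 b b' ?_
      rw [LinearMap.sub_apply, hU] at hb'
      simpa only [dL, linearCombination_single, one_smul, map_sum, map_smul, hT] using hb')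
    (hsupp _) (fun b _ => by
      rw [hU, hU, map_smul, map_smul, hUT, hUT, smul_smul, smul_smul, hε, one_smul, one_smul,
        ← map_add, hk, hT, h1])
    d (fun b hb => by
      rw [hsum, hdc] at hb
      exact (hc b hb).2)
  rw [hsum] at he
  obtain ⟨e', -, he'⟩ := deg_proj (fun b => l (α b) ≤ 0) (n + 1) d e hd0 he
  exact ⟨d - dC L e', fun b hb => (he' b hb).symm, by rw [map_sub, dC_dC, sub_zero, hdc]⟩

omit [LinearOrder V] in
theorem chht_supp {B : Type} {s : Finset V} {f : V → B} {a : V → ℤ} {b : B}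
    (h : b ∈ (∑ v ∈ s, a v • single (f v) (1 : ℤ)).support) : ∃ v ∈ s, b = f v := by
  classical
  obtain ⟨v, hv, hb⟩ := Finset.mem_biUnion.1 (support_finsetSum h)
  exact ⟨v, hv, Finset.mem_singleton.1 (support_single_subset (support_smul hb))⟩

theorem below_exact (hL : Acyc L) {n : ℕ} (hn : 1 ≤ n) (c : RA L × Cl L →₀ ℤ)
    (hc : ∀ b ∈ c.support, b.2.1.card = n ∧ htz b.1 + b.2.1.card ≤ 0) (hd : dC L c = 0) :
    ∃ e : RA L × Cl L →₀ ℤ,
      (∀ b ∈ e.support, b.2.1.card = n + 1 ∧ htz b.1 + b.2.1.card ≤ 0) ∧ dC L e = c := by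
  have := chht_gen hL (fun a σ => a * (pr L σ.1)⁻¹) (fun b => b.1 * pr L b.2.1)
    (fun b => by simp) (fun a σ => by simp) 1 (one_mul 1) htz ?_ hn c (by simpa using hc) hd
  · simpa using this
  · rintro ⟨g, σ⟩ b' hb'
    have e : ∑ v ∈ σ.1, sg v σ.1 • single (g * pr L σ.1 * (pr L (σ.erase v).1)⁻¹, σ.erase v) (1 : ℤ)
        = ∑ v ∈ σ.1, sg v σ.1 • single (g * gen L v, σ.erase v) (1 : ℤ) := by
      refine Finset.sum_congr rfl fun v hv => ?_
      rw [← pr_erase σ.2 hv, ← mul_assoc]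
      simp [Cl.erase]
    simp only at hb'
    rw [e, dC_single, one_smul, ← Finset.sum_sub_distrib] at hb'
    simp only [smul_sub, sub_sub_cancel_left, Finset.sum_neg_distrib, support_neg] at hb'
    obtain ⟨v, hv, rfl⟩ := chht_supp hb'
    have := Finset.card_erase_lt_of_mem hv
    simpa [Cl.erase] using this

theorem above_exact (hL : Acyc L) {n : ℕ} (hn : 1 ≤ n) (c : RA L × Cl L →₀ ℤ)
    (hc : ∀ b ∈ c.support, b.2.1.card = n ∧ 0 ≤ htz b.1) (hd : dC L c = 0) :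
    ∃ e : RA L × Cl L →₀ ℤ,
      (∀ b ∈ e.support, b.2.1.card = n + 1 ∧ 0 ≤ htz b.1) ∧ dC L e = c := by
  have := chht_gen hL (fun a _ => a) (fun b => b.1) (fun b => rfl) (fun a σ => rfl) (-1)
    (by norm_num) (fun g => -htz g) ?_ hn c (by simpa using hc) hd
  · simpa using this
  · rintro ⟨g, σ⟩ b' hb'
    simp only at hb'
    rw [dC_single, neg_smul, one_smul, sub_neg_eq_add, ← Finset.sum_add_distrib] at hb'
    simp only [smul_sub, sub_add_cancel] at hb'
    obtain ⟨v, hv, rfl⟩ := chht_supp hb'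
    simp

end Crest.Agent.R197
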