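import Crest.Agent.R197.ChBasic
import Crest.Agent.R197.Cube

/-! R197: the cube complex is acyclic.

Apply `filt` with `lev (g, σ) = len (apex g σ)`, `t = 0`.  For `v ∈ σ` let `near` be the face
`(g * gen v, σ.erase v)` if `v ∈ asc g σ` and `(g, σ.erase v)` otherwise; it has the same apex
(`sep_injective`, `mem_sep_apex`), the opposite face has an apex of smaller length.  `d0` is the sum of
the near faces with their signs in `dC`, `d1` the rest.  For `a ≠ 1` fix a descent `s₀ a = (v₀, b₀)`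
(`exists_desc`).  `k (g, σ) = 0` if `a = apex g σ` is `1` or `v₀ ∈ σ`; otherwise `insert v₀ σ` is a clique
(`wl_apex`, `desc_adj`) and `k (g, σ) = ε * sg v₀ (insert v₀ σ) • single (g', insert v₀ σ)` with
`(g', ε) = (g, -1)` if `b₀ = true`, `(g * (gen v₀)⁻¹, 1)` if `b₀ = false`.  A cleaner way to organise the
identity `d0 k + k d0 = id`: cubes with apex `a` are `cub a τ = (a * (pr (τ.filter (desc letter is
false)))⁻¹, τ)` for `τ ⊆` the set of descent directions of `a`, and `d0 (cub a τ) =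
∑ v ∈ τ, ε a v * sg v τ • cub a (τ.erase v)`; use `sg_mul_sg_erase`, `sg_mul_self`.
Finally `deg_proj`: a cube of level `0` has `σ = ∅` (`mem_sep_apex`). -/

set_option autoImplicit false

namespace Crest.Agent.R197

open Finsupp

variable {V : Type} [LinearOrder V] {L : SimpleGraph V}

namespace ChLen

/-- The cube with apex `a` and directions `τ`. -/
noncomputable def cub (a : RA L) (τ : Cl L) : RA L × Cl L :=
  (a * (pr L (τ.1.filter fun v => wl a (v, false) ∈ sep a))⁻¹, τ)

/-- The sign of the near face. -/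
noncomputable def eps (a : RA L) (v : V) : ℤ := if wl a (v, false) ∈ sep a then 1 else -1

/-- All directions of `τ` are descents of `a`. -/
def Desc (a : RA L) (τ : Finset V) : Prop := ∀ v ∈ τ, ∃ b, wl a (v, b) ∈ sep a

/-- The apex of a cube. -/
noncomputable def ap (b : RA L × Cl L) : RA L := apex b.1 b.2.1

omit [LinearOrder V] in
theorem eps_mul_self (a : RA L) (v : V) : eps a v * eps a v = 1 := by
  unfold eps; split_ifs <;> simp

omit [LinearOrder V] in
theorem wl_ne {g g' : RA L} {u v : V} {b b' : Bool} (h : u ≠ v) : wl g (u, b) ≠ wl g' (v, b') :=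
  fun e => h (congrArg Sigma.fst e)

theorem mem_sep_ap {σ : Finset V} (h : L.IsClique (σ : Set V)) (g : RA L) {v : V} (hv : v ∈ σ) :
    wl g (v, true) ∈ sep (apex g σ) := (mem_sep_apex h g _).2 (Or.inr ⟨v, hv, rfl⟩)

theorem desc_ap (b : RA L × Cl L) : Desc (ap b) b.2.1 := fun v hv =>
  ⟨_, by rw [ap, wl_apex b.2.2 b.1 hv]; exact mem_sep_ap b.2.2 b.1 hv⟩

theorem false_desc_iff {σ : Finset V} (h : L.IsClique (σ : Set V)) (g : RA L) {v : V}
    (hv : v ∈ σ) : wl (apex g σ) (v, false) ∈ sep (apex g σ) ↔ wl g (v, true) ∉ sep g := by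
  have h1 := wl_apex h g hv
  have h2 := mem_sep_ap h g hv
  constructor
  · intro h3 h4
    rw [decide_eq_true h4] at h1
    rw [← h1] at h2
    exact L.irrefl (desc_adj (s := (v, true)) (t := (v, false)) h2 h3 (by simp))
  · intro h3
    rw [decide_eq_false h3] at h1
    rwa [h1]

theorem cub_ap (b : RA L × Cl L) : cub (ap b) b.2 = b := by
  obtain ⟨g, σ⟩ := b
  refine Prod.ext ?_ rfl
  have : σ.1.filter (fun v => wl (apex g σ.1) (v, false) ∈ sep (apex g σ.1)) = asc g σ.1 :=
    Finset.filter_congr fun v hv => false_desc_iff σ.2 g hv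
  exact (congrArg (fun φ => apex g σ.1 * (pr L φ)⁻¹) this).trans (mul_inv_cancel_right _ _)

theorem ap_cub {a : RA L} {τ : Cl L} (h : Desc a τ.1) : ap (cub a τ) = a := by
  set φ := τ.1.filter fun v => wl a (v, false) ∈ sep a with hφ
  have hφc : L.IsClique (φ : Set V) := τ.2.subset (Finset.coe_subset.2 (Finset.filter_subset _ _))
  set g := a * (pr L φ)⁻¹ with hg
  have ha : a = g * pr L φ := by rw [hg, inv_mul_cancel_right]
  have : asc g τ.1 = φ := by
    refine Finset.filter_congr fun v hv => ?_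
    by_cases hf : wl a (v, false) ∈ sep a
    · have hvφ : v ∈ φ := Finset.mem_filter.2 ⟨hv, hf⟩
      refine iff_of_true ?_ hf
      have h1 := wl_mul_pr_of_mem hφc hvφ g
      rw [← ha] at h1
      rw [h1, ha, mem_sep_mul_pr hφc] at hf
      exact fun h2 => hf.1 h2 v hvφ rfl
    · refine iff_of_false (not_not.2 ?_) hf
      have hvφ : ∀ u ∈ φ, v ≠ u := fun u hu e => hf (e ▸ (Finset.mem_filter.1 hu).2)
      obtain ⟨b, hb⟩ := h v hv
      cases b
      · exact absurd hb hf
      · have h1 := wl_mul_pr (s := (v, true)) (τ := φ)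
          (fun u hu => τ.2 hv (Finset.mem_filter.1 hu).1 (hvφ u hu)) g
        rw [← ha] at h1
        rw [h1, ha, mem_sep_mul_pr hφc] at hb
        exact hb.2 fun u hu => wl_ne (hvφ u hu)
  change g * pr L (asc g τ.1) = a
  rw [this, ← ha]

theorem eq_cub {a : RA L} {b : RA L × Cl L} (h : ap b = a) : b = cub a b.2 := by
  rw [← h, cub_ap]

theorem mem_sep_face₀ (g : RA L) (σ : Cl L) (v : V) (W : Wall L) :
    W ∈ sep (ap (g, σ.erase v)) ↔ W ∈ sep g ∨ ∃ u ∈ σ.1, u ≠ v ∧ W = wl g (u, true) := by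
  rw [ap, mem_sep_apex (σ.erase v).2]
  simp only [Cl.erase, Finset.mem_erase]
  refine or_congr_right ⟨?_, ?_⟩
  · rintro ⟨u, ⟨h1, h2⟩, h3⟩; exact ⟨u, h2, h1, h3⟩
  · rintro ⟨u, h2, h1, h3⟩; exact ⟨u, ⟨h1, h2⟩, h3⟩

theorem mem_sep_face₁ (g : RA L) (σ : Cl L) {v : V} (hv : v ∈ σ.1) (W : Wall L) :
    W ∈ sep (ap (g * gen L v, σ.erase v)) ↔
      (W ∈ sep g ↔ W ≠ wl g (v, true)) ∨ ∃ u ∈ σ.1, u ≠ v ∧ W = wl g (u, true) := by
  rw [mem_sep_face₀, ← lt_true, mem_sep_mul_lt]
  refine or_congr_right (exists_congr fun u => and_congr_right fun hu => and_congr_right fun h => ?_)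
  rw [wl_mul_lt_of_adj (s := (u, true)) (t := (v, true)) (σ.2 hu hv h)]

theorem ap_face₀ {g : RA L} {σ : Cl L} {v : V} (h : wl g (v, true) ∈ sep g) :
    ap (g, σ.erase v) = ap (g, σ) := by
  refine sep_injective (Finset.ext fun W => ?_)
  rw [mem_sep_face₀, ap, mem_sep_apex σ.2]
  constructor
  · rintro (h1 | ⟨u, hu, -, h1⟩)
    · exact Or.inl h1
    · exact Or.inr ⟨u, hu, h1⟩
  · rintro (h1 | ⟨u, hu, h1⟩)
    · exact Or.inl h1
    · by_cases e : u = v
      · exact Or.inl (by rw [h1, e]; exact h)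
      · exact Or.inr ⟨u, hu, e, h1⟩

theorem ap_face₁ {g : RA L} {σ : Cl L} {v : V} (hv : v ∈ σ.1) (h : wl g (v, true) ∉ sep g) :
    ap (g * gen L v, σ.erase v) = ap (g, σ) := by
  refine sep_injective (Finset.ext fun W => ?_)
  rw [mem_sep_face₁ g σ hv, ap, mem_sep_apex σ.2]
  constructor
  · rintro (h1 | ⟨u, hu, -, h1⟩)
    · by_cases e : W = wl g (v, true)
      · exact Or.inr ⟨v, hv, e⟩
      · exact Or.inl (h1.2 e)
    · exact Or.inr ⟨u, hu, h1⟩
  · rintro (h1 | ⟨u, hu, h1⟩)
    · exact Or.inl (iff_of_true h1 fun e => h (e ▸ h1))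
    · by_cases e : u = v
      · exact Or.inl (iff_of_false (by rw [h1, e]; exact h) (by rw [h1, e]; simp))
      · exact Or.inr ⟨u, hu, e, h1⟩

theorem len_face₀ {g : RA L} {σ : Cl L} {v : V} (hv : v ∈ σ.1) (h : wl g (v, true) ∉ sep g) :
    len (ap (g, σ.erase v)) < len (ap (g, σ)) := by
  refine Finset.card_lt_card ⟨fun W hW => ?_, fun hs => ?_⟩
  · rw [ap, mem_sep_apex σ.2]
    rcases (mem_sep_face₀ g σ v W).1 hW with h1 | ⟨u, hu, -, h1⟩
    · exact Or.inl h1
    · exact Or.inr ⟨u, hu, h1⟩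
  · rcases (mem_sep_face₀ g σ v _).1 (hs (mem_sep_ap σ.2 g hv)) with h1 | ⟨u, -, e, h1⟩
    · exact h h1
    · exact wl_ne e h1.symm

theorem len_face₁ {g : RA L} {σ : Cl L} {v : V} (hv : v ∈ σ.1) (h : wl g (v, true) ∈ sep g) :
    len (ap (g * gen L v, σ.erase v)) < len (ap (g, σ)) := by
  refine Finset.card_lt_card ⟨fun W hW => ?_, fun hs => ?_⟩
  · rw [ap, mem_sep_apex σ.2]
    rcases (mem_sep_face₁ g σ hv W).1 hW with h1 | ⟨u, hu, -, h1⟩
    · by_cases e : W = wl g (v, true)
      · exact Or.inr ⟨v, hv, e⟩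
      · exact Or.inl (h1.2 e)
    · exact Or.inr ⟨u, hu, h1⟩
  · rcases (mem_sep_face₁ g σ hv _).1 (hs (mem_sep_ap σ.2 g hv)) with h1 | ⟨u, -, e, h1⟩
    · exact h1.1 h rfl
    · exact wl_ne e h1.symm

/-- The face of smaller level. -/
noncomputable def far (b : RA L × Cl L) (v : V) : RA L × Cl L :=
  if wl b.1 (v, true) ∈ sep b.1 then (b.1 * gen L v, b.2.erase v) else (b.1, b.2.erase v)

theorem len_far {b : RA L × Cl L} {v : V} (hv : v ∈ b.2.1) : len (ap (far b v)) < len (ap b) := by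
  unfold far
  split_ifs with h
  · exact len_face₁ hv h
  · exact len_face₀ hv h

theorem face_eq {b : RA L × Cl L} {v : V} (hv : v ∈ b.2.1) :
    (single (b.1 * gen L v, b.2.erase v) (1 : ℤ) - single (b.1, b.2.erase v) 1) =
      eps (ap b) v • single (cub (ap b) (b.2.erase v)) 1 - eps (ap b) v • single (far b v) 1 := by
  have h0 : wl (ap b) (v, false) ∈ sep (ap b) ↔ _ := false_desc_iff b.2.2 b.1 hv
  unfold far eps
  by_cases h : wl b.1 (v, true) ∈ sep b.1
  · have h1 : (b.1, b.2.erase v) = cub (ap b) (b.2.erase v) := eq_cub (ap_face₀ h)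
    rw [if_neg (fun h2 => h0.1 h2 h), if_pos h, ← h1]
    simp only [neg_smul, one_smul]
    abel
  · have h1 : (b.1 * gen L v, b.2.erase v) = cub (ap b) (b.2.erase v) := eq_cub (ap_face₁ hv h)
    rw [if_pos (h0.2 h), if_neg h, ← h1, one_smul, one_smul]

/-- The level preserving part of the boundary on cubes with apex `a`. -/
noncomputable def dd0 (a : RA L) (σ : Cl L) : RA L × Cl L →₀ ℤ :=
  ∑ v ∈ σ.1, (sg v σ.1 * eps a v) • single (cub a (σ.erase v)) 1

variable (L) in
/-- The level preserving part of the boundary. -/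
noncomputable def d0 : (RA L × Cl L →₀ ℤ) →ₗ[ℤ] (RA L × Cl L →₀ ℤ) :=
  linearCombination ℤ fun b => dd0 (ap b) b.2

variable (L) in
/-- The level decreasing part of the boundary. -/
noncomputable def d1 : (RA L × Cl L →₀ ℤ) →ₗ[ℤ] (RA L × Cl L →₀ ℤ) :=
  linearCombination ℤ fun b => ∑ v ∈ b.2.1, (-(sg v b.2.1 * eps (ap b) v)) • single (far b v) 1

theorem d0_single (b : RA L × Cl L) : d0 L (single b 1) = dd0 (ap b) b.2 := by simp [d0]

theorem d1_single (b : RA L × Cl L) : d1 L (single b 1) =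
    ∑ v ∈ b.2.1, (-(sg v b.2.1 * eps (ap b) v)) • single (far b v) 1 := by
  rw [d1, linearCombination_single, one_smul]

theorem d0_add_d1 : d0 L + d1 L = dC L := by
  refine Finsupp.lhom_ext' fun b => LinearMap.ext_ring ?_
  simp only [LinearMap.comp_apply, lsingle_apply, LinearMap.add_apply]
  rw [d0_single, d1_single, dC_single, dd0, ← Finset.sum_add_distrib]
  refine Finset.sum_congr rfl fun v hv => ?_
  rw [face_eq hv, smul_sub, smul_smul, smul_smul, neg_smul, sub_eq_add_neg]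

open Classical in
/-- Insertion of a vertex into a clique. -/
noncomputable def ins (v : V) (σ : Cl L) : Cl L :=
  if h : L.IsClique (↑(insert v σ.1) : Set V) then ⟨insert v σ.1, h⟩ else σ

/-- The homotopy for a fixed descent direction `v`. -/
noncomputable def kv (a : RA L) (v : V) (σ : Cl L) : RA L × Cl L →₀ ℤ :=
  if v ∈ σ.1 then 0 else (sg v (insert v σ.1) * eps a v) • single (cub a (ins v σ)) 1

theorem kv_of_mem (a : RA L) {v : V} {σ : Cl L} (h : v ∈ σ.1) : kv a v σ = 0 := if_pos h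

theorem kv_of_notMem (a : RA L) {v : V} {σ : Cl L} (h : v ∉ σ.1) :
    kv a v σ = (sg v (insert v σ.1) * eps a v) • single (cub a (ins v σ)) 1 := if_neg h

/-- The homotopy on cubes with apex `a`. -/
noncomputable def kk (a : RA L) (σ : Cl L) : RA L × Cl L →₀ ℤ :=
  if h : a = 1 then 0 else kv a (exists_desc h).choose.1 σ

variable (L) in
/-- The homotopy. -/
noncomputable def k0 : (RA L × Cl L →₀ ℤ) →ₗ[ℤ] (RA L × Cl L →₀ ℤ) :=
  linearCombination ℤ fun b => kk (ap b) b.2

theorem k0_single (b : RA L × Cl L) : k0 L (single b 1) = kk (ap b) b.2 := by simp [k0]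

theorem ins_val {a : RA L} {s : V × Bool} (hs : wl a s ∈ sep a) {σ : Cl L} (h : Desc a σ.1) :
    (ins s.1 σ).1 = insert s.1 σ.1 := by
  have : L.IsClique (↑(insert s.1 σ.1) : Set V) := by
    rw [Finset.coe_insert]
    refine σ.2.insert fun u hu e => ?_
    obtain ⟨b, hb⟩ := h u hu
    exact desc_adj hs hb fun e' => e (congrArg Prod.fst e')
  exact congrArg Subtype.val (show ins s.1 σ = ⟨insert s.1 σ.1, this⟩ from dif_pos this)

theorem desc_ins {a : RA L} {s : V × Bool} (hs : wl a s ∈ sep a) {σ : Cl L} (h : Desc a σ.1) :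
    Desc a (ins s.1 σ).1 := by
  rw [ins_val hs h]
  intro u hu
  rcases Finset.mem_insert.1 hu with rfl | hu
  · exact ⟨s.2, hs⟩
  · exact h u hu

theorem desc_erase {a : RA L} {σ : Cl L} (h : Desc a σ.1) (v : V) : Desc a (σ.erase v).1 :=
  fun u hu => h u (Finset.mem_of_mem_erase hu)

theorem homotopy {a : RA L} (ha : a ≠ 1) {σ : Cl L} (h : Desc a σ.1) :
    d0 L (kk a σ) + k0 L (dd0 a σ) = single (cub a σ) 1 := by
  have hs := (exists_desc ha).choose_spec
  set s := (exists_desc ha).choose with hs0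
  have hkk : ∀ τ, kk a τ = kv a s.1 τ := fun τ => dif_neg ha
  have hk : k0 L (dd0 a σ) = ∑ v ∈ σ.1, (sg v σ.1 * eps a v) • kv a s.1 (σ.erase v) := by
    rw [dd0, map_sum]
    refine Finset.sum_congr rfl fun v _ => ?_
    rw [map_smul, k0_single, ap_cub (desc_erase h v), hkk]
    rfl
  rw [hk, hkk]
  by_cases hv : s.1 ∈ σ.1
  · rw [kv_of_mem a hv, map_zero, zero_add, Finset.sum_eq_single_of_mem s.1 hv]
    · have e1 : insert s.1 (σ.erase s.1).1 = σ.1 := Finset.insert_erase hv
      have e2 : ins s.1 (σ.erase s.1) = σ :=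
        Subtype.ext ((ins_val hs (desc_erase h _)).trans e1)
      rw [kv_of_notMem a (σ := σ.erase s.1) (Finset.notMem_erase _ _), e1, e2, smul_smul,
        mul_mul_mul_comm, sg_mul_self, eps_mul_self, one_mul, one_smul]
    · intro v _ hne
      rw [kv_of_mem a (σ := σ.erase v) (Finset.mem_erase.2 ⟨hne.symm, hv⟩), smul_zero]
  · have e0 := ins_val hs h
    have e1 : (ins s.1 σ).erase s.1 = σ :=
      Subtype.ext (by simp only [Cl.erase]; rw [e0, Finset.erase_insert hv])
    rw [kv_of_notMem a hv, map_smul, d0_single, ap_cub (desc_ins hs h)]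
    change _ • dd0 a (ins s.1 σ) + _ = _
    rw [dd0, e0, Finset.sum_insert hv, smul_add, e1, smul_smul, mul_mul_mul_comm, sg_mul_self,
      eps_mul_self, one_mul, one_smul, add_assoc, Finset.smul_sum, ← Finset.sum_add_distrib,
      Finset.sum_eq_zero, add_zero]
    intro v hvσ
    have hne : s.1 ≠ v := fun e => hv (e ▸ hvσ)
    have e2 : insert s.1 (σ.erase v).1 = (insert s.1 σ.1).erase v :=
      (Finset.erase_insert_of_ne hne).symm
    have e3 : ins s.1 (σ.erase v) = (ins s.1 σ).erase v :=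
      Subtype.ext ((ins_val hs (desc_erase h _)).trans (by simp only [Cl.erase] at e2 ⊢; rw [e0, e2]))
    rw [kv_of_notMem a (σ := σ.erase v) fun h' => hv (Finset.mem_of_mem_erase h'), e2, e3,
      smul_smul, smul_smul, ← add_smul]
    have h1 := sg_mul_sg_erase (σ := insert s.1 σ.1) (Finset.mem_insert_self _ _)
      (Finset.mem_insert_of_mem hvσ) hne
    rw [Finset.erase_insert hv] at h1
    have h2 := sg_mul_self v (insert s.1 σ.1)
    have h3 := sg_mul_self v σ.1
    have h4 : sg s.1 (insert s.1 σ.1) * eps a s.1 * (sg v (insert s.1 σ.1) * eps a v) +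
        sg v σ.1 * eps a v * (sg s.1 ((insert s.1 σ.1).erase v) * eps a s.1) = 0 := by
      linear_combination (eps a s.1 * eps a v * sg v (insert s.1 σ.1) * sg v σ.1) * h1 -
        (eps a s.1 * eps a v * sg v σ.1 * sg s.1 ((insert s.1 σ.1).erase v)) * h2 -
        (eps a s.1 * eps a v * sg s.1 (insert s.1 σ.1) * sg v (insert s.1 σ.1)) * h3
    rw [h4, zero_smul]

omit [LinearOrder V] in
theorem mem_support_sum {B ι : Type} {s : Finset ι} {c : ι → ℤ} {f : ι → B} {b : B}
    (h : b ∈ (∑ i ∈ s, c i • single (f i) (1 : ℤ)).support) : ∃ i ∈ s, b = f i := by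
  classical
  obtain ⟨i, hi, h1⟩ := Finset.mem_biUnion.1 (support_finsetSum h)
  exact ⟨i, hi, Finset.mem_singleton.1 (support_single_subset (support_smul h1))⟩

end ChLen

open ChLen in
theorem cube_exact {n : ℕ} (hn : 1 ≤ n) (c : RA L × Cl L →₀ ℤ)
    (hc : ∀ b ∈ c.support, b.2.1.card = n) (hd : dC L c = 0) :
    ∃ e : RA L × Cl L →₀ ℤ, (∀ b ∈ e.support, b.2.1.card = n + 1) ∧ dC L e = c := by
  obtain ⟨e, he⟩ := filt (d0 L) (d1 L) (k0 L) (fun b => (len (ap b) : ℤ)) 0
    (fun c => by rw [d0_add_d1]; exact dC_dC c)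
    (fun b b' hb => by
      rw [d0_single] at hb
      obtain ⟨v, -, rfl⟩ := mem_support_sum hb
      rw [ap_cub (desc_erase (desc_ap b) v)])
    (fun b b' hb => by
      rw [d1_single] at hb
      obtain ⟨v, hv, rfl⟩ := mem_support_sum hb
      exact_mod_cast len_far hv)
    (fun b b' hb => by
      rw [k0_single, kk] at hb
      split_ifs at hb with h
      · simp at hb
      · rw [kv] at hb
        split_ifs at hb
        · simp at hb
        · rw [Finset.mem_singleton.1 (support_single_subset (support_smul hb)),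
            ap_cub (desc_ins (exists_desc h).choose_spec (desc_ap b))])
    (fun b hb => by
      have h : ap b ≠ 1 := fun e => by simp [e, len] at hb
      rw [k0_single, d0_single, homotopy h (desc_ap b), cub_ap])
    c (by rw [d0_add_d1, hd]; simp)
  rw [d0_add_d1] at he
  obtain ⟨e', h1, h2⟩ := deg_proj (fun b => (len (ap b) : ℤ) ≤ 0) n c e hc he
  refine ⟨e', h1, (sub_eq_zero.1 ?_).symm⟩
  rw [← support_eq_empty, Finset.eq_empty_iff_forall_notMem]
  intro b hb
  obtain ⟨h3, h4⟩ := h2 b hb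
  obtain ⟨v, hv⟩ := Finset.card_pos.1 (show 0 < b.2.1.card by omega)
  have h5 : 0 < len (ap b) := Finset.card_pos.2 ⟨_, mem_sep_ap b.2.2 b.1 hv⟩
  omega

end Crest.Agent.R197
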