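import Crest.Agent.R197.Wr

/-! R197: group cohomology from the level complex.

`isZero_of_level`: build a `ProjectiveResolution (Rep.trivial ℤ G ℤ)` with terms `ℤ[G]`
(`Rep.leftRegular`), `Rep.free ℤ G Z.A`, `Rep.free ℤ G Z.I`, `0, 0, …` (transport `bd1`, `bd2` along
`Finsupp.finsuppProdLEquiv`/`curry`; equivariance is `tr_bd2` and the analogue for `bd1`; exactness at
`ℤ[G]`: the augmentation kernel is spanned by the `single g 1 - single 1 1 = bd1 (fox w 1)`, `bd1_fox`,
`Z.surj`), then `groupCohomologyIso` and `IsZero` of the term `Hom(0, A)`.  Alternatives: define the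
representations directly on `T × G →₀ ℤ` (`Representation` given by `tr`) and get projectivity from an
isomorphism with `Rep.free`; or use `HasProjectiveDimensionLT` with short exact sequences
(`ShortComplex.ShortExact.hasProjectiveDimensionLT_X₃`) if a bridge to `groupCohomology` is available;
or dimension shifting by hand.
`exists_h2_ne`: `A = Rep.trivial ℤ G ℤ`, the `2`-cocycle `(g, h) ↦ φ g * ψ h`; a coboundary
`x h - x (g h) + x g` is symmetric on commuting pairs (`groupCohomology.H2π_eq_zero_iff`,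
`mem_cocycles₂_iff`, in `GroupCohomology/LowDegree.lean`). -/

set_option autoImplicit false

namespace Crest.Agent.R197

open CategoryTheory

section abstract

open Limits ZeroObject

variable {C : Type*} [Category C] [Abelian C]

/-- the terms of a resolution of length two -/
noncomputable def cohX (P0 P1 P2 : C) : ℕ → C
  | 0 => P0
  | 1 => P1
  | 2 => P2
  | _ + 3 => 0

/-- the differentials of a resolution of length two -/
noncomputable def cohD {P0 P1 P2 : C} (d1 : P1 ⟶ P0) (d2 : P2 ⟶ P1) :
    ∀ n : ℕ, cohX P0 P1 P2 (n + 1) ⟶ cohX P0 P1 P2 n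
  | 0 => d1
  | 1 => d2
  | _ + 2 => 0

/-- a complex of length two -/
noncomputable def cohC {P0 P1 P2 : C} (d1 : P1 ⟶ P0) (d2 : P2 ⟶ P1) (h : d2 ≫ d1 = 0) :
    ChainComplex C ℕ :=
  ChainComplex.of (cohX P0 P1 P2) (cohD d1 d2) (by
    rintro (_ | _ | n)
    · exact h
    · exact zero_comp
    · exact zero_comp)

theorem cohC_d {P0 P1 P2 : C} (d1 : P1 ⟶ P0) (d2 : P2 ⟶ P1) (h : d2 ≫ d1 = 0) (n : ℕ) :
    (cohC d1 d2 h).d (n + 1) n = cohD d1 d2 n := ChainComplex.of_d _ _ n

set_option backward.isDefEq.respectTransparency false in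
theorem coh_exists_resolution {X P0 P1 P2 : C} [Projective P0] [Projective P1] [Projective P2]
    (ε : P0 ⟶ X) (d1 : P1 ⟶ P0) (d2 : P2 ⟶ P1) (h1 : d1 ≫ ε = 0) (h2 : d2 ≫ d1 = 0)
    [Epi ε] [Mono d2] (e1 : (ShortComplex.mk d1 ε h1).Exact)
    (e2 : (ShortComplex.mk d2 d1 h2).Exact) :
    ∃ P : ProjectiveResolution X, ∀ n, 3 ≤ n → IsZero (P.complex.X n) := by
  refine ⟨
    { complex := cohC d1 d2 h2
      projective := ?_
      π := (ChainComplex.toSingle₀Equiv _ _).symm ⟨ε, by rw [cohC_d]; exact h1⟩
      quasiIso := ⟨fun n => ?_⟩ }, fun n hn => ?_⟩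
  · rintro (_ | _ | _ | n)
    · exact inferInstanceAs (Projective P0)
    · exact inferInstanceAs (Projective P1)
    · exact inferInstanceAs (Projective P2)
    · exact (isZero_zero C).projective
  · rcases n with _ | n
    · rw [ChainComplex.quasiIsoAt₀_iff, ShortComplex.quasiIso_iff_of_zeros' _ rfl rfl rfl]
      refine (ShortComplex.exact_and_epi_g_iff_of_iso ?_).2 ⟨e1, inferInstanceAs (Epi ε)⟩
      refine ShortComplex.isoMk (Iso.refl _) (Iso.refl _) (Iso.refl _) ?_ ?_
      · simp only [Iso.refl_hom, Category.id_comp, Category.comp_id]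
        exact (cohC_d d1 d2 h2 0).symm
      · simp
    · rw [quasiIsoAt_iff_exactAt' (hL := ChainComplex.exactAt_succ_single_obj ..),
        HomologicalComplex.exactAt_iff' _ (n + 2) (n + 1) n (by simp) (by simp)]
      rcases n with _ | _ | n
      · refine (ShortComplex.exact_iff_of_iso ?_).2 e2
        refine ShortComplex.isoMk (Iso.refl _) (Iso.refl _) (Iso.refl _) ?_ ?_
        · simp only [Iso.refl_hom, Category.id_comp, Category.comp_id]
          exact (cohC_d d1 d2 h2 1).symm
        · simp only [Iso.refl_hom, Category.id_comp, Category.comp_id]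
          exact (cohC_d d1 d2 h2 0).symm
      · refine (ShortComplex.exact_iff_mono _ ?_).2 ?_
        · exact (isZero_zero C).eq_of_src _ _
        · change Mono ((cohC d1 d2 h2).d (1 + 1) 1)
          rw [cohC_d]
          exact inferInstanceAs (Mono d2)
      · exact ShortComplex.exact_of_isZero_X₂ _ (isZero_zero C)
  · obtain ⟨m, rfl⟩ := Nat.exists_eq_add_of_le' hn
    exact isZero_zero C

end abstract

variable {G : Type} [Group G]

theorem coh_isZero_of_resolution (P : ProjectiveResolution (Rep.trivial ℤ G ℤ)) (A : Rep ℤ G)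
    (n : ℕ) (h : Limits.IsZero (P.complex.X n)) : Limits.IsZero (groupCohomology A n) := by
  refine Limits.IsZero.of_iso ?_ (groupCohomologyIso A n P)
  rw [← HomologicalComplex.exactAt_iff_isZero_homology, HomologicalComplex.exactAt_iff]
  refine ShortComplex.exact_of_isZero_X₂ _ ?_
  rw [Limits.IsZero.iff_id_eq_zero]
  ext (x : _ ⟶ _)
  obtain rfl : x = 0 := h.eq_of_src _ _
  rfl

/-- a representation with a freely permuted basis is projective -/
theorem coh_projective {k V S : Type} [CommRing k] [AddCommGroup V] [Module k V]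
    (ρ : Representation k G V) (b : Module.Basis (S × G) k V) (hb : ∀ g s x, ρ g (b (s, x)) = b (s, g * x)) :
    Projective (Rep.of ρ) := by
  refine ⟨fun {E X} f e he => ?_⟩
  have hs := (Rep.epi_iff_surjective e).1 he
  choose y hy using fun s : S => hs (f.hom (b (s, 1)))
  let l : V →ₗ[k] E := b.constr k fun p => E.ρ p.2 (y p.1)
  have hl : ∀ s x, l (b (s, x)) = E.ρ x (y s) := fun s x => by simp [l]
  refine ⟨Rep.ofHom ⟨l, fun g => b.ext fun p => ?_⟩, ?_⟩
  · obtain ⟨s, x⟩ := p
    simp only [LinearMap.comp_apply, hb, hl, map_mul, Module.End.mul_apply]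
  · apply Rep.hom_ext
    apply Representation.IntertwiningMap.ext
    refine b.ext fun p => ?_
    obtain ⟨s, x⟩ := p
    change e.hom (l (b (s, x))) = f.hom (b (s, x))
    rw [hl, e.hom.isIntertwining, hy, ← f.hom.isIntertwining]
    change f.hom (ρ x (b (s, 1))) = _
    rw [hb, mul_one]

theorem coh_exact {k : Type} [CommRing k] (S : ShortComplex (Rep.{0} k G))
    (h : ∀ c, S.g.hom c = 0 → ∃ x, S.f.hom x = c) : S.Exact := by
  apply (forget₂ _ (ModuleCat k)).reflects_exact_of_faithful
  rw [ShortComplex.moduleCat_exact_iff]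
  exact h

/-- translation of chains as a representation -/
noncomputable def cohTr (S G : Type) [Group G] : Representation ℤ G (S × G →₀ ℤ) where
  toFun g := tr g
  map_one' := LinearMap.ext tr_one
  map_mul' g h := LinearMap.ext fun c => (tr_tr g h c).symm

/-- translation of `0`-chains as a representation -/
noncomputable def cohL (G : Type) [Group G] : Representation ℤ G (G →₀ ℤ) where
  toFun g := Finsupp.lmapDomain ℤ ℤ fun x => g * x
  map_one' := by ext; simp
  map_mul' g h := by ext; simp [mul_assoc]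

theorem cohL_single (g x : G) (n : ℤ) :
    cohL G g (Finsupp.single x n) = Finsupp.single (g * x) n := by
  simp [cohL]

theorem cohTr_projective (S : Type) : Projective (Rep.of (cohTr S G)) :=
  coh_projective _ Finsupp.basisSingleOne fun g s x => by simp [cohTr]

theorem cohL_projective : Projective (Rep.of (cohL G)) :=
  coh_projective (S := Unit) _ (Finsupp.basisSingleOne.reindex (Equiv.uniqueProd G Unit).symm)
    fun g s x => by simp [cohL_single]

/-- the augmentation -/
noncomputable def cohAug (G : Type) : (G →₀ ℤ) →ₗ[ℤ] ℤ := Finsupp.linearCombination ℤ fun _ => 1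

omit [Group G] in
theorem cohAug_single (x : G) (n : ℤ) : cohAug G (Finsupp.single x n) = n := by simp [cohAug]

theorem coh_ker_aug {S : Type} (π : S → G) (hπ : Function.Surjective (FreeGroup.lift π))
    (c : G →₀ ℤ) : c - Finsupp.single 1 (cohAug G c) ∈ LinearMap.range (bd1 π) := by
  induction c using Finsupp.induction_linear with
  | zero => simp
  | add c c' h h' =>
    have : c + c' - Finsupp.single 1 (cohAug G (c + c')) =
        (c - Finsupp.single 1 (cohAug G c)) + (c' - Finsupp.single 1 (cohAug G c')) := by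
      rw [map_add, Finsupp.single_add]; abel
    rw [this]
    exact add_mem h h'
  | single x n =>
    obtain ⟨w, rfl⟩ := hπ x
    refine ⟨n • fox π w 1, ?_⟩
    rw [map_smul, bd1_fox, cohAug_single, one_mul, smul_sub]
    simp

theorem isZero_of_level (Z : Level G) (A : Rep ℤ G) (n : ℕ) (hn : 3 ≤ n) :
    Limits.IsZero (groupCohomology A n) := by
  have := cohTr_projective (G := G) Z.A
  have := cohTr_projective (G := G) Z.I
  have := cohL_projective (G := G)
  let ε : Rep.of (cohL G) ⟶ Rep.trivial ℤ G ℤ :=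
    Rep.ofHom ⟨cohAug G, fun g => LinearMap.ext (chain_ext fun x => by
      simp [cohL_single, cohAug_single])⟩
  let d1 : Rep.of (cohTr Z.A G) ⟶ Rep.of (cohL G) :=
    Rep.ofHom ⟨bd1 Z.π, fun g => LinearMap.ext (chain_ext fun x => by
      simp [cohTr, cohL_single, mul_assoc])⟩
  let d2 : Rep.of (cohTr Z.I G) ⟶ Rep.of (cohTr Z.A G) :=
    Rep.ofHom ⟨bd2 Z.π Z.e, fun g => LinearMap.ext fun c => (tr_bd2 Z.π Z.e g c).symm⟩
  have h1' : cohAug G ∘ₗ bd1 Z.π = 0 := LinearMap.ext (chain_ext fun x => by
    simp [cohAug_single])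
  have h2' : bd1 Z.π ∘ₗ bd2 Z.π Z.e = 0 := LinearMap.ext (chain_ext fun x => by
    simp [bd1_fox, Z.he])
  have h1 : d1 ≫ ε = 0 := Rep.hom_ext (Representation.IntertwiningMap.ext h1')
  have h2 : d2 ≫ d1 = 0 := Rep.hom_ext (Representation.IntertwiningMap.ext h2')
  have : Epi ε := (Rep.epi_iff_surjective ε).2 fun n => ⟨Finsupp.single 1 n, cohAug_single 1 n⟩
  have : Mono d2 := (Rep.mono_iff_injective d2).2 Z.inj
  have e1 : (ShortComplex.mk d1 ε h1).Exact := by
    refine coh_exact _ fun (c : G →₀ ℤ) (hc : cohAug G c = 0) => ?_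
    have h := coh_ker_aug Z.π Z.surj c
    rw [hc, Finsupp.single_zero, sub_zero] at h
    exact h
  have e2 : (ShortComplex.mk d2 d1 h2).Exact := coh_exact _ fun c hc => Z.exact c hc
  obtain ⟨P, hP⟩ := coh_exists_resolution ε d1 d2 h1 h2 e1 e2
  exact coh_isZero_of_resolution P A n (hP n hn)

theorem exists_h2_ne (φ ψ : G →* Multiplicative ℤ) (a b : G) (hab : Commute a b)
    (hne : (φ a).toAdd * (ψ b).toAdd ≠ (φ b).toAdd * (ψ a).toAdd) :
    ∃ A : Rep ℤ G, ¬ Limits.IsZero (groupCohomology A 2) := by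
  refine ⟨Rep.trivial ℤ G ℤ, fun hz => hne ?_⟩
  let f : groupCohomology.cocycles₂ (Rep.trivial ℤ G ℤ) :=
    ⟨fun p => (φ p.1).toAdd * (ψ p.2).toAdd, (groupCohomology.mem_cocycles₂_iff _).2 (by
      intro g h j
      change (φ (g * h)).toAdd * (ψ j).toAdd + (φ g).toAdd * (ψ h).toAdd =
        (φ h).toAdd * (ψ j).toAdd + (φ g).toAdd * (ψ (h * j)).toAdd
      simp only [map_mul, toAdd_mul]
      ring)⟩
  have h0 : groupCohomology.H2π _ f = 0 := by
    have := ModuleCat.subsingleton_of_isZero hz
    exact Subsingleton.elim _ _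
  obtain ⟨x, hx⟩ := (groupCohomology.H2π_eq_zero_iff f).1 h0
  have h1 : (x b : ℤ) - x (a * b) + x a = (φ a).toAdd * (ψ b).toAdd := congrFun hx (a, b)
  have h2 : (x a : ℤ) - x (b * a) + x b = (φ b).toAdd * (ψ a).toAdd := congrFun hx (b, a)
  rw [← hab.eq] at h2
  linarith

end Crest.Agent.R197
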