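import Crest.Agent.R197.Meet

/-! R197: truncation by depth preserves the cube complex.

Induction on `len a` for the witness `a` of `InR y`.  If `a = 1` then `y = 0`.  Otherwise let `W₀ ∈ sep a`
have maximal depth `m`.  If `0 < φ m` then `φ d = 1` for `d < m`, so only walls of depth `m` change, and
these are descent walls of `a` (`exists_desc_of_max_dep`): the same `a` works.  If `φ m = 0`, write
`W₀ = wl a s`; `y' = Function.update y W₀ 0` has the witness `a * lt s` (`mem_sep_mul_lt`, `desc_adj`,
`wl_mul_lt_of_adj`) and the same truncation as `y`. -/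

set_option autoImplicit false

namespace Crest.Agent.R197

variable {V : Type} {L : SimpleGraph V}

theorem flow_aux (φ : ℕ → ℝ) (h01 : ∀ d, φ d ∈ Set.Icc (0 : ℝ) 1)
    (hstep : ∀ d d', d < d' → 0 < φ d' → φ d = 1) (n : ℕ) :
    ∀ (a : RA L) (y : Wall L → ℝ), len a = n → (∀ W, W ∉ sep a → y W = 0) →
      (∀ W, y W ∈ Set.Icc (0 : ℝ) 1) → (∀ W ∈ sep a, y W ≠ 1 → ∃ s, wl a s = W) →
      InR fun W => min (y W) (φ (dep W)) := by
  induction n using Nat.strong_induction_on with
  | _ n ih =>
  intro a y hn h0 hI hd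
  by_cases hall : ∀ W ∈ sep a, 0 < φ (dep W)
  · refine ⟨a, fun W hW => ?_, fun W => ?_, fun W hW hne => ?_⟩
    · simp only [h0 W hW]
      exact min_eq_left (h01 _).1
    · exact ⟨le_min (hI W).1 (h01 _).1, (min_le_left _ _).trans (hI W).2⟩
    · by_cases h1 : y W = 1
      · refine exists_desc_of_max_dep hW fun W' hW' => ?_
        by_contra hlt
        have := hstep _ _ (not_le.1 hlt) (hall W' hW')
        exact hne (by simp [h1, this])
      · exact hd W hW h1
  · push Not at hall
    obtain ⟨W₁, hW₁, hφ₁⟩ := hall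
    obtain ⟨W₀, hW₀, hmax⟩ := (sep a).exists_max_image dep ⟨W₁, hW₁⟩
    have hφ₀ : φ (dep W₀) = 0 := by
      by_contra hne
      have hpos : 0 < φ (dep W₀) := lt_of_le_of_ne (h01 _).1 (Ne.symm hne)
      rcases (hmax W₁ hW₁).eq_or_lt with h | h
      · rw [h] at hφ₁; linarith
      · rw [hstep _ _ h hpos] at hφ₁; linarith
    obtain ⟨s, rfl⟩ := exists_desc_of_max_dep hW₀ hmax
    have hlen := len_mul_lt_of_mem hW₀
    have key := ih (len (a * lt L s)) (by omega) (a * lt L s) (Function.update y (wl a s) 0) rfl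
      ?_ ?_ ?_
    · convert key using 2 with W
      by_cases hW : W = wl a s
      · rw [hW, Function.update_self, hφ₀, min_self]
        exact min_eq_right (hI _).1
      · rw [Function.update_of_ne hW]
    · intro W hW
      by_cases h : W = wl a s
      · rw [h, Function.update_self]
      · rw [Function.update_of_ne h]
        refine h0 W fun h' => hW ?_
        rw [mem_sep_mul_lt]
        exact iff_of_true h' h
    · intro W
      by_cases h : W = wl a s
      · rw [h, Function.update_self]; simp
      · rw [Function.update_of_ne h]; exact hI W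
    · intro W hW hne
      rw [mem_sep_mul_lt] at hW
      have h : W ≠ wl a s := fun h => (hW.1 (h ▸ hW₀)) h
      rw [Function.update_of_ne h] at hne
      have hWa := hW.2 h
      obtain ⟨t, rfl⟩ := hd W hWa hne
      exact ⟨t, wl_mul_lt_of_adj (desc_adj hWa hW₀ fun e => h (by rw [e])) a⟩

theorem InR.trunc {y : Wall L → ℝ} (hy : InR y) (φ : ℕ → ℝ) (h01 : ∀ d, φ d ∈ Set.Icc (0 : ℝ) 1)
    (hstep : ∀ d d', d < d' → 0 < φ d' → φ d = 1) : InR fun W => min (y W) (φ (dep W)) := by
  obtain ⟨a, h0, hI, hd⟩ := hy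
  exact flow_aux φ h01 hstep _ a y rfl h0 hI hd

end Crest.Agent.R197
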