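import Crest.Agent.R197.Emb
import Crest.Agent.R197.Flow

/-! R197: the cube complex is contractible.

Let `J x = (crd x, ∑ᶠ W, crd x W) : (Wall L → ℝ) × ℝ`.  On the piece `{g} × Kc L` all `crd0 (g, t)` vanish
off the finset `A g = sep g ∪ image (wl g (·, true)) univ`, so `J ∘ EE.mk` is continuous, and the mass is
`≥ len g - card V` (`crd0_of_ne`, coordinates are `≥ 0`).  Hence `J ∘ EE.mk` is a closed map: the compact
images of the pieces form a locally finite family (`finite_len_le`).  So `J` is continuous, injective
(`crd_injective`) and closed: an embedding (`IsClosedEmbedding.of_continuous_injective_isClosedMap`).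
Let `φ s d = max 0 (min 1 (1 / max s (1 / (d + 1)) - d))`, continuous in `s`; for `s ∈ [0,1]` it equals
`max 0 (min 1 (1/s - d))` if `s > 0` and `1` if `s = 0`, so `InR.trunc` applies, and `φ 1 d = 0` for `d ≥ 1`.
Define `Hm x s` as the point with coordinates `min (crd x W) (φ s (dep W))` (`range_crd`).  Continuity
on `EE L × I`: by `IsQuotientMap.continuous_lift_prod_left` (`I` locally compact) and the embedding it
suffices that `(g, t, s) ↦ J (Hm (mk (g,t)) s)` is continuous; for fixed `g` the mass is a finite sum
over `A g`.  `Hm x 0 = x`, and `Hm x 1` has all coordinates `0` (`one_le_dep`), so it is constant.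
Conclude with `contractible_iff_id_nullhomotopic`. -/

set_option autoImplicit false

namespace Crest.Agent.R197

open Set

section Aux

variable {V : Type} [Fintype V] [LinearOrder V] {L : SimpleGraph V}

/-- the walls that can carry a non-zero coordinate on the piece of `g` -/
noncomputable def contrA (g : RA L) : Finset (Wall L) :=
  sep g ∪ Finset.univ.image fun v => wl g (v, true)

omit [LinearOrder V] in
theorem contr_off {g : RA L} (t : Kc L) {W : Wall L} (h : W ∉ contrA g) : crd0 (g, t) W = 0 := by
  simp only [contrA, Finset.mem_union, Finset.mem_image, Finset.mem_univ, true_and, not_or,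
    not_exists] at h
  rw [crd0_of_ne fun v e => h.2 v e.symm, if_neg h.1]

theorem contr_inR (x : EE L) : InR (crd x) := (range_crd _).1 ⟨x, rfl⟩

theorem contr_nonneg (x : EE L) (W : Wall L) : 0 ≤ crd x W := by
  obtain ⟨a, -, h, -⟩ := contr_inR x
  exact (h W).1

omit [LinearOrder V] in
theorem contr_continuous_crd0 (g : RA L) (W : Wall L) :
    Continuous fun t : Kc L => crd0 (g, t) W := by
  unfold crd0
  have h : Continuous fun t : Kc L => ∑ v, if wl g (v, true) = W then t.1 v else 0 := by
    refine continuous_finsetSum _ fun v _ => ?_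
    split_ifs
    · exact (continuous_apply v).comp continuous_subtype_val
    · exact continuous_const
  exact (continuous_const (y := (sgnW W : ℝ))).mul ((continuous_const (y := (eta g W : ℝ))).add h)

/-- coordinates and total mass -/
noncomputable def contrJ (x : EE L) : (Wall L → ℝ) × ℝ := (crd x, ∑ᶠ W, crd x W)

omit [LinearOrder V] in
theorem contr_mass (g : RA L) (t : Kc L) :
    ∑ᶠ W, crd (EE.mk (g, t)) W = ∑ W ∈ contrA g, crd0 (g, t) W :=
  finsum_eq_sum_of_support_subset _ fun W hW => by
    by_contra h
    exact hW (contr_off t h)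

theorem contr_mass_ge (g : RA L) (t : Kc L) :
    (len g : ℝ) ≤ ∑ᶠ W, crd (EE.mk (g, t)) W + Fintype.card V := by
  rw [contr_mass]
  set B : Finset (Wall L) := Finset.univ.image fun v => wl g (v, true) with hB
  have h1 : ((sep g \ B).card : ℝ) ≤ ∑ W ∈ contrA g, crd0 (g, t) W := by
    calc ((sep g \ B).card : ℝ) = ∑ W ∈ sep g \ B, crd0 (g, t) W := by
          rw [Finset.card_eq_sum_ones, Nat.cast_sum]
          refine Finset.sum_congr rfl fun W hW => ?_
          rw [Finset.mem_sdiff] at hW
          rw [crd0_of_ne, if_pos hW.1, Nat.cast_one]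
          rintro v rfl
          exact hW.2 (Finset.mem_image_of_mem _ (Finset.mem_univ v))
      _ ≤ _ := Finset.sum_le_sum_of_subset_of_nonneg
          (Finset.sdiff_subset.trans Finset.subset_union_left)
          fun W _ _ => contr_nonneg (EE.mk (g, t)) W
  have h2 : len g ≤ (sep g \ B).card + Fintype.card V :=
    Finset.card_le_card_sdiff_add_card.trans
      (Nat.add_le_add_left (Finset.card_image_le.trans Finset.card_univ.le) _)
  have h3 : (len g : ℝ) ≤ (sep g \ B).card + Fintype.card V := by exact_mod_cast h2
  linarith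

omit [LinearOrder V] in
theorem contr_continuous_piece (g : RA L) : Continuous fun t : Kc L => contrJ (EE.mk (g, t)) := by
  refine Continuous.prodMk (continuous_pi fun W => contr_continuous_crd0 g W) ?_
  simp only [contr_mass]
  exact continuous_finsetSum _ fun W _ => contr_continuous_crd0 g W

theorem contr_isClosedEmbedding : Topology.IsClosedEmbedding (contrJ : EE L → _) := by
  refine Topology.IsClosedEmbedding.of_continuous_injective_isClosedMap ?_ ?_ ?_
  · rw [(isQuotientMap_mk L).continuous_iff]
    exact continuous_prod_of_discrete_left.2 contr_continuous_piece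
  · exact fun x y h => crd_injective (congrArg Prod.fst h)
  · intro Z hZ
    have e : contrJ '' Z =
        ⋃ g : RA L, (fun t : Kc L => contrJ (EE.mk (g, t))) '' {t | EE.mk (g, t) ∈ Z} := by
      ext y
      simp only [mem_image, mem_iUnion, mem_ofPred_eq]
      constructor
      · rintro ⟨x, hx, rfl⟩
        obtain ⟨⟨g, t⟩, rfl⟩ := (isQuotientMap_mk L).surjective x
        exact ⟨g, t, hx, rfl⟩
      · rintro ⟨g, t, ht, rfl⟩
        exact ⟨_, ht, rfl⟩
    rw [e]
    refine LocallyFinite.isClosed_iUnion (fun y => ?_) fun g => ?_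
    · refine ⟨{z | z.2 < y.2 + 1}, (isOpen_lt continuous_snd continuous_const).mem_nhds
        (lt_add_one y.2), ?_⟩
      obtain ⟨n, hn⟩ := exists_nat_ge (y.2 + 1 + Fintype.card V)
      refine (finite_len_le n).subset ?_
      rintro g ⟨_, ⟨t, -, rfl⟩, ht⟩
      have h1 := contr_mass_ge g t
      have h2 : ∑ᶠ W, crd (EE.mk (g, t)) W < y.2 + 1 := ht
      have h3 : (len g : ℝ) ≤ n := by linarith
      exact_mod_cast h3
    · refine (IsCompact.image ?_ (contr_continuous_piece g)).isClosed
      exact (hZ.preimage ((isQuotientMap_mk L).continuous.comp (Continuous.prodMk_right g))).isCompact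

/-- the truncation levels -/
noncomputable def contrPhi (s : ℝ) (d : ℕ) : ℝ := max 0 (min 1 ((d + 1) * (1 - s * d)))

theorem contrPhi_mem (s : ℝ) (d : ℕ) : contrPhi s d ∈ Icc (0 : ℝ) 1 :=
  ⟨le_max_left _ _, max_le zero_le_one (min_le_left _ _)⟩

theorem contrPhi_step {s : ℝ} (hs : 0 ≤ s) (d d' : ℕ) (h : d < d') (h' : 0 < contrPhi s d') :
    contrPhi s d = 1 := by
  unfold contrPhi at h' ⊢
  have h1 : (0 : ℝ) < (d' + 1) * (1 - s * d') := by
    rcases lt_max_iff.1 h' with h' | h'
    · exact absurd h' (lt_irrefl _)
    · exact (lt_min_iff.1 h').2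
  have h2 : 0 < 1 - s * d' := (mul_pos_iff_of_pos_left (by positivity)).1 h1
  have h3 : (d : ℝ) + 1 ≤ d' := by exact_mod_cast h
  have h4 : s * (d + 1) ≤ 1 := by nlinarith
  have h5 : (0 : ℝ) ≤ d := d.cast_nonneg
  rw [min_eq_left (by nlinarith), max_eq_right zero_le_one]

theorem contrPhi_zero (d : ℕ) : contrPhi 0 d = 1 := by
  have h5 : (0 : ℝ) ≤ d := d.cast_nonneg
  unfold contrPhi
  rw [min_eq_left (by nlinarith), max_eq_right zero_le_one]

theorem contrPhi_one {d : ℕ} (hd : 1 ≤ d) : contrPhi 1 d = 0 := by
  have h5 : (1 : ℝ) ≤ d := by exact_mod_cast hd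
  unfold contrPhi
  exact max_eq_left (min_le_of_right_le (by nlinarith))

theorem continuous_contrPhi (d : ℕ) : Continuous fun s => contrPhi s d := by
  unfold contrPhi
  fun_prop

theorem contr_exists (s : unitInterval) (x : EE L) :
    ∃ z : EE L, crd z = fun W => min (crd x W) (contrPhi s (dep W)) :=
  (range_crd _).2 ((contr_inR x).trunc _ (contrPhi_mem s) (contrPhi_step s.2.1))

/-- the contraction -/
noncomputable def contrH (p : unitInterval × EE L) : EE L := (contr_exists p.1 p.2).choose

theorem crd_contrH (s : unitInterval) (x : EE L) :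
    crd (contrH (s, x)) = fun W => min (crd x W) (contrPhi s (dep W)) :=
  (contr_exists s x).choose_spec

theorem continuous_contrH : Continuous (contrH : unitInterval × EE L → EE L) := by
  refine (isQuotientMap_mk L).continuous_lift_prod_right ?_
  rw [contr_isClosedEmbedding.isEmbedding.continuous_iff]
  have key : ∀ g : RA L, Continuous fun p : unitInterval × Kc L =>
      contrJ (contrH (p.1, EE.mk (g, p.2))) := by
    intro g
    have h1 : ∀ W, Continuous fun p : unitInterval × Kc L =>
        min (crd0 (g, p.2) W) (contrPhi p.1 (dep W)) := fun W =>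
      ((contr_continuous_crd0 g W).comp continuous_snd).min
        ((continuous_contrPhi _).comp (continuous_subtype_val.comp continuous_fst))
    have h2 : ∀ p : unitInterval × Kc L, ∑ᶠ W, min (crd0 (g, p.2) W) (contrPhi p.1 (dep W)) =
        ∑ W ∈ contrA g, min (crd0 (g, p.2) W) (contrPhi p.1 (dep W)) := fun p =>
      finsum_eq_sum_of_support_subset _ fun W hW => by
        by_contra h
        refine hW ?_
        beta_reduce
        rw [contr_off p.2 h]
        exact min_eq_left (contrPhi_mem _ _).1
    simp only [contrJ, crd_contrH, crd_mk, h2]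
    exact (continuous_pi h1).prodMk (continuous_finsetSum _ fun W _ => h1 W)
  have h3 : Continuous fun q : RA L × (unitInterval × Kc L) =>
      contrJ (contrH (q.2.1, EE.mk (q.1, q.2.2))) := continuous_prod_of_discrete_left.2 key
  exact h3.comp (f := fun p : unitInterval × (RA L × Kc L) => (p.2.1, p.1, p.2.2)) (by fun_prop)

theorem contrH_zero (x : EE L) : contrH (0, x) = x := by
  refine crd_injective ?_
  rw [crd_contrH]
  funext W
  obtain ⟨a, -, h, -⟩ := contr_inR x
  rw [Set.Icc.coe_zero, contrPhi_zero]
  exact min_eq_left (h W).2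

theorem crd_contrH_one (x : EE L) : crd (contrH (1, x)) = 0 := by
  rw [crd_contrH]
  funext W
  obtain ⟨a, h0, h, -⟩ := contr_inR x
  by_cases hW : W ∈ sep a
  · rw [Set.Icc.coe_one, contrPhi_one (one_le_dep hW)]
    exact min_eq_right (h W).1
  · rw [h0 W hW]
    exact min_eq_left (contrPhi_mem _ _).1

end Aux

theorem contractible_EE {V : Type} [Fintype V] [LinearOrder V] (L : SimpleGraph V) :
    ContractibleSpace (EE L) := by
  let x₀ : EE L := EE.mk (1, ⟨0, fun _ => ⟨le_rfl, zero_le_one⟩, by simp⟩)
  rw [contractible_iff_id_nullhomotopic]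
  refine ⟨contrH (1, x₀), ⟨⟨⟨contrH, continuous_contrH⟩, contrH_zero, fun x => ?_⟩⟩⟩
  exact crd_injective ((crd_contrH_one x).trans (crd_contrH_one x₀).symm)

end Crest.Agent.R197
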