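import Crest.Agent.R197.WordSys

/-! R197: solving finitely many equations through a finite quotient.

Proof.  By residual finiteness there is a finite group `Φ = G ⧸ N` with `q = mk'` injective on `T`
(intersect finitely many finite-index normal subgroups; `FiniteIndexNormalSubgroup` has `⊓`).  Put
`αΦ (a, y) = α (a, x)` if `y = q x` with `x ∈ T`, else `1`, and
`α t p = normalise (1 + t • (αΦ p - 1))` (real part `≥ 1/2` for `t ∈ [0,1]` since `ε ≤ 1`; and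
`‖q/‖q‖ - 1‖ ≤ 2 ‖q - 1‖`).  Apply `wordSys` with `V = (X ⊕ I) × Φ`, `P = A × Φ`,
`B = ↥(Rj ∪ R₁) × Φ`, `Zs` = all `(inr i, y)`, and
`w (r, y) = hol πΦ lt (rh r) y` where `πΦ s = q (π' s)` and `lt : ((A ⊕ X) ⊕ I) × Φ → FreeGroup (V ⊕ P)`
sends a cell to its letter.  `lift (Sum.elim x a) (w (r, y)) = hol πΦ βΦ (rh r) y` by `hol_map_val`
(`βΦ` = the connection with values `x`, `a`), and `β (s, g) = βΦ (s, q g)` satisfies
`hol π' β u g = hol πΦ βΦ u (q g)` (`hol_pullback`).  Jacobian: let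
`qs = lmapDomain (fun p => (p.1, q p.2))`, `LΦ s = qs (L s)`, `pr : (R × Φ →₀ ℤ) → (B →₀ ℤ)` the
restriction to `B` (`comapDomain`/`subtypeDomain`), `L' (v, y) = pr (tr y (LΦ (letter v)))`.  By
`hol_map_val` and `hol_eq_fox`, `linearCombination (Sum.elim L' 0) (expo (w (r,y))) =
pr (eqv LΦ (fox πΦ (rh r) y))`; `fox πΦ u (q g) = qs (fox π' u g)` (`hol_natural`),
`eqv LΦ (qs c) = qs (eqv L c)` (`chain_ext`), so `eqv LΦ (fox πΦ (rh r) y) = tr y (single (r,1) 1)`. -/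

set_option autoImplicit false

namespace Crest.Agent.R197

open Set Finsupp

theorem finlevel_quot {G : Type} [Group G] [Group.ResiduallyFinite G] (D : Finset (G × G)) :
    ∃ (Φ : Type) (_ : Group Φ) (_ : Finite Φ) (q : G →* Φ), ∀ p ∈ D, q p.1 = q p.2 → p.1 = p.2 := by
  classical
  induction D using Finset.induction_on with
  | empty => exact ⟨PUnit, inferInstance, inferInstance, 1, by simp⟩
  | insert p D _ ih =>
    obtain ⟨Φ, _, _, q, hq⟩ := ih
    by_cases hp : p.1 = p.2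
    · refine ⟨Φ, inferInstance, inferInstance, q, fun p' hp' => ?_⟩
      rcases Finset.mem_insert.1 hp' with rfl | hp'
      · exact fun _ => hp
      · exact hq p' hp'
    · obtain ⟨H, hH⟩ := Group.exists_finiteIndexNormalSubgroup_of_residuallyFinite p.1 p.2 hp
      refine ⟨Φ × (G ⧸ H.toSubgroup), inferInstance, inferInstance,
        q.prod (QuotientGroup.mk' H.toSubgroup), fun p' hp' h => ?_⟩
      rcases Finset.mem_insert.1 hp' with rfl | hp'
      · exact absurd (congrArg Prod.snd h) hH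
      · exact hq p' hp' (congrArg Prod.fst h)

open scoped Quaternion in
theorem finlevel_path (a : S3) (ha : dv a ≤ 1) :
    ∃ γ : ℝ → S3, ContinuousOn γ (Icc 0 1) ∧ γ 0 = 1 ∧ γ 1 = a ∧
      ∀ t ∈ Icc (0 : ℝ) 1, dv (γ t) ≤ 2 * dv a := by
  classical
  let u : ℝ → ℍ[ℝ] := fun t => 1 + t • ((a : ℍ[ℝ]) - 1)
  have hu1 : ∀ t ∈ Icc (0 : ℝ) 1, ‖u t - 1‖ = t * dv a := by
    intro t ht
    simp only [u, add_sub_cancel_left, norm_smul, Real.norm_eq_abs, abs_of_nonneg ht.1, dv]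
  have hu0 : ∀ t ∈ Icc (0 : ℝ) 1, u t ≠ 0 := by
    intro t ht h0
    have h1 := hu1 t ht
    rw [h0, zero_sub, norm_neg, norm_one] at h1
    have h2 : t = 1 := by nlinarith [ht.1, ht.2, dv_nonneg a]
    subst h2
    have h3 : (a : ℍ[ℝ]) = 0 := by simpa [u] using h0
    have h4 := S3.norm_coe a
    rw [h3, norm_zero] at h4
    exact zero_ne_one h4
  have hn : ∀ t, u t ≠ 0 → ‖u t‖⁻¹ • u t ∈ Metric.sphere (0 : ℍ[ℝ]) 1 := by
    intro t ht
    rw [mem_sphere_zero_iff_norm, norm_smul, norm_inv, norm_norm]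
    exact inv_mul_cancel₀ (norm_ne_zero_iff.2 ht)
  let γ : ℝ → S3 := fun t => if h : u t ≠ 0 then ⟨‖u t‖⁻¹ • u t, hn t h⟩ else 1
  have hγ : ∀ t ∈ Icc (0 : ℝ) 1, (γ t : ℍ[ℝ]) = ‖u t‖⁻¹ • u t := by
    intro t ht
    simp only [γ, dif_pos (hu0 t ht)]
  have hcu : Continuous u := continuous_const.add (continuous_id.smul continuous_const)
  refine ⟨γ, ?_, ?_, ?_, fun t ht => ?_⟩
  · rw [Topology.IsInducing.subtypeVal.continuousOn_iff]
    refine ContinuousOn.congr ?_ fun t ht => hγ t ht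
    exact (hcu.norm.continuousOn.inv₀ fun t ht => norm_ne_zero_iff.2 (hu0 t ht)).smul
      hcu.continuousOn
  · apply Subtype.ext
    rw [hγ 0 ⟨le_rfl, zero_le_one⟩]
    simp [u]
  · apply Subtype.ext
    rw [hγ 1 ⟨zero_le_one, le_rfl⟩]
    simp [u]
  · have h1 := hu1 t ht
    have hpos : 0 < ‖u t‖ := norm_pos_iff.2 (hu0 t ht)
    have h2 : ‖‖u t‖⁻¹ • u t - u t‖ = |1 - ‖u t‖| := by
      have e : ‖u t‖⁻¹ • u t - u t = (‖u t‖⁻¹ * (1 - ‖u t‖)) • u t := by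
        rw [mul_sub, mul_one, inv_mul_cancel₀ hpos.ne', sub_smul, one_smul]
      rw [e, norm_smul, Real.norm_eq_abs, abs_mul, abs_of_pos (inv_pos.2 hpos)]
      field_simp
    have h3 : |1 - ‖u t‖| ≤ ‖u t - 1‖ := by
      have := abs_norm_sub_norm_le (1 : ℍ[ℝ]) (u t)
      rwa [norm_one, norm_sub_rev] at this
    have h4 : ‖‖u t‖⁻¹ • u t - 1‖ ≤ ‖‖u t‖⁻¹ • u t - u t‖ + ‖u t - 1‖ :=
      norm_sub_le_norm_sub_add_norm_sub _ _ _
    have h5 : t * dv a ≤ dv a := mul_le_of_le_one_left (dv_nonneg a) ht.2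
    rw [dv, hγ t ht]
    linarith

/-- Push-forward of chains along a group homomorphism. -/
noncomputable def finlevelQ {G Φ S : Type} [Group G] [Group Φ] (q : G →* Φ) :
    (S × G →₀ ℤ) →ₗ[ℤ] (S × Φ →₀ ℤ) :=
  lmapDomain ℤ ℤ fun p => (p.1, q p.2)

section Q

variable {G Φ S R : Type} [Group G] [Group Φ] (q : G →* Φ)

@[simp] theorem finlevelQ_single (p : S × G) (n : ℤ) :
    finlevelQ q (single p n) = single (p.1, q p.2) n := by simp [finlevelQ]

theorem finlevel_lift (π : S → G) (u : FreeGroup S) :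
    FreeGroup.lift (fun s => q (π s)) u = q (FreeGroup.lift π u) := by
  have : FreeGroup.lift (fun s => q (π s)) = q.comp (FreeGroup.lift π) := by
    ext s; simp
  exact DFunLike.congr_fun this u

theorem finlevel_fox (π : S → G) (u : FreeGroup S) (x : G) :
    fox (fun s => q (π s)) u (q x) = finlevelQ q (fox π u x) := by
  induction u using FreeGroup.induction_on generalizing x with
  | C1 => simp
  | of s => simp
  | inv_of s ih => rw [fox_inv, fox_inv, map_neg, ← ih, finlevel_lift, map_mul, map_inv]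
  | mul u v ihu ihv => rw [fox_mul, fox_mul, map_add, ← ihu, ← ihv, finlevel_lift, map_mul]

theorem finlevel_tr (g : G) (c : S × G →₀ ℤ) :
    finlevelQ q (tr g c) = tr (q g) (finlevelQ q c) :=
  chain_ext (f := finlevelQ q ∘ₗ tr g) (g := tr (q g) ∘ₗ finlevelQ q) (by simp) c

theorem finlevel_eqv (L : S → (R × G →₀ ℤ)) (c : S × G →₀ ℤ) :
    eqv (fun s => finlevelQ q (L s)) (finlevelQ q c) = finlevelQ q (eqv L c) :=
  chain_ext (f := eqv (fun s => finlevelQ q (L s)) ∘ₗ finlevelQ q) (g := finlevelQ q ∘ₗ eqv L)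
    (by simp [finlevel_tr]) c

end Q

theorem finlevel_expo {S M : Type} [AddCommGroup M] (m : S → M) (u : FreeGroup S) :
    linearCombination ℤ m (expo u) =
      Multiplicative.toAdd (FreeGroup.lift (fun s => Multiplicative.ofAdd (m s)) u) := by
  induction u using FreeGroup.induction_on with
  | C1 => simp
  | of s => simp
  | inv_of s _ => simp
  | mul u v ihu ihv => simp [ihu, ihv]

/-- The letter attached to a cell. -/
def finlevelLt {A X I Φ : Type} : ((A ⊕ X) ⊕ I) × Φ → ((X ⊕ I) × Φ) ⊕ (A × Φ)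
  | (.inl (.inl a), y) => .inr (a, y)
  | (.inl (.inr x), y) => .inl (.inl x, y)
  | (.inr i, y) => .inl (.inr i, y)

theorem finLevel {G A X I R : Type} [Group G] [Group.ResiduallyFinite G] [Finite I]
    (π' : (A ⊕ X) ⊕ I → G) (rh : R → FreeGroup ((A ⊕ X) ⊕ I))
    (L : (A ⊕ X) ⊕ I → (R × G →₀ ℤ)) (hL0 : ∀ a, L (.inl (.inl a)) = 0)
    (hL : ∀ r, eqv L (fox π' (rh r) 1) = single (r, 1) 1)
    (R₁ : Finset R) {δ₀ ε : ℝ} (hδ : 0 < δ₀) (hε0 : 0 ≤ ε) (hε : ε ≤ 1)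
    (hgap : ∀ β : ((A ⊕ X) ⊕ I) × G → S3, (∀ r ∈ R₁, ∀ x, hol π' β (rh r) x = 1) →
      (∀ a x, dv (β (.inl (.inl a), x)) ≤ 2 * ε) →
      (∀ i x, dv (β (.inr i, x)) ≤ δ₀) → ∀ i x, dv (β (.inr i, x)) < δ₀)
    (α : A × G → S3) (hα : ∀ p, dv (α p) ≤ ε) (Rj : Finset R) (T : Finset G) :
    ∃ β : ((A ⊕ X) ⊕ I) × G → S3, (∀ r ∈ Rj, ∀ x, hol π' β (rh r) x = 1) ∧
      (∀ a, ∀ x ∈ T, β (.inl (.inl a), x) = α (a, x)) ∧
      ∀ i x, dv (β (.inr i, x)) ≤ δ₀ := by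
  classical
  obtain ⟨Φ, _, _, q, hq⟩ := finlevel_quot (T ×ˢ T)
  let αΦ : A × Φ → S3 := fun p => if h : ∃ x ∈ T, q x = p.2 then α (p.1, h.choose) else 1
  have hαΦ : ∀ p, dv (αΦ p) ≤ ε := by
    intro p
    simp only [αΦ]
    split_ifs
    · exact hα _
    · simpa using hε0
  have hαq : ∀ a, ∀ x ∈ T, αΦ (a, q x) = α (a, x) := by
    intro a x hx
    have h : ∃ x' ∈ T, q x' = q x := ⟨x, hx, rfl⟩
    have h1 : h.choose = x :=
      hq (h.choose, x) (Finset.mem_product.2 ⟨h.choose_spec.1, hx⟩) h.choose_spec.2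
    simp only [αΦ, dif_pos h, h1]
  choose γ hγc hγ0 hγ1 hγd using fun p => finlevel_path (αΦ p) ((hαΦ p).trans hε)
  let πΦ : (A ⊕ X) ⊕ I → Φ := fun s => q (π' s)
  let w : ↥(Rj ∪ R₁) × Φ → FreeGroup (((X ⊕ I) × Φ) ⊕ (A × Φ)) := fun b =>
    hol πΦ (fun p => FreeGroup.of (finlevelLt p)) (rh b.1) b.2
  have hw : ∀ {H : Type} [Group H] (f : ((X ⊕ I) × Φ) ⊕ (A × Φ) → H) (b : ↥(Rj ∪ R₁) × Φ),
      FreeGroup.lift f (w b) = hol πΦ (fun p => f (finlevelLt p)) (rh b.1) b.2 := by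
    intro H _ f b
    simp only [w]
    rw [← hol_map_val]
    simp
  have hw' : ∀ (f : ((X ⊕ I) × Φ) ⊕ (A × Φ) → S3) (r : R) (hr : r ∈ Rj ∪ R₁) (g : G),
      hol π' (fun p => f (finlevelLt (p.1, q p.2))) (rh r) g =
        FreeGroup.lift f (w (⟨r, hr⟩, q g)) := by
    intro f r hr g
    rw [hw]
    exact hol_pullback π' q (fun p => f (finlevelLt p)) (rh r) g
  let pr : (R × Φ →₀ ℤ) →ₗ[ℤ] (↥(Rj ∪ R₁) × Φ →₀ ℤ) := linearCombination ℤ fun p =>
    if h : p.1 ∈ Rj ∪ R₁ then single (⟨p.1, h⟩, p.2) 1 else 0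
  let L' : (X ⊕ I) × Φ → (↥(Rj ∪ R₁) × Φ →₀ ℤ) := fun v =>
    pr (tr v.2 (finlevelQ q (L (Sum.elim (fun x => .inl (.inr x)) (fun i => .inr i) v.1))))
  have hL' : ∀ p : ((A ⊕ X) ⊕ I) × Φ, Sum.elim L' (fun _ => 0) (finlevelLt p) =
      pr (tr p.2 (finlevelQ q (L p.1))) := by
    rintro ⟨(a | x) | i, y⟩
    · simp [finlevelLt, hL0]
    · rfl
    · rfl
  have hJ : ∀ b, linearCombination ℤ (Sum.elim L' fun _ => 0) (expo (w b)) = single b 1 := by
    rintro ⟨⟨r, hr⟩, y⟩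
    rw [finlevel_expo, hw]
    simp only [hL']
    rw [hol_eq_fox πΦ (fun p => pr (tr p.2 (finlevelQ q (L p.1)))), toAdd_ofAdd]
    have e1 : ∀ c, linearCombination ℤ
        (fun p : ((A ⊕ X) ⊕ I) × Φ => pr (tr p.2 (finlevelQ q (L p.1)))) c =
        pr (eqv (fun s => finlevelQ q (L s)) c) := fun c =>
      chain_ext (g := pr ∘ₗ eqv (fun s => finlevelQ q (L s))) (by simp) c
    have e2 : fox πΦ (rh r) 1 = finlevelQ q (fox π' (rh r) 1) := by
      rw [← finlevel_fox, map_one]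
    rw [e1, fox_eq_tr, ← tr_eqv, e2, finlevel_eqv, hL]
    simp only [finlevelQ_single, map_one, tr_single, mul_one, pr, linearCombination_single,
      one_smul, dif_pos hr]
  have hZfin : {v : (X ⊕ I) × Φ | ∃ i g, v = (.inr i, q g)}.Finite := by
    refine (Set.finite_range fun p : I × Φ => ((.inr p.1, p.2) : (X ⊕ I) × Φ)).subset ?_
    rintro _ ⟨i, g, rfl⟩
    exact ⟨(i, q g), rfl⟩
  obtain ⟨x, hx1, hx2⟩ := wordSys w L' hJ hZfin.toFinset hδ (fun t p => γ p t) hγc hγ0 (by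
    intro t ht x hx hZ v hv
    obtain ⟨i, g, rfl⟩ := hZfin.mem_toFinset.1 hv
    refine hgap (fun p => Sum.elim x (fun p => γ p t) (finlevelLt (p.1, q p.2))) ?_ ?_ ?_ i g
    · intro r hr g
      rw [hw' _ r (Finset.mem_union_right _ hr)]
      exact hx _
    · intro a g
      have h1 := hγd (a, q g) t ht
      have h2 := hαΦ (a, q g)
      change dv (γ (a, q g) t) ≤ _
      linarith
    · intro i g
      exact hZ (.inr i, q g) (hZfin.mem_toFinset.2 ⟨i, g, rfl⟩))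
  refine ⟨fun p => Sum.elim x (fun p => γ p 1) (finlevelLt (p.1, q p.2)), ?_, ?_, ?_⟩
  · intro r hr g
    rw [hw' _ r (Finset.mem_union_left _ hr)]
    exact hx1 _
  · intro a g hg
    change γ (a, q g) 1 = _
    rw [hγ1, hαq a g hg]
  · intro i g
    exact hx2 (.inr i, q g) (hZfin.mem_toFinset.2 ⟨i, g, rfl⟩)

end Crest.Agent.R197
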