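import Crest.Agent.R197.Wr

/-! R197: the gap inequality `δ ≤ κ + C δ²`.

Notation: `F' = FreeGroup (S ⊕ I)`, `π' = Sum.elim π (fun _ => 1)`, `z i = of (inr i)`,
`K = ker (lift π')`, `KZ = normalClosure (range z) ≤ K`, `r' = map inl (rel r) ∈ K`.

Algebra.  Let `Ab = Additive (Abelianization K)` and `[k]` the class of `k ∈ K`.  Conjugation by
`u : F'` acts on `Ab` and elements of `K` act trivially.  Fix a set section `s : G → F'` of `lift π'`
on its range (only `g` in the range matter; `Function.invFun`, or assume nothing and use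
`Classical.epsilon`) -- simpler: `π'` need not be onto, but all cells `(r, g)`, `(i, g)` that occur can be
handled by `θ (i, g) = [s g * z i * (s g)⁻¹]`, `ψ (r, g) = [s g * r' * (s g)⁻¹]` (linear extensions by
`linearCombination`); `hsurj` is assumed so that `s` is a true section.  For every `u`,
`[u * z i * u⁻¹] = θ (i, lift π' u)`, the same for `r'`, and `u • θ c = θ (tr (lift π' u) c)`.
`k ↦ fox π' k 1` is a homomorphism on `K`, so it factors as `D : Ab →+ chains`, with
`D (θ c) = rl inr c`, `D (ψ c) = rl inl (bd2 π rel c)`.  The image of `θ` lies in the image of `KZ`: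
choose `ζ r ∈ KZ` with `[ζ r] = θ (lam r)`.  Put `r̂ = r' * ζ r`, `N̂ = normalClosure (range r̂)`.  For all
`c`, `ψ c + θ (eqv lam c)` is the class of an element of `N̂` (on a cell: `s g * r̂ * (s g)⁻¹`).  For
`n ∈ normalClosure (range rel)` there is `c` with `[map inl n] = ψ c` (subgroup induction); for
`n = e i`, applying `D` and `hinj` gives `c = φ i`.  So `[map inl (e i) * z i] = ψ (φ i) + θ (eqv lam (φ i))
= [n̂ i]` with `n̂ i ∈ N̂` (`s 1` acts trivially), i.e. `map inl (e i) * z i = n̂ i * k i` with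
`k i ∈ ⁅K, K⁆` (`Abelianization.ker_of`/`QuotientGroup.eq`, `Subgroup.map_commutator`-free: image of
`commutator K` under `K.subtype`).

Estimates.  `dv_mul_le`, `dv_inv`, `dv_conj`, `dv_comm_le` are in `Wr.lean`.  For `p : ℕ` let `Sm p` be the set of `k ∈ K` such that there are
a finset `R₁` and `C ≥ 0` with `‖hol π' β k x - 1‖ ≤ C δ^p` for all `x`, all `β` solving `r̂` (`r ∈ R₁`) at
all points and all `δ ≥ 0` with `‖β (inr i, y) - 1‖ ≤ δ`; it is a normal subgroup (`hol_mul`, `hol_inv`).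
`KZ ≤ Sm 1` (with `R₁ = ∅`), `N̂ ≤ Sm p` with `C = 0` (a normal subgroup `Sm0`), `K ≤ Sm 1` because
`K = normalClosure (range r' ∪ range z)` (modulo `KZ` every `u` is `map inl (ρ u)` with
`ρ = lift (Sum.elim of 1)`; use `hker`) and `r' = r̂ (ζ r)⁻¹`; `⁅K, K⁆ ≤ Sm 2` (`Subgroup.commutator_le`).
Finally `β (inr i, x) = (hol (map inl (e i)) x)⁻¹ * hol (n̂ i) x * hol (k i) x`; take the union of the
finitely many `R₁` and the sum of the constants plus one. -/

set_option autoImplicit false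

namespace Crest.Agent.R197

open Finsupp
open scoped commutatorElement

variable {G : Type} [Group G]

section aux

variable {S R : Type} (π : S → G)

/-- Magnus: a closed word with vanishing Fox chain lies in the commutator subgroup of the kernel. -/
theorem gap_magnus (hsurj : Function.Surjective (FreeGroup.lift π)) {k : FreeGroup S}
    (hk : FreeGroup.lift π k = 1) (h0 : fox π k 1 = 0) :
    k ∈ ⁅(FreeGroup.lift π).ker, (FreeGroup.lift π).ker⁆ := by
  choose s hs using hsurj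
  let cl : G → FreeGroup S → (FreeGroup.lift π).ker := fun x w =>
    ⟨s x * w * (s (x * FreeGroup.lift π w))⁻¹, by simp [MonoidHom.mem_ker, hs]⟩
  have hmul : ∀ x u v, cl x (u * v) = cl x u * cl (x * FreeGroup.lift π u) v := fun x u v =>
    Subtype.ext (by simp [cl, mul_assoc])
  have hone : ∀ x, cl x 1 = 1 := fun x => Subtype.ext (by simp [cl])
  have key : ∀ w x, linearCombination ℤ
      (fun p : S × G => Additive.ofMul (Abelianization.of (cl p.2 (FreeGroup.of p.1)))) (fox π w x) =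
      Additive.ofMul (Abelianization.of (cl x w)) := by
    intro w
    induction w using FreeGroup.induction_on with
    | C1 => intro x; simp [hone]
    | of a => intro x; simp
    | inv_of a ih =>
      intro x
      rw [fox_inv, map_neg, ih, ← ofMul_inv, ← map_inv]
      congr 2
      rw [inv_eq_iff_mul_eq_one]
      have := hmul (x * (FreeGroup.lift π (FreeGroup.of a))⁻¹) (FreeGroup.of a) (FreeGroup.of a)⁻¹
      rwa [mul_inv_cancel, hone, inv_mul_cancel_right, eq_comm] at this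
    | mul u v ihu ihv => intro x; rw [fox_mul, map_add, ihu, ihv, hmul, map_mul, ofMul_mul]
  have h1 := key k 1
  rw [h0, map_zero, eq_comm, ofMul_eq_zero, ← MonoidHom.mem_ker, Abelianization.ker_of] at h1
  have h2 := Subgroup.mem_map_of_mem (FreeGroup.lift π).ker.subtype h1
  rw [Subgroup.map_subtype_commutator] at h2
  have h3 := (inferInstance : Subgroup.Normal
    ⁅(FreeGroup.lift π).ker, (FreeGroup.lift π).ker⁆).conj_mem _ h2 (s 1)⁻¹
  simpa [cl, hk, mul_assoc] using h3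

theorem gap_nc_le {rel : R → FreeGroup S} (hrel : ∀ r, FreeGroup.lift π (rel r) = 1) :
    Subgroup.normalClosure (Set.range rel) ≤ (FreeGroup.lift π).ker :=
  Subgroup.normalClosure_le_normal (by rintro _ ⟨r, rfl⟩; exact hrel r)

/-- Every boundary is the Fox chain of a consequence of the relators. -/
theorem gap_exists_fox (hsurj : Function.Surjective (FreeGroup.lift π)) {rel : R → FreeGroup S}
    (hrel : ∀ r, FreeGroup.lift π (rel r) = 1) (c : R × G →₀ ℤ) :
    ∃ n ∈ Subgroup.normalClosure (Set.range rel), fox π n 1 = bd2 π rel c := by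
  have hN := gap_nc_le π hrel
  let A : AddSubgroup (S × G →₀ ℤ) :=
    { carrier := {c | ∃ n ∈ Subgroup.normalClosure (Set.range rel), fox π n 1 = c}
      zero_mem' := ⟨1, one_mem _, fox_one π 1⟩
      add_mem' := by
        rintro _ _ ⟨a, ha, rfl⟩ ⟨b, hb, rfl⟩
        exact ⟨a * b, mul_mem ha hb, by rw [fox_mul, MonoidHom.mem_ker.1 (hN ha), mul_one]⟩
      neg_mem' := by
        rintro _ ⟨a, ha, rfl⟩
        exact ⟨a⁻¹, inv_mem ha, by rw [fox_inv, MonoidHom.mem_ker.1 (hN ha), inv_one, mul_one]⟩ }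
  change bd2 π rel c ∈ A
  induction c using Finsupp.induction_linear with
  | zero => rw [map_zero]; exact zero_mem _
  | add a b ha hb => rw [map_add]; exact add_mem ha hb
  | single p n =>
    rw [bd2_single]
    obtain ⟨u, hu⟩ := hsurj p.2
    refine A.zsmul_mem ?_ n
    refine ⟨u * rel p.1 * u⁻¹, Subgroup.normalClosure_normal.conj_mem _
      (Subgroup.subset_normalClosure (Set.mem_range_self p.1)) u, ?_⟩
    rw [fox_mul, fox_mul, fox_inv, map_mul, hrel, hu]
    simp

theorem gap_hol_conj {H : Type} [Group H] (β : S × G → H) {k : FreeGroup S}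
    (hk : FreeGroup.lift π k = 1) (g : FreeGroup S) (x : G) :
    hol π β (g * k * g⁻¹) x = hol π β g x * hol π β k (x * FreeGroup.lift π g) * (hol π β g x)⁻¹ := by
  rw [hol_mul, hol_mul, hol_inv, map_mul, hk]
  simp

/-- the words whose holonomy is `O (δ ^ p)` -/
def gapSm (rel : R → FreeGroup S) (Z : Set S) (p : ℕ) : Subgroup (FreeGroup S) where
  carrier := {k | FreeGroup.lift π k = 1 ∧ ∃ (R₁ : Finset R) (C : ℝ), 0 ≤ C ∧ ∀ β : S × G → S3,
    (∀ r ∈ R₁, ∀ x, hol π β (rel r) x = 1) → ∀ δ : ℝ, 0 ≤ δ → (∀ a ∈ Z, ∀ x, dv (β (a, x)) ≤ δ) →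
      ∀ x, dv (hol π β k x) ≤ C * δ ^ p}
  one_mem' := ⟨map_one _, ∅, 0, le_rfl, fun β _ δ _ _ x => by simp⟩
  mul_mem' := by
    classical
    rintro a b ⟨ha, R₁, C₁, h₁, h₁'⟩ ⟨hb, R₂, C₂, h₂, h₂'⟩
    refine ⟨by rw [map_mul, ha, hb, mul_one], R₁ ∪ R₂, C₁ + C₂, add_nonneg h₁ h₂,
      fun β hβ δ hδ hZ x => ?_⟩
    rw [hol_mul, add_mul]
    exact (dv_mul_le _ _).trans (add_le_add
      (h₁' β (fun r hr => hβ r (Finset.mem_union_left _ hr)) δ hδ hZ _)
      (h₂' β (fun r hr => hβ r (Finset.mem_union_right _ hr)) δ hδ hZ _))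
  inv_mem' := by
    rintro a ⟨ha, R₁, C₁, h₁, h₁'⟩
    refine ⟨by rw [map_inv, ha, inv_one], R₁, C₁, h₁, fun β hβ δ hδ hZ x => ?_⟩
    rw [hol_inv, dv_inv]
    exact h₁' β hβ δ hδ hZ _

instance gapSm_normal (rel : R → FreeGroup S) (Z : Set S) (p : ℕ) : (gapSm π rel Z p).Normal where
  conj_mem := by
    rintro a ⟨ha, R₁, C₁, h₁, h₁'⟩ g
    refine ⟨by simp [ha], R₁, C₁, h₁, fun β hβ δ hδ hZ x => ?_⟩
    rw [gap_hol_conj π β ha, dv_conj]
    exact h₁' β hβ δ hδ hZ _

theorem gapSm_rel {rel : R → FreeGroup S} (hrel : ∀ r, FreeGroup.lift π (rel r) = 1) (Z : Set S)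
    (p : ℕ) (r : R) : rel r ∈ gapSm π rel Z p :=
  ⟨hrel r, {r}, 0, le_rfl, fun β hβ δ _ _ x => by simp [hβ r (Finset.mem_singleton_self r) x]⟩

theorem gapSm_comm (rel : R → FreeGroup S) (Z : Set S) :
    ⁅gapSm π rel Z 1, gapSm π rel Z 1⁆ ≤ gapSm π rel Z 2 := by
  classical
  rw [Subgroup.commutator_le]
  rintro a ⟨ha, R₁, C₁, h₁, h₁'⟩ b ⟨hb, R₂, C₂, h₂, h₂'⟩
  refine ⟨by rw [commutatorElement_def]; simp [ha, hb], R₁ ∪ R₂, 2 * C₁ * C₂, by positivity,
    fun β hβ δ hδ hZ x => ?_⟩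
  have e : hol π β ⁅a, b⁆ x = hol π β a x * hol π β b x * (hol π β a x)⁻¹ * (hol π β b x)⁻¹ := by
    rw [commutatorElement_def, hol_mul, gap_hol_conj π β hb, hol_inv]
    simp [ha, hb]
  rw [e]
  refine (dv_comm_le _ _).trans ?_
  have a1 := h₁' β (fun r hr => hβ r (Finset.mem_union_left _ hr)) δ hδ hZ x
  have a2 := h₂' β (fun r hr => hβ r (Finset.mem_union_right _ hr)) δ hδ hZ x
  have a3 := dv_nonneg (hol π β b x)
  calc 2 * dv (hol π β a x) * dv (hol π β b x) ≤ 2 * (C₁ * δ ^ 1) * (C₂ * δ ^ 1) := by gcongr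
    _ = _ := by ring

end aux

theorem exists_gap {S R I : Type} [Finite I] (π : S → G) (rel : R → FreeGroup S)
    (hsurj : Function.Surjective (FreeGroup.lift π))
    (hker : (FreeGroup.lift π).ker = Subgroup.normalClosure (Set.range rel))
    (hinj : Function.Injective (bd2 π rel)) (e : I → FreeGroup S)
    (he : ∀ i, FreeGroup.lift π (e i) = 1)
    (φ : I → (R × G →₀ ℤ)) (lam : R → (I × G →₀ ℤ))
    (hφ : ∀ i, bd2 π rel (φ i) = fox π (e i) 1) (hlam : ∀ i, eqv lam (φ i) = single (i, 1) 1) :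
    ∃ ζ : R → FreeGroup (S ⊕ I),
      (∀ r, fox (Sum.elim π fun _ => 1) (ζ r) 1 = rl .inr (lam r)) ∧
      (∀ β : (S ⊕ I) × G → S3, (∀ i x, β (.inr i, x) = 1) →
        ∀ r x, hol (Sum.elim π fun _ => 1) β (ζ r) x = 1) ∧
      ∃ (R₁ : Finset R) (C : ℝ), 0 < C ∧ ∀ β : (S ⊕ I) × G → S3,
        (∀ r ∈ R₁, ∀ x, hol (Sum.elim π fun _ => 1) β (FreeGroup.map .inl (rel r) * ζ r) x = 1) →
        ∀ δ κ : ℝ, (∀ i x, dv (β (.inr i, x)) ≤ δ) →
          (∀ i x, dv (hol (Sum.elim π fun _ => 1) β (FreeGroup.map .inl (e i)) x) ≤ κ) →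
          ∀ i x, dv (β (.inr i, x)) ≤ κ + C * δ ^ 2 := by
  classical
  set π' : S ⊕ I → G := Sum.elim π fun _ => 1 with hπ'
  have hl : ∀ w : FreeGroup S, FreeGroup.lift π' (FreeGroup.map .inl w) = FreeGroup.lift π w :=
    fun w => lift_map_letter π' _ w
  have hf : ∀ (w : FreeGroup S) (x : G), fox π' (FreeGroup.map .inl w) x = rl .inl (fox π w x) :=
    fun w x => fox_map_letter π' _ w x
  have hsurj' : Function.Surjective (FreeGroup.lift π') := fun g => by
    obtain ⟨w, rfl⟩ := hsurj g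
    exact ⟨_, hl w⟩
  have hrel : ∀ r, FreeGroup.lift π (rel r) = 1 := fun r => by
    rw [← MonoidHom.mem_ker, hker]
    exact Subgroup.subset_normalClosure ⟨r, rfl⟩
  have hz : ∀ i : I, FreeGroup.lift π' (FreeGroup.of (Sum.inr i)) = 1 := fun i => by simp [hπ']
  choose ζ hζ hζ' using fun r =>
    gap_exists_fox π' hsurj' (rel := fun i : I => FreeGroup.of (Sum.inr i)) hz (lam r)
  have hζ1 : ∀ r, fox π' (ζ r) 1 = rl .inr (lam r) := fun r =>
    (hζ' r).trans (chain_ext (fun p => by simp) _)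
  refine ⟨ζ, hζ1, fun β hβ r x => ?_, ?_⟩
  · have : Subgroup.normalClosure (Set.range fun i : I => FreeGroup.of (Sum.inr i : S ⊕ I)) ≤
        (holW π' β).ker := Subgroup.normalClosure_le_normal (by
      rintro _ ⟨i, rfl⟩
      exact (holW_eq_one_iff π' β _).2 ⟨hz i, fun x => by simp [hβ]⟩)
    exact ((holW_eq_one_iff π' β _).1 (this (hζ r))).2 x
  set rh : R → FreeGroup (S ⊕ I) := fun r => FreeGroup.map .inl (rel r) * ζ r with hrh
  have hrh1 : ∀ r, FreeGroup.lift π' (rh r) = 1 := fun r => by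
    simp only [hrh]
    rw [map_mul, hl, hrel, one_mul]
    exact gap_nc_le π' hz (hζ r)
  have hbd : ∀ c, bd2 π' rh c = rl .inl (bd2 π rel c) + rl .inr (eqv lam c) := fun c =>
    chain_ext (f := bd2 π' rh) (g := rl .inl ∘ₗ bd2 π rel + rl .inr ∘ₗ eqv lam) (fun p => by
      simp only [hrh, bd2_single, one_smul, LinearMap.add_apply, LinearMap.comp_apply, eqv_single]
      rw [fox_mul, hf, hl, hrel, mul_one, fox_eq_tr π' (ζ p.1), hζ1, tr_rl]) c
  have hZ : ∀ i : I, FreeGroup.of (Sum.inr i) ∈ gapSm π' rh (Set.range Sum.inr) 1 := fun i =>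
    ⟨hz i, ∅, 1, zero_le_one, fun β _ δ _ h x => by simpa using h _ ⟨i, rfl⟩ x⟩
  have hK : (FreeGroup.lift π').ker ≤ gapSm π' rh (Set.range Sum.inr) 1 := by
    intro u hu
    let ρ : FreeGroup (S ⊕ I) →* FreeGroup S := FreeGroup.lift (Sum.elim FreeGroup.of fun _ => 1)
    have e1 : (QuotientGroup.mk' (gapSm π' rh (Set.range Sum.inr) 1)).comp
        ((FreeGroup.map Sum.inl).comp ρ) = QuotientGroup.mk' _ := by
      ext (a | i)
      · simp [ρ]
      · simpa [ρ] using ((QuotientGroup.eq_one_iff _).2 (hZ i)).symm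
    have e2 : (FreeGroup.lift π).comp ρ = FreeGroup.lift π' := by
      ext (a | i) <;> simp [ρ, hπ']
    have h1 : ρ u ∈ (FreeGroup.lift π).ker := (DFunLike.congr_fun e2 u).trans hu
    have h2 : Subgroup.normalClosure (Set.range rel) ≤
        (gapSm π' rh (Set.range Sum.inr) 1).comap (FreeGroup.map Sum.inl) :=
      Subgroup.normalClosure_le_normal (by
        rintro _ ⟨r, rfl⟩
        have a1 := gapSm_rel π' hrh1 (Set.range Sum.inr) 1 r
        have a2 : ζ r ∈ gapSm π' rh (Set.range Sum.inr) 1 :=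
          Subgroup.normalClosure_le_normal (by rintro _ ⟨i, rfl⟩; exact hZ i) (hζ r)
        exact (Subgroup.mul_mem_cancel_right _ a2).1 a1)
    rw [hker] at h1
    rw [← QuotientGroup.eq_one_iff, ← QuotientGroup.mk'_apply, ← DFunLike.congr_fun e1 u]
    exact (QuotientGroup.eq_one_iff _).2 (h2 h1)
  have hw : ∀ i, FreeGroup.map .inl (e i) * FreeGroup.of (Sum.inr i) ∈
      gapSm π' rh (Set.range Sum.inr) 2 := fun i => by
    obtain ⟨n, hn, hn'⟩ := gap_exists_fox π' hsurj' hrh1 (φ i)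
    have hn1 : FreeGroup.lift π' n = 1 := gap_nc_le π' hrh1 hn
    have hn2 : n ∈ gapSm π' rh (Set.range Sum.inr) 2 :=
      Subgroup.normalClosure_le_normal (by rintro _ ⟨r, rfl⟩; exact gapSm_rel π' hrh1 _ 2 r) hn
    have hk := gap_magnus π' hsurj'
      (k := n⁻¹ * (FreeGroup.map .inl (e i) * FreeGroup.of (Sum.inr i)))
      (by rw [map_mul, map_mul, map_inv, hn1, hl, he, hz]; simp) (by
        rw [fox_mul, fox_mul, fox_inv, map_inv, hn1, hl, he, inv_one, mul_one, mul_one, hn', hbd,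
          hφ, hlam, hf]
        simp)
    exact (Subgroup.mul_mem_cancel_left _ (inv_mem hn2)).1
      (gapSm_comm π' rh _ (Subgroup.commutator_mono hK hK hk))
  choose R₁ C hC h using fun i => (hw i).2
  have := Fintype.ofFinite I
  have hC0 : 0 ≤ ∑ i, C i := Finset.sum_nonneg fun i _ => hC i
  refine ⟨Finset.univ.biUnion R₁, ∑ i, C i + 1, by linarith, fun β hβ δ κ hδ hκ i x => ?_⟩
  have h1 := h i β (fun r hr => hβ r (Finset.mem_biUnion.2 ⟨i, Finset.mem_univ i, hr⟩)) δ
    ((dv_nonneg _).trans (hδ i x)) (by rintro _ ⟨j, rfl⟩ y; exact hδ j y) x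
  rw [hol_mul, hl, he, mul_one, hol_of] at h1
  have h2 := dv_mul_le (hol π' β (FreeGroup.map .inl (e i)) x)⁻¹
    (hol π' β (FreeGroup.map .inl (e i)) x * β (.inr i, x))
  rw [inv_mul_cancel_left, dv_inv] at h2
  have h3 : C i ≤ ∑ i, C i + 1 :=
    (Finset.single_le_sum (fun i _ => hC i) (Finset.mem_univ i)).trans (by linarith)
  have h4 := mul_le_mul_of_nonneg_right h3 (sq_nonneg δ)
  linarith [hκ i x]

end Crest.Agent.R197
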