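import Crest.Agent.R197.Split
import Crest.Agent.R197.Gap
import Crest.Agent.R197.FinLevel

/-! R197, the core theorem: small flat connections on an acyclic level complex are trivial when the
group is residually finite and has an aspherical presentation.

Proof.  `exists_comb`, `exists_split`, `exists_gap` (with `S = A ⊕ X`, `e i = map inl (Z.e i)`) give
`rh r = map inl (rel r) * ζ r`, `L`, `R₁`, `C`; `fox π' (rh r) 1 = rl inl (fox π (rel r) 1) + rl inr (lam r)`
(`fox_mul`, `fox_map_letter`).  Let `δ₀ = 1/(2C)`, `n` a bound for the lengths of the words `Z.e i`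
(for every word `u` there is `n` with `‖hol β u x - 1‖ ≤ n η` whenever all letters are `η`-close to `1`),
and `ε ≤ 1` with `2 n ε < δ₀/2`; then `hgap` of `finLevel` holds (`κ + C δ₀² < δ₀`).  The sets
`K (Rj, T) = {β | ...}` of `finLevel` are closed (`β ↦ hol π' β u x` is continuous, induction on `u`),
nonempty and directed in the compact space `((A ⊕ X) ⊕ I) × G → S3`, so some `β` lies in all of them
(`IsCompact.nonempty_iInter_of_directed_nonempty_isCompact_isClosed`): all `rh r` hold, `β` extends `α`,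
`‖z - 1‖ ≤ δ₀`.  With `κ = 0` (flatness) the gap gives `‖z - 1‖ ≤ δ₀ / 2^k` for all `k`, so `z = 1`,
`hol (ζ r) = 1`, hence `holW π β' (rel r) = 1` for the restriction `β'` to `A ⊕ X`; so `holW π β'` kills
the normal closure, which contains `map inl w`. -/

set_option autoImplicit false

namespace Crest.Agent.R197

/-- the holonomy of a fixed word is Lipschitz at the trivial connection -/
theorem core_len {G S : Type} [Group G] (π : S → G) (u : FreeGroup S) :
    ∃ n : ℝ, 0 ≤ n ∧ ∀ (α : S × G → S3) (η : ℝ), (∀ p, dv (α p) ≤ η) → 0 ≤ η →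
      ∀ x, dv (hol π α u x) ≤ n * η := by
  induction u using FreeGroup.induction_on with
  | C1 => exact ⟨0, le_rfl, fun α η _ _ x => by simp⟩
  | of s => exact ⟨1, zero_le_one, fun α η h _ x => by simpa using h (s, x)⟩
  | inv_of s ih =>
    obtain ⟨n, hn, ih⟩ := ih
    exact ⟨n, hn, fun α η h hη x => by rw [hol_inv, dv_inv]; exact ih α η h hη _⟩
  | mul u v ihu ihv =>
    obtain ⟨n, hn, ihu⟩ := ihu
    obtain ⟨m, hm, ihv⟩ := ihv
    refine ⟨n + m, by positivity, fun α η h hη x => ?_⟩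
    rw [hol_mul, add_mul]
    exact (dv_mul_le _ _).trans (add_le_add (ihu α η h hη _) (ihv α η h hη _))

theorem core_cont {G S : Type} [Group G] (π : S → G) (u : FreeGroup S) (x : G) :
    Continuous fun β : S × G → S3 => hol π β u x := by
  induction u using FreeGroup.induction_on generalizing x with
  | C1 => simpa using continuous_const
  | of s => simpa using continuous_apply (s, x)
  | inv_of s ih =>
    simp only [hol_inv]
    exact (ih _).inv
  | mul u v ihu ihv =>
    simp only [hol_mul]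
    exact (ihu _).mul (ihv _)

/-- the compactness step -/
theorem core_compact {G A X I R : Type} [Group G] (π' : (A ⊕ X) ⊕ I → G)
    (rh : R → FreeGroup ((A ⊕ X) ⊕ I)) (α : A × G → S3) (δ₀ : ℝ)
    (h : ∀ (Rj : Finset R) (T : Finset G), ∃ β : ((A ⊕ X) ⊕ I) × G → S3,
      (∀ r ∈ Rj, ∀ x, hol π' β (rh r) x = 1) ∧
      (∀ a, ∀ x ∈ T, β (.inl (.inl a), x) = α (a, x)) ∧ ∀ i x, dv (β (.inr i, x)) ≤ δ₀) :
    ∃ β : ((A ⊕ X) ⊕ I) × G → S3, (∀ r x, hol π' β (rh r) x = 1) ∧
      (∀ a x, β (.inl (.inl a), x) = α (a, x)) ∧ ∀ i x, dv (β (.inr i, x)) ≤ δ₀ := by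
  classical
  let K : Finset R × Finset G → Set (((A ⊕ X) ⊕ I) × G → S3) := fun j =>
    {β | (∀ r ∈ j.1, ∀ x, hol π' β (rh r) x = 1) ∧
      (∀ a, ∀ x ∈ j.2, β (.inl (.inl a), x) = α (a, x)) ∧ ∀ i x, dv (β (.inr i, x)) ≤ δ₀}
  have hcl : ∀ j, IsClosed (K j) := by
    intro j
    simp only [K, Set.ofPred_and, Set.ofPred_forall]
    refine IsClosed.inter ?_ (IsClosed.inter ?_ ?_)
    · exact isClosed_iInter fun r => isClosed_iInter fun _ => isClosed_iInter fun x =>
        isClosed_eq (core_cont π' (rh r) x) continuous_const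
    · exact isClosed_iInter fun a => isClosed_iInter fun x => isClosed_iInter fun _ =>
        isClosed_eq (continuous_apply _) continuous_const
    · exact isClosed_iInter fun i => isClosed_iInter fun x =>
        isClosed_le (continuous_dv.comp (continuous_apply _)) continuous_const
  have hdir : Directed (· ⊇ ·) K := by
    intro j j'
    refine ⟨(j.1 ∪ j'.1, j.2 ∪ j'.2), fun β hβ => ⟨fun r hr => hβ.1 r (Finset.mem_union_left _ hr),
      fun a x hx => hβ.2.1 a x (Finset.mem_union_left _ hx), hβ.2.2⟩,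
      fun β hβ => ⟨fun r hr => hβ.1 r (Finset.mem_union_right _ hr),
      fun a x hx => hβ.2.1 a x (Finset.mem_union_right _ hx), hβ.2.2⟩⟩
  obtain ⟨β, hβ⟩ := IsCompact.nonempty_iInter_of_directed_nonempty_isCompact_isClosed K hdir
    (fun j => h j.1 j.2) (fun j => (hcl j).isCompact) hcl
  rw [Set.mem_iInter] at hβ
  exact ⟨β, fun r => (hβ ({r}, ∅)).1 r (Finset.mem_singleton_self r),
    fun a x => (hβ (∅, {x})).2.1 a x (Finset.mem_singleton_self x), (hβ (∅, ∅)).2.2⟩

/-- iteration of the gap inequality -/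
theorem core_iter {J : Type} (f : J → ℝ) (hf : ∀ j, 0 ≤ f j) {C : ℝ} (hC : 0 < C)
    (h0 : ∀ j, f j ≤ 1 / (2 * C)) (h : ∀ δ : ℝ, (∀ j, f j ≤ δ) → ∀ j, f j ≤ 0 + C * δ ^ 2)
    (j : J) : f j = 0 := by
  have hk : ∀ k : ℕ, ∀ j, f j ≤ 1 / (2 * C) * (1 / 2) ^ k := by
    intro k
    induction k with
    | zero => simpa using h0
    | succ k ih =>
      intro j
      refine (h _ ih j).trans ?_
      have h1 : ((1 : ℝ) / 2) ^ k ≤ 1 := pow_le_one₀ (by norm_num) (by norm_num)
      have h2 : (0 : ℝ) ≤ (1 / 2) ^ k := by positivity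
      have e : 0 + C * (1 / (2 * C) * (1 / 2) ^ k) ^ 2 =
          1 / (2 * C) * (1 / 2) ^ (k + 1) * (1 / 2) ^ k := by
        field_simp
        ring
      rw [e]
      exact mul_le_of_le_one_right (by positivity) h1
  have ht : Filter.Tendsto (fun k : ℕ => 1 / (2 * C) * ((1 : ℝ) / 2) ^ k) Filter.atTop
      (nhds (1 / (2 * C) * 0)) :=
    (tendsto_pow_atTop_nhds_zero_of_lt_one (by norm_num) (by norm_num)).const_mul _
  rw [mul_zero] at ht
  exact le_antisymm (ge_of_tendsto' ht fun k => hk k j) (hf j)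

theorem core {G : Type} [Group G] [Group.ResiduallyFinite G] (P : AsphPres G) (Z : Level G) :
    ∃ ε : ℝ, 0 < ε ∧ ∀ α : Z.A × G → S3, (∀ p, dv (α p) ≤ ε) →
      (∀ i x, hol Z.π α (Z.e i) x = 1) →
      ∀ w, FreeGroup.lift Z.π w = 1 → ∀ x, hol Z.π α w x = 1 := by
  have := Z.finI
  obtain ⟨R, rel, hker, hinj⟩ := exists_comb P Z
  set π : Z.A ⊕ P.X → G := Sum.elim Z.π P.π with hπ
  have hlift : ∀ w : FreeGroup Z.A,
      FreeGroup.lift π (FreeGroup.map .inl w) = FreeGroup.lift Z.π w :=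
    fun w => lift_map_letter π Sum.inl w
  have hsurj : Function.Surjective (FreeGroup.lift π) := fun g => by
    obtain ⟨w, hw⟩ := Z.surj g
    exact ⟨_, (hlift w).trans hw⟩
  have hrel : ∀ r, FreeGroup.lift π (rel r) = 1 := fun r => by
    rw [← MonoidHom.mem_ker, hker]
    exact Subgroup.subset_normalClosure ⟨r, rfl⟩
  obtain ⟨φ, lam, L, hφ, hlam, hL0, hL⟩ :=
    exists_split π rel hker hinj Z.e Z.surj Z.he Z.inj Z.exact
  obtain ⟨ζ, hζ1, hζ2, R₁, C, hC, hgap⟩ := exists_gap π rel hsurj hker hinj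
    (fun i => FreeGroup.map .inl (Z.e i)) (fun i => (hlift _).trans (Z.he i)) φ lam hφ hlam
  set π' : (Z.A ⊕ P.X) ⊕ Z.I → G := Sum.elim π fun _ => 1 with hπ'
  have hlift' : ∀ r, FreeGroup.lift π' (FreeGroup.map .inl (rel r)) = 1 :=
    fun r => (lift_map_letter π' Sum.inl (rel r)).trans (hrel r)
  have hL' : ∀ r, eqv L (fox π' (FreeGroup.map .inl (rel r) * ζ r) 1) =
      Finsupp.single (r, 1) 1 := by
    intro r
    rw [fox_mul, hlift', mul_one, hζ1, fox_map_letter]
    exact hL r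
  have hhol : ∀ (β : ((Z.A ⊕ P.X) ⊕ Z.I) × G → S3) (w : FreeGroup Z.A) (x : G),
      hol π' β (FreeGroup.map .inl (FreeGroup.map .inl w)) x =
        hol Z.π (fun p => β (.inl (.inl p.1), p.2)) w x := by
    intro β w x
    rw [hol_map_letter, hol_map_letter]
    rfl
  choose n hn0 hn using fun i => core_len Z.π (Z.e i)
  obtain ⟨N, hN⟩ := (Set.finite_range n).bddAbove
  set δ₀ : ℝ := 1 / (2 * C) with hδ₀
  have hδ : 0 < δ₀ := by positivity
  have hN1 : 0 < max N 0 + 1 := by positivity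
  set ε : ℝ := min 1 (δ₀ / (8 * (max N 0 + 1))) with hε
  have hε0 : 0 < ε := lt_min one_pos (by positivity)
  have hεN : max N 0 * (2 * ε) ≤ δ₀ / 4 := by
    have h1 : ε ≤ δ₀ / (8 * (max N 0 + 1)) := min_le_right _ _
    rw [le_div_iff₀ (by positivity)] at h1
    nlinarith [le_max_right N 0]
  refine ⟨ε, hε0, fun α hα hflat w hw x => ?_⟩
  obtain ⟨β, hβ1, hβ2, hβ3⟩ := core_compact π' (fun r => FreeGroup.map .inl (rel r) * ζ r) α δ₀
    (finLevel π' _ L hL0 hL' R₁ hδ hε0.le (min_le_left _ _) (fun β h1 h2 h3 i x => by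
      have h4 := hgap β h1 δ₀ (δ₀ / 4) h3 (fun i x => by
        rw [hhol]
        refine (hn i _ (2 * ε) (fun p => h2 p.1 p.2) (by positivity) x).trans (le_trans ?_ hεN)
        exact mul_le_mul_of_nonneg_right ((hN ⟨i, rfl⟩).trans (le_max_left _ _))
          (by positivity)) i x
      have e : C * δ₀ ^ 2 = δ₀ / 2 := by
        rw [hδ₀]; field_simp
      linarith) α hα)
  have hβα : (fun p : Z.A × G => β (.inl (.inl p.1), p.2)) = α :=
    funext fun p => hβ2 p.1 p.2
  have hz : ∀ i x, β (.inr i, x) = 1 := fun i x => dv_eq_zero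
    (core_iter (fun j : Z.I × G => dv (β (.inr j.1, j.2))) (fun _ => dv_nonneg _) hC
      (fun j => hβ3 j.1 j.2) (fun δ hδ j => hgap β (fun r _ => hβ1 r) δ 0
        (fun i x => hδ (i, x)) (fun i x => by rw [hhol, hβα, hflat, dv_one]) j.1 j.2) (i, x))
  have hr : ∀ r, holW π (fun p => β (.inl p.1, p.2)) (rel r) = 1 := by
    intro r
    rw [holW_eq_one_iff]
    refine ⟨hrel r, fun x => ?_⟩
    have := hβ1 r x
    rw [hol_mul, hζ2 β hz, mul_one, hol_map_letter] at this
    exact this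
  have hle : Subgroup.normalClosure (Set.range rel) ≤ (holW π fun p => β (.inl p.1, p.2)).ker :=
    Subgroup.normalClosure_le_normal (by
      rintro _ ⟨r, rfl⟩
      exact hr r)
  have hmem : FreeGroup.map .inl w ∈ Subgroup.normalClosure (Set.range rel) := by
    rw [← hker, MonoidHom.mem_ker, hlift, hw]
  have := ((holW_eq_one_iff _ _ _).1 (hle hmem)).2 x
  rw [hol_map_letter] at this
  rw [← hβα]
  exact this

end Crest.Agent.R197
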