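import Crest.Agent.R197.K3Defs
import Crest.Agent.R197.Cube

/-! R197: `pE` is the quotient by a free and properly discontinuous action.

`exists_normal`: induction on the number of coordinates equal to `1` (`Quot.sound`).
Quotient map: `pE0 = pE ∘ EE.mk` is continuous and onto (`t v = (AddCircle.equivIco 1 0 (θ v))`, the
difference `y - ∑ t` is an integer `k`, `g = gen v ^ k`; if `V` is empty then... `hV : Nonempty V`), and it
is a quotient map: if `pE0 ⁻¹' Z` is closed then `Z = ⋃ k : ℤ, Z ∩ T k` with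
`T k = range (fun t => pE0 (gen v ^ k, t))`; `Kc L` is compact (closed in `[0,1]^V`: for non-adjacent
`u ≠ v`, `t u * t v = 0`), each `Z ∩ T k` is the image of a closed subset, and the family is locally
finite (`T k ⊆ {k ≤ y ≤ k + card V}`); `IsQuotientMap.of_comp`.
Fibres: normal forms with the same image have `t = t'` (`AddCircle.coe_eq_coe_iff_of_mem_Ico`) and
`htz g = htz g'`.  Continuity of the action: `Quot.map` of a continuous map.
Disjoint neighbourhoods: for `θ ∈ (0,1)` let `rd θ (g, t) = g * pr {v | θ < t v}`; it respects `Mv`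
(`pr_erase`) and is equivariant.  For `e = mk (g, t)` choose `θ ∈ (0,1)` different from all `t v`; the set
`U = {x | rd θ x = rd θ e ∧ no coordinate of x equals θ}` is open (its preimage is open because
`{v | θ < t v}` is locally constant where all `t v ≠ θ`); if `x, c • x ∈ U` then `c * rd θ x = rd θ x`. -/

set_option autoImplicit false

namespace Crest.Agent.R197

open Set Filter Topology

variable {V : Type} [Fintype V] [LinearOrder V] {L : SimpleGraph V}

omit [LinearOrder V] in
theorem exists_normal (x : EE L) : ∃ a : RA L × Kc L, x = EE.mk a ∧ ∀ v, a.2.1 v < 1 := by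
  classical
  obtain ⟨a, rfl⟩ := (isQuotientMap_mk L).surjective x
  induction hn : (Finset.univ.filter fun v => a.2.1 v = 1).card using Nat.strong_induction_on
    generalizing a with
  | _ n ih =>
  by_cases h : ∀ v, a.2.1 v < 1
  · exact ⟨a, rfl, h⟩
  · push Not at h
    obtain ⟨v, hv⟩ := h
    have hv1 : a.2.1 v = 1 := le_antisymm (a.2.2.1 v).2 hv
    let t : Kc L := ⟨Function.update a.2.1 v 0, fun u => by
      by_cases hu : u = v
      · subst hu
        simp
      · rw [Function.update_of_ne hu]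
        exact a.2.2.1 u, SimpleGraph.IsClique.subset (fun u hu => by
      by_cases hu' : u = v
      · subst hu'
        simp at hu
      · simpa [Function.update_of_ne hu'] using hu) a.2.2.2⟩
    have hab : Mv L a (a.1 * gen L v, t) :=
      ⟨v, hv1, rfl, by simp [t], fun u hu => by simp [t, Function.update_of_ne hu]⟩
    have hlt : (Finset.univ.filter fun u => t.1 u = 1).card < n := by
      rw [← hn]
      refine Finset.card_lt_card ⟨fun u hu => ?_, fun hs => ?_⟩
      · simp only [Finset.mem_filter, Finset.mem_univ, true_and, t] at hu ⊢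
        by_cases hu' : u = v
        · rw [hu', hv1]
        · rwa [Function.update_of_ne hu'] at hu
      · have := hs (Finset.mem_filter.2 ⟨Finset.mem_univ v, hv1⟩)
        simp [t] at this
    obtain ⟨c, hc, hc'⟩ := ih _ hlt (a.1 * gen L v, t) rfl
    exact ⟨c, (Quot.sound hab).trans hc, hc'⟩

omit [LinearOrder V] in
instance compactSpace_Kc : CompactSpace (Kc L) := by
  have h1 : IsCompact (Set.pi univ fun _ : V => Icc (0 : ℝ) 1) :=
    isCompact_univ_pi fun _ => isCompact_Icc
  have h2 : IsClosed {t : V → ℝ | L.IsClique {v | t v ≠ 0}} := by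
    have e : {t : V → ℝ | L.IsClique {v | t v ≠ 0}} =
        ⋂ (u : V) (v : V) (_ : u ≠ v) (_ : ¬ L.Adj u v), {t : V → ℝ | t u * t v = 0} := by
      ext t
      simp only [mem_iInter, mem_ofPred_eq, mul_eq_zero]
      constructor
      · intro h u v huv hA
        by_contra hc
        push Not at hc
        exact hA (h hc.1 hc.2 huv)
      · intro h u hu v hv huv
        by_contra hA
        exact (h u v huv hA).elim hu hv
    rw [e]
    exact isClosed_iInter fun u => isClosed_iInter fun v => isClosed_iInter fun _ =>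
      isClosed_iInter fun _ => isClosed_eq (by fun_prop) continuous_const
  have h3 : IsCompact {t : V → ℝ | (∀ v, t v ∈ Icc (0 : ℝ) 1) ∧ L.IsClique {v | t v ≠ 0}} := by
    convert h1.inter_right h2 using 1
    ext t
    simp only [mem_ofPred_eq, mem_inter_iff, Set.mem_pi, mem_univ, true_imp_iff]
  exact isCompact_iff_compactSpace.1 h3

omit [LinearOrder V] [Fintype V] in
theorem Cv_cont_coord (v : V) : Continuous fun a : RA L × Kc L => a.2.1 v :=
  (continuous_apply v).comp (continuous_subtype_val.comp continuous_snd)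

omit [LinearOrder V] in
theorem Cv_cont_pE0 : Continuous (pE0 L) := by
  refine Continuous.subtype_mk (Continuous.prodMk (continuous_pi fun v => ?_) ?_) _
  · exact (AddCircle.continuous_mk' (1 : ℝ)).comp (Cv_cont_coord v)
  · exact ((continuous_of_discreteTopology (f := fun g : RA L => (htz g : ℝ))).comp
      continuous_fst).add (continuous_finsetSum _ fun v _ => Cv_cont_coord v)

omit [LinearOrder V] in
theorem Cv_onto (v₀ : V) (q : TT L) : ∃ (k : ℤ) (t : Kc L), pE0 L (gen L v₀ ^ k, t) = q := by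
  choose t ht ht' using fun v => AddCircle.eq_coe_Ico (q.1.1 v)
  have h1 : ((q.1.2 - ∑ v, t v : ℝ) : AddCircle (1 : ℝ)) = 0 := by
    rw [AddCircle.coe_sub, ← q.2.2, sub_eq_zero]
    simp only [← ht']
    exact (map_sum (QuotientAddGroup.mk' (AddSubgroup.zmultiples (1 : ℝ))) _ _).symm
  obtain ⟨k, hk⟩ := (AddCircle.coe_eq_zero_iff _).1 h1
  refine ⟨k, ⟨t, fun v => Ico_subset_Icc_self (ht v),
    SimpleGraph.IsClique.subset (fun v hv => ?_) q.2.1⟩, ?_⟩
  · intro h0
    rw [← ht'] at h0
    exact hv ((AddCircle.coe_eq_zero_iff_of_mem_Ico (ht v)).1 h0)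
  · refine Subtype.ext (Prod.ext (funext ht') ?_)
    simp only [pE0, htz_zpow, htz_gen, mul_one]
    simp only [zsmul_eq_mul, mul_one] at hk
    linarith

omit [LinearOrder V] in
theorem Cv_quot_pE0 [Nonempty V] : IsQuotientMap (pE0 L) := by
  obtain ⟨v₀⟩ := ‹Nonempty V›
  refine isQuotientMap_iff_isClosed.2 ⟨fun q => ?_, fun Z => ⟨fun h => h.preimage Cv_cont_pE0,
    fun hZ => ?_⟩⟩
  · obtain ⟨k, t, h⟩ := Cv_onto v₀ q
    exact ⟨_, h⟩
  let F : ℤ → Kc L → TT L := fun k t => pE0 L (gen L v₀ ^ k, t)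
  have hF : ∀ k, Continuous (F k) := fun k => Cv_cont_pE0.comp (Continuous.prodMk_right _)
  have e : Z = ⋃ k, F k '' (F k ⁻¹' Z) := by
    ext q
    simp only [mem_iUnion]
    constructor
    · intro hq
      obtain ⟨k, t, rfl⟩ := Cv_onto v₀ q
      exact ⟨k, t, hq, rfl⟩
    · rintro ⟨k, t, ht, rfl⟩
      exact ht
  rw [e]
  refine LocallyFinite.isClosed_iUnion (fun q => ?_) fun k => ?_
  · have hc : Continuous fun q : TT L => q.1.2 := continuous_snd.comp continuous_subtype_val
    refine ⟨(fun q : TT L => q.1.2) ⁻¹' Ioo (q.1.2 - 1) (q.1.2 + 1),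
      hc.continuousAt.preimage_mem_nhds (Ioo_mem_nhds (by linarith) (by linarith)),
      (finite_Icc (⌊q.1.2⌋ - 1 - Fintype.card V) (⌈q.1.2⌉ + 1)).subset ?_⟩
    rintro k ⟨_, ⟨t, -, rfl⟩, h1, h2⟩
    simp only [F, pE0, htz_zpow, htz_gen, mul_one] at h1 h2
    have h3 : 0 ≤ ∑ v, t.1 v := Finset.sum_nonneg fun v _ => (t.2.1 v).1
    have h4 : ∑ v, t.1 v ≤ Fintype.card V := by
      have := Finset.sum_le_card_nsmul Finset.univ t.1 1 fun v _ => (t.2.1 v).2
      simpa using this
    have h5 := Int.floor_le q.1.2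
    have h6 := Int.le_ceil q.1.2
    constructor
    · have : ((⌊q.1.2⌋ - 1 - Fintype.card V : ℤ) : ℝ) ≤ k := by
        push_cast
        linarith
      exact_mod_cast this
    · have : (k : ℝ) ≤ ((⌈q.1.2⌉ + 1 : ℤ) : ℝ) := by
        push_cast
        linarith
      exact_mod_cast this
  · have h1 : IsClosed (F k ⁻¹' Z) := hZ.preimage (Continuous.prodMk_right (gen L v₀ ^ k))
    exact (h1.isCompact.image (hF k)).isClosed

/-- rounding to a vertex -/
noncomputable def Cv_rd (θ : ℝ) (a : RA L × Kc L) : RA L :=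
  a.1 * pr L (Finset.univ.filter fun v => θ < a.2.1 v)

theorem Cv_rd_mv {θ : ℝ} (h0 : 0 < θ) (h1 : θ < 1) {a b : RA L × Kc L} (h : Mv L a b) :
    Cv_rd θ a = Cv_rd θ b := by
  obtain ⟨v, e1, e2, e3, e4⟩ := h
  have e : (Finset.univ.filter fun u => θ < b.2.1 u) =
      (Finset.univ.filter fun u => θ < a.2.1 u).erase v := by
    ext u
    simp only [Finset.mem_filter, Finset.mem_univ, true_and, Finset.mem_erase]
    by_cases hu : u = v
    · simp [hu, e3, h0.le]
    · simp [hu, e4 u hu]
  rw [Cv_rd, Cv_rd, e, e2, mul_assoc, pr_erase]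
  · refine SimpleGraph.IsClique.subset (fun u hu => ?_) a.2.2.2
    simp only [Finset.coe_filter, Finset.mem_univ, true_and, mem_ofPred_eq] at hu ⊢
    exact (h0.trans hu).ne'
  · simp [e1, h1]

theorem Cv_disjoint (e : EE L) :
    ∃ U ∈ 𝓝 e, ∀ g : RA L, ((g • ·) '' U ∩ U).Nonempty → g = 1 := by
  obtain ⟨a₀, rfl⟩ := (isQuotientMap_mk L).surjective e
  obtain ⟨θ, ⟨h0, h1⟩, hθ⟩ := (Ioo_infinite (zero_lt_one' ℝ)).exists_notMem_finite
    (finite_range a₀.2.1)
  let P : RA L × Kc L → Prop := fun a => Cv_rd θ a = Cv_rd θ a₀ ∧ ∀ v, a.2.1 v ≠ θ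
  have hP : ∀ a b, Mv L a b → P a = P b := by
    intro a b h
    simp only [P, Cv_rd_mv h0 h1 h]
    obtain ⟨v, e1, -, e3, e4⟩ := h
    congr 1
    refine propext (forall_congr' fun u => ?_)
    by_cases hu : u = v
    · simp [hu, e1, e3, h0.ne, h1.ne']
    · rw [e4 u hu]
  let U : Set (EE L) := {x | Quot.lift P hP x}
  have hU : IsOpen U := by
    refine (isQuotientMap_mk L).isOpen_preimage.1 (isOpen_iff_mem_nhds.2 fun a ha => ?_)
    have ha' : P a := ha
    have h2 : ∀ᶠ b in 𝓝 a, b.1 = a.1 :=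
      continuous_fst.continuousAt.preimage_mem_nhds ((isOpen_discrete {a.1}).mem_nhds rfl)
    have h3 : ∀ᶠ b in 𝓝 a, ∀ v, b.2.1 v ≠ θ ∧ (θ < b.2.1 v ↔ θ < a.2.1 v) := by
      refine eventually_all.2 fun v => ?_
      rcases lt_or_gt_of_ne (ha'.2 v) with h | h
      · filter_upwards [(Cv_cont_coord v).continuousAt.eventually_lt continuousAt_const h] with b hb
        exact ⟨hb.ne, iff_of_false hb.not_gt h.not_gt⟩
      · filter_upwards [continuousAt_const.eventually_lt (Cv_cont_coord v).continuousAt h] with b hb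
        exact ⟨hb.ne', iff_of_true hb h⟩
    filter_upwards [h2, h3] with b hb hb'
    refine (⟨?_, fun v => (hb' v).1⟩ : P b)
    rw [← ha'.1, Cv_rd, Cv_rd, hb, Finset.filter_congr fun v _ => (hb' v).2]
  refine ⟨U, hU.mem_nhds (⟨rfl, fun v hv => hθ ⟨v, hv⟩⟩ : P a₀), ?_⟩
  rintro g ⟨_, ⟨x, hx, rfl⟩, hx'⟩
  obtain ⟨a, rfl⟩ := (isQuotientMap_mk L).surjective x
  have h2 : P a := hx
  have h3 : P (g * a.1, a.2) := hx'
  have h4 := h3.1.trans h2.1.symm
  simp only [Cv_rd, mul_assoc] at h4
  simpa using h4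

theorem isQuotientCoveringMap_pE [Nonempty V] : IsQuotientCoveringMap (pE L) (BB L) where
  toIsQuotientMap := (isQuotientMap_mk L).of_comp_isQuotientMap Cv_quot_pE0
  continuous_const_smul c := by
    refine (isQuotientMap_mk L).continuous_iff.2 ?_
    exact (isQuotientMap_mk L).continuous.comp
      (((continuous_of_discreteTopology (f := fun g : RA L => c.1 * g)).comp
        continuous_fst).prodMk continuous_snd)
  apply_eq_iff_mem_orbit {e₁ e₂} := by
    constructor
    · intro h
      obtain ⟨a, rfl, ha⟩ := exists_normal e₁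
      obtain ⟨b, rfl, hb⟩ := exists_normal e₂
      have h1 := congrArg (fun q : TT L => q.1.1) h
      have h2 := congrArg (fun q : TT L => q.1.2) h
      simp only [pE_mk, pE0] at h1 h2
      have h3 : a.2 = b.2 := Subtype.ext (funext fun v =>
        (AddCircle.coe_eq_coe_iff_of_mem_Ico (a := 0) (p := (1 : ℝ))
          ⟨(a.2.2.1 v).1, by simpa using ha v⟩ ⟨(b.2.2.1 v).1, by simpa using hb v⟩).1
          (congrFun h1 v))
      rw [h3, add_left_inj, Int.cast_inj] at h2
      refine ⟨⟨a.1 * b.1⁻¹, by simp [mem_BB, h2]⟩, ?_⟩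
      simp only [Subgroup.smul_def, smul_mk, inv_mul_cancel_right, ← h3]
    · rintro ⟨c, rfl⟩
      obtain ⟨b, rfl⟩ := (isQuotientMap_mk L).surjective e₂
      have hc := mem_BB.1 c.2
      simp only [Subgroup.smul_def, smul_mk, pE_mk]
      exact Subtype.ext (Prod.ext rfl (by simp only [pE0, htz_mul, hc, zero_add]))
  disjoint e := by
    obtain ⟨U, hU, h⟩ := Cv_disjoint e
    exact ⟨U, hU, fun g hg => Subtype.ext (h g.1 hg)⟩

end Crest.Agent.R197
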