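import Crest.Agent.R197.DegDefs

/-! R197: the degree integral counts nondegenerate zeros.

Proof.  `Z = {x ∈ Ω | F x = 0} ⊆ K` is closed in `K` hence compact.  At `z ∈ Z`, `F` has the strict
derivative `fderiv F z`, a continuous linear equivalence (`ContinuousLinearMap.toContinuousLinearEquivOfDetNeZero`
or `LinearMap.equivOfDetNeZero`), so `HasStrictFDerivAt.toOpenPartialHomeomorph` (or
`ContDiffAt.toOpenPartialHomeomorph`) makes `F` injective near `z` and `map_nhds_eq_of_equiv` gives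
`F '' U ∈ 𝓝 0` for `U ∈ 𝓝 z`; zeros are isolated, so `Z` is finite.  Choose pairwise disjoint open balls
`U z ⊆ Ω` on which `F` is injective and `det (fderiv F)` has the sign of its value at `z`
(continuity of `fderiv` on `Ω`: `ContDiffOn.continuousOn_fderiv_of_isOpen`).  On the compact set
`K \ ⋃ U z`, `‖F‖ ≥ m' > 0`.  For `r ≤ r₀ = min (m, m', radii of balls inside F '' U z)` the integrand
vanishes off `⋃ U z` (`psi r y = 0` if `r ≤ ‖y‖`; for empty `ι` treat `psi = 1` directly or note that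
`‖y‖ = 0`), so `degI = ∑ z, ± ∫ x in U z, |det| • psi r (F x) = ∑ z, ± ∫ y in F '' U z, psi r y
= (∑ z, ±1) * ∫ psi r` (`integral_image_eq_integral_abs_det_fderiv_smul`), `∫ psi r > 0`
(`Continuous.integral_pos_of_hasCompactSupport_nonneg_nonzero`), and an odd number of signs has an odd
sum. -/

set_option autoImplicit false

namespace Crest.Agent.R197

open MeasureTheory

variable {ι : Type} [Fintype ι] [DecidableEq ι]

theorem degCount_local {Ω : Set (ι → ℝ)} (hΩ : IsOpen Ω) {F : (ι → ℝ) → ι → ℝ}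
    (hF : ContDiffOn ℝ 1 F Ω) {z : ι → ℝ} (hz : z ∈ Ω) (hdet : (fderiv ℝ F z).det ≠ 0) :
    (∃ U ∈ nhds z, Set.InjOn F U) ∧ Filter.map F (nhds z) = nhds (F z) := by
  have hs : HasStrictFDerivAt F (fderiv ℝ F z) z :=
    (hF.contDiffAt (hΩ.mem_nhds hz)).hasStrictFDerivAt one_ne_zero
  rw [← ContinuousLinearMap.coe_toContinuousLinearEquivOfDetNeZero _ hdet] at hs
  refine ⟨⟨(hs.toOpenPartialHomeomorph F).source,
    (hs.toOpenPartialHomeomorph F).open_source.mem_nhds hs.mem_toOpenPartialHomeomorph_source,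
    (hs.toOpenPartialHomeomorph F).injOn⟩, hs.map_nhds_eq_of_equiv⟩

omit [DecidableEq ι] in
theorem degCount_psi_zero {r : ℝ} (hr : 0 < r) {y : ι → ℝ} (hy : r ≤ ‖y‖) : psi r y = 0 := by
  obtain ⟨i, hi⟩ : ∃ i, r ≤ |y i| := by
    by_contra h
    push Not at h
    exact absurd ((pi_norm_lt_iff hr).2 h) (not_lt.2 hy)
  refine Finset.prod_eq_zero (Finset.mem_univ i) (expNegInvGlue.zero_of_nonpos ?_)
  have := pow_le_pow_left₀ hr.le hi 2
  rw [sq_abs] at this
  linarith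

omit [DecidableEq ι] in
theorem degCount_psi_cont (r : ℝ) : Continuous (psi (ι := ι) r) :=
  continuous_finsetProd _ fun i _ => (expNegInvGlue.contDiff (n := 0)).continuous.comp
    (continuous_const.sub ((continuous_apply i).pow 2))

omit [DecidableEq ι] in
theorem degCount_psi_pos {r : ℝ} (hr : 0 < r) : 0 < ∫ y : ι → ℝ, psi r y := by
  refine (degCount_psi_cont r).integral_pos_of_hasCompactSupport_nonneg_nonzero (x := 0) ?_
    (fun y => Finset.prod_nonneg fun i _ => expNegInvGlue.nonneg _) ?_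
  · refine HasCompactSupport.intro (isCompact_closedBall (0 : ι → ℝ) r) fun y hy => ?_
    rw [mem_closedBall_zero_iff, not_le] at hy
    exact degCount_psi_zero hr hy.le
  · refine (Finset.prod_pos fun i _ => expNegInvGlue.pos_of_pos ?_).ne'
    simpa using pow_pos hr 2

theorem finite_zeros {Ω K : Set (ι → ℝ)} (hΩ : IsOpen Ω) (hK : IsCompact K) (hKΩ : K ⊆ Ω)
    {F : (ι → ℝ) → ι → ℝ} (hF : ContDiffOn ℝ 1 F Ω) (hb : ∀ x ∈ Ω, x ∉ K → F x ≠ 0)
    (hreg : ∀ x ∈ Ω, F x = 0 → (fderiv ℝ F x).det ≠ 0) : {x | x ∈ Ω ∧ F x = 0}.Finite := by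
  have hZ : {x | x ∈ Ω ∧ F x = 0} = K ∩ F ⁻¹' {0} := by
    ext x
    exact ⟨fun h => ⟨by_contra fun hx => hb x h.1 hx h.2, h.2⟩, fun h => ⟨hKΩ h.1, h.2⟩⟩
  have hc : IsCompact {x | x ∈ Ω ∧ F x = 0} := by
    rw [hZ]
    exact hK.of_isClosed_subset ((hF.continuousOn.mono hKΩ).preimage_isClosed_of_isClosed
      hK.isClosed isClosed_singleton) Set.inter_subset_left
  choose! U hU hinj using fun z (hz : z ∈ {x | x ∈ Ω ∧ F x = 0}) =>
    (degCount_local hΩ hF hz.1 (hreg z hz.1 hz.2)).1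
  obtain ⟨t, ht, hcov⟩ := hc.elim_nhds_subcover U hU
  refine t.finite_toSet.subset fun w hw => ?_
  obtain ⟨z, hz, hwz⟩ := Set.mem_iUnion₂.1 (hcov hw)
  rwa [hinj z (ht z hz) hwz (mem_of_mem_nhds (hU z (ht z hz))) (hw.2.trans (ht z hz).2.symm)]

theorem degI_ne_zero_of_odd [Nonempty ι] {Ω K : Set (ι → ℝ)} (hΩ : IsOpen Ω) (hK : IsCompact K)
    (hKΩ : K ⊆ Ω) {F : (ι → ℝ) → ι → ℝ} (hF : ContDiffOn ℝ 1 F Ω) {m : ℝ} (hm : 0 < m)
    (hb : ∀ x ∈ Ω, x ∉ K → m ≤ ‖F x‖)
    (hreg : ∀ x ∈ Ω, F x = 0 → (fderiv ℝ F x).det ≠ 0)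
    (hodd : Odd {x | x ∈ Ω ∧ F x = 0}.ncard) :
    ∃ r₀ > 0, ∀ r, 0 < r → r ≤ r₀ → degI Ω r F ≠ 0 := by
  have hfin := finite_zeros hΩ hK hKΩ hF
    (fun x hx hxK h0 => by have := hb x hx hxK; rw [h0, norm_zero] at this; linarith) hreg
  set t := hfin.toFinset with ht
  have hmem : ∀ z, z ∈ t ↔ z ∈ Ω ∧ F z = 0 := fun z => hfin.mem_toFinset
  have hcont : ContinuousOn (fun x => (fderiv ℝ F x).det) Ω :=
    ContinuousLinearMap.continuous_det.comp_continuousOn
      (hF.continuousOn_fderiv_of_isOpen hΩ le_rfl)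
  obtain ⟨W, hW, hdisj⟩ := t.finite_toSet.t2_separation
  have hV : ∀ z ∈ t, ∃ V, IsOpen V ∧ z ∈ V ∧ V ⊆ W z ∧ V ⊆ Ω ∧ Set.InjOn F V ∧
      ∀ x ∈ V, 0 < (fderiv ℝ F x).det * (fderiv ℝ F z).det := by
    intro z hz
    obtain ⟨hzΩ, hz0⟩ := (hmem z).1 hz
    obtain ⟨U, hU, hinj⟩ := (degCount_local hΩ hF hzΩ (hreg z hzΩ hz0)).1
    have h1 : ∀ᶠ x in nhds z, 0 < (fderiv ℝ F x).det * (fderiv ℝ F z).det :=
      ((hcont.continuousAt (hΩ.mem_nhds hzΩ)).mul continuousAt_const).eventually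
        (lt_mem_nhds (mul_self_pos.2 (hreg z hzΩ hz0)))
    obtain ⟨V, hV, hVo, hzV⟩ := mem_nhds_iff.1 (Filter.inter_mem (Filter.inter_mem
      ((hW z).2.mem_nhds (hW z).1) (hΩ.mem_nhds hzΩ)) (Filter.inter_mem hU h1))
    exact ⟨V, hVo, hzV, fun x hx => (hV hx).1.1, fun x hx => (hV hx).1.2,
      hinj.mono fun x hx => (hV hx).2.1, fun x hx => (hV hx).2.2⟩
  choose! V hVo hzV hVW hVΩ hVinj hVs using hV
  obtain ⟨m', hm', hK'⟩ := (hK.diff (isOpen_biUnion hVo)).exists_forall_le'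
    (f := fun x => ‖F x‖) (a := 0) (hF.continuousOn.mono fun x hx => hKΩ hx.1).norm fun x hx => by
      refine norm_pos_iff.2 fun h0 => hx.2 ?_
      have hxt : x ∈ t := (hmem x).2 ⟨hKΩ hx.1, h0⟩
      exact Set.mem_biUnion hxt (hzV x hxt)
  have hnb : (⋂ z ∈ t, F '' V z) ∈ nhds (0 : ι → ℝ) := by
    refine (Filter.biInter_finset_mem t).2 fun z hz => ?_
    obtain ⟨hzΩ, hz0⟩ := (hmem z).1 hz
    rw [← hz0, ← (degCount_local hΩ hF hzΩ (hreg z hzΩ hz0)).2]
    exact Filter.image_mem_map ((hVo z hz).mem_nhds (hzV z hz))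
  obtain ⟨ρ, hρ, hball⟩ := Metric.mem_nhds_iff.1 hnb
  refine ⟨min m (min m' ρ), lt_min hm (lt_min hm' hρ), fun r hr hr0 => ?_⟩
  have hrm : r ≤ m := hr0.trans (min_le_left _ _)
  have hrm' : r ≤ m' := hr0.trans ((min_le_right _ _).trans (min_le_left _ _))
  have hrρ : r ≤ ρ := hr0.trans ((min_le_right _ _).trans (min_le_right _ _))
  have hint : IntegrableOn (fun x => psi r (F x) * (fderiv ℝ F x).det) Ω := by
    refine IntegrableOn.of_forall_sdiff_eq_zero (s := K) ?_ hΩ.measurableSet fun x hx => ?_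
    · exact ((((degCount_psi_cont r).comp_continuousOn hF.continuousOn).mul hcont).mono
        hKΩ).integrableOn_compact hK
    · rw [degCount_psi_zero hr (hrm.trans (hb x hx.1 hx.2)), zero_mul]
  let s : (ι → ℝ) → ℤ := fun z => if 0 < (fderiv ℝ F z).det then 1 else -1
  have hloc : ∀ z ∈ t, ∫ x in V z, psi r (F x) * (fderiv ℝ F x).det =
      (s z : ℝ) * ∫ y : ι → ℝ, psi r y := by
    intro z hz
    have h1 := integral_image_eq_integral_abs_det_fderiv_smul volume (hVo z hz).measurableSet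
      (f' := fderiv ℝ F) (fun x hx => (((hF.contDiffAt (hΩ.mem_nhds (hVΩ z hz hx))).differentiableAt
        one_ne_zero).hasFDerivAt).hasFDerivWithinAt) (hVinj z hz) (psi r)
    have h2 : ∫ y in F '' V z, psi r y = ∫ y : ι → ℝ, psi r y := by
      refine setIntegral_eq_integral_of_forall_compl_eq_zero fun y hy => degCount_psi_zero hr ?_
      by_contra hlt
      refine hy (Set.mem_iInter₂.1 (hball ?_) z hz)
      rw [mem_ball_zero_iff]
      exact (not_le.1 hlt).trans_le hrρ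
    rw [← h2, h1, ← integral_const_mul]
    refine setIntegral_congr_fun (hVo z hz).measurableSet fun x hx => ?_
    have h3 := hVs z hz x hx
    simp only [s, smul_eq_mul]
    split_ifs with h4
    · rw [abs_of_pos ((mul_pos_iff_of_pos_right h4).1 h3)]
      push_cast
      ring
    · have h5 : (fderiv ℝ F x).det < 0 := by
        by_contra h6
        exact absurd h3 (not_lt.2 (mul_nonpos_of_nonneg_of_nonpos (not_lt.1 h6) (not_lt.1 h4)))
      rw [abs_of_neg h5]
      push_cast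
      ring
  have e : degI Ω r F = ((∑ z ∈ t, s z : ℤ) : ℝ) * ∫ y : ι → ℝ, psi r y := by
    rw [degI, setIntegral_eq_of_subset_of_forall_sdiff_eq_zero (s := ⋃ z ∈ t, V z) hΩ.measurableSet
      (Set.iUnion₂_subset hVΩ), integral_biUnion_finset t (fun z hz => (hVo z hz).measurableSet)
      (fun z hz z' hz' hne => (hdisj hz hz' hne).mono (hVW z hz) (hVW z' hz'))
      (fun z hz => hint.mono_set (hVΩ z hz)), Finset.sum_congr rfl hloc, ← Finset.sum_mul]
    · push_cast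
      rfl
    · intro x hx
      by_cases hxK : x ∈ K
      · rw [degCount_psi_zero hr (hrm'.trans (hK' x ⟨hxK, hx.2⟩)), zero_mul]
      · rw [degCount_psi_zero hr (hrm.trans (hb x hx.1 hxK)), zero_mul]
  rw [e]
  refine mul_ne_zero ?_ (degCount_psi_pos hr).ne'
  have hd : (2 : ℤ) ∣ ∑ z ∈ t, (s z - 1) := Finset.dvd_sum fun z _ => by
    simp only [s]
    split_ifs <;> norm_num
  rw [Finset.sum_sub_distrib, Finset.sum_const, nsmul_eq_mul, mul_one] at hd
  rw [Set.ncard_eq_toFinset_card _ hfin, ← ht] at hodd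
  obtain ⟨k, hk⟩ := hodd
  rw [Int.cast_ne_zero]
  omega

end Crest.Agent.R197
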