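import Mathlib

/-! R197, degree theory on open subsets of `ι → ℝ` (sup norm): definitions. -/

set_option autoImplicit false

namespace Crest.Agent.R197

open MeasureTheory

variable {ι : Type} [Fintype ι] [DecidableEq ι]

/-- A smooth bump, positive exactly on `(-r, r)`. -/
noncomputable def bump (r t : ℝ) : ℝ := expNegInvGlue (r ^ 2 - t ^ 2)

/-- Product bump on `ι → ℝ`, positive exactly on the sup-norm ball of radius `r` (`r > 0`). -/
noncomputable def psi (r : ℝ) (y : ι → ℝ) : ℝ := ∏ i, bump r (y i)

/-- The (unnormalised) degree integral. -/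
noncomputable def degI (Ω : Set (ι → ℝ)) (r : ℝ) (F : (ι → ℝ) → ι → ℝ) : ℝ :=
  ∫ x in Ω, psi r (F x) * (fderiv ℝ F x).det

/-- The linear involution that negates the coordinates in `M`. -/
def flipM (M : Finset ι) (x : ι → ℝ) : ι → ℝ := fun i => if i ∈ M then -x i else x i

end Crest.Agent.R197
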