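import Crest.Agent.R197.DegZero

/-! R197: invariance of the degree integral under small perturbations.

Proof.  For `T : Finset ι` let `F_T x i = if i ∈ T then G x i else F x i`; `‖F x - F_T x‖ ≤ η`.  By
`Finset.induction` it suffices to show `degI Ω r F_T = degI Ω r F_(insert k T)` for `k ∉ T`.
Let `B t = ∫ s in 0..t, bump r s` (`C¹`, `B' = bump r`, constant on `[r, ∞)` and on `(-∞, -r]`),
`P x = ∏ i ∈ univ.erase k, bump r (F_T x i)` and `u x = (B (F x k) - B (G x k)) * P x` on `Ω`.
Off `K` one has `u = 0` (some coordinate has `|F x i| > r + η`; if `i ≠ k` then `P x = 0`, if `i = k`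
then `F x k` and `G x k` are both `> r` or both `< -r`), and both integrands vanish there too.
Take a smooth cut-off `χ` with compact support inside `Ω`, equal to `1` on a neighbourhood of `K`
(`exists_contMDiff_support_eq...`, `exists_contDiff_tsupport_subset`, or
`exists_smooth_one_nhds_of_subset_interior` with `exists_compact_between`), and put
`Φ x i = χ x * (if i = k then u x else F_T x i)` on `Ω`, `0` off `Ω`: it is `C¹` with compact
support.  At `x ∈ K`, `Φ` agrees near `x` with `(u, F_T i)`, whose Jacobian matrix has `k`-th row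
`P (bump (F k) dF_k - bump (G k) dG_k) + ∑_(i ≠ k) c_i dF_T,i`; linearity of `det` in row `k`
(`Matrix.det_updateRow_add`, `det_updateRow_smul`, `det_updateRow_eq_zero`/`det_updateRow_sum`) gives
`det = psi r (F_T) det dF_T - psi r (F_(insert k T)) det dF_(insert k T)`.  At `x ∉ K` the `k`-th
component of `Φ` vanishes near `x` (`Kᶜ` is open, and off `tsupport χ` everything vanishes), so the
determinant is `0`.  Conclude with `integral_det_eq_zero`; integrability: each integrand is
continuous on `Ω` and vanishes on `Ω \ K` (`setIntegral_eq_of_subset_of_forall_diff_eq_zero`,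
`ContinuousOn.integrableOn_compact`). -/

set_option autoImplicit false
set_option linter.unusedSectionVars false

namespace Crest.Agent.R197

open MeasureTheory

variable {ι : Type} [Fintype ι] [DecidableEq ι]

open Filter Topology in
theorem dinv_cutoff {Ω K : Set (ι → ℝ)} (hΩ : IsOpen Ω) (hK : IsCompact K) (hKΩ : K ⊆ Ω) :
    ∃ χ : (ι → ℝ) → ℝ, ContDiff ℝ 1 χ ∧ HasCompactSupport χ ∧ tsupport χ ⊆ Ω ∧
      ∀ x ∈ K, ∀ᶠ y in 𝓝 x, χ y = 1 := by
  obtain ⟨L, hL, hKL, hLΩ⟩ := exists_compact_between hK hΩ hKΩ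
  obtain ⟨f, h1, h0, -⟩ := exists_contMDiffMap_one_nhds_of_subset_interior
    (modelWithCornersSelf ℝ (ι → ℝ)) (n := 1) hK.isClosed hKL
  have hs : tsupport f ⊆ L :=
    closure_minimal (fun x hx => by_contra fun h => hx (h0 x h)) hL.isClosed
  exact ⟨f, f.contMDiff.contDiff, hL.of_isClosed_subset (isClosed_tsupport _) hs, hs.trans hLΩ,
    fun x hx => h1.filter_mono (nhds_le_nhdsSet hx)⟩

theorem dinv_bump_contDiff (r : ℝ) : ContDiff ℝ 1 (bump r) :=
  expNegInvGlue.contDiff.comp (contDiff_const.sub (contDiff_id.pow 2))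

theorem dinv_bump_zero {r t : ℝ} (hr : 0 < r) (h : r ≤ |t|) : bump r t = 0 := by
  refine expNegInvGlue.zero_of_nonpos ?_
  have := pow_le_pow_left₀ hr.le h 2
  rw [sq_abs] at this
  linarith

theorem dinv_prim {r : ℝ} (hr : 0 < r) : ∃ B : ℝ → ℝ, ContDiff ℝ 1 B ∧
    (∀ t, HasDerivAt B (bump r t) t) ∧ (∀ s t, r ≤ s → r ≤ t → B s = B t) ∧
    ∀ s t, s ≤ -r → t ≤ -r → B s = B t := by
  have hc : Continuous (bump r) := (dinv_bump_contDiff r).continuous
  have hd : ∀ t, HasDerivAt (fun u => ∫ x in (0 : ℝ)..u, bump r x) (bump r t) t :=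
    fun t => (hc.integral_hasStrictDerivAt 0 t).hasDerivAt
  have key : ∀ s t : ℝ, (∀ x ∈ Set.uIcc t s, r ≤ |x|) →
      (∫ x in (0 : ℝ)..s, bump r x) = ∫ x in (0 : ℝ)..t, bump r x := fun s t h => by
    rw [← sub_eq_zero, intervalIntegral.integral_interval_sub_left (hc.intervalIntegrable _ _)
      (hc.intervalIntegrable _ _), intervalIntegral.integral_congr (g := fun _ => 0)
        fun x hx => dinv_bump_zero hr (h x hx)]
    simp
  refine ⟨_, contDiff_one_iff_deriv.2 ⟨fun t => (hd t).differentiableAt, ?_⟩, hd,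
    fun s t hs ht => key s t fun x hx => ?_, fun s t hs ht => key s t fun x hx => ?_⟩
  · rw [show deriv (fun u => ∫ x in (0 : ℝ)..u, bump r x) = bump r from funext fun t => (hd t).deriv]
    exact hc
  · exact ((le_min ht hs).trans hx.1).trans (le_abs_self x)
  · exact (le_neg.1 (hx.2.trans (max_le ht hs))).trans (neg_le_abs x)

theorem dinv_det_row (D D' E : (ι → ℝ) →L[ℝ] (ι → ℝ)) (k : ι) (c : ι → ℝ) (c' : ℝ)
    (hE : ∀ v i, i ≠ k → E v i = D v i) (hD' : ∀ v i, i ≠ k → D' v i = D v i)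
    (hk : ∀ v, E v k = ∑ i, c i * D v i - c' * D' v k) :
    E.det = c k * D.det - c' * D'.det := by
  set M := LinearMap.toMatrix' (D : (ι → ℝ) →ₗ[ℝ] (ι → ℝ)) with hM
  set M' := LinearMap.toMatrix' (D' : (ι → ℝ) →ₗ[ℝ] (ι → ℝ)) with hM'
  have e1 : M' = M.updateRow k (M' k) := by
    ext i j
    by_cases h : i = k
    · subst h; rw [Matrix.updateRow_self]
    · rw [Matrix.updateRow_ne h]; exact hD' _ i h
  have e2 : LinearMap.toMatrix' (E : (ι → ℝ) →ₗ[ℝ] (ι → ℝ)) =
      M.updateRow k (∑ i, c i • M i + (-c') • M' k) := by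
    ext i j
    by_cases h : i = k
    · subst h
      rw [Matrix.updateRow_self]
      have := hk (Pi.single j 1)
      simp only [Pi.add_apply, Finset.sum_apply, Pi.smul_apply, smul_eq_mul, hM, hM',
        LinearMap.toMatrix'_apply, ContinuousLinearMap.coe_coe]
      linarith
    · rw [Matrix.updateRow_ne h]; exact hE _ i h
  simp only [ContinuousLinearMap.det, ← LinearMap.det_toMatrix']
  rw [e2, Matrix.det_updateRow_add, Matrix.det_updateRow_sum, Matrix.det_updateRow_smul, ← e1,
    smul_eq_mul]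
  ring

theorem dinv_det_zero (E : (ι → ℝ) →L[ℝ] (ι → ℝ)) (k : ι) (hk : ∀ v, E v k = 0) : E.det = 0 := by
  simpa using dinv_det_row E E E k 0 0 (fun _ _ _ => rfl) (fun _ _ _ => rfl) (by simpa using hk)

theorem dinv_comp {A : (ι → ℝ) → ι → ℝ} {x : ι → ℝ} (h : DifferentiableAt ℝ A x) (i : ι) :
    HasFDerivAt (fun y => A y i) ((ContinuousLinearMap.proj i).comp (fderiv ℝ A x)) x :=
  hasFDerivAt_pi'.1 h.hasFDerivAt i

theorem dinv_apply_eq {A : (ι → ℝ) → ι → ℝ} {x : ι → ℝ} (h : DifferentiableAt ℝ A x) {i : ι}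
    {L : (ι → ℝ) →L[ℝ] ℝ} (hL : HasFDerivAt (fun y => A y i) L x) (v : ι → ℝ) :
    fderiv ℝ A x v i = L v := by
  rw [← (dinv_comp h i).unique hL]; rfl

theorem dinv_cont {Ω : Set (ι → ℝ)} (hΩ : IsOpen Ω) {A : (ι → ℝ) → ι → ℝ}
    (hA : ContDiffOn ℝ 1 A Ω) (r : ℝ) :
    ContinuousOn (fun x => psi r (A x) * (fderiv ℝ A x).det) Ω := by
  have h1 : Continuous (psi (ι := ι) r) :=
    continuous_finsetProd _ fun i _ => (dinv_bump_contDiff r).continuous.comp (continuous_apply i)
  exact (h1.comp_continuousOn hA.continuousOn).mul (ContinuousLinearMap.continuous_det.comp_continuousOn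
    (hA.continuousOn_fderiv_of_isOpen hΩ le_rfl))

open Filter Topology in
theorem dinv_step [Nonempty ι] {Ω K : Set (ι → ℝ)} (hΩ : IsOpen Ω) (hK : IsCompact K)
    (hKΩ : K ⊆ Ω) {A A' : (ι → ℝ) → ι → ℝ} (hA : ContDiffOn ℝ 1 A Ω) (hA' : ContDiffOn ℝ 1 A' Ω)
    {r : ℝ} (hr : 0 < r) (k : ι) (heq : ∀ x i, i ≠ k → A' x i = A x i)
    (hb : ∀ x ∈ Ω, x ∉ K → (∃ i, i ≠ k ∧ r ≤ |A x i|) ∨ (r ≤ A x k ∧ r ≤ A' x k) ∨
      (A x k ≤ -r ∧ A' x k ≤ -r)) : degI Ω r A = degI Ω r A' := by
  obtain ⟨B, hB1, hB2, hB3, hB4⟩ := dinv_prim hr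
  obtain ⟨χ, hχ1, hχ2, hχ3, hχ4⟩ := dinv_cutoff hΩ hK hKΩ
  set u : (ι → ℝ) → ℝ := fun x =>
    (B (A x k) - B (A' x k)) * ∏ i ∈ Finset.univ.erase k, bump r (A x i) with hu
  set W : (ι → ℝ) → ι → ℝ := fun x i => if i = k then u x else A x i with hW
  have hWk : ∀ x, W x k = u x := fun x => if_pos rfl
  have hWi : ∀ x i, i ≠ k → W x i = A x i := fun x i h => if_neg h
  have huC : ContDiffOn ℝ 1 u Ω :=
    ((hB1.comp_contDiffOn (contDiffOn_pi.1 hA k)).sub
      (hB1.comp_contDiffOn (contDiffOn_pi.1 hA' k))).mul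
      (contDiffOn_prod fun i _ => (dinv_bump_contDiff r).comp_contDiffOn (contDiffOn_pi.1 hA i))
  have hWC : ContDiffOn ℝ 1 W Ω := contDiffOn_pi.2 fun i => by
    by_cases h : i = k
    · simpa only [hW, if_pos h] using huC
    · simpa only [hW, if_neg h] using contDiffOn_pi.1 hA i
  have hu0 : ∀ x ∈ Ω, x ∉ K → u x = 0 := fun x hx hxK => by
    rcases hb x hx hxK with ⟨i, hi, h⟩ | h | h
    · exact mul_eq_zero_of_right _ (Finset.prod_eq_zero
        (Finset.mem_erase.2 ⟨hi, Finset.mem_univ i⟩) (dinv_bump_zero hr h))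
    · exact mul_eq_zero_of_left (sub_eq_zero.2 (hB3 _ _ h.1 h.2)) _
    · exact mul_eq_zero_of_left (sub_eq_zero.2 (hB4 _ _ h.1 h.2)) _
  have hpsi : ∀ x ∈ Ω, x ∉ K → psi r (A x) = 0 ∧ psi r (A' x) = 0 := fun x hx hxK => by
    rcases hb x hx hxK with ⟨i, hi, h⟩ | h | h
    · exact ⟨Finset.prod_eq_zero (Finset.mem_univ i) (dinv_bump_zero hr h),
        Finset.prod_eq_zero (Finset.mem_univ i) (dinv_bump_zero hr (by rwa [heq x i hi]))⟩
    · exact ⟨Finset.prod_eq_zero (Finset.mem_univ k) (dinv_bump_zero hr (h.1.trans (le_abs_self _))),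
        Finset.prod_eq_zero (Finset.mem_univ k) (dinv_bump_zero hr (h.2.trans (le_abs_self _)))⟩
    · exact ⟨Finset.prod_eq_zero (Finset.mem_univ k)
          (dinv_bump_zero hr ((le_neg.1 h.1).trans (neg_le_abs _))),
        Finset.prod_eq_zero (Finset.mem_univ k)
          (dinv_bump_zero hr ((le_neg.1 h.2).trans (neg_le_abs _)))⟩
  -- the determinant identity
  have hdet : ∀ x ∈ Ω, (fderiv ℝ W x).det =
      psi r (A x) * (fderiv ℝ A x).det - psi r (A' x) * (fderiv ℝ A' x).det := fun x hx => by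
    have dA := (hA.contDiffAt (hΩ.mem_nhds hx)).differentiableAt one_ne_zero
    have dA' := (hA'.contDiffAt (hΩ.mem_nhds hx)).differentiableAt one_ne_zero
    have dW := (hWC.contDiffAt (hΩ.mem_nhds hx)).differentiableAt one_ne_zero
    have h1 := (hB2 (A x k)).comp_hasFDerivAt x (dinv_comp dA k)
    have h2 := (hB2 (A' x k)).comp_hasFDerivAt x (dinv_comp dA' k)
    have h0 := fun i =>
      (((dinv_bump_contDiff r).differentiable one_ne_zero (A x i)).hasDerivAt).comp_hasFDerivAt x
        (dinv_comp dA i)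
    have h3 := HasFDerivAt.finsetProd (u := Finset.univ.erase k) fun i _ => h0 i
    have h4 := (h1.sub h2).mul h3
    have p1 : psi r (A x) = (∏ i ∈ Finset.univ.erase k, bump r (A x i)) * bump r (A x k) :=
      (Finset.prod_erase_mul _ _ (Finset.mem_univ k)).symm
    have p2 : psi r (A' x) = (∏ i ∈ Finset.univ.erase k, bump r (A x i)) * bump r (A' x k) := by
      rw [psi, ← Finset.prod_erase_mul _ _ (Finset.mem_univ k)]
      congr 1
      exact Finset.prod_congr rfl fun i hi => by rw [heq x i (Finset.mem_erase.1 hi).1]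
    have key := dinv_det_row (fderiv ℝ A x) (fderiv ℝ A' x) (fderiv ℝ W x) k
      (fun i => if i = k then psi r (A x) else (B (A x k) - B (A' x k)) *
        ((∏ j ∈ (Finset.univ.erase k).erase i, bump r (A x j)) * deriv (bump r) (A x i)))
      (psi r (A' x))
      (fun v i hi => dinv_apply_eq dW ((dinv_comp dA i).congr_of_eventuallyEq
        (Eventually.of_forall fun y => hWi y i hi)) v)
      (fun v i hi => dinv_apply_eq dA' ((dinv_comp dA i).congr_of_eventuallyEq
        (Eventually.of_forall fun y => heq y i hi)) v)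
      (fun v => by
        rw [dinv_apply_eq dW (h4.congr_of_eventuallyEq (Eventually.of_forall fun y => hWk y)) v,
          ← Finset.add_sum_erase _ _ (Finset.mem_univ k), if_pos rfl]
        have e : ∀ i ∈ Finset.univ.erase k, (if i = k then psi r (A x) else
            (B (A x k) - B (A' x k)) * ((∏ j ∈ (Finset.univ.erase k).erase i, bump r (A x j)) *
              deriv (bump r) (A x i))) * fderiv ℝ A x v i = (B (A x k) - B (A' x k)) *
            ((∏ j ∈ (Finset.univ.erase k).erase i, bump r (A x j)) *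
              (deriv (bump r) (A x i) * fderiv ℝ A x v i)) := fun i hi => by
          rw [if_neg (Finset.mem_erase.1 hi).1]; ring
        rw [Finset.sum_congr rfl e, ← Finset.mul_sum, p1, p2]
        simp only [add_apply, smul_apply, sub_apply, sum_apply, smul_eq_mul,
          ContinuousLinearMap.comp_apply, ContinuousLinearMap.proj_apply, Function.comp_apply,
          Pi.sub_apply]
        ring)
    rwa [if_pos rfl] at key
  -- the compactly supported map
  set Φ : (ι → ℝ) → ι → ℝ := fun x => χ x • W x with hΦ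
  have hΦ0 : ∀ x, x ∉ tsupport χ → Φ =ᶠ[𝓝 x] fun _ => 0 := fun x hx => by
    filter_upwards [notMem_tsupport_iff_eventuallyEq.1 hx] with y hy
    simp only [hΦ, hy, Pi.zero_apply, zero_smul]
  have hΦC : ContDiff ℝ 1 Φ := contDiff_iff_contDiffAt.2 fun x => by
    by_cases hx : x ∈ tsupport χ
    · exact hχ1.contDiffAt.smul (hWC.contDiffAt (hΩ.mem_nhds (hχ3 hx)))
    · exact contDiffAt_const.congr_of_eventuallyEq (hΦ0 x hx)
  have hΦK : ∀ x ∈ K, fderiv ℝ Φ x = fderiv ℝ W x := fun x hx => by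
    refine Filter.EventuallyEq.fderiv_eq ?_
    filter_upwards [hχ4 x hx] with y hy
    simp only [hΦ, hy, one_smul]
  have hΦK' : ∀ x, x ∉ K → (fderiv ℝ Φ x).det = 0 := fun x hx => by
    have h1 : (fun y => Φ y k) =ᶠ[𝓝 x] fun _ => 0 := by
      by_cases hx' : x ∈ Ω
      · filter_upwards [hΩ.mem_nhds hx', hK.isClosed.isOpen_compl.mem_nhds hx] with y hy hy'
        simp only [hΦ, Pi.smul_apply, hWk, hu0 y hy hy', smul_zero]
      · filter_upwards [hΦ0 x fun h => hx' (hχ3 h)] with y hy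
        rw [hy]; rfl
    exact dinv_det_zero _ k fun v => dinv_apply_eq (hΦC.differentiable one_ne_zero x)
      ((hasFDerivAt_const (0 : ℝ) x).congr_of_eventuallyEq h1) v
  have h0 := integral_det_eq_zero Φ hΦC hχ2.smul_right
  rw [← setIntegral_eq_integral_of_forall_compl_eq_zero hΦK',
    setIntegral_congr_fun hK.measurableSet (fun x hx => by
      simp only [hΦK x hx]; exact hdet x (hKΩ hx)),
    integral_sub (((dinv_cont hΩ hA r).mono hKΩ).integrableOn_compact hK)
      (((dinv_cont hΩ hA' r).mono hKΩ).integrableOn_compact hK), sub_eq_zero] at h0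
  rw [degI, degI, setIntegral_eq_of_subset_of_forall_sdiff_eq_zero hΩ.measurableSet hKΩ
      fun x hx => by rw [(hpsi x hx.1 hx.2).1, zero_mul],
    setIntegral_eq_of_subset_of_forall_sdiff_eq_zero hΩ.measurableSet hKΩ
      fun x hx => by rw [(hpsi x hx.1 hx.2).2, zero_mul], h0]

theorem degI_eq_of_close [Nonempty ι] {Ω K : Set (ι → ℝ)} (hΩ : IsOpen Ω) (hK : IsCompact K)
    (hKΩ : K ⊆ Ω) {F G : (ι → ℝ) → ι → ℝ} (hF : ContDiffOn ℝ 1 F Ω) (hG : ContDiffOn ℝ 1 G Ω)
    {r η : ℝ} (hr : 0 < r) (hFG : ∀ x ∈ Ω, ‖F x - G x‖ ≤ η)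
    (hb : ∀ x ∈ Ω, x ∉ K → r + η < ‖F x‖) : degI Ω r F = degI Ω r G := by
  have hC : ∀ T : Finset ι, ContDiffOn ℝ 1 (fun x i => if i ∈ T then G x i else F x i) Ω :=
    fun T => contDiffOn_pi.2 fun i => by
      by_cases h : i ∈ T
      · simpa only [if_pos h] using contDiffOn_pi.1 hG i
      · simpa only [if_neg h] using contDiffOn_pi.1 hF i
  have hx : ∀ x ∈ Ω, x ∉ K → ∃ i, (r ≤ F x i ∧ r ≤ G x i) ∨ (F x i ≤ -r ∧ G x i ≤ -r) := by
    intro x hx hxK
    have hη : 0 ≤ η := (norm_nonneg _).trans (hFG x hx)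
    have h1 := hb x hx hxK
    rw [← not_le, pi_norm_le_iff_of_nonneg (by linarith)] at h1
    push Not at h1
    obtain ⟨i, hi⟩ := h1
    have h2 := (norm_le_pi_norm (F x - G x) i).trans (hFG x hx)
    rw [Pi.sub_apply, Real.norm_eq_abs, abs_le] at h2
    rw [Real.norm_eq_abs, lt_abs] at hi
    refine ⟨i, ?_⟩
    rcases hi with hi | hi
    · exact Or.inl ⟨by linarith, by linarith [h2.2]⟩
    · exact Or.inr ⟨by linarith, by linarith [h2.1]⟩
  have key : ∀ T : Finset ι,
      degI Ω r F = degI Ω r (fun x i => if i ∈ T then G x i else F x i) := by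
    intro T
    induction T using Finset.induction_on with
    | empty => simp
    | insert k T hk ih =>
      rw [ih]
      refine dinv_step hΩ hK hKΩ (hC T) (hC _) hr k (fun x i hi => by simp [hi]) fun x hx' hxK => ?_
      obtain ⟨i, hi⟩ := hx x hx' hxK
      by_cases hik : i = k
      · subst hik
        right
        simpa only [if_neg hk, if_pos (Finset.mem_insert_self i T)] using hi
      · refine Or.inl ⟨i, hik, ?_⟩
        rcases hi with hi | hi
        · refine le_trans ?_ (le_abs_self _)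
          split_ifs
          exacts [hi.2, hi.1]
        · refine le_trans ?_ (neg_le_abs _)
          split_ifs
          exacts [le_neg.1 hi.2, le_neg.1 hi.1]
  simpa using key Finset.univ

end Crest.Agent.R197
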