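import Crest.Agent.R197.DegDefs

/-! R197: equivariant transversality (Gromes' trick).

Proof.  Induct over `T ⊆ M` (`Finset.induction_on'`, or on `T` with `T ⊆ M →`), proving the statement
for every `η > 0` with the last clause for `∃ i ∈ T, x i ≠ 0`.  Step `T → insert k T` (`k ∈ M`): let `G`
work for `T` and `η/2`.  Put `P t y i = (if i ∈ M then t^3 else t^2) * y i`; then
`P (-t) y = flipM M (P t y)`.  On the open set `Ω' = Ω ∩ {x k ≠ 0}` the map
`g x i = G x i / (if i ∈ M then (x k)^3 else (x k)^2)` is differentiable, so the image of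
`{x ∈ Ω' | det (fderiv g x) = 0}` is null (`MeasureTheory.addHaar_image_eq_zero_of_det_fderiv_eq_zero`),
hence misses a point `y` of any ball around `0` (balls have positive measure).  Take `y` so small that
`‖P (x k) y‖ ≤ η/2` on the bounded set `Ω` and put `G' x = G x - P (x k) y`.  If `x k = 0` then
`G' x = G x` and `fderiv G' x = fderiv G x` (the perturbation has derivative `0`).  If `x k ≠ 0` and
`G' x = 0` then `g x = y`, near `x` one has `G' = P (x k) (g - y)`, so `fderiv G' x = D ∘ fderiv g x` with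
`D` the invertible diagonal map `P (x k)`; the determinant is non-zero (or: the derivative is injective,
`LinearMap.det_eq_zero_iff_ker_ne_bot`). -/

set_option autoImplicit false

namespace Crest.Agent.R197

open MeasureTheory

variable {ι : Type} [Fintype ι] [DecidableEq ι]

/-- The perturbation. -/
private def gP (M : Finset ι) (t : ℝ) (y : ι → ℝ) : ι → ℝ :=
  fun i => t ^ (if i ∈ M then 3 else 2) * y i

omit [Fintype ι] in
private theorem gP_neg (M : Finset ι) (t : ℝ) (y : ι → ℝ) : gP M (-t) y = flipM M (gP M t y) := by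
  funext i
  simp only [gP, flipM]
  split_ifs <;> ring

omit [Fintype ι] in
private theorem gP_zero (M : Finset ι) (y : ι → ℝ) : gP M 0 y = 0 := by
  funext i
  simp only [gP]
  split_ifs <;> simp

private theorem gP_contDiff (M : Finset ι) (k : ι) (y : ι → ℝ) :
    ContDiff ℝ 1 fun x : ι → ℝ => gP M (x k) y :=
  contDiff_pi.2 fun _ => ((contDiff_apply ℝ ℝ k).pow _).mul contDiff_const

private theorem gP_hasFDerivAt (M : Finset ι) (k : ι) (y : ι → ℝ) {x : ι → ℝ} (hx : x k = 0) :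
    HasFDerivAt (fun x : ι → ℝ => gP M (x k) y) (0 : (ι → ℝ) →L[ℝ] ι → ℝ) x := by
  refine hasFDerivAt_pi'' fun i => ?_
  refine (((hasFDerivAt_apply (𝕜 := ℝ) k x).pow (if i ∈ M then 3 else 2)).mul_const
    (y i)).congr_fderiv ?_
  rw [hx]
  split_ifs <;> simp

private theorem gromes_step (M : Finset ι) (k : ι) {Ω : Set (ι → ℝ)} (hΩ : IsOpen Ω)
    (hbd : Bornology.IsBounded Ω) {G : (ι → ℝ) → ι → ℝ} (hG : ContDiffOn ℝ 1 G Ω) {η : ℝ}
    (hη : 0 < η) : ∃ y : ι → ℝ, (∀ x ∈ Ω, ‖gP M (x k) y‖ ≤ η) ∧ ∀ x ∈ Ω, x k ≠ 0 →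
      G x - gP M (x k) y = 0 → (fderiv ℝ (fun x => G x - gP M (x k) y) x).det ≠ 0 := by
  obtain ⟨R, hR1, hR⟩ : ∃ R : ℝ, 1 ≤ R ∧ ∀ x ∈ Ω, ‖x‖ ≤ R := by
    obtain ⟨R, hR⟩ := hbd.exists_norm_le
    exact ⟨max 1 R, le_max_left _ _, fun x hx => (hR x hx).trans (le_max_right _ _)⟩
  set g : (ι → ℝ) → ι → ℝ := fun x i => G x i * ((x k) ^ (if i ∈ M then 3 else 2))⁻¹ with hg
  set s : Set (ι → ℝ) := {x | ∃ A : (ι → ℝ) →L[ℝ] ι → ℝ, HasFDerivAt g A x ∧ A.det = 0} with hs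
  have hnull : volume (g '' s) = 0 :=
    addHaar_image_eq_zero_of_det_fderivWithin_eq_zero volume (f' := fderiv ℝ g)
      (fun x ⟨A, hA, _⟩ => hA.differentiableAt.hasFDerivAt.hasFDerivWithinAt)
      fun x ⟨A, hA, h0⟩ => hA.fderiv ▸ h0
  obtain ⟨y, hy, hy'⟩ : ∃ y ∈ Metric.ball (0 : ι → ℝ) (η / R ^ 3), y ∉ g '' s := by
    by_contra hc
    push Not at hc
    exact (Metric.measure_ball_pos volume (0 : ι → ℝ) (by positivity : 0 < η / R ^ 3)).ne'
      (measure_mono_null hc hnull)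
  refine ⟨y, fun x hx => (pi_norm_le_iff_of_nonneg hη.le).2 fun i => ?_, fun x hx hk h0 hdet => ?_⟩
  · have h1 : ‖x k‖ ≤ R := (norm_le_pi_norm x k).trans (hR x hx)
    have h2 : ‖y i‖ ≤ η / R ^ 3 := (norm_le_pi_norm y i).trans (mem_ball_zero_iff.1 hy).le
    have h3 : ‖x k‖ ^ (if i ∈ M then 3 else 2) ≤ R ^ 3 :=
      (pow_le_pow_left₀ (norm_nonneg _) h1 _).trans (pow_le_pow_right₀ hR1 (by split_ifs <;> omega))
    rw [gP, norm_mul, norm_pow]
    refine (mul_le_mul h3 h2 (norm_nonneg _) (by positivity)).trans_eq ?_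
    field_simp
  · have hA := (((hG.contDiffAt (hΩ.mem_nhds hx)).sub
      (gP_contDiff M k y).contDiffAt).differentiableAt one_ne_zero).hasFDerivAt
    set A := fderiv ℝ (fun x => G x - gP M (x k) y) x
    have hev : ∀ z : ι → ℝ, z k ≠ 0 → ∀ i, g z i =
        (G z - gP M (z k) y) i * ((z k) ^ (if i ∈ M then 3 else 2))⁻¹ + y i := fun z hz i => by
      have : (z k) ^ (if i ∈ M then 3 else 2) ≠ 0 := pow_ne_zero _ hz
      simp only [hg, gP, Pi.sub_apply]
      field_simp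
      ring
    set D : (ι → ℝ) →L[ℝ] ι → ℝ := ContinuousLinearMap.pi fun i =>
      ((x k) ^ (if i ∈ M then 3 else 2))⁻¹ • ContinuousLinearMap.proj i with hD
    refine hy' ⟨x, ⟨D.comp A, hasFDerivAt_pi'' fun i => ?_, ?_⟩, funext fun i => ?_⟩
    · have h1 := hasFDerivAt_pi'.1 hA i
      have h2 := (((hasFDerivAt_apply (𝕜 := ℝ) k x).differentiableAt.pow
        (if i ∈ M then 3 else 2)).inv (pow_ne_zero _ hk)).hasFDerivAt
      have h3 := (h1.mul h2).add_const (y i)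
      rw [h0] at h3
      refine (h3.congr_of_eventuallyEq ?_).congr_fderiv ?_
      · filter_upwards [(continuous_apply k).continuousAt.eventually_ne hk] with z hz
        exact hev z hz i
      · ext v
        by_cases hi : i ∈ M <;> simp [hD, hi]
    · change LinearMap.det ((D : (ι → ℝ) →ₗ[ℝ] ι → ℝ).comp (A : (ι → ℝ) →ₗ[ℝ] ι → ℝ)) = 0
      rw [LinearMap.det_comp, show LinearMap.det (A : (ι → ℝ) →ₗ[ℝ] ι → ℝ) = 0 from hdet, mul_zero]
    · rw [hev x hk i, h0, Pi.zero_apply, zero_mul, zero_add]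

theorem gromes (M : Finset ι) {Ω : Set (ι → ℝ)} (hΩ : IsOpen Ω) (hbd : Bornology.IsBounded Ω)
    {F : (ι → ℝ) → ι → ℝ} (hF : ContDiffOn ℝ 1 F Ω)
    (heq : ∀ x ∈ Ω, F (flipM M x) = flipM M (F x)) {η : ℝ} (hη : 0 < η) :
    ∃ G : (ι → ℝ) → ι → ℝ, ContDiffOn ℝ 1 G Ω ∧ (∀ x ∈ Ω, G (flipM M x) = flipM M (G x)) ∧
      (∀ x ∈ Ω, ‖F x - G x‖ ≤ η) ∧
      (∀ x ∈ Ω, (∀ i ∈ M, x i = 0) → G x = F x ∧ fderiv ℝ G x = fderiv ℝ F x) ∧
      ∀ x ∈ Ω, (∃ i ∈ M, x i ≠ 0) → G x = 0 → (fderiv ℝ G x).det ≠ 0 := by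
  suffices H : ∀ T : Finset ι, T ⊆ M → ∀ η : ℝ, 0 < η →
      ∃ G : (ι → ℝ) → ι → ℝ, ContDiffOn ℝ 1 G Ω ∧ (∀ x ∈ Ω, G (flipM M x) = flipM M (G x)) ∧
        (∀ x ∈ Ω, ‖F x - G x‖ ≤ η) ∧
        (∀ x ∈ Ω, (∀ i ∈ M, x i = 0) → G x = F x ∧ fderiv ℝ G x = fderiv ℝ F x) ∧
        ∀ x ∈ Ω, (∃ i ∈ T, x i ≠ 0) → G x = 0 → (fderiv ℝ G x).det ≠ 0 from H M subset_rfl η hη
  intro T
  induction T using Finset.induction_on with
  | empty =>
    exact fun _ η hη => ⟨F, hF, heq, fun x _ => by simpa using hη.le, fun _ _ _ => ⟨rfl, rfl⟩,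
      fun x _ ⟨i, hi, _⟩ => absurd hi (Finset.notMem_empty i)⟩
  | insert k T _ ih =>
    intro hT η hη
    obtain ⟨hk, hT⟩ := Finset.insert_subset_iff.1 hT
    obtain ⟨G, h1, h2, h3, h4, h5⟩ := ih hT (η / 2) (half_pos hη)
    obtain ⟨y, k1, k2⟩ := gromes_step M k hΩ hbd h1 (half_pos hη)
    have h0 : ∀ x ∈ Ω, x k = 0 → G x - gP M (x k) y = G x ∧
        fderiv ℝ (fun x => G x - gP M (x k) y) x = fderiv ℝ G x := fun x hx hk => by
      refine ⟨by rw [hk, gP_zero, sub_zero], ?_⟩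
      have := ((h1.contDiffAt (hΩ.mem_nhds hx)).differentiableAt one_ne_zero).hasFDerivAt.sub
        (gP_hasFDerivAt M k y hk)
      rw [sub_zero] at this
      exact this.fderiv
    refine ⟨fun x => G x - gP M (x k) y, h1.sub (gP_contDiff M k y).contDiffOn, fun x hx => ?_,
      fun x hx => ?_, fun x hx hM => ?_, fun x hx hi hz => ?_⟩
    · dsimp only
      rw [h2 x hx, show flipM M x k = -x k from if_pos hk, gP_neg]
      funext i
      simp only [flipM, Pi.sub_apply]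
      split_ifs <;> ring
    · dsimp only
      rw [← sub_add]
      linarith [norm_add_le (F x - G x) (gP M (x k) y), h3 x hx, k1 x hx]
    · exact ⟨(h0 x hx (hM k hk)).1.trans (h4 x hx hM).1, (h0 x hx (hM k hk)).2.trans (h4 x hx hM).2⟩
    · by_cases hxk : x k = 0
      · obtain ⟨i, hi, hi'⟩ := hi
        rw [(h0 x hx hxk).2]
        refine h5 x hx ⟨i, (Finset.mem_insert.1 hi).resolve_left ?_, hi'⟩
          ((h0 x hx hxk).1.symm.trans hz)
        rintro rfl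
        exact hi' hxk
      · exact k2 x hx hxk hz

end Crest.Agent.R197
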