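import Crest.Agent.R197.DegInv
import Crest.Agent.R197.DegCount
import Crest.Agent.R197.Gromes

/-! R197: the equivariant continuation principle.

Proof of `equivDeg`.  Suppose `H 1` has no zero in `Ω`.  `closure Ω` is compact.  There is `m > 0` with
`4 m ≤ ‖H t x‖` for `t ∈ [0,1]`, `x ∈ closure Ω \ Ω` (compact, maybe empty) and `4 m ≤ ‖H 1 x‖` on
`closure Ω`.  `K = {x ∈ closure Ω | ∃ t ∈ [0,1], ‖H t x‖ ≤ 3 m}` is compact (projection of a compact
set), `K ⊆ Ω`, and `3 m < ‖H t x‖` on `Ω \ K`.  Uniform continuity on `[0,1] × closure Ω` gives `N` with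
`‖H (j/N) x - H ((j+1)/N) x‖ ≤ m`, so `degI Ω r (H 0) = degI Ω r (H 1) = 0` for `0 < r ≤ m`
(`degI_eq_of_close`; `psi r (H 1 x) = 0`).  Let `G` come from `gromes` with `η = m`; `degI Ω r G =
degI Ω r (H 0)`.  All zeros of `G` in `Ω` are nondegenerate, the only one with `∀ i ∈ M, x i = 0` is
`x₀`, and `flipM M` is an involution of the finite zero set whose only fixed point is `x₀`; so the
number of zeros is odd (`Finset.card_involution`-type lemmas: `Finset.even_card_of_involution`,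
`Finset.sum_involution`, or `Function.Involutive.card_fixedPoints`/`Equiv.Perm.card_fixedPoints_modEq`).
`degI_ne_zero_of_odd` contradicts this.  The case of empty `ι` is trivial (`H 1 x₀ = 0` by
`Subsingleton.elim`).

`equivDeg'` is the same statement transported along `e : E ≃L[ℝ] (ι → ℝ)` (apply `equivDeg` to
`e '' Ω`, `fun t y => e (H t (e.symm y))`; an injective endomorphism has non-zero determinant). -/

set_option autoImplicit false

namespace Crest.Agent.R197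

open MeasureTheory Set

variable {ι : Type} [Fintype ι] [DecidableEq ι]

theorem degMain_lb {X E : Type} [TopologicalSpace X] [NormedAddCommGroup E] {S : Set X}
    (hS : IsCompact S) {f : X → E} (hf : ContinuousOn f S) (h0 : ∀ x ∈ S, f x ≠ 0) :
    ∃ c > 0, ∀ x ∈ S, c ≤ ‖f x‖ := by
  rcases S.eq_empty_or_nonempty with rfl | hne
  · exact ⟨1, one_pos, by simp⟩
  · obtain ⟨x, hx, hmin⟩ := hS.exists_isMinOn hne hf.norm
    exact ⟨‖f x‖, norm_pos_iff.2 (h0 x hx), fun y hy => hmin hy⟩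

omit [DecidableEq ι] in
theorem degMain_psi {r : ℝ} (hr : 0 < r) {y : ι → ℝ} (hy : r ≤ ‖y‖) : psi r y = 0 := by
  have : ∃ i, r ≤ |y i| := by
    by_contra h
    push Not at h
    exact absurd ((pi_norm_lt_iff hr).2 fun i => by simpa using h i) (not_lt.2 hy)
  obtain ⟨i, hi⟩ := this
  refine Finset.prod_eq_zero (Finset.mem_univ i) (expNegInvGlue.zero_of_nonpos ?_)
  have := pow_le_pow_left₀ hr.le hi 2
  rw [sq_abs] at this
  linarith

omit [Fintype ι] in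
theorem degMain_flip_flip (M : Finset ι) (x : ι → ℝ) : flipM M (flipM M x) = x := by
  funext i
  unfold flipM
  split_ifs <;> simp

omit [Fintype ι] in
theorem degMain_flip_eq (M : Finset ι) (x : ι → ℝ) : flipM M x = x ↔ ∀ i ∈ M, x i = 0 := by
  constructor
  · intro h i hi
    have := congrFun h i
    simp only [flipM, if_pos hi] at this
    linarith
  · intro h
    funext i
    unfold flipM
    split_ifs with hi
    · simp [h i hi]
    · rfl

omit [Fintype ι] in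
theorem degMain_flip_zero (M : Finset ι) : flipM M (0 : ι → ℝ) = 0 :=
  (degMain_flip_eq M 0).2 fun _ _ => rfl

theorem degMain_odd {X : Type} {Z : Set X} (hZ : Z.Finite) (f : X → X) (hf : ∀ x ∈ Z, f x ∈ Z)
    (hff : ∀ x, f (f x) = x) {x₀ : X} (hx₀ : x₀ ∈ Z) (h₀ : f x₀ = x₀)
    (hu : ∀ x ∈ Z, f x = x → x = x₀) : Odd Z.ncard := by
  classical
  set s := hZ.toFinset.erase x₀ with hs
  have hmem : ∀ x, x ∈ s ↔ x ≠ x₀ ∧ x ∈ Z := by simp [hs]
  have h1 : ∑ _x ∈ s, (1 : ZMod 2) = 0 := by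
    refine Finset.sum_involution (fun x _ => f x) (fun _ _ => by decide) (fun x hx _ h => ?_)
      (fun x hx => ?_) (fun x _ => hff x)
    · exact ((hmem x).1 hx).1 (hu x ((hmem x).1 hx).2 h)
    · refine (hmem _).2 ⟨fun h => ((hmem x).1 hx).1 ?_, hf x ((hmem x).1 hx).2⟩
      rw [← hff x, h, h₀]
  rw [Finset.sum_const, nsmul_eq_mul, mul_one, ZMod.natCast_eq_zero_iff_even] at h1
  have h2 : Z.ncard = s.card + 1 := by
    rw [Set.ncard_eq_toFinset_card Z hZ, hs, Finset.card_erase_add_one (by simpa using hx₀)]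
  rw [h2]
  exact h1.add_one

/-- homotopy invariance of the degree integral -/
theorem degMain_homotopy [Nonempty ι] {Ω K : Set (ι → ℝ)} (hΩ : IsOpen Ω)
    (hcl : IsCompact (closure Ω)) (hK : IsCompact K) (hKΩ : K ⊆ Ω) (H : ℝ → (ι → ℝ) → ι → ℝ)
    (hC : ContinuousOn (fun p : ℝ × (ι → ℝ) => H p.1 p.2) (Icc 0 1 ×ˢ closure Ω))
    (hD : ∀ t ∈ Icc (0 : ℝ) 1, ContDiffOn ℝ 1 (H t) Ω) {m r : ℝ} (hr : 0 < r) (hrm : r ≤ m)
    (hb : ∀ t ∈ Icc (0 : ℝ) 1, ∀ x ∈ Ω, x ∉ K → 3 * m < ‖H t x‖) :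
    degI Ω r (H 0) = degI Ω r (H 1) := by
  have hm : 0 < m := hr.trans_le hrm
  have hU := (isCompact_Icc.prod hcl).uniformContinuousOn_of_continuous hC
  obtain ⟨δ, hδ, hU⟩ := Metric.uniformContinuousOn_iff.1 hU m hm
  obtain ⟨N, hN⟩ := exists_nat_one_div_lt hδ
  have hN0 : (0 : ℝ) < N + 1 := by positivity
  have hI : ∀ j : ℕ, j ≤ N + 1 → (j : ℝ) / (N + 1) ∈ Icc (0 : ℝ) 1 := fun j hj =>
    ⟨by positivity, (div_le_one hN0).2 (by exact_mod_cast hj)⟩
  have key : ∀ j : ℕ, j ≤ N + 1 → degI Ω r (H 0) = degI Ω r (H ((j : ℝ) / (N + 1))) := by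
    intro j
    induction j with
    | zero => simp
    | succ j ih =>
      intro hj
      rw [ih (by omega)]
      refine degI_eq_of_close (η := m) hΩ hK hKΩ (hD _ (hI j (by omega))) (hD _ (hI _ hj)) hr
        (fun x hx => ?_) (fun x hx hxK => ?_)
      · have := hU ((j : ℝ) / (N + 1), x) ⟨hI j (by omega), subset_closure hx⟩
          (((j + 1 : ℕ) : ℝ) / (N + 1), x) ⟨hI _ hj, subset_closure hx⟩ (by
            rw [Prod.dist_eq, dist_self, Real.dist_eq, max_eq_left (abs_nonneg _)]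
            have e : (j : ℝ) / (N + 1) - ((j + 1 : ℕ) : ℝ) / (N + 1) = -(1 / (N + 1)) := by
              push_cast; ring
            rw [e, abs_neg, abs_of_pos (by positivity)]
            exact hN)
        rw [dist_eq_norm] at this
        exact this.le
      · have := hb _ (hI j (by omega)) x hx hxK
        linarith
  have := key (N + 1) le_rfl
  rwa [Nat.cast_add_one, div_self hN0.ne'] at this

theorem equivDeg (M : Finset ι) {Ω : Set (ι → ℝ)} (hΩ : IsOpen Ω) (hbd : Bornology.IsBounded Ω)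
    (hsym : ∀ x ∈ Ω, flipM M x ∈ Ω) (H : ℝ → (ι → ℝ) → ι → ℝ)
    (hC : ContinuousOn (fun p : ℝ × (ι → ℝ) => H p.1 p.2) (Icc 0 1 ×ˢ closure Ω))
    (hD : ∀ t ∈ Icc (0 : ℝ) 1, ContDiffOn ℝ 1 (H t) Ω)
    (hb : ∀ t ∈ Icc (0 : ℝ) 1, ∀ x ∈ closure Ω, H t x = 0 → x ∈ Ω)
    (heq : ∀ x ∈ Ω, H 0 (flipM M x) = flipM M (H 0 x))
    {x₀ : ι → ℝ} (hx₀ : x₀ ∈ Ω) (hM : ∀ i ∈ M, x₀ i = 0) (h0 : H 0 x₀ = 0)
    (hdet : (fderiv ℝ (H 0) x₀).det ≠ 0)
    (huniq : ∀ x ∈ Ω, (∀ i ∈ M, x i = 0) → H 0 x = 0 → x = x₀) : ∃ x ∈ Ω, H 1 x = 0 := by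
  rcases isEmpty_or_nonempty ι with hι | hι
  · exact ⟨x₀, hx₀, Subsingleton.elim _ _⟩
  by_contra hcon
  push Not at hcon
  have hcl : IsCompact (closure Ω) := hbd.isCompact_closure
  have h01 : (0 : ℝ) ∈ Icc (0 : ℝ) 1 := ⟨le_rfl, zero_le_one⟩
  have h11 : (1 : ℝ) ∈ Icc (0 : ℝ) 1 := ⟨zero_le_one, le_rfl⟩
  obtain ⟨c₁, hc₁, hlb₁⟩ := degMain_lb (isCompact_Icc.prod (hcl.diff hΩ))
    (hC.mono (prod_mono subset_rfl sdiff_subset))
    (fun p hp h => hp.2.2 (hb p.1 hp.1 p.2 hp.2.1 h))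
  obtain ⟨c₂, hc₂, hlb₂⟩ := degMain_lb ((isCompact_singleton (x := (1 : ℝ))).prod hcl)
    (hC.mono (prod_mono (singleton_subset_iff.2 h11) subset_rfl))
    (fun p hp h => by
      have e : p.1 = 1 := hp.1
      rw [e] at h
      exact hcon p.2 (hb 1 h11 p.2 hp.2 h) h)
  set m := min c₁ c₂ / 4 with hm
  have hm0 : 0 < m := by positivity
  have hm1 : 4 * m ≤ c₁ := by have := min_le_left c₁ c₂; linarith
  have hm2 : 4 * m ≤ c₂ := by have := min_le_right c₁ c₂; linarith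
  set S : Set (ℝ × (ι → ℝ)) := (Icc 0 1 ×ˢ closure Ω) ∩
    (fun p : ℝ × (ι → ℝ) => ‖H p.1 p.2‖) ⁻¹' Iic (3 * m) with hS
  have hSc : IsCompact S := by
    refine (isCompact_Icc.prod hcl).of_isClosed_subset ?_ inter_subset_left
    exact hC.norm.preimage_isClosed_of_isClosed (isCompact_Icc.prod hcl).isClosed isClosed_Iic
  have hK : IsCompact (Prod.snd '' S) := hSc.image continuous_snd
  have hKΩ : Prod.snd '' S ⊆ Ω := by
    rintro _ ⟨p, hp, rfl⟩
    by_contra hn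
    have a1 := hlb₁ p ⟨hp.1.1, hp.1.2, hn⟩
    have a2 : ‖H p.1 p.2‖ ≤ 3 * m := hp.2
    linarith
  have hKb : ∀ t ∈ Icc (0 : ℝ) 1, ∀ x ∈ Ω, x ∉ Prod.snd '' S → 3 * m < ‖H t x‖ := by
    intro t ht x hx hxK
    by_contra hn
    exact hxK ⟨(t, x), ⟨⟨ht, subset_closure hx⟩, not_lt.1 hn⟩, rfl⟩
  obtain ⟨G, hG, hGeq, hFG, hGM, hGreg⟩ := gromes M hΩ hbd (hD 0 h01) heq hm0
  have hGb : ∀ x ∈ Ω, x ∉ Prod.snd '' S → m ≤ ‖G x‖ := by
    intro x hx hxK
    have a1 := hKb 0 h01 x hx hxK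
    have a2 := hFG x hx
    have a3 := norm_sub_norm_le (H 0 x) (G x)
    linarith
  have hreg : ∀ x ∈ Ω, G x = 0 → (fderiv ℝ G x).det ≠ 0 := by
    intro x hx hGx
    by_cases hxM : ∀ i ∈ M, x i = 0
    · obtain ⟨e1, e2⟩ := hGM x hx hxM
      rw [e2, huniq x hx hxM (e1 ▸ hGx)]
      exact hdet
    · push Not at hxM
      exact hGreg x hx hxM hGx
  have hfin := finite_zeros hΩ hK hKΩ hG (fun x hx hxK h => by
    have := hGb x hx hxK
    rw [h, norm_zero] at this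
    linarith) hreg
  have hodd : Odd {x | x ∈ Ω ∧ G x = 0}.ncard := by
    refine degMain_odd hfin (flipM M) (fun x hx => ⟨hsym x hx.1, ?_⟩) (degMain_flip_flip M)
      (x₀ := x₀) ⟨hx₀, (hGM x₀ hx₀ hM).1.trans h0⟩ ((degMain_flip_eq M x₀).2 hM)
      (fun x hx h => ?_)
    · rw [hGeq x hx.1, hx.2, degMain_flip_zero]
    · have hxM := (degMain_flip_eq M x).1 h
      exact huniq x hx.1 hxM ((hGM x hx.1 hxM).1 ▸ hx.2)
  obtain ⟨r₀, hr₀, hne⟩ := degI_ne_zero_of_odd hΩ hK hKΩ hG hm0 hGb hreg hodd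
  have hr : 0 < min r₀ m := lt_min hr₀ hm0
  refine hne (min r₀ m) hr (min_le_left _ _) ?_
  rw [← degI_eq_of_close (η := m) hΩ hK hKΩ (hD 0 h01) hG hr hFG (fun x hx hxK => by
      have := hKb 0 h01 x hx hxK
      have := min_le_right r₀ m
      linarith),
    degMain_homotopy hΩ hcl hK hKΩ H hC hD hr (min_le_right _ _) hKb]
  refine setIntegral_eq_zero_of_forall_eq_zero fun x hx => ?_
  have a1 := hlb₂ (1, x) ⟨rfl, subset_closure hx⟩
  have a2 := min_le_right r₀ m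
  rw [degMain_psi hr (by linarith), zero_mul]

theorem equivDeg' {E : Type} [NormedAddCommGroup E] [NormedSpace ℝ E] (e : E ≃L[ℝ] (ι → ℝ))
    (M : Finset ι) (τ : E → E) (hτ : ∀ x, e (τ x) = flipM M (e x))
    {Ω : Set E} (hΩ : IsOpen Ω) (hbd : Bornology.IsBounded Ω)
    (hsym : ∀ x ∈ Ω, τ x ∈ Ω) (H : ℝ → E → E)
    (hC : ContinuousOn (fun p : ℝ × E => H p.1 p.2) (Icc 0 1 ×ˢ closure Ω))
    (hD : ∀ t ∈ Icc (0 : ℝ) 1, ContDiffOn ℝ 1 (H t) Ω)
    (hb : ∀ t ∈ Icc (0 : ℝ) 1, ∀ x ∈ closure Ω, H t x = 0 → x ∈ Ω)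
    (heq : ∀ x ∈ Ω, H 0 (τ x) = τ (H 0 x))
    {x₀ : E} (hx₀ : x₀ ∈ Ω) (hM : τ x₀ = x₀) (h0 : H 0 x₀ = 0)
    (hdet : Function.Injective (fderiv ℝ (H 0) x₀))
    (huniq : ∀ x ∈ Ω, τ x = x → H 0 x = 0 → x = x₀) : ∃ x ∈ Ω, H 1 x = 0 := by
  have hcl : ∀ y ∈ closure (e '' Ω), e.symm y ∈ closure Ω := by
    intro y hy
    rw [← e.image_closure] at hy
    obtain ⟨x, hx, rfl⟩ := hy
    simpa using hx
  have hmem : ∀ y ∈ e '' Ω, e.symm y ∈ Ω := by
    rintro _ ⟨x, hx, rfl⟩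
    simpa using hx
  have hτ' : ∀ x, e.symm (flipM M (e x)) = τ x := fun x => by rw [← hτ, e.symm_apply_apply]
  obtain ⟨y, hy, h⟩ := equivDeg M (Ω := e '' Ω) (e.toHomeomorph.isOpenMap Ω hΩ)
    (e.lipschitz.isBounded_image hbd) (by
      rintro _ ⟨x, hx, rfl⟩
      exact ⟨τ x, hsym x hx, hτ x⟩)
    (fun t y => e (H t (e.symm y)))
    (e.continuous.comp_continuousOn (hC.comp
      (f := fun p : ℝ × (ι → ℝ) => (p.1, e.symm p.2))
      (continuous_fst.prodMk (e.symm.continuous.comp continuous_snd)).continuousOn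
      (fun p hp => ⟨hp.1, hcl p.2 hp.2⟩)))
    (fun t ht => e.contDiff.comp_contDiffOn ((hD t ht).comp e.symm.contDiff.contDiffOn hmem))
    (fun t ht y hy h => ⟨e.symm y, hb t ht _ (hcl y hy) (by simpa using h), by simp⟩)
    (by
      rintro _ ⟨x, hx, rfl⟩
      rw [hτ', heq x hx, hτ, e.symm_apply_apply])
    (x₀ := e x₀) ⟨x₀, hx₀, rfl⟩ ((degMain_flip_eq M _).1 (by rw [← hτ, hM])) (by simp [h0])
    (by
      have e1 : fderiv ℝ (fun y => e (H 0 (e.symm y))) (e x₀) =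
          (e : E →L[ℝ] (ι → ℝ)).comp ((fderiv ℝ (H 0) x₀).comp (e.symm : (ι → ℝ) →L[ℝ] E)) := by
        have a1 := e.comp_fderiv (f := H 0 ∘ e.symm) (x := e x₀)
        have a2 := e.symm.comp_right_fderiv (f := H 0) (x := e x₀)
        rw [e.symm_apply_apply] at a2
        rw [a2] at a1
        exact a1
      rw [e1, ContinuousLinearMap.det, Ne, LinearMap.det_eq_zero_iff_ker_ne_bot, not_not,
        LinearMap.ker_eq_bot]
      exact e.injective.comp (hdet.comp e.symm.injective))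
    (by
      rintro _ ⟨x, hx, rfl⟩ hxM h
      have a1 : τ x = x := e.injective (by rw [hτ, (degMain_flip_eq M _).2 hxM])
      rw [huniq x hx a1 (by simpa using h)])
  exact ⟨e.symm y, hmem y hy, by simpa using h⟩

end Crest.Agent.R197
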