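import Crest.Agent.R197.DegDefs

/-! R197: the Jacobian determinant of a compactly supported `C¹` map integrates to zero.

Proof (Milnor-Rogers trick, no second derivatives).  `Φ` is Lipschitz with some constant `Λ`
(`fderiv` is continuous with compact support).  Fix `h > 0` with `h Λ ≤ 1/2`.  For `T : Finset ι` let
`g_T x = x + h • (fun i => if i ∈ T then Φ x i else 0)`.  `g_T - id` is `1/2`-Lipschitz, so `g_T` is a
bijection of `ι → ℝ` (injective: trivial; surjective: Banach fixed point `ContractingWith`, or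
`ApproximatesLinearOn.surjective`), it is the identity outside `K = tsupport Φ`, hence maps `K` onto
`K`; `det (fderiv g_T x) > 0` (`s ↦ det (1 + s B)` does not vanish on `[0,1]` when `‖B‖ ≤ 1/2`, IVT).
Change of variables (`lintegral_abs_det_fderiv_eq_addHaar_image` or
`integral_image_eq_integral_abs_det_fderiv_smul` with the constant function `1`):
`∫ x in K, det (fderiv g_T x) = vol K`.  With `A = ` matrix of `fderiv Φ x`
(`LinearMap.toMatrix'`, `LinearMap.det_toMatrix'`), the rows of `h • A` are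
`(e_i + h A_i) + (-e_i)`, so multilinearity in the rows (`Matrix.detRowAlternating`,
`MultilinearMap.map_add_univ`) gives `h^n det A = ∑ T, (-1)^(n - |T|) det (matrix of fderiv g_T x)`.
Integrate over `K` and use `∑ T, (-1)^(n-|T|) = 0` (the same identity for `A = 0`, `ι` nonempty).
Outside `K` the derivative of `Φ` vanishes and `det 0 = 0`. -/

set_option autoImplicit false

namespace Crest.Agent.R197

open MeasureTheory

variable {ι : Type} [Fintype ι] [DecidableEq ι]

omit [DecidableEq ι] in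
theorem degZero_det_ne (B : (ι → ℝ) →L[ℝ] (ι → ℝ)) (hB : ‖B‖ < 1) :
    (ContinuousLinearMap.id ℝ (ι → ℝ) + B).det ≠ 0 := by
  refine IsUnit.ne_zero (LinearMap.isUnit_det _ ?_)
  rw [LinearMap.isUnit_iff_ker_eq_bot, LinearMap.ker_eq_bot']
  intro x hx
  have h1 : x + B x = 0 := hx
  have h2 : ‖B x‖ = ‖x‖ := by rw [eq_neg_of_add_eq_zero_right h1, norm_neg]
  by_contra hne
  have h3 : 0 < ‖x‖ := norm_pos_iff.2 hne
  have h4 := B.le_opNorm x
  nlinarith

omit [DecidableEq ι] in
theorem degZero_det_pos (B : (ι → ℝ) →L[ℝ] (ι → ℝ)) (hB : ‖B‖ < 1) :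
    0 < (ContinuousLinearMap.id ℝ (ι → ℝ) + B).det := by
  by_contra hc
  have hcont : Continuous fun s : ℝ => (ContinuousLinearMap.id ℝ (ι → ℝ) + s • B).det :=
    ContinuousLinearMap.continuous_det.comp (by fun_prop)
  have h0 : (ContinuousLinearMap.id ℝ (ι → ℝ) + (0 : ℝ) • B).det = 1 := by
    rw [zero_smul, add_zero]
    exact LinearMap.det_id
  obtain ⟨s, hs, hs0⟩ := intermediate_value_Icc' zero_le_one hcont.continuousOn
    (show (0 : ℝ) ∈ Set.Icc _ _ from ⟨by simpa using hc, by rw [h0]; exact zero_le_one⟩)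
  refine degZero_det_ne (s • B) ?_ hs0
  rw [norm_smul, Real.norm_eq_abs, abs_of_nonneg hs.1]
  exact (mul_le_of_le_one_left (norm_nonneg _) hs.2).trans_lt hB

omit [DecidableEq ι] in
theorem degZero_vol (Ψ : (ι → ℝ) → ι → ℝ) (hΨ : Differentiable ℝ Ψ)
    (hn : ∀ x, ‖fderiv ℝ Ψ x‖ ≤ 1 / 2) {K : Set (ι → ℝ)} (hK : MeasurableSet K)
    (h0 : ∀ x, x ∉ K → Ψ x = 0) :
    ∫ x in K, (ContinuousLinearMap.id ℝ (ι → ℝ) + fderiv ℝ Ψ x).det = volume.real K := by
  have hL : LipschitzWith (1 / 2) Ψ := lipschitzWith_of_nnnorm_fderiv_le hΨ fun x => by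
    rw [← NNReal.coe_le_coe]
    simpa using hn x
  have hinj : Function.Injective fun x => x + Ψ x := by
    intro x y hxy
    have h1 : dist x y = dist (Ψ x) (Ψ y) := by
      rw [dist_eq_norm, dist_eq_norm, ← norm_neg (Ψ x - Ψ y)]
      congr 1
      have : x + Ψ x = y + Ψ y := hxy
      linear_combination (exp := 1) this
    have h2 := hL.dist_le_mul x y
    have h3 : dist x y ≤ 0 := by
      push_cast at h2
      linarith
    exact dist_le_zero.1 h3
  have hsurj : ∀ y, ∃ x, x + Ψ x = y := by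
    intro y
    have hc : ContractingWith (1 / 2) fun x => y - Ψ x := by
      refine ⟨by norm_num, LipschitzWith.of_dist_le_mul fun a b => ?_⟩
      rw [dist_sub_left]
      exact hL.dist_le_mul a b
    have h1 : y - Ψ (hc.fixedPoint _) = hc.fixedPoint _ := hc.fixedPoint_isFixedPt
    exact ⟨_, (sub_eq_iff_eq_add.1 h1).symm⟩
  have himg : (fun x => x + Ψ x) '' K = K := by
    refine Set.Subset.antisymm ?_ fun y hy => ?_
    · rintro _ ⟨x, hx, rfl⟩
      by_contra hc
      have h1 : x + Ψ x = x := hinj (by simp only [h0 _ hc, add_zero])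
      exact hc (by simp only [h1, hx])
    · obtain ⟨x, rfl⟩ := hsurj y
      refine ⟨x, ?_, rfl⟩
      by_contra hc
      rw [h0 x hc, add_zero] at hy
      exact hc hy
  have h := integral_image_eq_integral_abs_det_fderiv_smul (volume : Measure (ι → ℝ)) hK
    (f := fun x => x + Ψ x) (f' := fun x => ContinuousLinearMap.id ℝ (ι → ℝ) + fderiv ℝ Ψ x)
    (fun x _ => ((hasFDerivAt_id x).add (hΨ x).hasFDerivAt).hasFDerivWithinAt) hinj.injOn
    (fun _ => (1 : ℝ))
  rw [himg, setIntegral_const, smul_eq_mul, mul_one] at h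
  rw [h]
  refine integral_congr_ae (Filter.Eventually.of_forall fun x => ?_)
  simp only [smul_eq_mul, mul_one]
  exact (abs_of_pos (degZero_det_pos _ ((hn x).trans_lt (by norm_num)))).symm

/-- the coordinate projection -/
noncomputable def degZeroP (T : Finset ι) : (ι → ℝ) →L[ℝ] (ι → ℝ) :=
  ContinuousLinearMap.pi fun i => if i ∈ T then ContinuousLinearMap.proj i else 0

omit [Fintype ι] in
theorem degZeroP_apply (T : Finset ι) (x : ι → ℝ) (i : ι) :
    degZeroP T x i = if i ∈ T then x i else 0 := by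
  simp only [degZeroP, ContinuousLinearMap.pi_apply]
  split_ifs <;> rfl

theorem degZeroP_norm (T : Finset ι) : ‖degZeroP T‖ ≤ 1 := by
  refine ContinuousLinearMap.opNorm_le_bound _ zero_le_one fun x => ?_
  rw [one_mul, pi_norm_le_iff_of_nonneg (norm_nonneg _)]
  intro i
  rw [degZeroP_apply]
  split_ifs
  · exact norm_le_pi_norm x i
  · simp

theorem degZero_expand (C : (ι → ℝ) →L[ℝ] (ι → ℝ)) :
    C.det = ∑ T : Finset ι, (∏ i, if i ∈ T then (1 : ℝ) else -1) *
      (ContinuousLinearMap.id ℝ (ι → ℝ) + (degZeroP T).comp C).det := by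
  set A : Matrix ι ι ℝ := LinearMap.toMatrix' (C : (ι → ℝ) →ₗ[ℝ] (ι → ℝ)) with hA
  have h1 : C.det = Matrix.detRowAlternating.toMultilinearMap
      ((fun i => ((1 : Matrix ι ι ℝ) + A) i) + fun i => -(1 : Matrix ι ι ℝ) i) := by
    rw [ContinuousLinearMap.det, ← LinearMap.det_toMatrix']
    change Matrix.detRowAlternating.toMultilinearMap _ = _
    congr 1
    ext i j
    simp [hA]
  rw [h1, MultilinearMap.map_add_univ]
  refine Finset.sum_congr rfl fun T _ => ?_
  rw [ContinuousLinearMap.det, ← LinearMap.det_toMatrix', ← smul_eq_mul]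
  refine Eq.trans ?_ (Matrix.detRowAlternating.toMultilinearMap.map_smul_univ
    (fun i => if i ∈ T then (1 : ℝ) else -1) _)
  congr 1
  ext i j
  by_cases hi : i ∈ T
  · simp [Finset.piecewise, hi, hA, degZeroP_apply, Matrix.one_apply]
  · have e : (-if i = j then (1 : ℝ) else 0) = if i = j then -1 else 0 := by split_ifs <;> simp
    simpa [Finset.piecewise, hi, degZeroP_apply, Matrix.one_apply] using e

theorem integral_det_eq_zero [Nonempty ι] (Φ : (ι → ℝ) → ι → ℝ) (hΦ : ContDiff ℝ 1 Φ)
    (hc : HasCompactSupport Φ) : ∫ x, (fderiv ℝ Φ x).det = 0 := by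
  have hd : Differentiable ℝ Φ := hΦ.differentiable one_ne_zero
  have hcont : Continuous (fderiv ℝ Φ) := hΦ.continuous_fderiv one_ne_zero
  obtain ⟨Λ, hΛ⟩ := hcont.bounded_above_of_compact_support (hc.fderiv ℝ)
  have hΛ0 : 0 ≤ Λ := (norm_nonneg _).trans (hΛ 0)
  set h : ℝ := 1 / (2 * (Λ + 1)) with hh
  have hh0 : 0 < h := by positivity
  have hK : IsCompact (tsupport Φ) := hc
  have hdet0 : (0 : (ι → ℝ) →L[ℝ] (ι → ℝ)).det = 0 := by
    rw [ContinuousLinearMap.det, ← LinearMap.det_toMatrix']
    simp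
  have hT : ∀ T : Finset ι, ∫ x in tsupport Φ, (ContinuousLinearMap.id ℝ (ι → ℝ) +
      (degZeroP T).comp (h • fderiv ℝ Φ x)).det = volume.real (tsupport Φ) := by
    intro T
    have h1 : ∀ x, HasFDerivAt (fun x => degZeroP T (h • Φ x))
        ((degZeroP T).comp (h • fderiv ℝ Φ x)) x := fun x =>
      (degZeroP T).hasFDerivAt.comp x ((hd x).hasFDerivAt.const_smul h)
    rw [← degZero_vol (fun x => degZeroP T (h • Φ x)) (fun x => (h1 x).differentiableAt)
      (fun x => ?_) hK.measurableSet fun x hx => ?_]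
    · simp only [fun x => (h1 x).fderiv]
    · rw [(h1 x).fderiv]
      refine (ContinuousLinearMap.opNorm_comp_le _ _).trans ?_
      rw [norm_smul, Real.norm_eq_abs, abs_of_pos hh0]
      have h2 : h * ‖fderiv ℝ Φ x‖ ≤ 1 / 2 := by
        rw [hh, div_mul_eq_mul_div, div_le_div_iff₀ (by positivity) (by norm_num)]
        linarith [hΛ x]
      exact (mul_le_of_le_one_left (by positivity) (degZeroP_norm T)).trans h2
    · rw [image_eq_zero_of_notMem_tsupport hx, smul_zero, map_zero]
  have hs : ∑ T : Finset ι, (∏ i, if i ∈ T then (1 : ℝ) else -1) = 0 := by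
    have h1 := degZero_expand (0 : (ι → ℝ) →L[ℝ] (ι → ℝ))
    have h2 : (ContinuousLinearMap.id ℝ (ι → ℝ)).det = 1 := LinearMap.det_id
    simp only [hdet0, ContinuousLinearMap.comp_zero, add_zero, h2, mul_one] at h1
    exact h1.symm
  have h1 : ∫ x in tsupport Φ, (h • fderiv ℝ Φ x).det = 0 := by
    simp only [fun x => degZero_expand (h • fderiv ℝ Φ x)]
    rw [integral_finsetSum]
    · simp only [integral_const_mul, hT]
      rw [← Finset.sum_mul, hs, zero_mul]
    · intro T _
      refine Integrable.const_mul ?_ _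
      refine ContinuousOn.integrableOn_compact hK (Continuous.continuousOn ?_)
      exact ContinuousLinearMap.continuous_det.comp (by fun_prop)
  have h2 : ∀ x, (h • fderiv ℝ Φ x).det = h ^ Fintype.card ι * (fderiv ℝ Φ x).det := by
    intro x
    rw [ContinuousLinearMap.det, ContinuousLinearMap.toLinearMap_smul, LinearMap.det_smul,
      Module.finrank_fintype_fun_eq_card]
  simp only [h2, integral_const_mul] at h1
  rw [← setIntegral_eq_integral_of_forall_compl_eq_zero (s := tsupport Φ) fun x hx => ?_]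
  · exact (mul_eq_zero.1 h1).resolve_left (pow_pos hh0 _).ne'
  · rw [fderiv_of_notMem_tsupport ℝ hx, hdet0]

end Crest.Agent.R197
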