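import Crest.Agent.R197.Hol1

/-! R197: every path function on `Sp X` is determined by its values on the edges.

Proof of `det1`.  Apply `PF.ext_of_cover` to `μ` and `(η.map (lift ..)).gauge (gau μ)` with the charts
`U1`.  Let `γ` be a path in a chart from `x` to `y`, `R x = rad 2 x 1`.  The square
`K (s, t) = rad 2 (γ s) (1 - t)` gives `μ (R ∘ γ) * μ (beta2 y) = μ (beta2 x) * μ γ`.
Chart `some e`: `R ∘ γ = chr 1 e ∘ δ` with `δ = (chr 1 e).symm ∘ R ∘ γ` a path in the convex set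
`closedBall 0 1`, so `PF.pot_of_convex` (base point `fun _ => -1`) gives
`μ (R ∘ γ) = (μ (beta1 x))⁻¹ * μ (beta1 y)`, and `η γ = 1`.
Chart `none`: `R ∘ γ` is a path in `Sk X 2 \ ctr X 1`; the square `K (s, t) = rad 1 (R (γ s)) t` has a
constant top (`rad_one_mem`, `IsPath.eq_of_Sk_one`), so `μ (R ∘ γ) * μ (τ y) = μ (τ x)` with
`τ x t = rad 1 (R x) t`.  It remains to see `μ (beta1 x) * μ (τ x) = (lift .. (f1 none x))⁻¹`: if `R x` is a
vertex all three are `1`; if `R x = chr 1 e z` then `τ x = chr 1 e ∘ seg z (± 1)` (sign of `z 0`;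
`‖z‖ = |z 0|` on `Fin 1 → ℝ`), and `PF.tri` gives `μ (chr 1 e ∘ seg (-1) (± 1))`, which is `1` or
`μ (ed e)`. -/

set_option autoImplicit false

namespace Crest.Agent.R197

open Set Metric Topology

variable {X : Type} [TopologicalSpace X] [CWComplex (univ : Set X)] [T2Space X]

omit [T2Space X] in
theorem det1_Sp (h : Dim2 X) : Sp X = Sk X (2 + 1) \ ctr X 2 := by
  rw [Sk_three h, ← compl_eq_univ_sdiff, Sp]

theorem det1_norm (z : Fin 1 → ℝ) : ‖z‖ = |z 0| := by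
  have : z = fun _ => z 0 := funext fun i => by rw [Subsingleton.elim i 0]
  rw [this, pi_norm_const, Real.norm_eq_abs]

theorem det1_neg_mem : (fun _ => -1 : Fin 1 → ℝ) ∈ closedBall (0 : Fin 1 → ℝ) 1 := by
  rw [mem_closedBall_zero_iff, det1_norm]
  simp

theorem det1_mapsTo (e : Cell X 1) : MapsTo (chr 1 e) (closedBall 0 1) (Sp X) := by
  intro z hz
  refine Sk_two_subset_Sp (mem_Sk_succ.2 ?_)
  rw [← ball_union_sphere] at hz
  rcases hz with hz | hz
  · exact Or.inr ⟨e, z, hz, rfl⟩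
  · exact Or.inl (chr_mem_Sk_of_sphere 1 e hz)

omit [T2Space X] in
theorem det1_beta1_chr {x : X} {e : Cell X 1} {z : Fin 1 → ℝ} (hz : z ∈ ball (0 : Fin 1 → ℝ) 1)
    (hx : rad 2 x 1 = chr 1 e z) : beta1 x = fun s => chr 1 e (seg (fun _ => -1) z s) := by
  have h : ∃ e : Cell X 1, rad 2 x 1 ∈ chr 1 e '' ball 0 1 := ⟨e, z, hz, hx.symm⟩
  obtain ⟨z', hz', h'⟩ := h.choose_spec
  have he : h.choose = e := (cell_eq_of_chr_eq hz' hz (h'.trans hx)).1
  funext s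
  rw [beta1, dif_pos h, he, hx, chr_symm_chr 1 e hz]

omit [T2Space X] in
theorem det1_beta1_vertex {x : X} (hx : rad 2 x 1 ∈ Sk X 1) : beta1 x = fun _ => rad 2 x 1 := by
  funext s
  rw [beta1, dif_neg]
  rintro ⟨e, z, hz, h⟩
  exact chr_not_mem_Sk le_rfl e hz (h ▸ hx)

omit [T2Space X] in
theorem det1_f1_pos {x : X} {e : Cell X 1} {z : Fin 1 → ℝ} (hz : z ∈ ball (0 : Fin 1 → ℝ) 1)
    (hx : rad 2 x 1 = chr 1 e z) (h0 : 0 < z 0) : f1 none x = (FreeGroup.of e)⁻¹ := by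
  have h : ∃ e : Cell X 1, rad 2 x 1 ∈ chr 1 e '' {z | z ∈ ball 0 1 ∧ 0 < z 0} :=
    ⟨e, z, ⟨hz, h0⟩, hx.symm⟩
  obtain ⟨z', hz', h'⟩ := h.choose_spec
  have he : h.choose = e := (cell_eq_of_chr_eq hz'.1 hz (h'.trans hx)).1
  simp only [f1]
  rw [dif_pos h, he]

omit [T2Space X] in
theorem det1_f1_neg {x : X} {e : Cell X 1} {z : Fin 1 → ℝ} (hz : z ∈ ball (0 : Fin 1 → ℝ) 1)
    (hx : rad 2 x 1 = chr 1 e z) (h0 : z 0 < 0) : f1 none x = 1 := by
  simp only [f1]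
  rw [dif_neg]
  rintro ⟨e', z', hz', h'⟩
  have := (cell_eq_of_chr_eq hz'.1 hz (h'.trans hx)).2
  rw [this] at hz'
  exact lt_asymm h0 hz'.2

omit [T2Space X] in
theorem det1_f1_vertex {x : X} (hx : rad 2 x 1 ∈ Sk X 1) : f1 none x = 1 := by
  simp only [f1]
  rw [dif_neg]
  rintro ⟨e, z, hz, h⟩
  exact chr_not_mem_Sk le_rfl e hz.1 (h ▸ hx)

theorem det1_R_mem (h : Dim2 X) {x : X} (hx : x ∈ Sp X) : rad 2 x 1 ∈ Sk X 2 :=
  rad_one_mem (det1_Sp h ▸ hx)

theorem det1_R_cont (h : Dim2 X) {γ : ℝ → X} (hγ : IsPath (Sp X) γ) :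
    ContinuousOn (fun s => rad 2 (γ s) 1) (Icc 0 1) := by
  refine (continuousOn_rad 2).comp (f := fun s => (γ s, (1 : ℝ)))
    (hγ.1.prodMk continuousOn_const) fun s hs => ⟨?_, right_mem_Icc.2 zero_le_one⟩
  rw [← det1_Sp h]
  exact hγ.2 hs

theorem det1_sq2 (h : Dim2 X) {H : Type} [Group H] (μ : PF (Sp X) H) {γ : ℝ → X}
    (hγ : IsPath (Sp X) γ) :
    (μ.val fun s => rad 2 (γ s) 1) * μ.val (beta2 (γ 1)) = μ.val (beta2 (γ 0)) * μ.val γ := by
  have hm : MapsTo (fun p : ℝ × ℝ => (γ p.1, 1 - p.2)) Sq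
      ((Sk X (2 + 1) \ ctr X 2) ×ˢ Icc (0 : ℝ) 1) := fun p hp =>
    ⟨det1_Sp h ▸ hγ.2 hp.1, by constructor <;> linarith [hp.2.1, hp.2.2]⟩
  have := μ.sq (fun p => rad 2 (γ p.1) (1 - p.2))
    ((continuousOn_rad 2).comp (f := fun p : ℝ × ℝ => (γ p.1, 1 - p.2))
      ((hγ.1.comp continuousOn_fst fun p hp => hp.1).prodMk (by fun_prop)) hm)
    fun p hp => by
      rw [det1_Sp h]
      exact rad_mem (hm hp).1 (hm hp).2
  simp only [sub_zero, sub_self, rad_zero] at this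
  exact this

theorem det1_tau (h : Dim2 X) {H : Type} [Group H] (μ : PF (Sp X) H) {x : X} (hx : x ∈ U1 none) :
    μ.val (beta1 x) * (μ.val fun t => rad 1 (rad 2 x 1) t) =
      (FreeGroup.lift (fun e => μ.val (ed e)) (f1 none x))⁻¹ := by
  have hR := det1_R_mem h hx.1
  rcases mem_Sk_succ.1 hR with hv | ⟨e, z, hz, hz'⟩
  · rw [det1_beta1_vertex hv, det1_f1_vertex hv]
    simp only [rad_of_mem_Sk hv]
    rw [μ.const _ (Sk_two_subset_Sp hR)]
    simp
  · have hz0 : z 0 ≠ 0 := by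
      intro h0
      have : z = 0 := by rw [← norm_eq_zero, det1_norm, h0, abs_zero]
      exact hx.2 ⟨e, by rw [← hz', this]⟩
    have hn : ‖z‖ ≠ 0 := by rw [det1_norm]; exact abs_ne_zero.2 hz0
    have hτ : (fun t => rad 1 (rad 2 x 1) t) = fun t => chr 1 e (seg z (‖z‖⁻¹ • z) t) := by
      funext t
      rw [← hz', rad_chr 1 e hz]
      congr 1
      simp only [seg, add_smul, sub_smul, smul_sub, one_smul, smul_smul, div_eq_mul_inv]
      abel
    have hw : ‖z‖⁻¹ • z ∈ closedBall (0 : Fin 1 → ℝ) 1 := by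
      rw [mem_closedBall_zero_iff, norm_smul, norm_inv, norm_norm, inv_mul_cancel₀ hn]
    rw [det1_beta1_chr hz hz'.symm, hτ, μ.tri (convex_closedBall 0 1) (continuousOn_chr 1 e)
      (det1_mapsTo e) det1_neg_mem (ball_subset_closedBall hz) hw]
    rcases lt_or_gt_of_ne hz0 with h0 | h0
    · have hw' : ‖z‖⁻¹ • z = fun _ => -1 := by
        funext i
        rw [Subsingleton.elim i 0, Pi.smul_apply, det1_norm, abs_of_neg h0, smul_eq_mul]
        field_simp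
      rw [det1_f1_neg hz hz'.symm h0, hw']
      simp only [seg_self]
      rw [μ.const _ (det1_mapsTo e det1_neg_mem)]
      simp
    · have hw' : ‖z‖⁻¹ • z = fun _ => 1 := by
        funext i
        rw [Subsingleton.elim i 0, Pi.smul_apply, det1_norm, abs_of_pos h0, smul_eq_mul]
        field_simp
      rw [det1_f1_pos hz hz'.symm h0, hw', map_inv, inv_inv, FreeGroup.lift_apply_of]
      congr 1
      funext t
      rw [ed]
      congr 1
      funext i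
      simp only [seg, Pi.add_apply, Pi.smul_apply, Pi.sub_apply, smul_eq_mul]
      ring

theorem det1_R (h : Dim2 X) {H : Type} [Group H] (μ : PF (Sp X) H) (i : Option (Cell X 1))
    {γ : ℝ → X} (hγ : IsPath (U1 i) γ) :
    (μ.val fun s => rad 2 (γ s) 1) = (μ.val (beta1 (γ 0)))⁻¹ *
      FreeGroup.lift (fun e => μ.val (ed e)) ((f1 i (γ 0))⁻¹ * f1 i (γ 1)) *
        μ.val (beta1 (γ 1)) := by
  have hγ' : IsPath (Sp X) γ := hγ.mono (U1_subset i)
  have hc := det1_R_cont h hγ'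
  cases i with
  | none =>
    have hm : MapsTo (fun p : ℝ × ℝ => (rad 2 (γ p.1) 1, p.2)) Sq
        ((Sk X (1 + 1) \ ctr X 1) ×ˢ Icc (0 : ℝ) 1) := fun p hp =>
      ⟨⟨det1_R_mem h (hγ'.2 hp.1), (hγ.2 hp.1).2⟩, hp.2⟩
    have hK : ContinuousOn (fun p : ℝ × ℝ => rad 1 (rad 2 (γ p.1) 1) p.2) Sq :=
      (continuousOn_rad 1).comp (f := fun p : ℝ × ℝ => (rad 2 (γ p.1) 1, p.2))
        ((hc.comp continuousOn_fst fun p hp => hp.1).prodMk continuousOn_snd) hm
    have h1 := μ.sq _ hK fun p hp => Sk_two_subset_Sp (rad_mem (hm hp).1 (hm hp).2).1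
    simp only [rad_zero] at h1
    have hs : ∀ s ∈ Icc (0 : ℝ) 1, ((s, 1) : ℝ × ℝ) ∈ Sq := fun s hs =>
      ⟨hs, right_mem_Icc.2 zero_le_one⟩
    have htop : IsPath (Sk X 1) fun s => rad 1 (rad 2 (γ s) 1) 1 :=
      ⟨hK.comp (f := fun s : ℝ => (s, (1 : ℝ))) (by fun_prop) hs,
        fun s hs' => rad_one_mem (hm (hs s hs')).1⟩
    rw [μ.congr htop.eq_of_Sk_one.2,
      μ.const _ (Sk_two_subset_Sp (mem_Sk_succ.2 (Or.inl htop.zero_mem))), mul_one] at h1
    have h2 := det1_tau h μ hγ.zero_mem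
    have h3 := det1_tau h μ hγ.one_mem
    rw [eq_mul_inv_of_mul_eq h1, eq_inv_mul_of_mul_eq h2, eq_inv_mul_of_mul_eq h3, map_mul,
      map_inv]
    group
  | some e =>
    have hm : MapsTo (fun s => rad 2 (γ s) 1) (Icc 0 1) (chr 1 e '' ball 0 1) :=
      fun s hs => (hγ.2 hs).2
    have hb : ∀ s ∈ Icc (0 : ℝ) 1, (chr 1 e).symm (rad 2 (γ s) 1) ∈ ball (0 : Fin 1 → ℝ) 1 ∧
        rad 2 (γ s) 1 = chr 1 e ((chr 1 e).symm (rad 2 (γ s) 1)) := by
      intro s hs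
      obtain ⟨z, hz, hz'⟩ := hm hs
      simp only at hz'
      rw [← hz', chr_symm_chr 1 e hz]
      exact ⟨hz, rfl⟩
    have hδ : IsPath (closedBall (0 : Fin 1 → ℝ) 1) fun s => (chr 1 e).symm (rad 2 (γ s) 1) :=
      ⟨(continuousOn_chr_symm 1 e).comp hc hm, fun s hs => ball_subset_closedBall (hb s hs).1⟩
    have h1 := μ.pot_of_convex (convex_closedBall 0 1) (continuousOn_chr 1 e) (det1_mapsTo e)
      det1_neg_mem hδ
    have h0' := hb 0 (left_mem_Icc.2 zero_le_one)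
    have h1' := hb 1 (right_mem_Icc.2 zero_le_one)
    rw [μ.congr fun s hs => (hb s hs).2, h1, det1_beta1_chr h0'.1 h0'.2,
      det1_beta1_chr h1'.1 h1'.2]
    simp [f1]

theorem isPath_beta (h : Dim2 X) {x : X} (hx : x ∈ Sp X) :
    IsPath (Sp X) (beta1 x) ∧ IsPath (Sp X) (beta2 x) := by
  constructor
  · have hR := det1_R_mem h hx
    rcases mem_Sk_succ.1 hR with hv | ⟨e, z, hz, hz'⟩
    · rw [det1_beta1_vertex hv]
      exact ⟨continuousOn_const, fun _ _ => Sk_two_subset_Sp hR⟩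
    · rw [det1_beta1_chr hz hz'.symm]
      exact (isPath_seg (convex_closedBall 0 1) det1_neg_mem (ball_subset_closedBall hz)).comp
        (continuousOn_chr 1 e) (det1_mapsTo e)
  · have hm : MapsTo (fun s : ℝ => (x, 1 - s)) (Icc 0 1)
        ((Sk X (2 + 1) \ ctr X 2) ×ˢ Icc (0 : ℝ) 1) := fun s hs =>
      ⟨det1_Sp h ▸ hx, by constructor <;> linarith [hs.1, hs.2]⟩
    refine ⟨(continuousOn_rad 2).comp (f := fun s : ℝ => (x, 1 - s)) (by fun_prop) hm,
      fun s hs => ?_⟩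
    rw [det1_Sp h]
    exact rad_mem (hm hs).1 (hm hs).2

omit [T2Space X] in
theorem gau_vertex {H : Type} [Group H] {S : Set X} (μ : PF S H) {x : X} (hx : x ∈ Sk X 1)
    (hS : x ∈ S) : gau μ x = 1 := by
  have h2 : x ∈ Sk X 2 := mem_Sk_succ.2 (Or.inl hx)
  have h3 : beta2 x = fun _ => x := funext fun s => rad_of_mem_Sk h2 _
  rw [gau, det1_beta1_vertex (by rwa [rad_of_mem_Sk h2]), h3, rad_of_mem_Sk h2, μ.const x hS,
    mul_one]

theorem det1 (h : Dim2 X) (η : PF (Sp X) (FreeGroup (Cell X 1))) (hη : ∀ i, η.Pot (U1 i) (f1 i))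
    {H : Type} [Group H] (μ : PF (Sp X) H) {γ : ℝ → X} (hγ : IsPath (Sp X) γ) :
    μ.val γ = (gau μ (γ 0))⁻¹ * FreeGroup.lift (fun e => μ.val (ed e)) (η.val γ) * gau μ (γ 1) := by
  refine PF.ext_of_cover μ ((η.map (FreeGroup.lift fun e => μ.val (ed e))).gauge (gau μ)) U1
    (fun y hy => ?_) (fun i δ hδ => ?_) hγ
  · obtain ⟨i, hi⟩ := U1_cover y hy
    exact ⟨i, mem_nhdsWithin_of_mem_nhds ((isOpen_U1 h i).mem_nhds hi)⟩
  · have h1 := det1_sq2 h μ (hδ.mono inter_subset_left)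
    have h2 := det1_R h μ i (hδ.mono inter_subset_right)
    rw [PF.gauge_val, PF.map_val, hη i δ (hδ.mono inter_subset_right), gau, gau,
      eq_inv_mul_of_mul_eq h1.symm, h2]
    group

end Crest.Agent.R197
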