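import Crest.Agent.R197.Cover

/-! R197: wall coordinates on the cube complex.

`crd0_mv`: `eta_mul_gen`, `wl_mul_lt_of_adj` (for `u ≠ v` with `t u ≠ 0`).  Write
`x W = eta g W + ∑ v, [wl g (v,true) = W] t v`; at most one term of the sum is non-zero (types).
`crd_injective`: `sgnW W = ±1`; for normal forms (`exists_normal`) `eta g W = ⌊x W⌋`, so `eta g = eta g'`,
`g = g'` (`sep_injective`), and `t v = x (wl g (v,true)) - eta ..`.
For `W = wl g (v, true)`: `eta g W` and `eta g W + 1 = eta (g * gen v) W` are both in `{0, sgnW W}`, so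
either `W ∉ sep g`, `sgnW W = 1`, `crd0 = t v`, or `W ∈ sep g`, `sgnW W = eta g W = -1`, `crd0 = 1 - t v`.
For other `W`, `crd0` is the indicator of `sep g`.
`range_crd`, `→`: `a = apex g {v | t v ≠ 0}` (`mem_sep_apex`, `wl_apex`).  `←`: let `D` be the set of
descents `s` of `a` (pairwise adjacent, `desc_adj`, so at most one per vertex), `τ = {v | (v, false) ∈ D}`,
`g = a * (pr τ)⁻¹`, `t v = y (wl a (v,false))` for `v ∈ τ`, `t v = 1 - y (wl a (v,true))` if `(v,true) ∈ D`,
else `0`; `wl g (v,true)` is `wl a (v,false)` resp. `wl a (v,true)` (`wl_mul_pr`, `wl_mul_pr_of_mem`). -/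

set_option autoImplicit false

namespace Crest.Agent.R197

open Set

variable {V : Type} [Fintype V] {L : SimpleGraph V}

theorem emb_sum_self (g : RA L) (t : V → ℝ) (v : V) :
    (∑ u, if wl g (u, true) = wl g (v, true) then t u else 0) = t v := by
  rw [Finset.sum_eq_single v (fun u _ hu => if_neg fun h => hu (congrArg Prod.fst (wl_inj h)))
    (by simp), if_pos rfl]

theorem emb_sum_ne {g : RA L} (t : V → ℝ) {W : Wall L} (h : ∀ v, W ≠ wl g (v, true)) :
    (∑ u, if wl g (u, true) = W then t u else 0) = 0 :=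
  Finset.sum_eq_zero fun u _ => if_neg (h u).symm

omit [Fintype V] in
theorem emb_mem_sep {g : RA L} {W : Wall L} : W ∈ sep g ↔ eta g W ≠ 0 := Finsupp.mem_support_iff

omit [Fintype V] in
theorem emb_sign (g : RA L) (v : V) :
    (eta g (wl g (v, true)) = 0 ∧ sgnW (wl g (v, true)) = 1) ∨
      (eta g (wl g (v, true)) = -1 ∧ sgnW (wl g (v, true)) = -1) := by
  have h1 := eta_eq g (wl g (v, true))
  have h2 := eta_eq (g * gen L v) (wl g (v, true))
  have h3 := sgnW_eq (wl g (v, true))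
  rw [eta_mul_gen, Finsupp.add_apply, Finsupp.single_eq_same] at h2
  omega

theorem crd0_mv (a b : RA L × Kc L) (h : Mv L a b) : crd0 a = crd0 b := by
  classical
  obtain ⟨g, t⟩ := a
  obtain ⟨g', t'⟩ := b
  obtain ⟨v, h1, h2, h3, h4⟩ := h
  simp only at h1 h2 h3 h4
  subst h2
  funext W
  simp only [crd0]
  congr 1
  rw [← Finset.add_sum_erase _ _ (Finset.mem_univ v),
    ← Finset.add_sum_erase _ (fun u => if wl (g * gen L v) (u, true) = W then t'.1 u else 0)
      (Finset.mem_univ v), h1, h3, eta_mul_gen, Finsupp.add_apply, Finsupp.single_apply, ite_self,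
    zero_add, ← add_assoc]
  congr 1
  · split_ifs <;> simp
  · refine Finset.sum_congr rfl fun u hu => ?_
    have hu' := Finset.ne_of_mem_erase hu
    rw [h4 u hu']
    by_cases h0 : t.1 u = 0
    · simp [h0]
    · have hadj : L.Adj u v := t.2.2 h0 (by simp [h1]) hu'
      have := wl_mul_lt_of_adj (s := (u, true)) (t := (v, true)) hadj g
      rw [lt_true] at this
      rw [this]

/-- Wall coordinates. -/
noncomputable def crd : EE L → Wall L → ℝ := Quot.lift crd0 crd0_mv

@[simp] theorem crd_mk (a : RA L × Kc L) : crd (EE.mk a) = crd0 a := rfl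

theorem crd0_of_mem {g : RA L} {t : Kc L} {v : V} (h : wl g (v, true) ∈ sep g) :
    crd0 (g, t) (wl g (v, true)) = 1 - t.1 v := by
  rcases emb_sign g v with h1 | h1
  · exact absurd h1.1 (emb_mem_sep.1 h)
  · simp only [crd0, emb_sum_self, h1.1, h1.2]
    push_cast
    ring

theorem crd0_of_not_mem {g : RA L} {t : Kc L} {v : V} (h : wl g (v, true) ∉ sep g) :
    crd0 (g, t) (wl g (v, true)) = t.1 v := by
  rcases emb_sign g v with h1 | h1
  · simp only [crd0, emb_sum_self, h1.1, h1.2]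
    push_cast
    ring
  · exact absurd (emb_mem_sep.2 (by rw [h1.1]; decide)) h

theorem crd0_of_ne {g : RA L} {t : Kc L} {W : Wall L} (h : ∀ v, W ≠ wl g (v, true)) :
    crd0 (g, t) W = if W ∈ sep g then 1 else 0 := by
  simp only [crd0, emb_sum_ne t.1 h, add_zero]
  split_ifs with h1
  · rw [(eta_eq g W).resolve_left (emb_mem_sep.1 h1)]
    rcases sgnW_eq W with h2 | h2 <;> simp [h2]
  · rw [not_not.1 (mt emb_mem_sep.2 h1)]
    simp

theorem emb_ind {g : RA L} {t : Kc L} {W : Wall L} (h : ∀ v, W = wl g (v, true) → t.1 v = 0) :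
    crd0 (g, t) W = if W ∈ sep g then 1 else 0 := by
  by_cases h1 : ∃ v, W = wl g (v, true)
  · obtain ⟨v, rfl⟩ := h1
    split_ifs with h2
    · rw [crd0_of_mem h2, h v rfl, sub_zero]
    · rw [crd0_of_not_mem h2, h v rfl]
  · exact crd0_of_ne (not_exists.1 h1)

theorem emb_frac (g : RA L) {t : V → ℝ} (h0 : ∀ v, 0 ≤ t v) (h1 : ∀ v, t v < 1) (W : Wall L) :
    (0 ≤ ∑ u, if wl g (u, true) = W then t u else 0) ∧
      (∑ u, if wl g (u, true) = W then t u else 0) < 1 := by
  by_cases h : ∃ v, W = wl g (v, true)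
  · obtain ⟨v, rfl⟩ := h
    rw [emb_sum_self]
    exact ⟨h0 v, h1 v⟩
  · rw [emb_sum_ne t (not_exists.1 h)]
    exact ⟨le_rfl, zero_lt_one⟩

theorem emb_inR [LinearOrder V] (g : RA L) (t : Kc L) : InR (crd0 (g, t)) := by
  have hσ : L.IsClique ((Finset.univ.filter fun v => t.1 v ≠ 0 : Finset V) : Set V) := by
    simpa using t.2.2
  have hz : ∀ {W : Wall L}, (¬ ∃ v ∈ Finset.univ.filter fun v => t.1 v ≠ 0, W = wl g (v, true)) →
      crd0 (g, t) W = if W ∈ sep g then 1 else 0 := fun h => emb_ind fun v hv => by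
    by_contra h0
    exact h ⟨v, Finset.mem_filter.2 ⟨Finset.mem_univ v, h0⟩, hv⟩
  refine ⟨apex g (Finset.univ.filter fun v => t.1 v ≠ 0), fun W hW => ?_, fun W => ?_,
    fun W hW h1 => ?_⟩
  · rw [mem_sep_apex hσ, not_or] at hW
    rw [hz hW.2, if_neg hW.1]
  · by_cases h : ∃ v, W = wl g (v, true)
    · obtain ⟨v, rfl⟩ := h
      have := t.2.1 v
      by_cases h2 : wl g (v, true) ∈ sep g
      · rw [crd0_of_mem h2]
        constructor <;> linarith [this.1, this.2]
      · rwa [crd0_of_not_mem h2]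
    · rw [crd0_of_ne (not_exists.1 h)]
      split_ifs <;> simp
  · by_cases h : ∃ v ∈ Finset.univ.filter fun v => t.1 v ≠ 0, W = wl g (v, true)
    · obtain ⟨v, hv, rfl⟩ := h
      exact ⟨_, wl_apex hσ g hv⟩
    · rw [hz h, if_pos (((mem_sep_apex hσ g W).1 hW).resolve_right h)] at h1
      exact absurd rfl h1

theorem emb_surj [LinearOrder V] {y : Wall L → ℝ} (hy : InR y) : ∃ a, crd0 a = y := by
  obtain ⟨a, h0, h01, h1⟩ := hy
  obtain ⟨τ, hτ⟩ : ∃ τ : Finset V, ∀ v, v ∈ τ ↔ wl a (v, false) ∈ sep a :=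
    ⟨Finset.univ.filter fun v => wl a (v, false) ∈ sep a, by simp⟩
  have hc : L.IsClique (τ : Set V) := fun u hu v hv huv =>
    desc_adj ((hτ u).1 hu) ((hτ v).1 hv) fun h => huv (congrArg Prod.fst h)
  obtain ⟨g, rfl⟩ : ∃ g, a = g * pr L τ := ⟨a * (pr L τ)⁻¹, by simp⟩
  obtain ⟨t, ht⟩ : ∃ t : Kc L, ∀ v, t.1 v = if v ∈ τ then y (wl (g * pr L τ) (v, false)) else
      if wl (g * pr L τ) (v, true) ∈ sep (g * pr L τ) then 1 - y (wl (g * pr L τ) (v, true))
      else 0 := by
    refine ⟨⟨fun v => if v ∈ τ then y (wl (g * pr L τ) (v, false)) else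
      if wl (g * pr L τ) (v, true) ∈ sep (g * pr L τ) then 1 - y (wl (g * pr L τ) (v, true))
      else 0, fun v => ?_, ?_⟩, fun _ => rfl⟩
    · dsimp only
      split_ifs
      · exact h01 _
      · have := h01 (wl (g * pr L τ) (v, true))
        constructor <;> linarith [this.1, this.2]
      · simp
    · have key : ∀ v, (if v ∈ τ then y (wl (g * pr L τ) (v, false)) else
          if wl (g * pr L τ) (v, true) ∈ sep (g * pr L τ) then 1 - y (wl (g * pr L τ) (v, true))
          else 0) ≠ 0 → ∃ b, wl (g * pr L τ) (v, b) ∈ sep (g * pr L τ) := by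
        intro v hv
        split_ifs at hv with a1 a2
        · exact ⟨false, (hτ v).1 a1⟩
        · exact ⟨true, a2⟩
        · exact absurd rfl hv
      intro u hu v hv huv
      obtain ⟨b, hb⟩ := key u hu
      obtain ⟨b', hb'⟩ := key v hv
      exact desc_adj hb hb' fun h => huv (congrArg Prod.fst h)
  have hB : ∀ v, wl (g * pr L τ) (v, true) ∈ sep (g * pr L τ) →
      v ∉ τ ∧ wl (g * pr L τ) (v, true) = wl g (v, true) := fun v hv => by
    have h2 : ∀ u ∈ τ, L.Adj v u := fun u hu => desc_adj hv ((hτ u).1 hu) (by simp)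
    exact ⟨fun h => L.irrefl (h2 v h), wl_mul_pr (s := (v, true)) h2 g⟩
  refine ⟨(g, t), funext fun W => ?_⟩
  have hs := mem_sep_mul_pr hc g W
  by_cases hA : ∃ v ∈ τ, W = wl g (v, true)
  · obtain ⟨v, hv, rfl⟩ := hA
    have e := wl_mul_pr_of_mem hc hv g
    have h2 : wl g (v, true) ∉ sep g := fun h =>
      (hs.1 (e ▸ (hτ v).1 hv)).1 h v hv rfl
    rw [crd0_of_not_mem h2, ht, if_pos hv, e]
  have hA' : ∀ v ∈ τ, W ≠ wl g (v, true) := fun v hv h => hA ⟨v, hv, h⟩
  have hs' : W ∈ sep (g * pr L τ) ↔ W ∈ sep g := by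
    rw [hs]
    exact ⟨fun h => h.2 hA', fun h => ⟨fun _ => hA', fun _ => h⟩⟩
  by_cases hC : ∃ v, wl (g * pr L τ) (v, true) ∈ sep (g * pr L τ) ∧ W = wl g (v, true)
  · obtain ⟨v, hv, rfl⟩ := hC
    obtain ⟨a1, a2⟩ := hB v hv
    rw [crd0_of_mem (hs'.1 (a2 ▸ hv)), ht, if_neg a1, if_pos hv, a2]
    ring
  rw [emb_ind fun v hv => by
    rw [ht, if_neg fun h => hA ⟨v, h, hv⟩, if_neg fun h => hC ⟨v, h, hv⟩]]
  split_ifs with h2
  · by_contra h3
    obtain ⟨⟨v, _ | _⟩, rfl⟩ := h1 W (hs'.2 h2) (Ne.symm h3)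
    · have hv := (hτ v).2 (hs'.2 h2)
      exact hA ⟨v, hv, wl_mul_pr_of_mem hc hv g⟩
    · exact hC ⟨v, hs'.2 h2, (hB v (hs'.2 h2)).2⟩
  · exact (h0 W fun h => h2 (hs'.1 h)).symm

theorem crd_injective : Function.Injective (crd : EE L → Wall L → ℝ) := by
  intro x x' h
  obtain ⟨⟨g, t⟩, rfl, ht⟩ := exists_normal x
  obtain ⟨⟨g', t'⟩, rfl, ht'⟩ := exists_normal x'
  have h1 : ∀ W, (eta g W : ℝ) + (∑ v, if wl g (v, true) = W then t.1 v else 0) =
      (eta g' W : ℝ) + ∑ v, if wl g' (v, true) = W then t'.1 v else 0 := fun W => by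
    have hs : (sgnW W : ℝ) ≠ 0 := by rcases sgnW_eq W with h2 | h2 <;> simp [h2]
    exact mul_left_cancel₀ hs (congrFun h W)
  have h2 : eta g = eta g' := Finsupp.ext fun W => by
    have a := emb_frac g (fun v => (t.2.1 v).1) ht W
    have b := emb_frac g' (fun v => (t'.2.1 v).1) ht' W
    have c1 : ((eta g W : ℤ) : ℝ) < ((eta g' W + 1 : ℤ) : ℝ) := by
      push_cast; linarith [h1 W, a.1, b.2]
    have c2 : ((eta g' W : ℤ) : ℝ) < ((eta g W + 1 : ℤ) : ℝ) := by
      push_cast; linarith [h1 W, a.2, b.1]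
    have d1 := Int.cast_lt.1 c1
    have d2 := Int.cast_lt.1 c2
    omega
  obtain rfl : g = g' := sep_injective (by rw [sep, sep, h2])
  have h3 : t = t' := Subtype.ext (funext fun v => by
    have := h1 (wl g (v, true))
    rwa [emb_sum_self, emb_sum_self, add_right_inj] at this)
  rw [h3]

theorem range_crd [LinearOrder V] (y : Wall L → ℝ) : y ∈ range (crd : EE L → Wall L → ℝ) ↔ InR y := by
  constructor
  · rintro ⟨x, rfl⟩
    induction x using Quot.ind with
    | mk a => exact emb_inR a.1 a.2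
  · intro hy
    obtain ⟨a, ha⟩ := emb_surj hy
    exact ⟨EE.mk a, ha⟩

end Crest.Agent.R197
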