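import Crest.Agent.R197.PFDefs

/-! R197: basic properties of path functions.

`pot_of_convex`: apply `sq` to `K (s, t) = F (seg a (δ s) t)` (bottom constant, top `F ∘ δ`).
`tri` is the case `δ = seg b c`.  `split`, `rev`: `tri` with `W = ℝ`, `C = Icc 0 1`.
`ext_of_cover`: Lebesgue number (`lebesgue_number_lemma_of_metric_nhdsWithin` or by hand) for the cover of `[0,1]`
by the preimages; cut `γ` at `k / N` with `tri` and induct on `k`.
`isPath_side`: the four sides lie in the half squares `z 1 > 0`, `z 0 < 0`, `z 1 < 0`, `z 0 > 0`.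
`punct`: let `H₀, …, H₃` be these four convex open half squares and `s₀, …, s₃` the four factors of
`loopVal`.  Put `f₀ z = μ (F ∘ seg d0 z)`, `f₁ z = s₀ μ (F ∘ seg d1 z)`, `f₂ z = s₀ s₁ μ (F ∘ seg d2 z)`,
`f₃ z = s₀ s₁ s₂ μ (F ∘ seg d3 z)`; by `tri`, `f_i = f_j` on `H_i ∩ H_j` (opposite halves are disjoint;
for `H₃ ∩ H₀` use the hypothesis), so they glue to `f`, a potential on each `H_i` (`pot_of_convex`).
Then `ext_of_cover` for `μ.comap Punct F` and the gauge transform by `f` of the trivial path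
function. -/

set_option autoImplicit false

namespace Crest.Agent.R197

open Set Topology

variable {Y : Type} [TopologicalSpace Y] {H : Type} [Group H] {S : Set Y}

theorem PF.pot_of_convex (μ : PF S H) {W : Type} [NormedAddCommGroup W] [NormedSpace ℝ W]
    {C : Set W} (hC : Convex ℝ C) {F : W → Y} (hF : ContinuousOn F C) (hS : MapsTo F C S)
    {a : W} (ha : a ∈ C) {δ : ℝ → W} (hδ : IsPath C δ) :
    μ.val (fun t => F (δ t)) =
      (μ.val fun t => F (seg a (δ 0) t))⁻¹ * μ.val fun t => F (seg a (δ 1) t) := by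
  have hmem : MapsTo (fun p : ℝ × ℝ => seg a (δ p.1) p.2) Sq C := fun p hp =>
    hC.add_smul_sub_mem ha (hδ.2 hp.1) hp.2
  have hcont : ContinuousOn (fun p : ℝ × ℝ => seg a (δ p.1) p.2) Sq := by
    have h1 : ContinuousOn (fun p : ℝ × ℝ => δ p.1) Sq :=
      hδ.1.comp continuous_fst.continuousOn fun p hp => hp.1
    unfold seg
    exact continuousOn_const.add (continuous_snd.continuousOn.smul (h1.sub continuousOn_const))
  have h := μ.sq (fun p => F (seg a (δ p.1) p.2)) (hF.comp hcont hmem) (hS.comp hmem)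
  simp only [seg_zero, seg_one] at h
  rw [μ.const _ (hS ha), one_mul] at h
  rw [h, inv_mul_cancel_left]

theorem PF.tri (μ : PF S H) {W : Type} [NormedAddCommGroup W] [NormedSpace ℝ W]
    {C : Set W} (hC : Convex ℝ C) {F : W → Y} (hF : ContinuousOn F C) (hS : MapsTo F C S)
    {a b c : W} (ha : a ∈ C) (hb : b ∈ C) (hc : c ∈ C) :
    (μ.val fun t => F (seg a b t)) * (μ.val fun t => F (seg b c t)) =
      μ.val fun t => F (seg a c t) := by
  have h := μ.pot_of_convex hC hF hS ha (isPath_seg hC hb hc)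
  simp only [seg_zero, seg_one] at h
  rw [h, mul_inv_cancel_left]

theorem pfb_seg01 (t : ℝ) : seg (0 : ℝ) 1 t = t := by simp [seg]

theorem pfb_seg10 (t : ℝ) : seg (1 : ℝ) 0 t = 1 - t := by simp [seg]; ring

theorem PF.split (μ : PF S H) {γ : ℝ → Y} (hγ : IsPath S γ) {a : ℝ} (ha : a ∈ Icc (0 : ℝ) 1) :
    μ.val γ = (μ.val fun t => γ (seg 0 a t)) * μ.val fun t => γ (seg a 1 t) := by
  rw [μ.tri (convex_Icc (0 : ℝ) 1) hγ.1 hγ.2 (left_mem_Icc.2 zero_le_one) ha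
    (right_mem_Icc.2 zero_le_one)]
  simp only [pfb_seg01]

theorem PF.rev (μ : PF S H) {γ : ℝ → Y} (hγ : IsPath S γ) :
    (μ.val fun t => γ (1 - t)) = (μ.val γ)⁻¹ := by
  have h := μ.tri (convex_Icc (0 : ℝ) 1) hγ.1 hγ.2 (left_mem_Icc.2 zero_le_one)
    (right_mem_Icc.2 zero_le_one) (left_mem_Icc.2 zero_le_one)
  simp only [pfb_seg01, pfb_seg10, seg_self] at h
  rw [μ.const _ hγ.zero_mem] at h
  exact eq_inv_of_mul_eq_one_right h

theorem PF.ext_of_cover (μ ν : PF S H) {κ : Type} (U : κ → Set Y)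
    (hU : ∀ y ∈ S, ∃ i, U i ∈ 𝓝[S] y) (h : ∀ i γ, IsPath (S ∩ U i) γ → μ.val γ = ν.val γ)
    {γ : ℝ → Y} (hγ : IsPath S γ) : μ.val γ = ν.val γ := by
  have key : (μ.val fun t => γ (seg (0 : ℝ) 1 t)) = ν.val fun t => γ (seg (0 : ℝ) 1 t) := by
    refine (isPreconnected_Icc (a := (0 : ℝ)) (b := 1)).induction₂'
      (fun x y => (μ.val fun t => γ (seg x y t)) = ν.val fun t => γ (seg x y t)) ?_ ?_
      (left_mem_Icc.2 zero_le_one) (right_mem_Icc.2 zero_le_one)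
    · intro x hx
      obtain ⟨i, hi⟩ := hU (γ x) (hγ.2 hx)
      have h1 : γ ⁻¹' U i ∈ 𝓝[Icc 0 1] x :=
        (hγ.1 x hx).tendsto_nhdsWithin hγ.2 hi
      obtain ⟨ε, hε, hsub⟩ := Metric.mem_nhdsWithin_iff.1 h1
      have hC : Convex ℝ (Metric.ball x ε ∩ Icc (0 : ℝ) 1) :=
        (convex_ball x ε).inter (convex_Icc 0 1)
      have hxC : x ∈ Metric.ball x ε ∩ Icc (0 : ℝ) 1 := ⟨Metric.mem_ball_self hε, hx⟩
      have hc : ContinuousOn γ (Metric.ball x ε ∩ Icc (0 : ℝ) 1) := hγ.1.mono inter_subset_right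
      have hm : MapsTo γ (Metric.ball x ε ∩ Icc (0 : ℝ) 1) (S ∩ U i) := fun z hz =>
        ⟨hγ.2 hz.2, hsub hz⟩
      filter_upwards [inter_mem_nhdsWithin _ (Metric.ball_mem_nhds x hε)] with y hy
      have hyC : y ∈ Metric.ball x ε ∩ Icc (0 : ℝ) 1 := ⟨hy.2, hy.1⟩
      exact ⟨h i _ ((isPath_seg hC hxC hyC).comp hc hm), h i _ ((isPath_seg hC hyC hxC).comp hc hm)⟩
    · intro x y z hx hy hz h1 h2
      rw [← μ.tri (convex_Icc (0 : ℝ) 1) hγ.1 hγ.2 hx hy hz,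
        ← ν.tri (convex_Icc (0 : ℝ) 1) hγ.1 hγ.2 hx hy hz, h1, h2]
  simpa only [pfb_seg01] using key

/-- The open half squares. -/
def pfbHs (i : Fin 2) (e : ℝ) : Set (Fin 2 → ℝ) := Metric.ball 0 1 ∩ {z | 0 < e * z i}

theorem pfb_convex (i : Fin 2) (e : ℝ) : Convex ℝ (pfbHs i e) := by
  refine (convex_ball _ _).inter ?_
  exact convex_halfSpace_gt (f := fun z : Fin 2 → ℝ => e * z i)
    ⟨fun x y => by simp [mul_add], fun c x => by simp; ring⟩ 0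

theorem pfb_sub (i : Fin 2) (e : ℝ) : pfbHs i e ⊆ Punct := fun z hz =>
  ⟨hz.1, fun h0 => by
    have h := hz.2
    rw [mem_singleton_iff.1 h0] at h
    simp at h⟩

theorem pfb_mem_ball {z : Fin 2 → ℝ} (h0 : |z 0| < 1) (h1 : |z 1| < 1) :
    z ∈ Metric.ball (0 : Fin 2 → ℝ) 1 := by
  rw [mem_ball_zero_iff, pi_norm_lt_iff one_pos, Fin.forall_fin_two]
  exact ⟨h0, h1⟩

theorem pfb_d0 : d0 ∈ Metric.ball (0 : Fin 2 → ℝ) 1 :=
  pfb_mem_ball (by simp [d0, abs_lt]; norm_num) (by simp [d0, abs_lt]; norm_num)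

theorem pfb_d1 : d1 ∈ Metric.ball (0 : Fin 2 → ℝ) 1 :=
  pfb_mem_ball (by simp [d1, abs_lt]; norm_num) (by simp [d1, abs_lt]; norm_num)

theorem pfb_d2 : d2 ∈ Metric.ball (0 : Fin 2 → ℝ) 1 :=
  pfb_mem_ball (by simp [d2, abs_lt]; norm_num) (by simp [d2, abs_lt]; norm_num)

theorem pfb_d3 : d3 ∈ Metric.ball (0 : Fin 2 → ℝ) 1 :=
  pfb_mem_ball (by simp [d3, abs_lt]; norm_num) (by simp [d3, abs_lt]; norm_num)

theorem pfb_d0H0 : d0 ∈ pfbHs 1 1 := ⟨pfb_d0, by simp [d0]⟩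
theorem pfb_d1H0 : d1 ∈ pfbHs 1 1 := ⟨pfb_d1, by simp [d1]⟩
theorem pfb_d1H1 : d1 ∈ pfbHs 0 (-1) := ⟨pfb_d1, by simp [d1]; norm_num⟩
theorem pfb_d2H1 : d2 ∈ pfbHs 0 (-1) := ⟨pfb_d2, by simp [d2]; norm_num⟩
theorem pfb_d2H2 : d2 ∈ pfbHs 1 (-1) := ⟨pfb_d2, by simp [d2]; norm_num⟩
theorem pfb_d3H2 : d3 ∈ pfbHs 1 (-1) := ⟨pfb_d3, by simp [d3]; norm_num⟩
theorem pfb_d3H3 : d3 ∈ pfbHs 0 1 := ⟨pfb_d3, by simp [d3]⟩
theorem pfb_d0H3 : d0 ∈ pfbHs 0 1 := ⟨pfb_d0, by simp [d0]⟩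

theorem pfb_cover {z : Fin 2 → ℝ} (hz : z ∈ Punct) :
    z ∈ pfbHs 1 1 ∨ z ∈ pfbHs 0 (-1) ∨ z ∈ pfbHs 1 (-1) ∨ z ∈ pfbHs 0 1 := by
  by_contra hcon
  simp only [pfbHs, mem_inter_iff, hz.1, true_and, mem_setOf_eq, not_or, not_lt] at hcon
  obtain ⟨h1, h2, h3, h4⟩ := hcon
  apply hz.2
  rw [mem_singleton_iff]
  funext i
  fin_cases i
  · show z 0 = 0
    linarith
  · show z 1 = 0
    linarith

theorem isPath_side : IsPath Punct (seg d0 d1) ∧ IsPath Punct (seg d1 d2) ∧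
    IsPath Punct (seg d2 d3) ∧ IsPath Punct (seg d3 d0) :=
  ⟨(isPath_seg (pfb_convex _ _) pfb_d0H0 pfb_d1H0).mono (pfb_sub _ _),
    (isPath_seg (pfb_convex _ _) pfb_d1H1 pfb_d2H1).mono (pfb_sub _ _),
    (isPath_seg (pfb_convex _ _) pfb_d2H2 pfb_d3H2).mono (pfb_sub _ _),
    (isPath_seg (pfb_convex _ _) pfb_d3H3 pfb_d0H3).mono (pfb_sub _ _)⟩

theorem loopVal_eq_one (μ : PF S H) {F : (Fin 2 → ℝ) → Y} (hF : ContinuousOn F (Metric.ball 0 1))
    (hS : MapsTo F (Metric.ball 0 1) S) : loopVal μ F = 1 := by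
  unfold loopVal
  rw [μ.tri (convex_ball _ _) hF hS pfb_d0 pfb_d1 pfb_d2,
    μ.tri (convex_ball _ _) hF hS pfb_d0 pfb_d2 pfb_d3,
    μ.tri (convex_ball _ _) hF hS pfb_d0 pfb_d3 pfb_d0]
  simp only [seg_self]
  exact μ.const _ (hS pfb_d0)

/-- The trivial path function. -/
def pfbTriv (S : Set Y) (H : Type) [Group H] : PF S H where
  val _ := 1
  congr _ := rfl
  const _ _ := rfl
  sq _ _ _ := rfl

theorem pfb_pot (μ : PF S H) {F : (Fin 2 → ℝ) → Y} (hF : ContinuousOn F Punct)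
    (hS : MapsTo F Punct S) {i : Fin 2} {e : ℝ} {a : Fin 2 → ℝ} (ha : a ∈ pfbHs i e) (c : H)
    {f : (Fin 2 → ℝ) → H} (hf : ∀ z ∈ pfbHs i e, f z = c * μ.val fun t => F (seg a z t))
    {δ : ℝ → Fin 2 → ℝ} (hδ : IsPath (pfbHs i e) δ) :
    μ.val (fun t => F (δ t)) = (f (δ 0))⁻¹ * f (δ 1) := by
  rw [μ.pot_of_convex (pfb_convex i e) (hF.mono (pfb_sub i e)) (hS.mono_left (pfb_sub i e)) ha hδ,
    hf _ hδ.zero_mem, hf _ hδ.one_mem]
  group

theorem pfb_open (i : Fin 2) (e : ℝ) : IsOpen (pfbHs i e) :=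
  Metric.isOpen_ball.inter (isOpen_lt continuous_const (by fun_prop))

theorem punct (μ : PF S H) {F : (Fin 2 → ℝ) → Y} (hF : ContinuousOn F Punct)
    (hS : MapsTo F Punct S) (h : loopVal μ F = 1) :
    ∃ f : (Fin 2 → ℝ) → H, ∀ δ, IsPath Punct δ →
      μ.val (fun t => F (δ t)) = (f (δ 0))⁻¹ * f (δ 1) := by
  classical
  have tri : ∀ (i : Fin 2) (e : ℝ) {a b c : Fin 2 → ℝ}, a ∈ pfbHs i e → b ∈ pfbHs i e →
      c ∈ pfbHs i e → (μ.val fun t => F (seg a b t)) * (μ.val fun t => F (seg b c t)) =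
        μ.val fun t => F (seg a c t) := fun i e a b c ha hb hc =>
    μ.tri (pfb_convex i e) (hF.mono (pfb_sub i e)) (hS.mono_left (pfb_sub i e)) ha hb hc
  set s0 := μ.val fun t => F (seg d0 d1 t) with hs0
  set s1 := μ.val fun t => F (seg d1 d2 t) with hs1
  set s2 := μ.val fun t => F (seg d2 d3 t) with hs2
  set s3 := μ.val fun t => F (seg d3 d0 t) with hs3
  have hl : s0 * s1 * s2 * s3 = 1 := h
  let f : (Fin 2 → ℝ) → H := fun z =>
    if z ∈ pfbHs 1 1 then μ.val fun t => F (seg d0 z t)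
    else if z ∈ pfbHs 0 (-1) then s0 * μ.val fun t => F (seg d1 z t)
    else if z ∈ pfbHs 1 (-1) then s0 * s1 * μ.val fun t => F (seg d2 z t)
    else s0 * s1 * s2 * μ.val fun t => F (seg d3 z t)
  have f0 : ∀ z ∈ pfbHs 1 1, f z = 1 * μ.val fun t => F (seg d0 z t) := fun z hz => by
    simp only [f, if_pos hz, one_mul]
  have f1 : ∀ z ∈ pfbHs 0 (-1), f z = s0 * μ.val fun t => F (seg d1 z t) := fun z hz => by
    by_cases h0 : z ∈ pfbHs 1 1
    · simp only [f, if_pos h0]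
      exact (tri 1 1 pfb_d0H0 pfb_d1H0 h0).symm
    · simp only [f, if_neg h0, if_pos hz]
  have f2 : ∀ z ∈ pfbHs 1 (-1), f z = s0 * s1 * μ.val fun t => F (seg d2 z t) := fun z hz => by
    have h0 : z ∉ pfbHs 1 1 := fun h0 => by
      have h1 : 0 < 1 * z 1 := h0.2
      have h2 : 0 < -1 * z 1 := hz.2
      linarith
    by_cases h1 : z ∈ pfbHs 0 (-1)
    · simp only [f, if_neg h0, if_pos h1]
      rw [mul_assoc, tri 0 (-1) pfb_d1H1 pfb_d2H1 h1]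
    · simp only [f, if_neg h0, if_neg h1, if_pos hz]
  have f3 : ∀ z ∈ pfbHs 0 1, f z = s0 * s1 * s2 * μ.val fun t => F (seg d3 z t) := fun z hz => by
    have h1 : z ∉ pfbHs 0 (-1) := fun h0 => by
      have h1 : 0 < -1 * z 0 := h0.2
      have h2 : 0 < 1 * z 0 := hz.2
      linarith
    by_cases h0 : z ∈ pfbHs 1 1
    · simp only [f, if_pos h0]
      rw [← tri 0 1 pfb_d3H3 pfb_d0H3 hz, ← mul_assoc, hl, one_mul]
    · by_cases h2 : z ∈ pfbHs 1 (-1)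
      · simp only [f, if_neg h0, if_neg h1, if_pos h2]
        rw [mul_assoc (s0 * s1), tri 1 (-1) pfb_d2H2 pfb_d3H2 h2]
      · simp only [f, if_neg h0, if_neg h1, if_neg h2]
  refine ⟨f, fun δ hδ => ?_⟩
  have key := PF.ext_of_cover (μ.comap Punct F hF hS) ((pfbTriv Punct H).gauge f)
    (κ := {V : Set (Fin 2 → ℝ) // ∀ γ, IsPath V γ →
      μ.val (fun t => F (γ t)) = (f (γ 0))⁻¹ * f (γ 1)}) (fun V => V.1) ?_ ?_ hδ
  · simpa [pfbTriv] using key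
  · intro y hy
    rcases pfb_cover hy with h0 | h0 | h0 | h0
    · exact ⟨⟨_, fun γ hγ => pfb_pot μ hF hS pfb_d0H0 _ f0 hγ⟩,
        mem_nhdsWithin_of_mem_nhds ((pfb_open _ _).mem_nhds h0)⟩
    · exact ⟨⟨_, fun γ hγ => pfb_pot μ hF hS pfb_d1H1 _ f1 hγ⟩,
        mem_nhdsWithin_of_mem_nhds ((pfb_open _ _).mem_nhds h0)⟩
    · exact ⟨⟨_, fun γ hγ => pfb_pot μ hF hS pfb_d2H2 _ f2 hγ⟩,
        mem_nhdsWithin_of_mem_nhds ((pfb_open _ _).mem_nhds h0)⟩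
    · exact ⟨⟨_, fun γ hγ => pfb_pot μ hF hS pfb_d3H3 _ f3 hγ⟩,
        mem_nhdsWithin_of_mem_nhds ((pfb_open _ _).mem_nhds h0)⟩
  · intro V γ hγ
    have := V.2 γ (hγ.mono inter_subset_right)
    simpa [pfbTriv] using this

theorem pfb_pathConnected : IsPathConnected Punct := by
  have hc : ∀ {i : Fin 2} {e : ℝ} {a : Fin 2 → ℝ}, a ∈ pfbHs i e → IsPathConnected (pfbHs i e) :=
    fun ha => (pfb_convex _ _).isPathConnected ⟨_, ha⟩
  have h3 : IsPathConnected (pfbHs 1 (-1) ∪ pfbHs 0 1) :=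
    (hc pfb_d3H2).union (hc pfb_d3H3) ⟨d3, pfb_d3H2, pfb_d3H3⟩
  have h2 : IsPathConnected (pfbHs 0 (-1) ∪ (pfbHs 1 (-1) ∪ pfbHs 0 1)) :=
    (hc pfb_d2H1).union h3 ⟨d2, pfb_d2H1, Or.inl pfb_d2H2⟩
  have h1 : IsPathConnected (pfbHs 1 1 ∪ (pfbHs 0 (-1) ∪ (pfbHs 1 (-1) ∪ pfbHs 0 1))) :=
    (hc pfb_d1H0).union h2 ⟨d1, pfb_d1H0, Or.inl pfb_d1H1⟩
  convert h1 using 1
  refine Subset.antisymm (fun z hz => pfb_cover hz) ?_
  exact union_subset (pfb_sub _ _) (union_subset (pfb_sub _ _)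
    (union_subset (pfb_sub _ _) (pfb_sub _ _)))

/-- Any two points of the punctured square are joined by a path in it. -/
theorem exists_path_punct {a b : Fin 2 → ℝ} (ha : a ∈ Punct) (hb : b ∈ Punct) :
    ∃ δ, IsPath Punct δ ∧ δ 0 = a ∧ δ 1 = b := by
  obtain ⟨p, hp⟩ := pfb_pathConnected.joinedIn a ha b hb
  refine ⟨p.extend, ⟨p.continuous_extend.continuousOn, fun t ht => ?_⟩, by simp, by simp⟩
  rw [p.extend_apply ht]
  exact hp _

end Crest.Agent.R197
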