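import Crest.Agent.R197.PFDefs

/-! R197: existence of a path function with prescribed local potentials.

Proof.  On `Ŷ = S × H` (a type synonym) take the topology in which a set `O` is open iff for every `i`
the set `{(y, a) : S × H | y ∈ U i ∧ (y, a * f i y) ∈ O}` is open for the product of the subspace
topology and the discrete topology on `H` (or use `FiberBundleCore`/`FiberPrebundle` with discrete
fibre `H`, or `IsQuotientCoveringMap` for the left action of `H`).  The charts
`(y, a) ↦ (y, a * (f i y)⁻¹)` are trivialisations over the open sets `U i ∩ S` because the transition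
functions `f i * (f j)⁻¹` are locally constant; so `Prod.fst : Ŷ → S` is a covering map
(`IsCoveringMap.mk`), and left multiplication by `H` is continuous.  For a path `γ` in `S` let
`val γ` be the second component of the end point of the lift (`IsCoveringMap.liftPath`) that starts at
`(γ 0, 1)` (and `1` if `γ` is not a path in `S`; `IsPath S` only depends on the values on `[0,1]`).
`sq`: lift `K` to the square (`IsCoveringMap.liftHomotopy`, or `existsUnique_continuousMap_lifts` on
the contractible space `I × I`); by uniqueness of lifts and left invariance, the lift `K̂ = (K, a)` has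
`val (side) = (a start)⁻¹ * a end` on each side.  For `γ` in `U i` the lift is
`t ↦ (γ t, (f i (γ 0))⁻¹ * f i (γ t))`.
(Alternative without coverings: call `a : ℝ → H` adapted to `γ` if `a t * (f i (γ t))⁻¹` is locally
constant on `γ ⁻¹' U i`; prove existence/uniqueness on `[0,1]` and on the square by compactness.) -/

set_option autoImplicit false

namespace Crest.Agent.R197

open Set Topology

variable {Y : Type} [TopologicalSpace Y] {H : Type} [Group H]

/-- `a` is adapted to `F` on `C` -/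
def pfexAd {κ : Type} (U : κ → Set Y) (f : κ → Y → H) {Z : Type} [TopologicalSpace Z] (C : Set Z)
    (F : Z → Y) (a : Z → H) : Prop :=
  ∀ z ∈ C, ∀ i, F z ∈ U i → ∀ᶠ z' in 𝓝[C] z, a z' * (f i (F z'))⁻¹ = a z * (f i (F z))⁻¹

/-- the increment of a chosen function -/
noncomputable def pfexV (P : (ℝ → H) → Prop) : H :=
  (Classical.epsilon P 0)⁻¹ * Classical.epsilon P 1

section ad
variable {κ : Type} {U : κ → Set Y} {f : κ → Y → H} {Z : Type} [TopologicalSpace Z] {C : Set Z}

omit [TopologicalSpace Y] in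
theorem pfexAd_congr_aux {F F' : Z → Y} (h : EqOn F F' C) {a : Z → H} (ha : pfexAd U f C F a) :
    pfexAd U f C F' a := by
  intro z hz i hi
  rw [← h hz] at hi ⊢
  filter_upwards [ha z hz i hi, self_mem_nhdsWithin] with z' h1 h2
  rw [← h h2, h1]

omit [TopologicalSpace Y] in
theorem pfexAd_congr {F F' : Z → Y} (h : EqOn F F' C) : pfexAd U f C F = pfexAd U f C F' :=
  funext fun _ => propext ⟨pfexAd_congr_aux h, pfexAd_congr_aux h.symm⟩

omit [TopologicalSpace Y] in
theorem pfexAd.comp {F : Z → Y} {a : Z → H} (ha : pfexAd U f C F a) {Z' : Type}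
    [TopologicalSpace Z'] {C' : Set Z'} {φ : Z' → Z} (hφ : ContinuousOn φ C')
    (hm : MapsTo φ C' C) : pfexAd U f C' (fun t => F (φ t)) fun t => a (φ t) :=
  fun z hz i hi => ((hφ z hz).tendsto_nhdsWithin hm).eventually (ha _ (hm hz) i hi)

omit [TopologicalSpace Y] in
theorem pfexAd_unique (hC : IsPreconnected C) {F : Z → Y} (hcov : ∀ z ∈ C, ∃ i, F z ∈ U i)
    {a b : Z → H} (ha : pfexAd U f C F a) (hb : pfexAd U f C F b) {x y : Z} (hx : x ∈ C)
    (hy : y ∈ C) : (a x)⁻¹ * a y = (b x)⁻¹ * b y := by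
  let _ : TopologicalSpace H := ⊥
  have : DiscreteTopology H := ⟨rfl⟩
  have hc : ContinuousOn (fun z => a z * (b z)⁻¹) C := by
    intro z hz
    obtain ⟨i, hi⟩ := hcov z hz
    rw [ContinuousWithinAt, nhds_discrete, Filter.tendsto_pure]
    filter_upwards [ha z hz i hi, hb z hz i hi] with z' h1 h2
    calc a z' * (b z')⁻¹ = (a z' * (f i (F z'))⁻¹) * (b z' * (f i (F z'))⁻¹)⁻¹ := by group
      _ = _ := by rw [h1, h2]; group
  have h := hC.constant hc hx hy
  calc (a x)⁻¹ * a y = (a x)⁻¹ * (a y * (b y)⁻¹) * b y := by group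
    _ = _ := by rw [← h]; group

theorem pfexAd_exists (hU : ∀ i, IsOpen (U i))
    (hf : ∀ i j, ∀ y ∈ U i ∩ U j, ∀ᶠ y' in 𝓝 y, f i y' * (f j y')⁻¹ = f i y * (f j y)⁻¹)
    {W : Type} [NormedAddCommGroup W] [NormedSpace ℝ W] {C : Set W} (hC : Convex ℝ C)
    (hne : C.Nonempty) {F : W → Y} (hF : ContinuousOn F C) (hcov : ∀ z ∈ C, ∃ i, F z ∈ U i) :
    ∃ a, pfexAd U f C F a := by
  classical
  let _ : TopologicalSpace H := ⊥
  have : DiscreteTopology H := ⟨rfl⟩
  have hF' : Continuous fun z : C => F z := hF.domRestrict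
  choose idx hidx using fun z : C => hcov z z.2
  let Z : FiberBundleCore κ C H :=
    { baseSet := fun i => {z | F z ∈ U i}
      isOpen_baseSet := fun i => (hU i).preimage hF'
      indexAt := idx
      mem_baseSet_at := hidx
      coordChange := fun i j z h => h * (f i (F z) * (f j (F z))⁻¹)
      coordChange_self := fun i z _ v => by simp
      continuousOn_coordChange := by
        intro i j p hp
        refine ContinuousAt.continuousWithinAt ?_
        rw [ContinuousAt, nhds_discrete H, Filter.tendsto_pure]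
        have h1 : ∀ᶠ q : C × H in 𝓝 p, f i (F q.1) * (f j (F q.1))⁻¹ =
            f i (F p.1) * (f j (F p.1))⁻¹ :=
          (hF'.comp continuous_fst).continuousAt.eventually (hf i j _ hp.1)
        have h2 : ∀ᶠ q : C × H in 𝓝 p, q.2 = p.2 :=
          continuous_snd.continuousAt.eventually (p := fun h => h = p.2)
            (by rw [nhds_discrete]; rfl)
        filter_upwards [h1, h2] with q q1 q2
        rw [q1, q2]
      coordChange_comp := fun i j k z _ v => by group }
  have cov : IsCoveringMap Z.proj := FiberBundle.isCoveringMap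
  have := hC.contractibleSpace hne
  have := hC.locallyPathConnectedSpace
  obtain ⟨z₀, hz₀⟩ := hne
  obtain ⟨G, ⟨-, hG⟩, -⟩ := cov.existsUnique_continuousMap_lifts (ContinuousMap.id C) ⟨z₀, hz₀⟩
    ⟨⟨z₀, hz₀⟩, (1 : H)⟩ rfl
  have hG1 : ∀ z, (G z).1 = z := fun z => congrFun hG z
  let c : C → H := fun z => (show H from (G z).2) * f (idx (G z).1) (F (G z).1)
  refine ⟨fun w => if h : w ∈ C then c ⟨w, h⟩ else 1, fun z hz i hi => ?_⟩
  have hs : G ⟨z, hz⟩ ∈ (Z.localTriv i).source := by
    rw [Z.mem_localTriv_source, hG1]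
    exact hi
  have h1 : ContinuousAt (fun w => ((Z.localTriv i) (G w)).2) ⟨z, hz⟩ :=
    continuous_snd.continuousAt.comp
      (((Z.localTriv i).continuousOn.continuousAt
        ((Z.localTriv i).open_source.mem_nhds hs)).comp G.continuous.continuousAt)
  have h2 : ∀ w, ((Z.localTriv i) (G w)).2 = c w * (f i (F w))⁻¹ := by
    intro w
    rw [Z.localTriv_apply]
    change (show H from (G w).2) * (f (idx (G w).1) (F (G w).1) * (f i (F (G w).1))⁻¹) = _
    rw [← mul_assoc]
    congr 2
    rw [hG1]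
  simp only [h2] at h1
  rw [ContinuousAt, nhds_discrete H, Filter.tendsto_pure] at h1
  rw [← map_nhds_subtype_val ⟨z, hz⟩, Filter.eventually_map]
  filter_upwards [h1] with w hw
  rw [dif_pos w.2, dif_pos hz]
  exact hw

end ad

theorem exists_pf (S : Set Y) {κ : Type} (U : κ → Set Y) (f : κ → Y → H)
    (hU : ∀ i, IsOpen (U i)) (hUS : ∀ i, U i ⊆ S) (hcov : ∀ y ∈ S, ∃ i, y ∈ U i)
    (hf : ∀ i j, ∀ y ∈ U i ∩ U j, ∀ᶠ y' in 𝓝 y, f i y' * (f j y')⁻¹ = f i y * (f j y)⁻¹) :
    ∃ μ : PF S H, ∀ i, μ.Pot (U i) (f i) := by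
  have key : ∀ γ a, IsPath S γ → pfexAd U f (Icc 0 1) γ a →
      pfexV (pfexAd U f (Icc 0 1) γ) = (a 0)⁻¹ * a 1 := by
    intro γ a hγ ha
    exact pfexAd_unique isPreconnected_Icc (fun z hz => hcov _ (hγ.2 hz))
      (Classical.epsilon_spec ⟨a, ha⟩) ha (left_mem_Icc.2 zero_le_one) (right_mem_Icc.2 zero_le_one)
  refine ⟨⟨fun γ => pfexV (pfexAd U f (Icc 0 1) γ), fun h => by rw [pfexAd_congr h], ?_, ?_⟩, ?_⟩
  · intro y hy
    rw [key (fun _ => y) (fun _ => 1) ⟨continuousOn_const, fun _ _ => hy⟩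
      (fun z _ i _ => Filter.Eventually.of_forall fun _ => rfl)]
    simp
  · intro K hK hS
    have h0 : (0 : ℝ) ∈ Icc (0 : ℝ) 1 := left_mem_Icc.2 zero_le_one
    have h1 : (1 : ℝ) ∈ Icc (0 : ℝ) 1 := right_mem_Icc.2 zero_le_one
    obtain ⟨a, ha⟩ := pfexAd_exists hU hf (C := Sq) ((convex_Icc 0 1).prod (convex_Icc 0 1))
      ⟨(0, 0), h0, h0⟩ hK fun z hz => hcov _ (hS hz)
    have side : ∀ φ : ℝ → ℝ × ℝ, Continuous φ → MapsTo φ (Icc 0 1) Sq →
        pfexV (pfexAd U f (Icc 0 1) fun t => K (φ t)) = (a (φ 0))⁻¹ * a (φ 1) := by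
      intro φ hφ hm
      exact key (fun t => K (φ t)) (fun t => a (φ t)) ⟨hK.comp hφ.continuousOn hm, hS.comp hm⟩
        (ha.comp hφ.continuousOn hm)
    rw [side (fun s => (s, 0)) (by fun_prop) fun s hs => ⟨hs, h0⟩,
      side (fun s => (1, s)) (by fun_prop) fun s hs => ⟨h1, hs⟩,
      side (fun s => (0, s)) (by fun_prop) fun s hs => ⟨h0, hs⟩,
      side (fun s => (s, 1)) (by fun_prop) fun s hs => ⟨hs, h1⟩]
    group
  · intro i γ hγ
    exact key γ (fun t => f i (γ t)) (hγ.mono (hUS i))
      fun z hz j hj => (hγ.1 z hz).eventually (hf i j _ ⟨hγ.2 hz, hj⟩)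

end Crest.Agent.R197
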