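import Crest.Agent.R197.CWRad
import Crest.Agent.R197.PFBasic
import Crest.Agent.R197.PFEx

/-! R197: the edge-word holonomy on `Sp X`.

`R x = rad 2 x 1` is continuous on the open set `Sp X = Sk X 3 \ ctr X 2` (`Sk_three`, `isClosed_ctr`,
`continuousOn_rad`) with values in `Sk X 2` (`rad_one_mem`).  So `Sp X ∩ R ⁻¹' Zᶜ` is open for closed `Z`
(`ContinuousOn.isOpen_inter_preimage`).  `U1 none`: `Z = ctr X 1`.  For a `1`-cell `e` and an open
`O ⊆ ball 0 1`, the set `Sp X ∩ R ⁻¹' (chr 1 e '' O)` is open: take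
`Z = Sk X 1 ∪ ⋃ i, chr 1 i '' B i` with `B e = ball \ O`, `B i = ball` otherwise (`isClosed_Sk_union`,
`mem_Sk_succ`, `cell_eq_of_chr_eq`).  This gives `isOpen_U1 (some e)` and the local constancy of
`f1 none` on `U1 none ∩ U1 (some e)` (the halves `0 < z 0` and `z 0 < 0`); `U1 (some e)` and
`U1 (some e')` are disjoint for `e ≠ e'`.  `exists_hol1`: `exists_pf`; for `ed e` cut at `1/4` and `3/4`
(`PF.tri` with `F = ed e` on `Icc 0 1`); points of `Sk X 2` are fixed by `rad 2`; the end points are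
in `Sk X 1` (`chr_mem_Sk_of_sphere`), where `f1 none = 1` (`chr_not_mem_Sk`). -/

set_option autoImplicit false

namespace Crest.Agent.R197

open Set Metric Topology

variable {X : Type} [TopologicalSpace X] [CWComplex (univ : Set X)] [T2Space X]

theorem isOpen_Sp : IsOpen (Sp X) := isClosed_ctr 2 |>.isOpen_compl

omit [T2Space X] in
theorem h1_Sk_succ {n : ℕ} : Sk X n ⊆ Sk X (n + 1) := fun _ hx => mem_Sk_succ.2 (Or.inl hx)

omit [T2Space X] in
theorem h1_not_ctr {n : ℕ} {x : X} (hx : x ∈ Sk X n) : x ∉ ctr X n := by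
  rintro ⟨i, rfl⟩
  exact chr_not_mem_Sk le_rfl i (mem_ball_self one_pos) hx

theorem Sk_two_subset_Sp : Sk X 2 ⊆ Sp X := fun _ hx => h1_not_ctr hx

theorem mapsTo_chr_punct (r : Cell X 2) : MapsTo (chr 2 r) Punct (Sp X) := by
  rintro z ⟨hz, hz0⟩ ⟨i, hi⟩
  exact hz0 (cell_eq_of_chr_eq (mem_ball_self one_pos) hz hi).2.symm

theorem h1_norm (s : ℝ) : ‖(fun _ : Fin 1 => 2 * s - 1)‖ = |2 * s - 1| := by
  rw [pi_norm_const, Real.norm_eq_abs]

theorem h1_mem_ball {s : ℝ} (hs : s ∈ Ioo (0 : ℝ) 1) :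
    (fun _ : Fin 1 => 2 * s - 1) ∈ ball (0 : Fin 1 → ℝ) 1 := by
  rw [mem_ball_zero_iff, h1_norm, abs_lt]
  constructor <;> linarith [hs.1, hs.2]

theorem h1_mem_closedBall {s : ℝ} (hs : s ∈ Icc (0 : ℝ) 1) :
    (fun _ : Fin 1 => 2 * s - 1) ∈ closedBall (0 : Fin 1 → ℝ) 1 := by
  rw [mem_closedBall_zero_iff, h1_norm, abs_le]
  constructor <;> linarith [hs.1, hs.2]

theorem h1_ed_zero (e : Cell X 1) : ed e 0 ∈ Sk X 1 :=
  chr_mem_Sk_of_sphere 1 e (by rw [mem_sphere_zero_iff_norm, h1_norm]; norm_num)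

theorem h1_ed_one (e : Cell X 1) : ed e 1 ∈ Sk X 1 :=
  chr_mem_Sk_of_sphere 1 e (by rw [mem_sphere_zero_iff_norm, h1_norm]; norm_num)

theorem h1_ed_cases {s : ℝ} (hs : s ∈ Icc (0 : ℝ) 1) : s = 0 ∨ s = 1 ∨ s ∈ Ioo (0 : ℝ) 1 := by
  rcases hs.1.eq_or_lt with h0 | h0
  · exact Or.inl h0.symm
  rcases hs.2.eq_or_lt with h1 | h1
  · exact Or.inr (Or.inl h1)
  exact Or.inr (Or.inr ⟨h0, h1⟩)

theorem isPath_ed (e : Cell X 1) : IsPath (Sk X 2) (ed e) ∧ ed e 0 ∈ Sk X 1 ∧ ed e 1 ∈ Sk X 1 := by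
  refine ⟨⟨?_, fun s hs => ?_⟩, h1_ed_zero e, h1_ed_one e⟩
  · exact (continuousOn_chr 1 e).comp (f := fun (s : ℝ) (_ : Fin 1) => 2 * s - 1) (by fun_prop)
      fun s hs => h1_mem_closedBall hs
  · rcases h1_ed_cases hs with rfl | rfl | h
    · exact h1_Sk_succ (h1_ed_zero e)
    · exact h1_Sk_succ (h1_ed_one e)
    · exact mem_Sk_succ.2 (Or.inr ⟨e, _, h1_mem_ball h, rfl⟩)

omit [T2Space X] in
theorem h1_Sp_eq (h : Dim2 X) : Sp X = Sk X (2 + 1) \ ctr X 2 := by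
  rw [show Sk X (2 + 1) = univ from Sk_three h, Sp, compl_eq_univ_sdiff]

theorem h1_contR (h : Dim2 X) : ContinuousOn (fun x : X => rad 2 x 1) (Sp X) := by
  rw [h1_Sp_eq h]
  exact (continuousOn_rad 2).comp (f := fun x : X => (x, (1 : ℝ))) (by fun_prop)
    fun x hx => ⟨hx, right_mem_Icc.2 zero_le_one⟩

theorem h1_R_mem (h : Dim2 X) {x : X} (hx : x ∈ Sp X) : rad 2 x 1 ∈ Sk X 2 :=
  rad_one_mem (h1_Sp_eq h ▸ hx)

theorem h1_isOpen (h : Dim2 X) (e : Cell X 1) {O : Set (Fin 1 → ℝ)} (hO : IsOpen O)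
    (hOb : O ⊆ ball 0 1) : IsOpen (Sp X ∩ {x | rad 2 x 1 ∈ chr 1 e '' O}) := by
  classical
  let B : Cell X 1 → Set (Fin 1 → ℝ) := fun i => if i = e then ball 0 1 \ O else ball 0 1
  have hB : ∀ i, B i ⊆ ball 0 1 := fun i => by
    by_cases hi : i = e
    · simp only [B, if_pos hi]; exact sdiff_subset
    · simp only [B, if_neg hi]; exact subset_rfl
  have hc : ∀ i, IsClosed (B i ∪ sphere 0 1) := fun i => by
    by_cases hi : i = e
    · have : B i ∪ sphere 0 1 = closedBall 0 1 \ O := by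
        simp only [B, if_pos hi]
        ext z
        constructor
        · rintro (⟨hz, hzO⟩ | hz)
          · exact ⟨ball_subset_closedBall hz, hzO⟩
          · refine ⟨sphere_subset_closedBall hz, fun hzO => ?_⟩
            have h1 := hOb hzO
            rw [mem_ball] at h1
            rw [mem_sphere] at hz
            exact h1.ne hz
        · rintro ⟨hz, hzO⟩
          rw [← ball_union_sphere] at hz
          rcases hz with hz | hz
          · exact Or.inl ⟨hz, hzO⟩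
          · exact Or.inr hz
      rw [this]
      exact isClosed_closedBall.sdiff hO
    · simp only [B, if_neg hi, ball_union_sphere]
      exact isClosed_closedBall
  have hZ := isClosed_Sk_union 1 B hB hc
  have hop := (h1_contR h).isOpen_inter_preimage isOpen_Sp hZ.isOpen_compl
  convert hop using 1
  ext x
  constructor
  · rintro ⟨hx, z, hz, hzx⟩
    refine ⟨hx, ?_⟩
    rintro (h1 | h1)
    · exact chr_not_mem_Sk le_rfl e (hOb hz) (hzx ▸ h1)
    · obtain ⟨i, z', hz', hzz⟩ := mem_iUnion.1 h1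
      obtain ⟨rfl, rfl⟩ := cell_eq_of_chr_eq (hB i hz') (hOb hz) (hzz.trans hzx.symm)
      simp only [B, if_true] at hz'
      exact hz'.2 hz
  · rintro ⟨hx, hxZ⟩
    refine ⟨hx, ?_⟩
    rcases mem_Sk_succ.1 (h1_R_mem h hx) with h1 | ⟨i, z, hz, hzx⟩
    · exact absurd (Or.inl h1) hxZ
    · by_cases hi : i = e
      · subst hi
        refine ⟨z, ?_, hzx⟩
        by_contra hzO
        exact hxZ (Or.inr (mem_iUnion.2 ⟨i, z, by simp only [B, if_true]; exact ⟨hz, hzO⟩, hzx⟩))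
      · exact (hxZ (Or.inr (mem_iUnion.2 ⟨i, z, by simp only [B, if_neg hi]; exact hz, hzx⟩))).elim

theorem isOpen_U1 (h : Dim2 X) (i : Option (Cell X 1)) : IsOpen (U1 i) := by
  cases i with
  | none => exact (h1_contR h).isOpen_inter_preimage isOpen_Sp (isClosed_ctr 1).isOpen_compl
  | some e => exact h1_isOpen h e isOpen_ball subset_rfl

omit [T2Space X] in
theorem U1_subset (i : Option (Cell X 1)) : U1 i ⊆ Sp X := by
  cases i with
  | none => exact inter_subset_left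
  | some e => exact inter_subset_left

omit [T2Space X] in
theorem U1_cover : ∀ y ∈ Sp X, ∃ i, y ∈ U1 i := by
  intro y hy
  by_cases h : rad 2 y 1 ∈ ctr X 1
  · obtain ⟨e, he⟩ := h
    exact ⟨some e, hy, 0, mem_ball_self one_pos, he⟩
  · exact ⟨none, hy, h⟩

omit [T2Space X] in
theorem h1_f1_pos {x : X} {e : Cell X 1} {z : Fin 1 → ℝ} (hz : z ∈ ball (0 : Fin 1 → ℝ) 1)
    (h0 : 0 < z 0) (hx : chr 1 e z = rad 2 x 1) : f1 none x = (FreeGroup.of e)⁻¹ := by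
  have h : ∃ e : Cell X 1, rad 2 x 1 ∈ chr 1 e '' {z | z ∈ ball 0 1 ∧ 0 < z 0} :=
    ⟨e, z, ⟨hz, h0⟩, hx⟩
  obtain ⟨z', hz', hx'⟩ := h.choose_spec
  have := (cell_eq_of_chr_eq hz'.1 hz (hx'.trans hx.symm)).1
  simp only [f1, dif_pos h, this]

omit [T2Space X] in
theorem h1_f1_neg {x : X} {e : Cell X 1} {z : Fin 1 → ℝ} (hz : z ∈ ball (0 : Fin 1 → ℝ) 1)
    (h0 : z 0 < 0) (hx : chr 1 e z = rad 2 x 1) : f1 none x = 1 := by
  have h : ¬ ∃ e : Cell X 1, rad 2 x 1 ∈ chr 1 e '' {z | z ∈ ball 0 1 ∧ 0 < z 0} := by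
    rintro ⟨e', z', hz', hx'⟩
    have := (cell_eq_of_chr_eq hz'.1 hz (hx'.trans hx.symm)).2
    subst this
    exact lt_asymm h0 hz'.2
  simp only [f1, dif_neg h]

omit [T2Space X] in
theorem h1_f1_Sk {x : X} (hx : rad 2 x 1 ∈ Sk X 1) : f1 none x = 1 := by
  have h : ¬ ∃ e : Cell X 1, rad 2 x 1 ∈ chr 1 e '' {z | z ∈ ball 0 1 ∧ 0 < z 0} := by
    rintro ⟨e', z', hz', hx'⟩
    exact chr_not_mem_Sk le_rfl e' hz'.1 (hx' ▸ hx)
  simp only [f1, dif_neg h]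

theorem h1_f1_loc (h : Dim2 X) (e : Cell X 1) {y : X} (h1 : y ∈ U1 none) (h2 : y ∈ U1 (some e)) :
    ∀ᶠ y' in 𝓝 y, f1 none y' = f1 none y := by
  obtain ⟨hy, z, hz, hzy⟩ := h2
  have hz0 : z 0 ≠ 0 := by
    intro h0
    have : z = 0 := by
      funext k
      rw [Subsingleton.elim k 0, h0]; rfl
    subst this
    exact h1.2 ⟨e, hzy⟩
  rcases lt_or_gt_of_ne hz0 with h0 | h0
  · have hO : IsOpen (ball (0 : Fin 1 → ℝ) 1 ∩ {z | z 0 < 0}) :=
      isOpen_ball.inter (isOpen_lt (continuous_apply 0) continuous_const)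
    filter_upwards [(h1_isOpen h e hO inter_subset_left).mem_nhds ⟨hy, z, ⟨hz, h0⟩, hzy⟩]
    rintro y' ⟨-, z', hz', hzy'⟩
    rw [h1_f1_neg hz'.1 hz'.2 hzy', h1_f1_neg hz h0 hzy]
  · have hO : IsOpen (ball (0 : Fin 1 → ℝ) 1 ∩ {z | 0 < z 0}) :=
      isOpen_ball.inter (isOpen_lt continuous_const (continuous_apply 0))
    filter_upwards [(h1_isOpen h e hO inter_subset_left).mem_nhds ⟨hy, z, ⟨hz, h0⟩, hzy⟩]
    rintro y' ⟨-, z', hz', hzy'⟩
    rw [h1_f1_pos hz'.1 hz'.2 hzy', h1_f1_pos hz h0 hzy]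

theorem f1_compat (h : Dim2 X) (i j : Option (Cell X 1)) :
    ∀ y ∈ U1 i ∩ U1 j, ∀ᶠ y' in 𝓝 y, f1 i y' * (f1 j y')⁻¹ = f1 i y * (f1 j y)⁻¹ := by
  rintro y ⟨hi, hj⟩
  cases i with
  | none =>
    cases j with
    | none => exact Filter.Eventually.of_forall fun y' => by rw [mul_inv_cancel, mul_inv_cancel]
    | some e =>
      filter_upwards [h1_f1_loc h e hi hj] with y' hy'
      rw [hy']; rfl
  | some e =>
    cases j with
    | none =>
      filter_upwards [h1_f1_loc h e hj hi] with y' hy'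
      rw [hy']; rfl
    | some e' => exact Filter.Eventually.of_forall fun y' => rfl

theorem h1_rad_ed (e : Cell X 1) {s : ℝ} (hs : s ∈ Icc (0 : ℝ) 1) : rad 2 (ed e s) 1 = ed e s :=
  rad_of_mem_Sk ((isPath_ed e).1.2 hs) 1

theorem h1_ed_mem_none (e : Cell X 1) {s : ℝ} (hs : s ∈ Icc (0 : ℝ) 1) (h2 : s ≠ 1 / 2) :
    ed e s ∈ U1 (none : Option (Cell X 1)) := by
  refine ⟨Sk_two_subset_Sp ((isPath_ed e).1.2 hs), ?_⟩
  change rad 2 (ed e s) 1 ∉ ctr X 1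
  rw [h1_rad_ed e hs]
  rcases h1_ed_cases hs with rfl | rfl | h
  · exact h1_not_ctr (h1_ed_zero e)
  · exact h1_not_ctr (h1_ed_one e)
  · rintro ⟨i, hi⟩
    have := congrFun (cell_eq_of_chr_eq (mem_ball_self one_pos) (h1_mem_ball h) hi).2 0
    simp only [Pi.zero_apply] at this
    exact h2 (by linarith)

theorem h1_ed_mem_some (e : Cell X 1) {s : ℝ} (hs : s ∈ Ioo (0 : ℝ) 1) :
    ed e s ∈ U1 (some e) :=
  ⟨Sk_two_subset_Sp ((isPath_ed e).1.2 (Ioo_subset_Icc_self hs)), _, h1_mem_ball hs,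
    (h1_rad_ed e (Ioo_subset_Icc_self hs)).symm⟩

theorem h1_isPath_seg (e : Cell X 1) {U : Set X} {a b : ℝ} (ha : 0 ≤ a) (hab : a ≤ b) (hb : b ≤ 1)
    (hU : ∀ s ∈ Icc a b, ed e s ∈ U) : IsPath U fun t => ed e (seg a b t) :=
  (isPath_seg (convex_Icc a b) (left_mem_Icc.2 hab) (right_mem_Icc.2 hab)).comp
    ((isPath_ed e).1.1.mono (Icc_subset_Icc ha hb)) hU

theorem exists_hol1 (h : Dim2 X) : ∃ η : PF (Sp X) (FreeGroup (Cell X 1)),
    (∀ i, η.Pot (U1 i) (f1 i)) ∧ ∀ e, η.val (ed e) = FreeGroup.of e := by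
  obtain ⟨η, hη⟩ := exists_pf (Sp X) U1 f1 (isOpen_U1 h) U1_subset U1_cover (f1_compat h)
  refine ⟨η, hη, fun e => ?_⟩
  have hc := (isPath_ed e).1.1
  have hS : MapsTo (ed e) (Icc 0 1) (Sp X) := (isPath_ed e).1.2.mono_right Sk_two_subset_Sp
  have m0 : (0 : ℝ) ∈ Icc (0 : ℝ) 1 := by norm_num
  have m1 : (1 / 4 : ℝ) ∈ Icc (0 : ℝ) 1 := by norm_num
  have m3 : (3 / 4 : ℝ) ∈ Icc (0 : ℝ) 1 := by norm_num
  have m4 : (1 : ℝ) ∈ Icc (0 : ℝ) 1 := by norm_num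
  have e0 : η.val (ed e) = η.val fun t => ed e (seg 0 1 t) :=
    η.congr fun t _ => by simp [seg]
  have e1 := η.tri (convex_Icc 0 1) hc hS m0 m1 m4
  have e2 := η.tri (convex_Icc 0 1) hc hS m1 m3 m4
  have p1 := hη none _ (h1_isPath_seg e (a := 0) (b := 1 / 4) le_rfl m1.1 m1.2 fun s hs =>
    h1_ed_mem_none e ⟨hs.1, hs.2.trans m1.2⟩ (by intro h'; have := hs.2; rw [h'] at this; norm_num at this))
  have p2 := hη (some e) _ (h1_isPath_seg e (a := 1 / 4) (b := 3 / 4) m1.1 (by norm_num) m3.2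
    fun s hs => h1_ed_mem_some e ⟨by linarith [hs.1], by linarith [hs.2]⟩)
  have p3 := hη none _ (h1_isPath_seg e (a := 3 / 4) (b := 1) m3.1 m3.2 le_rfl fun s hs =>
    h1_ed_mem_none e ⟨m3.1.trans hs.1, hs.2⟩ (by intro h'; have := hs.1; rw [h'] at this; norm_num at this))
  simp only [seg_zero, seg_one] at p1 p2 p3
  have v0 : f1 none (ed e 0) = 1 := h1_f1_Sk (by rw [h1_rad_ed e m0]; exact h1_ed_zero e)
  have v4 : f1 none (ed e 1) = 1 := h1_f1_Sk (by rw [h1_rad_ed e m4]; exact h1_ed_one e)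
  have v1 : f1 none (ed e (1 / 4)) = 1 :=
    h1_f1_neg (e := e) (h1_mem_ball (s := 1 / 4) (by norm_num)) (by norm_num) (h1_rad_ed e m1).symm
  have v3 : f1 none (ed e (3 / 4)) = (FreeGroup.of e)⁻¹ :=
    h1_f1_pos (e := e) (h1_mem_ball (s := 3 / 4) (by norm_num)) (by norm_num) (h1_rad_ed e m3).symm
  rw [e0, ← e1, ← e2, p1, p2, p3, v0, v1, v3, v4]
  simp [f1]

end Crest.Agent.R197
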