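import Crest.Agent.R197.Det1

/-! R197: the holonomy on the whole complex (van Kampen for the `2`-cells).

Let `Γ = FreeGroup (Cell X 1) ⧸ normalClosure (range w)`, `w r = loopVal η (chr 2 r)`, `mk = mk' _`.
`punct` applied to `η.map mk` and `F = chr 2 r` gives `g r : (Fin 2 → ℝ) → Γ`.  Apply `exists_pf` on
`univ` with the index set `Option (Cell X 1) ⊕ Cell X 2`, charts `U1 i` with `mk ∘ f1 i` and the open
cells `O r = chr 2 r '' ball 0 1` with `g r ∘ (chr 2 r).symm`.  Compatibility on `U1 i ∩ O r`: near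
`y = chr 2 r z` (`z ∈ Punct`) take the image of a small ball `B` round `z` with `B ⊆ Punct`,
`chr 2 r '' B ⊆ U1 i` (`isOpen_chr_image`); for `z' ∈ B` both potentials compute `mk (η (chr ∘ seg z z'))`.
Different open cells are disjoint.  The first clause follows from `PF.ext_of_cover` on `Sp X`.
Second clause: let `μ' = μ.mono`, `l = lift (fun e => μ.val (ed e))`.  By `det1` on the four sides
(`isPath_side`) `l (w r)` is conjugate to `loopVal μ (chr 2 r) = 1` (`loopVal_eq_one`), so `l` descends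
to `m : Γ →* H` (`QuotientGroup.lift`).  Put `b x = gau μ' x` on `Sp X` and, with
`a r z = μ (chr 2 r ∘ seg d0 z)`, `b (chr 2 r 0) = (m (g r 0))⁻¹ * m (g r d0) * b (chr 2 r d0) * a r 0`.
For all `z ∈ ball 0 1`: `m (g r z) * b (chr 2 r z) = m (g r d0) * b (chr 2 r d0) * a r z` (for `z ≠ 0` join
`d0` to `z` by `exists_path_punct` and use `det1`, `PF.pot_of_convex`).  Conclude by
`PF.ext_of_cover` with the charts `Sp X` and `O r`. -/

set_option autoImplicit false

namespace Crest.Agent.R197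

open Set Metric Topology

variable {X : Type} [TopologicalSpace X] [CWComplex (univ : Set X)] [T2Space X]

theorem hol2_punct_sub : Punct ⊆ ball (0 : Fin 2 → ℝ) 1 := fun _ h => h.1

theorem hol2_isOpen_punct : IsOpen Punct := isOpen_ball.sdiff isClosed_singleton

theorem hol2_d0 : d0 ∈ Punct := by simpa using isPath_side.1.zero_mem

omit [T2Space X] in
theorem hol2_cont (r : Cell X 2) : ContinuousOn (chr 2 r) (ball 0 1) :=
  (continuousOn_chr 2 r).mono ball_subset_closedBall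

omit [T2Space X] in
theorem hol2_ne_zero {r : Cell X 2} {z : Fin 2 → ℝ} (h : chr 2 r z ∈ Sp X) : z ≠ 0 := by
  rintro rfl
  exact h ⟨r, rfl⟩

/-- Compatibility of a potential on a chart with a potential on a punctured cell. -/
theorem hol2_compat (h : Dim2 X) {Γ : Type} [Group Γ] (η : PF (Sp X) Γ) {U : Set X}
    (hU : IsOpen U) (hUS : U ⊆ Sp X) {f : X → Γ} (hf : η.Pot U f) (r : Cell X 2)
    {g : (Fin 2 → ℝ) → Γ}
    (hg : ∀ δ, IsPath Punct δ → η.val (fun t => chr 2 r (δ t)) = (g (δ 0))⁻¹ * g (δ 1))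
    {y : X} (hy : y ∈ U) (hy' : y ∈ chr 2 r '' ball 0 1) :
    ∀ᶠ y' in 𝓝 y, f y' * (g ((chr 2 r).symm y'))⁻¹ = f y * (g ((chr 2 r).symm y))⁻¹ := by
  obtain ⟨z, hz, rfl⟩ := hy'
  have hzp : z ∈ Punct := ⟨hz, hol2_ne_zero (hUS hy)⟩
  have ho : IsOpen (Punct ∩ chr 2 r ⁻¹' U) :=
    ((hol2_cont r).mono hol2_punct_sub).isOpen_inter_preimage hol2_isOpen_punct hU
  obtain ⟨ε, hε, hB⟩ := Metric.isOpen_iff.1 ho z ⟨hzp, hy⟩
  have hB1 : ball z ε ⊆ Punct := fun w hw => (hB hw).1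
  have ho' : IsOpen (chr 2 r '' ball z ε) :=
    isOpen_chr_image h r isOpen_ball (hB1.trans hol2_punct_sub)
  filter_upwards [ho'.mem_nhds ⟨z, mem_ball_self hε, rfl⟩]
  rintro _ ⟨z', hz', rfl⟩
  have hp : IsPath (ball z ε) (seg z z') := isPath_seg (convex_ball z ε) (mem_ball_self hε) hz'
  have h1 := hg _ (hp.mono hB1)
  have h2 := hf _ (hp.comp ((hol2_cont r).mono (hB1.trans hol2_punct_sub)) fun w hw => (hB hw).2)
  rw [h1] at h2
  simp only [seg_zero, seg_one] at h2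
  rw [chr_symm_chr 2 r hz, chr_symm_chr 2 r (hB1 hz').1, ← mul_inv_cancel_left (f (chr 2 r z))
    (f (chr 2 r z')), ← h2]
  group

/-- Gluing the `2`-cells to a path function that is trivial on their boundary loops. -/
theorem hol2_glue (h : Dim2 X) {Γ : Type} [Group Γ] (η : PF (Sp X) Γ)
    {f : Option (Cell X 1) → X → Γ} (hf : ∀ i, η.Pot (U1 i) (f i))
    (hc : ∀ i j, ∀ y ∈ U1 i ∩ U1 j, ∀ᶠ y' in 𝓝 y, f i y' * (f j y')⁻¹ = f i y * (f j y)⁻¹)
    {g : Cell X 2 → (Fin 2 → ℝ) → Γ}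
    (hg : ∀ r δ, IsPath Punct δ → η.val (fun t => chr 2 r (δ t)) = (g r (δ 0))⁻¹ * g r (δ 1)) :
    ∃ η₂ : PF (univ : Set X) Γ, (∀ γ, IsPath (Sp X) γ → η₂.val γ = η.val γ) ∧
      ∀ r, η₂.Pot (chr 2 r '' ball 0 1) fun y => g r ((chr 2 r).symm y) := by
  obtain ⟨η₂, h2⟩ := exists_pf (univ : Set X) (κ := Option (Cell X 1) ⊕ Cell X 2)
    (Sum.elim U1 fun r => chr 2 r '' ball 0 1)
    (Sum.elim f fun r y => g r ((chr 2 r).symm y))
    (by
      rintro (i | r)
      · exact isOpen_U1 h i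
      · exact isOpen_chr_image h r isOpen_ball Subset.rfl)
    (fun _ => subset_univ _)
    (by
      intro y _
      by_cases hy : y ∈ Sp X
      · obtain ⟨i, hi⟩ := U1_cover y hy
        exact ⟨Sum.inl i, hi⟩
      · obtain ⟨r, rfl⟩ : y ∈ ctr X 2 := not_not.1 hy
        exact ⟨Sum.inr r, 0, mem_ball_self one_pos, rfl⟩)
    (by
      rintro (i | r) (j | r') y ⟨hy, hy'⟩
      · exact hc i j y ⟨hy, hy'⟩
      · exact hol2_compat h η (isOpen_U1 h i) (U1_subset i) (hf i) r' (hg r') hy hy'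
      · filter_upwards [hol2_compat h η (isOpen_U1 h j) (U1_subset j) (hf j) r (hg r) hy' hy]
          with y' h1
        have h3 := congrArg Inv.inv h1
        rw [mul_inv_rev, mul_inv_rev, inv_inv, inv_inv] at h3
        exact h3
      · obtain ⟨z, hz, rfl⟩ := hy
        obtain ⟨z', hz', h1⟩ := hy'
        obtain rfl := (cell_eq_of_chr_eq hz' hz h1).1
        exact Filter.Eventually.of_forall fun y' => by simp)
  refine ⟨η₂, fun γ hγ => ?_, fun r => h2 (Sum.inr r)⟩
  refine PF.ext_of_cover (η₂.mono (subset_univ _)) η U1 (fun y hy => ?_) (fun i δ hδ => ?_) hγ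
  · obtain ⟨i, hi⟩ := U1_cover y hy
    exact ⟨i, mem_nhdsWithin_of_mem_nhds ((isOpen_U1 h i).mem_nhds hi)⟩
  · have h3 := hδ.mono inter_subset_right
    exact (h2 (Sum.inl i) δ h3).trans (hf i δ h3).symm

theorem exists_hol2 (h : Dim2 X) (η : PF (Sp X) (FreeGroup (Cell X 1)))
    (hη : ∀ i, η.Pot (U1 i) (f1 i)) :
    ∃ η₂ : PF (univ : Set X) (FreeGroup (Cell X 1) ⧸
        Subgroup.normalClosure (range fun r : Cell X 2 => loopVal η (chr 2 r))),
      (∀ γ, IsPath (Sp X) γ → η₂.val γ = QuotientGroup.mk (η.val γ)) ∧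
      ∀ (H : Type) [Group H] (μ : PF (univ : Set X) H),
        ∃ (m : FreeGroup (Cell X 1) ⧸
            Subgroup.normalClosure (range fun r : Cell X 2 => loopVal η (chr 2 r)) →* H)
          (b : X → H),
          (∀ u, m (QuotientGroup.mk u) = FreeGroup.lift (fun e => μ.val (ed e)) u) ∧
          (∀ x ∈ Sk X 1, b x = 1) ∧
          ∀ γ, IsPath univ γ → μ.val γ = (b (γ 0))⁻¹ * m (η₂.val γ) * b (γ 1) := by
  classical
  set N := Subgroup.normalClosure (range fun r : Cell X 2 => loopVal η (chr 2 r)) with hN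
  have hcp : ∀ r : Cell X 2, ContinuousOn (chr 2 r) Punct :=
    fun r => (hol2_cont r).mono hol2_punct_sub
  have h1 : ∀ r : Cell X 2, loopVal (η.map (QuotientGroup.mk' N)) (chr 2 r) = 1 := by
    intro r
    have : loopVal (η.map (QuotientGroup.mk' N)) (chr 2 r) =
        QuotientGroup.mk' N (loopVal η (chr 2 r)) := by
      simp only [loopVal, PF.map_val, map_mul]
    rw [this, QuotientGroup.mk'_apply, QuotientGroup.eq_one_iff]
    exact Subgroup.subset_normalClosure ⟨r, rfl⟩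
  choose g hg using fun r : Cell X 2 =>
    punct (η.map (QuotientGroup.mk' N)) (hcp r) (mapsTo_chr_punct r) (h1 r)
  obtain ⟨η₂, h2, h3⟩ := hol2_glue h (η.map (QuotientGroup.mk' N))
    (f := fun i x => QuotientGroup.mk' N (f1 i x))
    (fun i γ hγ => by rw [PF.map_val, hη i γ hγ, map_mul, map_inv])
    (fun i j y hy => (f1_compat h i j y hy).mono fun y' h' => by
      rw [← map_inv, ← map_inv, ← map_mul, ← map_mul, h']) hg
  refine ⟨η₂, h2, fun H _ μ => ?_⟩
  set l : FreeGroup (Cell X 1) →* H := FreeGroup.lift fun e => μ.val (ed e) with hl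
  have hdet : ∀ γ, IsPath (Sp X) γ →
      μ.val γ = (gau μ (γ 0))⁻¹ * l (η.val γ) * gau μ (γ 1) :=
    fun γ hγ => det1 h η hη (μ.mono (subset_univ _)) hγ
  have hdet' : ∀ γ, IsPath (Sp X) γ →
      l (η.val γ) = gau μ (γ 0) * μ.val γ * (gau μ (γ 1))⁻¹ := by
    intro γ hγ
    rw [hdet γ hγ]
    group
  have hker : ∀ x ∈ N, l x = 1 := by
    have : N ≤ l.ker := by
      refine Subgroup.normalClosure_le_normal ?_
      rintro _ ⟨r, rfl⟩
      have h4 : loopVal μ (chr 2 r) = 1 := loopVal_eq_one μ (hol2_cont r) (mapsTo_univ _ _)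
      obtain ⟨s0, s1, s2, s3⟩ := isPath_side
      show l (loopVal η (chr 2 r)) = 1
      unfold loopVal at h4 ⊢
      rw [map_mul, map_mul, map_mul, hdet' _ (s0.comp (hcp r) (mapsTo_chr_punct r)),
        hdet' _ (s1.comp (hcp r) (mapsTo_chr_punct r)),
        hdet' _ (s2.comp (hcp r) (mapsTo_chr_punct r)),
        hdet' _ (s3.comp (hcp r) (mapsTo_chr_punct r))]
      simp only [seg_zero, seg_one]
      calc _ = gau μ (chr 2 r d0) * ((μ.val fun t => chr 2 r (seg d0 d1 t)) *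
            (μ.val fun t => chr 2 r (seg d1 d2 t)) * (μ.val fun t => chr 2 r (seg d2 d3 t)) *
            (μ.val fun t => chr 2 r (seg d3 d0 t))) * (gau μ (chr 2 r d0))⁻¹ := by group
        _ = 1 := by rw [h4]; group
    exact fun x hx => this hx
  set m : FreeGroup (Cell X 1) ⧸ N →* H := QuotientGroup.lift N l hker with hm
  have hml : ∀ u, m (QuotientGroup.mk u) = l u := fun u => rfl
  set a : Cell X 2 → (Fin 2 → ℝ) → H := fun r z => μ.val fun t => chr 2 r (seg d0 z t) with ha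
  have hpot : ∀ r δ, IsPath (ball 0 1) δ →
      μ.val (fun t => chr 2 r (δ t)) = (a r (δ 0))⁻¹ * a r (δ 1) := fun r δ hδ =>
    μ.pot_of_convex (convex_ball 0 1) (hol2_cont r) (mapsTo_univ _ _) hol2_d0.1 hδ
  set b : X → H := fun x => if hx : x ∈ ctr X 2 then
    (m (g hx.choose 0))⁻¹ * (m (g hx.choose d0) * gau μ (chr 2 hx.choose d0) * a hx.choose 0)
    else gau μ x with hb
  have hb1 : ∀ x ∈ Sp X, b x = gau μ x := fun x hx => dif_neg hx
  have hb2 : ∀ r, ∀ z ∈ ball (0 : Fin 2 → ℝ) 1,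
      m (g r z) * b (chr 2 r z) = m (g r d0) * gau μ (chr 2 r d0) * a r z := by
    intro r z hz
    by_cases hz0 : z = 0
    · subst hz0
      have hx : chr 2 r 0 ∈ ctr X 2 := ⟨r, rfl⟩
      have h4 : hx.choose = r := (cell_eq_of_chr_eq hz hz hx.choose_spec).1
      simp only [hb, dif_pos hx, h4, mul_inv_cancel_left]
    · obtain ⟨δ, hδ, h4, h5⟩ := exists_path_punct hol2_d0 (show z ∈ Punct from ⟨hz, hz0⟩)
      have h6 := hdet _ (hδ.comp (hcp r) (mapsTo_chr_punct r))
      have h7 : l (η.val fun t => chr 2 r (δ t)) = (m (g r (δ 0)))⁻¹ * m (g r (δ 1)) := by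
        rw [← map_inv, ← map_mul, ← hg r δ hδ]
        rfl
      have h8 : a r d0 = 1 := by
        simp only [ha, seg_self]
        exact μ.const _ (mem_univ _)
      rw [hpot r δ (hδ.mono hol2_punct_sub), h7] at h6
      simp only [h4, h5, h8, inv_one, one_mul] at h6
      rw [hb1 _ (mapsTo_chr_punct r ⟨hz, hz0⟩), h6]
      group
  refine ⟨m, b, hml, fun x hx => ?_, fun γ hγ => ?_⟩
  · rw [hb1 x (Sk_two_subset_Sp (mem_Sk_succ.2 (Or.inl hx)))]
    exact gau_vertex μ hx (mem_univ _)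
  refine PF.ext_of_cover μ ((η₂.map m).gauge b)
    (fun o : Option (Cell X 2) => o.elim (Sp X) fun r => chr 2 r '' ball 0 1)
    (fun y _ => ?_) ?_ hγ
  · by_cases hy : y ∈ Sp X
    · exact ⟨none, mem_nhdsWithin_of_mem_nhds (isOpen_Sp.mem_nhds hy)⟩
    · obtain ⟨r, rfl⟩ : y ∈ ctr X 2 := not_not.1 hy
      exact ⟨some r, mem_nhdsWithin_of_mem_nhds
        ((isOpen_chr_image h r isOpen_ball Subset.rfl).mem_nhds ⟨0, mem_ball_self one_pos, rfl⟩)⟩
  rintro (_ | r) δ hδ
  · have h4 : IsPath (Sp X) δ := hδ.mono inter_subset_right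
    rw [PF.gauge_val, PF.map_val, h2 δ h4, hb1 _ h4.zero_mem, hb1 _ h4.one_mem]
    exact hdet δ h4
  · have h4 : IsPath (chr 2 r '' ball 0 1) δ := hδ.mono inter_subset_right
    have h5 : ∀ y ∈ chr 2 r '' ball 0 1, (chr 2 r).symm y ∈ ball (0 : Fin 2 → ℝ) 1 ∧
        chr 2 r ((chr 2 r).symm y) = y := by
      rintro _ ⟨z, hz, rfl⟩
      rw [chr_symm_chr 2 r hz]
      exact ⟨hz, rfl⟩
    have h6 : IsPath (ball 0 1) fun t => (chr 2 r).symm (δ t) :=
      h4.comp (continuousOn_chr_symm 2 r) fun y hy => (h5 y hy).1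
    have h7 : μ.val δ = μ.val fun t => chr 2 r ((chr 2 r).symm (δ t)) :=
      μ.congr fun t ht => (h5 _ (h4.2 ht)).2.symm
    have h8 := hb2 r _ h6.zero_mem
    have h9 := hb2 r _ h6.one_mem
    rw [(h5 _ h4.zero_mem).2] at h8
    rw [(h5 _ h4.one_mem).2] at h9
    rw [PF.gauge_val, PF.map_val, h3 r δ h4, h7, hpot r _ h6, map_mul, map_inv, ← mul_assoc,
      ← mul_inv_rev, mul_assoc, h8, h9]
    group

end Crest.Agent.R197
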