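import Mathlib

/-! R197: a line bundle over a contractible space has a nowhere vanishing section.

`exists_section`.  Let `h : C(I × E, E)` be a homotopy from the identity to a constant `e₀`
(`contractible_iff_id_nullhomotopic`), extend the time to `ℝ` by `projIcc`, and put
`c y t = P (h (t, y))`; `y ↦ c y` is continuous into `C(I, M)` (`ContinuousMap.curry`), `M = V →L[ℂ] V`.
Let `φ c = ⨅ (s, t), (|s - t| + max 0 (1 - ‖c s - c t‖))`: it is `2`-Lipschitz in `c`, positive
(attained on the compact `I × I`), and `|s - t| < φ c → ‖c s - c t‖ < 1`.  With `m y = φ (c y) / 2` define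
`u y k` for `k = N, N-1, …, 0` by applying `c y (min (k * m y) 1)`, starting from a fixed `v₀ ≠ 0` with
`P e₀ v₀ = v₀`: `S N y = c y 0 (c y (min (m y) 1) (⋯ (c y (min (N * m y) 1) v₀)))`.  If `N * m y ≥ 1` then
`S (N+1) y = S N y`, so `s y = S ⌈1 / m y⌉₊ y` equals `S N` near any point for a fixed large `N`, hence
is continuous.  If `Q v = v ≠ 0`, `‖Q' - Q‖ < 1`, then `Q' v ≠ 0` and `Q' (Q' v) = Q' v`.

`exists_theta`.  `V = ℂ × ℂ`, `u z = (max 0 (1/2 - ‖z‖), z 0 + z 1 * I) ≠ 0`,
`Q z v = ((conj u₁ * v₁ + conj u₂ * v₂) / (|u₁|² + |u₂|²)) • u z` (idempotent, `Q z (u z) = u z`); for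
`‖z‖ ≥ 1/2` it is `Q∞ v = (0, v₂)`.  Put `P y = Q (j y)` on `ι '' ball 0 1` and `Q∞` elsewhere; it is
continuous on the open sets `ι '' ball 0 1` and `(ι '' closedBall 0 (1/2))ᶜ`, which cover `E`.  Take
`θ y = (s y).2` and `f z` the coefficient of `s (ι z) = f z • u z`. -/

set_option autoImplicit false

namespace Crest.Agent.R197

open Set Metric

theorem theta_step {E M : Type} [TopologicalSpace E] [NormedAddCommGroup M] (C : E → ℝ → M)
    (hC : Continuous fun p : E × ℝ => C p.1 p.2) :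
    ∃ m : E → ℝ, Continuous m ∧ ∀ y, 0 < m y ∧ ∀ s ∈ Icc (0 : ℝ) 1, ∀ t ∈ Icc (0 : ℝ) 1,
      |s - t| ≤ m y → ‖C y s - C y t‖ < 1 := by
  set g : E → ℝ × ℝ → ℝ := fun y p => |p.1 - p.2| + max 0 (1 - ‖C y p.1 - C y p.2‖) with hg
  have hgc : Continuous (Function.uncurry g) := by
    have h1 : Continuous fun q : E × ℝ × ℝ => C q.1 q.2.1 :=
      hC.comp (f := fun q : E × ℝ × ℝ => (q.1, q.2.1)) (by fun_prop)
    have h2 : Continuous fun q : E × ℝ × ℝ => C q.1 q.2.2 :=
      hC.comp (f := fun q : E × ℝ × ℝ => (q.1, q.2.2)) (by fun_prop)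
    have h3 : Continuous fun q : E × ℝ × ℝ => |q.2.1 - q.2.2| := by fun_prop
    exact h3.add (continuous_const.max (continuous_const.sub (h1.sub h2).norm))
  have hK : IsCompact (Icc (0 : ℝ) 1 ×ˢ Icc (0 : ℝ) 1) := isCompact_Icc.prod isCompact_Icc
  refine ⟨fun y => sInf (g y '' (Icc (0 : ℝ) 1 ×ˢ Icc (0 : ℝ) 1)) / 2,
    (hK.continuous_sInf hgc).div_const 2, fun y => ?_⟩
  have hgy : Continuous (g y) := hgc.comp (Continuous.prodMk_right y)
  obtain ⟨p, -, hp1, hp2⟩ := hK.exists_sInf_image_eq_and_le ⟨(0, 0), by simp⟩ hgy.continuousOn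
  have hpos : 0 < g y p := by
    by_cases h : p.1 = p.2
    · simp [hg, h]
    · exact add_pos_of_pos_of_nonneg (abs_pos.2 (sub_ne_zero.2 h)) (le_max_left _ _)
  simp only [hp1]
  refine ⟨by positivity, fun s hs t ht hst => ?_⟩
  have h1 := hp2 (s, t) ⟨hs, ht⟩
  by_contra h2
  have h3 : max 0 (1 - ‖C y s - C y t‖) = 0 := max_eq_left (by linarith [not_lt.1 h2])
  have h4 : g y (s, t) = |s - t| := by simp only [hg, h3, add_zero]
  linarith

/-- Iterated application of the operators `c 0, c 1, …`. -/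
def thetaA {V : Type} (c : ℕ → V → V) : ℕ → V → V
  | 0 => fun v => v
  | k + 1 => fun v => thetaA c k (c k v)

theorem exists_section {E V : Type} [TopologicalSpace E] [ContractibleSpace E]
    [NormedAddCommGroup V] [NormedSpace ℂ V] (P : E → V →L[ℂ] V) (hP : Continuous P)
    (hidem : ∀ y v, P y (P y v) = P y v) (hne : ∀ y, P y ≠ 0) :
    ∃ s : E → V, Continuous s ∧ ∀ y, s y ≠ 0 ∧ P y (s y) = s y := by
  obtain ⟨e₀, ⟨h⟩⟩ := id_nullhomotopic E
  obtain ⟨v₀, hv₀, hv₀'⟩ : ∃ v₀, v₀ ≠ 0 ∧ P e₀ v₀ = v₀ := by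
    obtain ⟨v, hv⟩ : ∃ v, P e₀ v ≠ 0 := by
      by_contra h1
      exact hne e₀ (ContinuousLinearMap.ext fun v => by simpa using not_exists.1 h1 v)
    exact ⟨P e₀ v, hv, hidem _ _⟩
  set C : E → ℝ → V →L[ℂ] V := fun y t => P (h (projIcc 0 1 zero_le_one t, y)) with hCdef
  have hC : Continuous fun p : E × ℝ => C p.1 p.2 :=
    hP.comp (h.continuous.comp ((continuous_projIcc.comp continuous_snd).prodMk continuous_fst))
  have hC0 : ∀ y, C y 0 = P y := fun y => by simp [hCdef]
  have hC1 : ∀ y, C y 1 = P e₀ := fun y => by simp [hCdef]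
  obtain ⟨m, hm, hm'⟩ := theta_step C hC
  set τ : E → ℕ → ℝ := fun y k => min (k * m y) 1 with hτ
  have hτI : ∀ y k, τ y k ∈ Icc (0 : ℝ) 1 := fun y k =>
    ⟨le_min (mul_nonneg (Nat.cast_nonneg _) (hm' y).1.le) zero_le_one, min_le_right _ _⟩
  have hτd : ∀ y k, |τ y k - τ y (k + 1)| ≤ m y := by
    intro y k
    refine (abs_min_sub_min_le_max _ _ _ _).trans ?_
    have := (hm' y).1
    rw [sub_self, abs_zero, max_le_iff]
    refine ⟨?_, this.le⟩
    rw [abs_le]
    push_cast
    constructor <;> linarith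
  set S : ℕ → E → V → V := fun k y => thetaA (fun k v => C y (τ y k) v) k with hS
  have hS0 : ∀ y v, S 0 y v = v := fun _ _ => rfl
  have hS1 : ∀ k y v, S (k + 1) y v = S k y (C y (τ y k) v) := fun _ _ _ => rfl
  have hcont : ∀ k, ∀ v : E → V, Continuous v → Continuous fun y => S k y (v y) := by
    intro k
    induction k with
    | zero => exact fun v hv => hv
    | succ k ih =>
      intro v hv
      refine ih (fun y => C y (τ y k) (v y)) (Continuous.clm_apply ?_ hv)
      exact hC.comp (f := fun y => (y, τ y k))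
        (continuous_id.prodMk ((continuous_const.mul hm).min continuous_const))
  have hnz : ∀ y k v, v ≠ 0 → C y (τ y k) v = v → S k y v ≠ 0 ∧ P y (S k y v) = S k y v := by
    intro y k
    induction k with
    | zero =>
      intro v hv h1
      have : τ y 0 = 0 := by simp [hτ]
      rw [this, hC0] at h1
      exact ⟨hv, h1⟩
    | succ k ih =>
      intro v hv h1
      refine ih _ ?_ (hidem _ _)
      intro (h2 : C y (τ y k) v = 0)
      have h3 := (hm' y).2 _ (hτI y k) _ (hτI y (k + 1)) (hτd y k)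
      have h4 := (C y (τ y k) - C y (τ y (k + 1))).le_opNorm v
      rw [ContinuousLinearMap.sub_apply, h1, h2, zero_sub, norm_neg] at h4
      nlinarith [norm_pos_iff.2 hv]
  have hone : ∀ (y : E) (k : ℕ), 1 ≤ k * m y → C y (τ y k) v₀ = v₀ := by
    intro y k hk
    have : τ y k = 1 := min_eq_right hk
    rw [this, hC1, hv₀']
  have hstab : ∀ (y : E) (k l : ℕ), 1 ≤ k * m y → k ≤ l → S l y v₀ = S k y v₀ := by
    intro y k l hk hkl
    induction l, hkl using Nat.le_induction with
    | base => rfl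
    | succ l hkl ih =>
      rw [hS1, hone y l, ih]
      refine hk.trans (mul_le_mul_of_nonneg_right ?_ (hm' y).1.le)
      exact_mod_cast hkl
  have hceil : ∀ y, 1 ≤ (⌈1 / m y⌉₊ : ℝ) * m y := fun y =>
    (div_le_iff₀ (hm' y).1).1 (Nat.le_ceil _)
  refine ⟨fun y => S ⌈1 / m y⌉₊ y v₀, continuous_iff_continuousAt.2 fun y₀ => ?_,
    fun y => hnz y _ v₀ hv₀ (hone y _ (hceil y))⟩
  set N := ⌈1 / m y₀⌉₊ + 1 with hN
  have h1 : 1 < (N : ℝ) * m y₀ := by
    have := hceil y₀
    have := (hm' y₀).1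
    rw [hN]
    push_cast
    linarith
  have h2 : ∀ᶠ y in nhds y₀, 1 < (N : ℝ) * m y :=
    (continuous_const.mul hm).continuousAt.eventually (lt_mem_nhds h1)
  refine (hcont N (fun _ => v₀) continuous_const).continuousAt.congr ?_
  filter_upwards [h2] with y hy
  refine hstab y _ _ (hceil y) (Nat.ceil_le.2 ?_)
  rw [div_le_iff₀ (hm' y).1]
  exact hy.le

/-- The coefficient of the orthogonal projection of `v` onto the line through `u`. -/
noncomputable def thetaC (u v : ℂ × ℂ) : ℂ :=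
  (star u.1 * v.1 + star u.2 * v.2) / (star u.1 * u.1 + star u.2 * u.2)

/-- The orthogonal projection onto the line through `u`. -/
noncomputable def thetaP (u : ℂ × ℂ) : (ℂ × ℂ) →L[ℂ] ℂ × ℂ :=
  ((star u.1 * u.1 + star u.2 * u.2)⁻¹ • (star u.1 • ContinuousLinearMap.fst ℂ ℂ ℂ +
    star u.2 • ContinuousLinearMap.snd ℂ ℂ ℂ)).smulRight u

theorem thetaP_apply (u v : ℂ × ℂ) : thetaP u v = thetaC u v • u := by
  simp [thetaP, thetaC, div_eq_inv_mul, mul_add]

theorem theta_den {u : ℂ × ℂ} (hu : u ≠ 0) : star u.1 * u.1 + star u.2 * u.2 ≠ 0 := by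
  intro h
  have h1 : ((Complex.normSq u.1 + Complex.normSq u.2 : ℝ) : ℂ) = 0 := by
    rw [← h]
    push_cast
    rw [Complex.normSq_eq_conj_mul_self, Complex.normSq_eq_conj_mul_self]
    rfl
  have h2 : Complex.normSq u.1 + Complex.normSq u.2 = 0 := by exact_mod_cast h1
  have h3 := Complex.normSq_nonneg u.1
  have h4 := Complex.normSq_nonneg u.2
  exact hu (Prod.ext (Complex.normSq_eq_zero.1 (by linarith))
    (Complex.normSq_eq_zero.1 (by linarith)))

theorem thetaP_self {u : ℂ × ℂ} (hu : u ≠ 0) : thetaP u u = u := by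
  rw [thetaP_apply, thetaC, div_self (theta_den hu), one_smul]

theorem thetaP_idem {u : ℂ × ℂ} (hu : u ≠ 0) (v : ℂ × ℂ) :
    thetaP u (thetaP u v) = thetaP u v := by
  rw [thetaP_apply u v, map_smul, thetaP_self hu]

theorem thetaP_ne_zero {u : ℂ × ℂ} (hu : u ≠ 0) : thetaP u ≠ 0 := by
  intro h
  have := thetaP_self hu
  rw [h] at this
  exact hu this.symm

theorem thetaP_snd {w : ℂ} (hw : w ≠ 0) : thetaP (0, w) = thetaP (0, 1) := by
  refine ContinuousLinearMap.ext fun v => ?_
  have : star w ≠ 0 := star_ne_zero.2 hw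
  rw [thetaP_apply, thetaP_apply, thetaC, thetaC]
  ext
  · simp
  · simp only [star_zero, zero_mul, zero_add, star_one, one_mul, Prod.smul_snd, smul_eq_mul]
    field_simp

theorem thetaC_continuous {X : Type} [TopologicalSpace X] {A : Set X} {u v : X → ℂ × ℂ}
    (hu : ContinuousOn u A) (hv : ContinuousOn v A) (h0 : ∀ x ∈ A, u x ≠ 0) :
    ContinuousOn (fun x => thetaC (u x) (v x)) A :=
  ((hu.fst.star.mul hv.fst).add (hu.snd.star.mul hv.snd)).div
    ((hu.fst.star.mul hu.fst).add (hu.snd.star.mul hu.snd)) fun x hx => theta_den (h0 x hx)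

/-- The clutching vector. -/
noncomputable def thetaU (z : Fin 2 → ℝ) : ℂ × ℂ :=
  ((max 0 (1 / 2 - ‖z‖) : ℝ), (z 0 : ℂ) + (z 1 : ℂ) * Complex.I)

theorem theta_snd_ne {z : Fin 2 → ℝ} (hz : z ≠ 0) : (z 0 : ℂ) + (z 1 : ℂ) * Complex.I ≠ 0 := by
  intro h
  have h1 := congrArg Complex.re h
  have h2 := congrArg Complex.im h
  simp at h1 h2
  apply hz
  funext i
  fin_cases i
  · exact h1
  · exact h2

theorem thetaU_ne (z : Fin 2 → ℝ) : thetaU z ≠ 0 := by
  intro h
  by_cases hz : z = 0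
  · have h1 := congrArg Prod.fst h
    subst hz
    simp [thetaU] at h1
  · exact theta_snd_ne hz (congrArg Prod.snd h)

theorem thetaU_continuous : Continuous thetaU := by
  unfold thetaU
  fun_prop

theorem exists_theta {E : Type} [TopologicalSpace E] [ContractibleSpace E] [T2Space E]
    (ι : (Fin 2 → ℝ) → E) (j : E → Fin 2 → ℝ) (hι : ContinuousOn ι (ball 0 1))
    (ho : IsOpen (ι '' ball 0 1)) (hj : ContinuousOn j (ι '' ball 0 1))
    (hji : ∀ z ∈ ball (0 : Fin 2 → ℝ) 1, j (ι z) = z) :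
    ∃ θ : E → ℂ, Continuous θ ∧ (∀ y, y ≠ ι 0 → θ y ≠ 0) ∧
      ∃ f : (Fin 2 → ℝ) → ℂ, ContinuousOn f (ball 0 1) ∧ (∀ z ∈ ball (0 : Fin 2 → ℝ) 1, f z ≠ 0) ∧
        ∀ z ∈ ball (0 : Fin 2 → ℝ) 1, θ (ι z) = f z * ((z 0 : ℂ) + (z 1 : ℂ) * Complex.I) := by
  classical
  set u : E → ℂ × ℂ := fun y => if y ∈ ι '' ball 0 1 then thetaU (j y) else (0, 1) with hu
  have hu0 : ∀ y, u y ≠ 0 := by
    intro y
    simp only [hu]
    split_ifs
    · exact thetaU_ne _
    · simp
  have hu1 : ∀ z ∈ ball (0 : Fin 2 → ℝ) 1, u (ι z) = thetaU z := by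
    intro z hz
    simp only [hu]
    rw [if_pos (mem_image_of_mem ι hz), hji z hz]
  have hP : Continuous fun y => thetaP (u y) := by
    refine continuous_iff_continuousAt.2 fun y₀ => ?_
    by_cases hy : y₀ ∈ ι '' ball 0 1
    · have h1 : ContinuousOn u (ι '' ball 0 1) :=
        (thetaU_continuous.comp_continuousOn hj).congr fun y hy => if_pos hy
      have h2 : ContinuousOn (fun y => thetaP (u y)) (ι '' ball 0 1) := by
        refine continuousOn_clm_apply.2 fun v => ?_
        simp only [thetaP_apply]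
        exact (thetaC_continuous h1 continuousOn_const fun y _ => hu0 y).smul h1
      exact h2.continuousAt (ho.mem_nhds hy)
    · have hsub : closedBall (0 : Fin 2 → ℝ) (1 / 2) ⊆ ball 0 1 :=
        closedBall_subset_ball (by norm_num)
      have h1 : IsClosed (ι '' closedBall 0 (1 / 2)) :=
        ((isCompact_closedBall _ _).image_of_continuousOn (hι.mono hsub)).isClosed
      have h2 : (ι '' closedBall 0 (1 / 2))ᶜ ∈ nhds y₀ :=
        h1.isOpen_compl.mem_nhds fun h => hy (image_mono hsub h)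
      refine (continuousAt_const (y := thetaP (0, 1))).congr ?_
      filter_upwards [h2] with y hy'
      by_cases h3 : y ∈ ι '' ball 0 1
      · obtain ⟨z, hz, rfl⟩ := h3
        have h4 : 1 / 2 < ‖z‖ := by
          by_contra h5
          exact hy' (mem_image_of_mem ι (mem_closedBall_zero_iff.2 (not_lt.1 h5)))
        have h5 : z ≠ 0 := by
          rintro rfl
          rw [norm_zero] at h4
          linarith
        rw [hu1 z hz, thetaU, max_eq_left (by linarith), Complex.ofReal_zero,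
          thetaP_snd (theta_snd_ne h5)]
      · simp only [hu]
        rw [if_neg h3]
  obtain ⟨s, hs, hs'⟩ := exists_section (fun y => thetaP (u y)) hP
    (fun y => thetaP_idem (hu0 y)) fun y => thetaP_ne_zero (hu0 y)
  have hs1 : ∀ y, s y = thetaC (u y) (s y) • u y := fun y => by
    rw [← thetaP_apply]
    exact (hs' y).2.symm
  have hs2 : ∀ y, thetaC (u y) (s y) ≠ 0 := fun y h => (hs' y).1 (by rw [hs1 y, h, zero_smul])
  have hs3 : ∀ y, (s y).2 = thetaC (u y) (s y) * (u y).2 := fun y => congrArg Prod.snd (hs1 y)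
  refine ⟨fun y => (s y).2, hs.snd, fun y hy => ?_, fun z => thetaC (thetaU z) (s (ι z)),
    thetaC_continuous thetaU_continuous.continuousOn (hs.comp_continuousOn hι)
      fun z _ => thetaU_ne z, fun z hz => ?_, fun z hz => ?_⟩
  · simp only
    rw [hs3]
    refine mul_ne_zero (hs2 y) ?_
    by_cases h3 : y ∈ ι '' ball 0 1
    · obtain ⟨z, hz, rfl⟩ := h3
      rw [hu1 z hz]
      exact theta_snd_ne fun h => hy (by rw [h])
    · simp only [hu]
      rw [if_neg h3]
      exact one_ne_zero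
  · simp only
    rw [← hu1 z hz]
    exact hs2 _
  · simp only
    rw [hs3, hu1 z hz]
    rfl

end Crest.Agent.R197
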