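import Crest.Agent.R197.Lift

/-! R197: winding numbers as a path function on `ℂ \ {0}`.

For a path `γ` in `{0}ᶜ` there is `L` continuous on `[0,1]` with `exp (L t) = γ t`
(`exists_lift_convex` for `Complex.isCoveringMap_exp`), and `L 1 - L 0` does not depend on `L`
(`IsCoveringMap.eqOn_of_comp_eqOn` after a shift by the constant `L' 0 - L 0 ∈ 2πiℤ`, or:
`exp (L - L') = 1` on a connected set).  Define `val γ = ofAdd (L 1 - L 0)` (`1` if `γ` is not a path).
`sq`: lift `K` on the convex set `Sq`.  Products: add the logarithms.  The square loop: side `k` is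
`I ^ k` times side `0`, so all four sides have the same value `log (-1/2 + I/2) - log (1/2 + I/2) ≠ 0`
(`Complex.log` is continuous on the upper half plane; its exponential is `I ≠ 1`). -/

set_option autoImplicit false

namespace Crest.Agent.R197

open Set Topology

theorem wind_lift {W : Type} [NormedAddCommGroup W] [NormedSpace ℝ W] {C : Set W}
    (hC : Convex ℝ C) {a : W} (ha : a ∈ C) {F : W → ℂ} (hF : ContinuousOn F C)
    (h0 : MapsTo F C {0}ᶜ) :
    ∃ L : W → ℂ, ContinuousOn L C ∧ ∀ z ∈ C, Complex.exp (L z) = F z := by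
  classical
  let F' : W → {z : ℂ // z ≠ 0} := fun z => if h : F z ≠ 0 then ⟨F z, h⟩ else ⟨1, one_ne_zero⟩
  have hF' : ∀ z ∈ C, (F' z : ℂ) = F z := fun z hz => by
    have : F z ≠ 0 := h0 hz
    simp only [F', dif_pos this]
  have hc : ContinuousOn F' C :=
    Topology.IsInducing.subtypeVal.continuousOn_iff.2 (hF.congr fun z hz => hF' z hz)
  obtain ⟨L, hL, hLe, -⟩ := exists_lift_convex Complex.isCoveringMap_exp hC hc ha
    (e := Complex.log (F a)) (Subtype.ext (by rw [hF' a ha]; exact Complex.exp_log (h0 ha)))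
  exact ⟨L, hL, fun z hz => by rw [← hF' z hz, ← hLe z hz]⟩

theorem wind_uniq {L L' : ℝ → ℂ} (hL : ContinuousOn L (Icc 0 1)) (hL' : ContinuousOn L' (Icc 0 1))
    (h : ∀ t ∈ Icc (0 : ℝ) 1, Complex.exp (L t) = Complex.exp (L' t)) :
    L 1 - L 0 = L' 1 - L' 0 := by
  have h1 : ∀ t ∈ Icc (0 : ℝ) 1, Complex.exp (L t - L' t) = 1 := fun t ht => by
    rw [Complex.exp_sub, h t ht, div_self (Complex.exp_ne_zero _)]
  have := Complex.isCoveringMap_exp.constOn_of_comp (g := fun t => L t - L' t) isPreconnected_Icc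
    (hL.sub hL') (fun a ha a' ha' => Subtype.ext (by simp only [h1 a ha, h1 a' ha']))
    (left_mem_Icc.2 zero_le_one) (right_mem_Icc.2 zero_le_one)
  linear_combination (-1 : ℂ) * this

open Classical in
/-- The increment of a continuous logarithm. -/
noncomputable def windVal (γ : ℝ → ℂ) : Multiplicative ℂ :=
  if h : ∃ L : ℝ → ℂ, ContinuousOn L (Icc 0 1) ∧ ∀ t ∈ Icc (0 : ℝ) 1, Complex.exp (L t) = γ t then
    Multiplicative.ofAdd (h.choose 1 - h.choose 0) else 1

theorem windVal_eq {γ L : ℝ → ℂ} (hL : ContinuousOn L (Icc 0 1))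
    (h : ∀ t ∈ Icc (0 : ℝ) 1, Complex.exp (L t) = γ t) :
    windVal γ = Multiplicative.ofAdd (L 1 - L 0) := by
  have hex : ∃ L : ℝ → ℂ, ContinuousOn L (Icc 0 1) ∧
      ∀ t ∈ Icc (0 : ℝ) 1, Complex.exp (L t) = γ t := ⟨L, hL, h⟩
  rw [windVal, dif_pos hex, wind_uniq hex.choose_spec.1 hL
    fun t ht => by rw [hex.choose_spec.2 t ht, h t ht]]

/-- The winding path function. -/
noncomputable def windPF : PF ({0}ᶜ : Set ℂ) (Multiplicative ℂ) where
  val := windVal
  congr {γ γ'} h := by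
    by_cases hex : ∃ L : ℝ → ℂ, ContinuousOn L (Icc 0 1) ∧
      ∀ t ∈ Icc (0 : ℝ) 1, Complex.exp (L t) = γ t
    · obtain ⟨L, hL, hLe⟩ := hex
      rw [windVal_eq hL hLe, windVal_eq hL fun t ht => (hLe t ht).trans (h ht)]
    · rw [windVal, dif_neg hex, windVal, dif_neg]
      rintro ⟨L, hL, hLe⟩
      exact hex ⟨L, hL, fun t ht => (hLe t ht).trans (h ht).symm⟩
  const y hy := by
    rw [windVal_eq (L := fun _ => Complex.log y) continuousOn_const
      fun _ _ => Complex.exp_log hy, sub_self, ofAdd_zero]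
  sq K h1 h2 := by
    have z0 : (0 : ℝ) ∈ Icc (0 : ℝ) 1 := left_mem_Icc.2 zero_le_one
    have z1 : (1 : ℝ) ∈ Icc (0 : ℝ) 1 := right_mem_Icc.2 zero_le_one
    obtain ⟨L, hL, hLe⟩ := wind_lift (C := Sq) ((convex_Icc 0 1).prod (convex_Icc 0 1))
      (a := (0, 0)) ⟨z0, z0⟩ h1 h2
    have hh : ∀ c ∈ Icc (0 : ℝ) 1, windVal (fun s => K (s, c)) =
        Multiplicative.ofAdd (L (1, c) - L (0, c)) := fun c hc =>
      windVal_eq (L := fun s => L (s, c)) (hL.comp (by fun_prop) fun s hs => ⟨hs, hc⟩)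
        fun s hs => hLe _ ⟨hs, hc⟩
    have hv : ∀ c ∈ Icc (0 : ℝ) 1, windVal (fun s => K (c, s)) =
        Multiplicative.ofAdd (L (c, 1) - L (c, 0)) := fun c hc =>
      windVal_eq (L := fun s => L (c, s)) (hL.comp (by fun_prop) fun s hs => ⟨hc, hs⟩)
        fun s hs => hLe _ ⟨hc, hs⟩
    rw [hh 0 z0, hh 1 z1, hv 0 z0, hv 1 z1, ← ofAdd_add, ← ofAdd_add]
    congr 1
    ring

theorem exists_wind : ∃ ω : PF ({0}ᶜ : Set ℂ) (Multiplicative ℂ),
    (∀ γ γ', IsPath {0}ᶜ γ → IsPath {0}ᶜ γ' → ω.val (fun t => γ t * γ' t) = ω.val γ * ω.val γ') ∧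
    loopVal ω (fun z => (z 0 : ℂ) + (z 1 : ℂ) * Complex.I) ≠ 1 := by
  have hmul : ∀ γ γ', IsPath {0}ᶜ γ → IsPath {0}ᶜ γ' →
      windPF.val (fun t => γ t * γ' t) = windPF.val γ * windPF.val γ' := by
    intro γ γ' h h'
    obtain ⟨L, hL, hLe⟩ := wind_lift (convex_Icc (0 : ℝ) 1) (left_mem_Icc.2 zero_le_one) h.1 h.2
    obtain ⟨L', hL', hLe'⟩ :=
      wind_lift (convex_Icc (0 : ℝ) 1) (left_mem_Icc.2 zero_le_one) h'.1 h'.2
    show windVal _ = windVal _ * windVal _
    rw [windVal_eq hL hLe, windVal_eq hL' hLe', windVal_eq (L := fun t => L t + L' t) (hL.add hL')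
      fun t ht => by rw [Complex.exp_add, hLe t ht, hLe' t ht], ← ofAdd_add]
    congr 1
    ring
  refine ⟨windPF, hmul, ?_⟩
  obtain ⟨g, hg⟩ : ∃ g : ℝ → ℂ, g = fun t : ℝ => ((1 / 2 - t : ℝ) : ℂ) + (1 / 2 : ℝ) * Complex.I :=
    ⟨_, rfl⟩
  have hslit : ∀ t, g t ∈ Complex.slitPlane := fun t => Or.inr (by simp [hg])
  have hgc : Continuous g := by rw [hg]; fun_prop
  have hg0 : ∀ t, g t ≠ 0 := fun t => Complex.slitPlane_ne_zero (hslit t)
  have hgp : IsPath {0}ᶜ g := ⟨hgc.continuousOn, fun t _ => hg0 t⟩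
  have hc : ∀ c : ℂ, c ≠ 0 → windPF.val (fun t => c * g t) = windPF.val g := by
    intro c hc
    rw [hmul (fun _ => c) g ⟨continuousOn_const, fun _ _ => hc⟩ hgp, windPF.const c hc, one_mul]
  have hv : windPF.val g = Multiplicative.ofAdd (Complex.log (g 1) - Complex.log (g 0)) :=
    windVal_eq (L := fun t => Complex.log (g t))
      (hgc.continuousOn.clog fun t _ => hslit t) fun t _ => Complex.exp_log (hg0 t)
  have e0 : (fun t => ((seg d0 d1 t 0 : ℝ) : ℂ) + (seg d0 d1 t 1 : ℝ) * Complex.I) = g := by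
    funext t
    apply Complex.ext <;> simp [hg, seg, d0, d1] <;> ring
  have e1 : (fun t => ((seg d1 d2 t 0 : ℝ) : ℂ) + (seg d1 d2 t 1 : ℝ) * Complex.I) =
      fun t => Complex.I * g t := by
    funext t
    apply Complex.ext <;> simp [hg, seg, d1, d2] <;> ring
  have e2 : (fun t => ((seg d2 d3 t 0 : ℝ) : ℂ) + (seg d2 d3 t 1 : ℝ) * Complex.I) =
      fun t => (-1) * g t := by
    funext t
    apply Complex.ext <;> simp [hg, seg, d2, d3] <;> ring
  have e3 : (fun t => ((seg d3 d0 t 0 : ℝ) : ℂ) + (seg d3 d0 t 1 : ℝ) * Complex.I) =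
      fun t => (-Complex.I) * g t := by
    funext t
    apply Complex.ext <;> simp [hg, seg, d3, d0] <;> ring
  unfold loopVal
  rw [e0, e1, e2, e3, hc _ Complex.I_ne_zero, hc _ (by norm_num),
    hc _ (neg_ne_zero.2 Complex.I_ne_zero), hv, ← ofAdd_add, ← ofAdd_add, ← ofAdd_add]
  intro h
  have h1 : Complex.log (g 1) = Complex.log (g 0) := by
    have := ofAdd_eq_one.1 h
    linear_combination (1 / 4 : ℂ) * this
  have h2 : g 1 = g 0 := by rw [← Complex.exp_log (hg0 1), h1, Complex.exp_log (hg0 0)]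
  have h3 := congrArg Complex.re h2
  norm_num [hg] at h3

end Crest.Agent.R197
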