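import Crest.Agent.R197.Wr
import Crest.Agent.R197.Det1
import Crest.Agent.R197.Wind
import Crest.Agent.R197.Theta

/-! R197: the boundary map on the `2`-cells of the universal cover is injective.

Let `π e = Λ.μ (ed e)`, `w r = loopVal η (chr 2 r)`, `bd2 π w c = 0`; fix `(r₀, g₁)`, show `c (r₀, g₁) = 0`.
Let `b r = gau Λ.μ (chr 2 r d0)`.  For `(r, g)` let `Φ r g` be the lift of `chr 2 r` on `ball 0 1` with
`Φ r g d0 = lab (chr 2 r d0) g` (`exists_lift_convex`).  Apply `exists_theta` to `ι = Φ r₀ (g₁ * b r₀)`,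
`j = (chr 2 r₀).symm ∘ p` (`ι '' ball = (ι ∘ symm) '' (open cell)` is open by `isOpen_image_section`,
`isOpen_chr_image`; `t2Space_of_covering`).  `θ` does not vanish over `Sp X`.  For a path `γ` let
`lf γ g` be a lift of `γ` on `[0,1]` starting at `lab (γ 0) g` (choice; junk if there is none) and define
`ν : PF (Sp X) (Wr G (Multiplicative ℂ))` by `val γ = ⟨fun g => ω (θ ∘ lf γ g), Λ.μ γ⟩` (to get `congr`
define `lf` through the restriction of `γ` to `Icc 0 1`, or use uniqueness of lifts and set the value to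
`1` for non-paths).  `sq`: lift `K` on `Sq` from `lab (K (0,0)) g`; by `lift_end` and uniqueness
(`IsCoveringMap.eqOn_of_comp_eqOn`) the sides of the lift are the `lf` of the sides; use `ω.sq`.
`det1` on the four sides gives `lift (ν ∘ ed) (w r) = gau ν d * loopVal ν (chr 2 r) * (gau ν d)⁻¹`,
`d = chr 2 r d0`, and `(gau ν d).g = b r`; `lift (ν ∘ ed) = holW π α` with
`α (e, g) = ω (θ ∘ lf (ed e) g)`.  Since `(loopVal ν _).g = loopVal Λ.μ _ = 1` and `ℂ` is commutative,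
`hol π α (w r) g = (loopVal ν (chr 2 r)).f (g * b r) = loopVal ω (θ ∘ Φ r (g * b r))`.  This is `1` for
`(r, g) ≠ (r₀, g₁)` (`loopVal_eq_one`: `Φ r g' z = ι 0` forces `r = r₀`, `z = 0`, equal lifts, `lab_inj`)
and `≠ 1` for `(r₀, g₁)` (product rule of `ω`, `loopVal_eq_one` for `f`).  By `hol_eq_fox`,
`0 = linearCombination ℤ (toAdd ∘ α) (bd2 π w c) = c (r₀, g₁) • κ` with `κ ≠ 0` in `ℂ`. -/

set_option autoImplicit false

namespace Crest.Agent.R197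

open Set Metric Topology

section wv

variable {X E G M : Type} [TopologicalSpace X] [TopologicalSpace E] [Group G] [Group M]
  {p : E → X} {x₀ : X}

/-- `c` is the lift of `γ` that starts at the point with label `g`. -/
def Inj2Lift (Λ : Lab p G x₀) (γ : ℝ → X) (g : G) (c : ℝ → E) : Prop :=
  IsPath univ c ∧ (∀ t ∈ Icc (0 : ℝ) 1, p (c t) = γ t) ∧ c 0 = Λ.lab (γ 0) g

theorem Inj2Lift.congr {Λ : Lab p G x₀} {γ γ' : ℝ → X} {g : G} {c : ℝ → E}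
    (h : Inj2Lift Λ γ g c) (e : EqOn γ γ' (Icc 0 1)) : Inj2Lift Λ γ' g c :=
  ⟨h.1, fun t ht => (h.2.1 t ht).trans (e ht), by
    rw [h.2.2, e (left_mem_Icc.2 zero_le_one)]⟩

theorem Inj2Lift.last {Λ : Lab p G x₀} {γ : ℝ → X} {g : G} {c : ℝ → E}
    (h : Inj2Lift Λ γ g c) : c 1 = Λ.lab (γ 1) (g * Λ.μ.val γ) := by
  have h0 := h.2.1 0 (left_mem_Icc.2 zero_le_one)
  have h1 := h.2.1 1 (right_mem_Icc.2 zero_le_one)
  have h2 := Λ.lift_end c g h.1 (by rw [h0]; exact h.2.2)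
  rw [h2, h1, Λ.μ.congr (γ := fun t => p (c t)) (γ' := γ) fun t ht => h.2.1 t ht]

theorem Inj2Lift.unique (hp : IsCoveringMap p) {Λ : Lab p G x₀} {γ : ℝ → X} {g : G}
    {c c' : ℝ → E} (h : Inj2Lift Λ γ g c) (h' : Inj2Lift Λ γ g c') : EqOn c c' (Icc 0 1) :=
  hp.eqOn_of_comp_eqOn isPreconnected_Icc h.1.1 h'.1.1
    (fun t ht => (h.2.1 t ht).trans (h'.2.1 t ht).symm) (left_mem_Icc.2 zero_le_one)
    (h.2.2.trans h'.2.2.symm)

open Classical in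
/-- The value of `ω` on the image under `θ` of the lift of `γ`. -/
noncomputable def inj2Wv (Λ : Lab p G x₀) (ω : PF ({0}ᶜ : Set ℂ) M) (θ : E → ℂ) (γ : ℝ → X)
    (g : G) : M :=
  if h : ∃ c, Inj2Lift Λ γ g c then ω.val fun t => θ (h.choose t) else 1

theorem inj2Wv_eq (hp : IsCoveringMap p) {Λ : Lab p G x₀} (ω : PF ({0}ᶜ : Set ℂ) M) (θ : E → ℂ)
    {γ : ℝ → X} {g : G} {c : ℝ → E} (h : Inj2Lift Λ γ g c) :
    inj2Wv Λ ω θ γ g = ω.val fun t => θ (c t) := by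
  have h' : ∃ c, Inj2Lift Λ γ g c := ⟨c, h⟩
  rw [inj2Wv, dif_pos h']
  exact ω.congr fun t ht => by simp only [h'.choose_spec.unique hp h ht]

theorem inj2Wv_congr (hp : IsCoveringMap p) (Λ : Lab p G x₀) (ω : PF ({0}ᶜ : Set ℂ) M)
    (θ : E → ℂ) {γ γ' : ℝ → X} (e : EqOn γ γ' (Icc 0 1)) (g : G) :
    inj2Wv Λ ω θ γ g = inj2Wv Λ ω θ γ' g := by
  by_cases h : ∃ c, Inj2Lift Λ γ g c
  · obtain ⟨c, hc⟩ := h
    rw [inj2Wv_eq hp ω θ hc, inj2Wv_eq hp ω θ (hc.congr e)]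
  · have h' : ¬∃ c, Inj2Lift Λ γ' g c := fun ⟨c, hc⟩ => h ⟨c, hc.congr e.symm⟩
    rw [inj2Wv, inj2Wv, dif_neg h, dif_neg h']

theorem inj2_convex_Sq : Convex ℝ Sq := (convex_Icc 0 1).prod (convex_Icc 0 1)

theorem inj2_isPath_h {t : ℝ} (ht : t ∈ Icc (0 : ℝ) 1) : IsPath Sq fun s : ℝ => (s, t) :=
  ⟨by fun_prop, fun _ hs => ⟨hs, ht⟩⟩

theorem inj2_isPath_v {s : ℝ} (hs : s ∈ Icc (0 : ℝ) 1) : IsPath Sq fun t : ℝ => (s, t) :=
  ⟨by fun_prop, fun _ ht => ⟨hs, ht⟩⟩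

theorem inj2Lift_comp {W : Type} [TopologicalSpace W] (Λ : Lab p G x₀) {C : Set W} {F : W → X}
    {Φ : W → E} (hΦ : ContinuousOn Φ C) (hF : ∀ z ∈ C, p (Φ z) = F z) {δ : ℝ → W}
    (hδ : IsPath C δ) {g : G} (h0 : Φ (δ 0) = Λ.lab (F (δ 0)) g) :
    Inj2Lift Λ (fun t => F (δ t)) g fun t => Φ (δ t) :=
  ⟨hδ.comp hΦ (mapsTo_univ _ _), fun _ ht => hF _ (hδ.2 ht), h0⟩

/-- The path function with values in the wreath product. -/
noncomputable def inj2Nu (hp : IsCoveringMap p) (Λ : Lab p G x₀) (ω : PF ({0}ᶜ : Set ℂ) M)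
    (θ : E → ℂ) (hθ : Continuous θ) (S : Set X) (hS : ∀ y, p y ∈ S → θ y ≠ 0) :
    PF S (Wr G M) where
  val γ := ⟨inj2Wv Λ ω θ γ, Λ.μ.val γ⟩
  congr e := by
    ext g
    · exact inj2Wv_congr hp Λ ω θ e g
    · exact Λ.μ.congr e
  const y hy := by
    ext g
    · have h : Inj2Lift Λ (fun _ => y) g fun _ => Λ.lab y g :=
        ⟨⟨continuousOn_const, mapsTo_univ _ _⟩, fun _ _ => Λ.p_lab y g, rfl⟩
      exact (inj2Wv_eq hp ω θ h).trans (ω.const _ (hS _ (by rwa [Λ.p_lab])))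
    · exact Λ.μ.const y (mem_univ _)
  sq K h1 h2 := by
    ext g
    · have z0 : (0 : ℝ) ∈ Icc (0 : ℝ) 1 := left_mem_Icc.2 zero_le_one
      have z1 : (1 : ℝ) ∈ Icc (0 : ℝ) 1 := right_mem_Icc.2 zero_le_one
      obtain ⟨Φ, c1, c2, c3⟩ := exists_lift_convex hp inj2_convex_Sq h1 (a := (0, 0)) ⟨z0, z0⟩
        (Λ.p_lab (K (0, 0)) g)
      have lb := inj2Lift_comp Λ c1 c2 (inj2_isPath_h z0) c3
      have ll := inj2Lift_comp Λ c1 c2 (inj2_isPath_v z0) c3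
      have lr := inj2Lift_comp Λ c1 c2 (inj2_isPath_v z1) lb.last
      have lt := inj2Lift_comp Λ c1 c2 (inj2_isPath_h z1) ll.last
      simp only [Wr.mul_f]
      rw [inj2Wv_eq hp ω θ lb, inj2Wv_eq hp ω θ ll, inj2Wv_eq hp ω θ lr, inj2Wv_eq hp ω θ lt]
      exact ω.sq (fun q => θ (Φ q)) (hθ.comp_continuousOn c1) fun q hq =>
        hS _ (by rw [c2 q hq]; exact h2 hq)
    · exact Λ.μ.sq K h1 (mapsTo_univ _ _)

theorem inj2_side_ball : IsPath (ball 0 1) (seg d0 d1) ∧ IsPath (ball 0 1) (seg d1 d2) ∧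
    IsPath (ball 0 1) (seg d2 d3) ∧ IsPath (ball 0 1) (seg d3 d0) :=
  ⟨isPath_side.1.mono sdiff_subset, isPath_side.2.1.mono sdiff_subset,
    isPath_side.2.2.1.mono sdiff_subset, isPath_side.2.2.2.mono sdiff_subset⟩

theorem inj2_d0_mem : d0 ∈ ball (0 : Fin 2 → ℝ) 1 := by
  simpa using inj2_side_ball.1.zero_mem

theorem inj2Nu_loop_g (hp : IsCoveringMap p) (Λ : Lab p G x₀) (ω : PF ({0}ᶜ : Set ℂ) M)
    (θ : E → ℂ) (hθ : Continuous θ) (S : Set X) (hS : ∀ y, p y ∈ S → θ y ≠ 0)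
    (F : (Fin 2 → ℝ) → X) : (loopVal (inj2Nu hp Λ ω θ hθ S hS) F).g = loopVal Λ.μ F := rfl

theorem inj2Nu_loop_f (hp : IsCoveringMap p) (Λ : Lab p G x₀) (ω : PF ({0}ᶜ : Set ℂ) M)
    (θ : E → ℂ) (hθ : Continuous θ) (S : Set X) (hS : ∀ y, p y ∈ S → θ y ≠ 0)
    {F : (Fin 2 → ℝ) → X} {Φ : (Fin 2 → ℝ) → E} (c1 : ContinuousOn Φ (ball 0 1))
    (c2 : ∀ z ∈ ball (0 : Fin 2 → ℝ) 1, p (Φ z) = F z) {g : G} (c3 : Φ d0 = Λ.lab (F d0) g) :
    (loopVal (inj2Nu hp Λ ω θ hθ S hS) F).f g = loopVal ω fun z => θ (Φ z) := by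
  obtain ⟨s0, s1, s2, s3⟩ := inj2_side_ball
  have l0 := inj2Lift_comp Λ c1 c2 s0 (g := g) (by simpa using c3)
  have l1 := inj2Lift_comp Λ c1 c2 s1 (by simpa using l0.last)
  have l2 := inj2Lift_comp Λ c1 c2 s2 (by simpa using l1.last)
  have l3 := inj2Lift_comp Λ c1 c2 s3 (by simpa using l2.last)
  simp only [loopVal, Wr.mul_f, Wr.mul_g, inj2Nu]
  rw [← inj2Wv_eq hp ω θ l0, ← inj2Wv_eq hp ω θ l1, ← inj2Wv_eq hp ω θ l2, ← inj2Wv_eq hp ω θ l3]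
  simp only [mul_assoc]

theorem inj2_loopVal_congr {Y H : Type} [TopologicalSpace Y] [Group H] {S : Set Y} (μ : PF S H)
    {F F' : (Fin 2 → ℝ) → Y} (e : EqOn F F' (ball 0 1)) : loopVal μ F = loopVal μ F' := by
  obtain ⟨s0, s1, s2, s3⟩ := inj2_side_ball
  rw [loopVal, loopVal, μ.congr (γ' := fun t => F' (seg d0 d1 t)) fun t ht => e (s0.2 ht),
    μ.congr (γ := fun t => F (seg d1 d2 t)) (γ' := fun t => F' (seg d1 d2 t))
      fun t ht => e (s1.2 ht),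
    μ.congr (γ := fun t => F (seg d2 d3 t)) (γ' := fun t => F' (seg d2 d3 t))
      fun t ht => e (s2.2 ht),
    μ.congr (γ := fun t => F (seg d3 d0 t)) (γ' := fun t => F' (seg d3 d0 t))
      fun t ht => e (s3.2 ht)]

theorem inj2_loopVal_mul (ω : PF ({0}ᶜ : Set ℂ) (Multiplicative ℂ))
    (hω : ∀ γ γ', IsPath {0}ᶜ γ → IsPath {0}ᶜ γ' →
      ω.val (fun t => γ t * γ' t) = ω.val γ * ω.val γ')
    {f u : (Fin 2 → ℝ) → ℂ} (hf : ContinuousOn f Punct) (hf0 : MapsTo f Punct {0}ᶜ)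
    (hu : ContinuousOn u Punct) (hu0 : MapsTo u Punct {0}ᶜ) :
    loopVal ω (fun z => f z * u z) = loopVal ω f * loopVal ω u := by
  obtain ⟨s0, s1, s2, s3⟩ := isPath_side
  simp only [loopVal]
  rw [hω _ _ (s0.comp hf hf0) (s0.comp hu hu0), hω _ _ (s1.comp hf hf0) (s1.comp hu hu0),
    hω _ _ (s2.comp hf hf0) (s2.comp hu hu0), hω _ _ (s3.comp hf hf0) (s3.comp hu hu0)]
  simp only [mul_left_comm, mul_assoc]

theorem inj2_mapsTo_u :
    MapsTo (fun z : Fin 2 → ℝ => (z 0 : ℂ) + (z 1 : ℂ) * Complex.I) Punct {0}ᶜ := by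
  intro z hz h0
  apply hz.2
  have h1 := congrArg Complex.re (mem_singleton_iff.1 h0)
  have h2 := congrArg Complex.im (mem_singleton_iff.1 h0)
  simp only [Complex.add_re, Complex.ofReal_re, Complex.mul_re, Complex.I_re, mul_zero,
    Complex.ofReal_im, Complex.I_im, mul_one, sub_self, add_zero, Complex.zero_re, Complex.add_im,
    Complex.mul_im, zero_add, Complex.zero_im] at h1 h2
  rw [mem_singleton_iff]
  funext i
  fin_cases i
  · exact h1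
  · exact h2

end wv

variable {X : Type} [TopologicalSpace X] [CWComplex (univ : Set X)] [T2Space X]

theorem inj2_loop_det (h : Dim2 X) (η : PF (Sp X) (FreeGroup (Cell X 1)))
    (hη : ∀ i, η.Pot (U1 i) (f1 i)) {H : Type} [Group H] (ν : PF (Sp X) H) (r : Cell X 2) :
    FreeGroup.lift (fun e => ν.val (ed e)) (loopVal η (chr 2 r))
      = gau ν (chr 2 r d0) * loopVal ν (chr 2 r) * (gau ν (chr 2 r d0))⁻¹ := by
  obtain ⟨s0, s1, s2, s3⟩ := isPath_side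
  have hc : ContinuousOn (chr 2 r) Punct :=
    (continuousOn_chr 2 r).mono (sdiff_subset.trans ball_subset_closedBall)
  have hm := mapsTo_chr_punct r
  simp only [loopVal, map_mul]
  rw [det1 h η hη ν (s0.comp hc hm), det1 h η hη ν (s1.comp hc hm), det1 h η hη ν (s2.comp hc hm),
    det1 h η hη ν (s3.comp hc hm)]
  simp only [seg_zero, seg_one]
  group

theorem inj2_theta (h : Dim2 X) {E : Type} [TopologicalSpace E] [ContractibleSpace E] {p : E → X}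
    (hp : IsCoveringMap p) (r : Cell X 2) {ι : (Fin 2 → ℝ) → E} (c1 : ContinuousOn ι (ball 0 1))
    (c2 : ∀ z ∈ ball (0 : Fin 2 → ℝ) 1, p (ι z) = chr 2 r z) :
    ∃ θ : E → ℂ, Continuous θ ∧ (∀ y, y ≠ ι 0 → θ y ≠ 0) ∧
      ∃ f : (Fin 2 → ℝ) → ℂ, ContinuousOn f (ball 0 1) ∧ (∀ z ∈ ball (0 : Fin 2 → ℝ) 1, f z ≠ 0) ∧
        ∀ z ∈ ball (0 : Fin 2 → ℝ) 1, θ (ι z) = f z * ((z 0 : ℂ) + (z 1 : ℂ) * Complex.I) := by
  have := t2Space_of_covering hp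
  have hm : MapsTo (chr 2 r).symm (chr 2 r '' ball 0 1) (ball 0 1) := by
    rintro _ ⟨z, hz, rfl⟩
    rwa [chr_symm_chr 2 r hz]
  have ho : IsOpen ((fun x => ι ((chr 2 r).symm x)) '' (chr 2 r '' ball 0 1)) :=
    isOpen_image_section hp (isOpen_chr_image h r isOpen_ball subset_rfl)
      (c1.comp (continuousOn_chr_symm 2 r) hm) (by
        rintro _ ⟨z, hz, rfl⟩
        rw [chr_symm_chr 2 r hz, c2 z hz])
  have e : (fun x => ι ((chr 2 r).symm x)) '' (chr 2 r '' ball 0 1) = ι '' ball 0 1 := by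
    rw [image_image]
    exact image_congr fun z hz => by rw [chr_symm_chr 2 r hz]
  rw [e] at ho
  refine exists_theta ι (fun y => (chr 2 r).symm (p y)) c1 ho ?_ fun z hz => ?_
  · refine (continuousOn_chr_symm 2 r).comp hp.continuous.continuousOn ?_
    rintro _ ⟨z, hz, rfl⟩
    exact ⟨z, hz, (c2 z hz).symm⟩
  · simp only [c2 z hz, chr_symm_chr 2 r hz]

/-- The connection whose holonomy detects the cell `(r₀, g₁)`. -/
theorem inj2_detect (h : Dim2 X) (η : PF (Sp X) (FreeGroup (Cell X 1)))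
    (hη : ∀ i, η.Pot (U1 i) (f1 i)) {E : Type} [TopologicalSpace E] [ContractibleSpace E]
    {p : E → X} (hp : IsCoveringMap p) {G : Type} [Group G] {x₀ : X} (Λ : Lab p G x₀)
    (q₀ : Cell X 2 × G) :
    ∃ α : Cell X 1 × G → Multiplicative ℂ,
      hol (fun e : Cell X 1 => Λ.μ.val (ed e)) α (loopVal η (chr 2 q₀.1)) q₀.2 ≠ 1 ∧
      ∀ q : Cell X 2 × G, q ≠ q₀ →
        hol (fun e : Cell X 1 => Λ.μ.val (ed e)) α (loopVal η (chr 2 q.1)) q.2 = 1 := by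
  obtain ⟨r₀, g₁⟩ := q₀
  obtain ⟨ω, hω, hω1⟩ := exists_wind
  have hc : ∀ r : Cell X 2, ContinuousOn (chr 2 r) (ball 0 1) := fun r =>
    (continuousOn_chr 2 r).mono ball_subset_closedBall
  have hl : ∀ (r : Cell X 2) (g : G), ∃ Φ : (Fin 2 → ℝ) → E, ContinuousOn Φ (ball 0 1) ∧
      (∀ z ∈ ball (0 : Fin 2 → ℝ) 1, p (Φ z) = chr 2 r z) ∧
      Φ d0 = Λ.lab (chr 2 r d0) (g * gau Λ.μ (chr 2 r d0)) := fun r g =>
    exists_lift_convex hp (convex_ball 0 1) (hc r) inj2_d0_mem (Λ.p_lab _ _)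
  obtain ⟨ι, i1, i2, i3⟩ := hl r₀ g₁
  obtain ⟨θ, hθ, hθ0, f, hf, hf0, hθf⟩ := inj2_theta h hp r₀ i1 i2
  have b0 : (0 : Fin 2 → ℝ) ∈ ball (0 : Fin 2 → ℝ) 1 := mem_ball_self one_pos
  have hS : ∀ y, p y ∈ Sp X → θ y ≠ 0 := fun y hy => hθ0 y fun e =>
    hy ⟨r₀, by rw [e, i2 0 b0]⟩
  have key : ∀ (r : Cell X 2) (g : G) (Φ : (Fin 2 → ℝ) → E), ContinuousOn Φ (ball 0 1) →
      (∀ z ∈ ball (0 : Fin 2 → ℝ) 1, p (Φ z) = chr 2 r z) →
      Φ d0 = Λ.lab (chr 2 r d0) (g * gau Λ.μ (chr 2 r d0)) →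
      hol (fun e : Cell X 1 => Λ.μ.val (ed e)) (fun q => inj2Wv Λ ω θ (ed q.1) q.2)
        (loopVal η (chr 2 r)) g = loopVal ω fun z => θ (Φ z) := by
    intro r g Φ c1 c2 c3
    have e1 := inj2_loop_det h η hη (inj2Nu hp Λ ω θ hθ (Sp X) hS) r
    have e2 : hol (fun e : Cell X 1 => Λ.μ.val (ed e)) (fun q => inj2Wv Λ ω θ (ed q.1) q.2)
        (loopVal η (chr 2 r)) g = (FreeGroup.lift
          (fun e => (inj2Nu hp Λ ω θ hθ (Sp X) hS).val (ed e)) (loopVal η (chr 2 r))).f g := rfl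
    have e3 : (gau (inj2Nu hp Λ ω θ hθ (Sp X) hS) (chr 2 r d0)).g = gau Λ.μ (chr 2 r d0) := rfl
    rw [e2, e1, Wr.mul_f, Wr.mul_f, Wr.inv_f, Wr.mul_g, inj2Nu_loop_g,
      loopVal_eq_one Λ.μ (hc r) (mapsTo_univ _ _), e3,
      inj2Nu_loop_f hp Λ ω θ hθ (Sp X) hS c1 c2 c3, mul_one, mul_inv_cancel_right,
      mul_inv_cancel_comm]
  refine ⟨fun q => inj2Wv Λ ω θ (ed q.1) q.2, ?_, ?_⟩
  · rw [key r₀ g₁ ι i1 i2 i3, inj2_loopVal_congr ω hθf,
      inj2_loopVal_mul ω hω (hf.mono sdiff_subset) (fun z hz => hf0 z hz.1) (by fun_prop)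
        inj2_mapsTo_u, loopVal_eq_one ω hf hf0, one_mul]
    exact hω1
  · rintro ⟨r, g⟩ hq
    obtain ⟨Φ, c1, c2, c3⟩ := hl r g
    rw [key r g Φ c1 c2 c3]
    refine loopVal_eq_one ω (hθ.comp_continuousOn c1) fun z hz => hθ0 _ fun e => hq ?_
    have e1 : chr 2 r z = chr 2 r₀ 0 := by rw [← c2 z hz, e, i2 0 b0]
    obtain ⟨rfl, rfl⟩ := cell_eq_of_chr_eq hz b0 e1
    have e2 := hp.eqOn_of_comp_eqOn (convex_ball (0 : Fin 2 → ℝ) 1).isPreconnected c1 i1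
      (fun z hz => (c2 z hz).trans (i2 z hz).symm) b0 e inj2_d0_mem
    rw [c3, i3] at e2
    rw [mul_right_cancel (Λ.lab_inj _ e2)]

theorem inj2 (h : Dim2 X) (η : PF (Sp X) (FreeGroup (Cell X 1))) (hη : ∀ i, η.Pot (U1 i) (f1 i))
    {E : Type} [TopologicalSpace E] [ContractibleSpace E] {p : E → X} (hp : IsCoveringMap p)
    {G : Type} [Group G] {x₀ : X} (Λ : Lab p G x₀) :
    Function.Injective
      (bd2 (fun e : Cell X 1 => Λ.μ.val (ed e)) fun r : Cell X 2 => loopVal η (chr 2 r)) := by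
  classical
  rw [injective_iff_map_eq_zero]
  intro c hc
  ext q₀
  obtain ⟨α, h1, h2⟩ := inj2_detect h η hη hp Λ q₀
  set κ := Multiplicative.toAdd
    (hol (fun e : Cell X 1 => Λ.μ.val (ed e)) α (loopVal η (chr 2 q₀.1)) q₀.2) with hκ
  have hκ0 : κ ≠ 0 := fun e => h1 (by simpa [hκ] using e)
  have e := chain_ext
    (f := Finsupp.linearCombination ℤ (fun q => Multiplicative.toAdd (α q)) ∘ₗ
      bd2 (fun e : Cell X 1 => Λ.μ.val (ed e)) fun r : Cell X 2 => loopVal η (chr 2 r))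
    (g := (Finsupp.lapply q₀ : (Cell X 2 × G →₀ ℤ) →ₗ[ℤ] ℤ).smulRight κ) (fun q => by
      have e1 := hol_eq_fox (fun e : Cell X 1 => Λ.μ.val (ed e))
        (fun q => Multiplicative.toAdd (α q)) (loopVal η (chr 2 q.1)) q.2
      simp only [ofAdd_toAdd] at e1
      have e2 := congrArg Multiplicative.toAdd e1
      rw [toAdd_ofAdd] at e2
      simp only [LinearMap.comp_apply, bd2_single, one_smul, LinearMap.smulRight_apply,
        Finsupp.lapply_apply]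
      rw [← e2]
      by_cases hq : q = q₀
      · subst hq; simp [hκ]
      · rw [h2 q hq, Finsupp.single_eq_of_ne (Ne.symm hq)]; simp) c
  simp only [LinearMap.comp_apply, hc, map_zero, LinearMap.smulRight_apply,
    Finsupp.lapply_apply] at e
  simpa [hκ0] using e.symm

end Crest.Agent.R197
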