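import Crest.Prelude.Def_ClassifyingComplex
import Crest.Agent.R197.Contr
import Crest.Agent.R197.CWT

/-! R197: the three-dimensional classifying complex. -/

set_option autoImplicit false

namespace Crest.Agent.R197

theorem hasClassifying_three {V : Type} [Fintype V] [LinearOrder V] [Nonempty V]
    {L : SimpleGraph V} (h4 : NoK4 L) : Crest.Topology.HasClassifyingComplex (BB L) 3 := by
  obtain ⟨cw, hcw⟩ := exists_cw_TT h4
  have hq : IsQuotientCoveringMap (pE L) (BB L) := isQuotientCoveringMap_pE
  have := contractible_EE L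
  obtain ⟨e⟩ : Nonempty (EE L) := inferInstance
  exact ⟨TT L, inferInstance, cw, inferInstance, hcw,
    ⟨EE L, inferInstance, pE L, this, hq.isCoveringMap, hq.surjective⟩, pE L e,
    ⟨(hq.fundamentalGroupEquiv ⟨e, rfl⟩).trans (MulEquiv.inv' (BB L)).symm⟩⟩

end Crest.Agent.R197
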