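import Crest.Agent.R197.RADefs

/-! R197: the cube complex `EE L` as a space, and its quotient `TT L` by the Bestvina-Brady group. -/

set_option autoImplicit false

namespace Crest.Agent.R197

open Set

variable {V : Type} (L : SimpleGraph V)

instance : TopologicalSpace (RA L) := ⊥
instance : DiscreteTopology (RA L) := ⟨rfl⟩

/-- The union of the cubes with bottom vertex `1`. -/
def Kc : Type := {t : V → ℝ // (∀ v, t v ∈ Icc (0 : ℝ) 1) ∧ L.IsClique {v | t v ≠ 0}}

instance : TopologicalSpace (Kc L) := inferInstanceAs (TopologicalSpace (Subtype _))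

/-- Elementary identification: `(g, t)` with `t v = 1` is `(g * v, t[v := 0])`. -/
def Mv (a b : RA L × Kc L) : Prop :=
  ∃ v, a.2.1 v = 1 ∧ b.1 = a.1 * gen L v ∧ b.2.1 v = 0 ∧ ∀ u, u ≠ v → b.2.1 u = a.2.1 u

/-- The cube complex. -/
def EE : Type := Quot (Mv L)

instance : TopologicalSpace (EE L) := inferInstanceAs (TopologicalSpace (Quot (Mv L)))

variable {L} in
/-- The point `t` of the cube with bottom vertex `g`. -/
def EE.mk (a : RA L × Kc L) : EE L := Quot.mk (Mv L) a

theorem isQuotientMap_mk : Topology.IsQuotientMap (EE.mk : RA L × Kc L → EE L) :=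
  isQuotientMap_quot_mk

instance : MulAction (RA L) (EE L) where
  smul c := Quot.map (fun a => (c * a.1, a.2)) (by
    rintro a b ⟨v, h1, h2, h3⟩
    exact ⟨v, h1, by simp only [h2, mul_assoc], h3⟩)
  one_smul x := by
    induction x using Quot.ind with
    | mk a => exact congrArg (Quot.mk _) (by simp)
  mul_smul c d x := by
    induction x using Quot.ind with
    | mk a => exact congrArg (Quot.mk _) (by simp [mul_assoc])

variable {L} in
@[simp] theorem smul_mk (c : RA L) (a : RA L × Kc L) : c • EE.mk a = EE.mk (c * a.1, a.2) := rfl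

variable [Fintype V]

/-- The infinite cyclic cover of the Salvetti complex. -/
def TT : Type := {q : (V → AddCircle (1 : ℝ)) × ℝ //
  L.IsClique {v | q.1 v ≠ 0} ∧ ∑ v, q.1 v = (q.2 : AddCircle (1 : ℝ))}

instance : TopologicalSpace (TT L) := inferInstanceAs (TopologicalSpace (Subtype _))
instance : T2Space (TT L) := inferInstanceAs (T2Space (Subtype _))

/-- The projection on representatives. -/
noncomputable def pE0 (a : RA L × Kc L) : TT L :=
  ⟨(fun v => (a.2.1 v : AddCircle (1 : ℝ)), (htz a.1 : ℝ) + ∑ v, a.2.1 v), by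
    refine ⟨SimpleGraph.IsClique.subset (fun v hv => ?_) a.2.2.2, ?_⟩
    · intro h0
      exact hv (by simp [h0])
    · have h1 : (((htz a.1 : ℤ) : ℝ) : AddCircle (1 : ℝ)) = 0 :=
        (AddCircle.coe_eq_zero_iff _).2 ⟨htz a.1, by simp⟩
      simp only [AddCircle.coe_add, h1, zero_add]
      exact (map_sum (QuotientAddGroup.mk' (AddSubgroup.zmultiples (1 : ℝ))) _ _).symm⟩

theorem pE0_mv (a b : RA L × Kc L) (h : Mv L a b) : pE0 L a = pE0 L b := by
  classical
  obtain ⟨v, h1, h2, h3, h4⟩ := h
  refine Subtype.ext (Prod.ext (funext fun u => ?_) ?_)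
  · by_cases hu : u = v
    · subst hu
      simp only [pE0, h1, h3]
      exact (AddCircle.coe_period (1 : ℝ)).trans (AddCircle.coe_zero _).symm
    · simp only [pE0, h4 u hu]
  · simp only [pE0, h2, htz_mul, htz_gen]
    rw [← Finset.add_sum_erase _ _ (Finset.mem_univ v),
      ← Finset.add_sum_erase _ b.2.1 (Finset.mem_univ v), h1, h3,
      Finset.sum_congr rfl fun u hu => h4 u (Finset.ne_of_mem_erase hu)]
    push_cast
    ring

/-- The covering projection. -/
noncomputable def pE : EE L → TT L := Quot.lift (pE0 L) (pE0_mv L)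

variable {L}

@[simp] theorem pE_mk (a : RA L × Kc L) : pE L (EE.mk a) = pE0 L a := rfl

/-- Unsigned wall coordinates of a point. -/
noncomputable def crd0 (a : RA L × Kc L) (W : Wall L) : ℝ :=
  (sgnW W : ℝ) * ((eta a.1 W : ℝ) + ∑ v, if wl a.1 (v, true) = W then a.2.1 v else 0)

end Crest.Agent.R197
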