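import Crest.Agent.R197.Lift
import Crest.Agent.R197.PFBasic

/-! R197: construction of `Lab`.

`X` is path connected (`Function.Surjective.pathConnectedSpace`), so `FundamentalGroup X x₀ ≃* G`
(`FundamentalGroup.fundamentalGroupMulEquivOfPathConnected`).  Mathlib multiplies loops backwards
(`FundamentalGroup.mul_def : p * q = q.trans p`), so put `cl q = (iso q)⁻¹`: a bijection from
`Path.Homotopic.Quotient x₀ x₀` to `G` with `cl (q.trans q') = cl q * cl q'`.  Choose `P x : Path x₀ x` with
`P x₀ = refl`, `γ x = (P x).extend`.  For a path `c` let `pa c : Path (c 0) (c 1)` be its restriction and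
`μ c = cl ⟦(P (c 0)).trans ((pa c).trans (P (c 1)).symm)⟧` (`1` if `c` is not continuous on `[0,1]`).  To
avoid casts it is convenient to work in the fundamental groupoid, or to prove `congr` through a version
`μ' (x y) (q : Path x y)` and `subst`.  `sq`: the two ways round `I × I` are homotopic
(`SimplyConnectedSpace.paths_homotopic` in the contractible space `I × I`; map by `K`).
`lab x g = monodromy ((cl.symm g).trans ⟦P x⟧) e₀`; injective because `E` is simply connected
(`monodromy_bijective`; if two loops have the same monodromy at `e₀`, their lifts `liftPathQuotient` are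
equal by `Subsingleton`, apply `map_liftPathQuotient`).  `lift_end`: `monodromy_trans_apply`,
`monodromy_map`.  `universal`: `ψ (cl ⟦q⟧) = ν q.extend`; well defined by `ν.sq` and `ν.const` applied to
the homotopy (extended to `ℝ × ℝ` by `projIcc`), multiplicative by `PF.split` at `1/2` and `ν.congr`;
`PF.rev` for `symm`. -/

set_option autoImplicit false

namespace Crest.Agent.R197

open Set Topology

variable {X E : Type} [TopologicalSpace X] [TopologicalSpace E] {p : E → X}

/-- The restriction of a path `ℝ → X` to the unit interval. -/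
def lbPa (c : ℝ → X) (h : ContinuousOn c (Icc 0 1)) : Path (c 0) (c 1) where
  toFun t := c t
  continuous_toFun := h.domRestrict
  source' := rfl
  target' := rfl

theorem lb_continuousOn {x y : X} (q : Path x y) {c : ℝ → X} (h : ∀ t : unitInterval, c t = q t) :
    ContinuousOn c (Icc 0 1) :=
  q.continuous_extend.continuousOn.congr fun t ht => by
    rw [q.extend_apply ht]; exact h ⟨t, ht⟩

/-- The algebraic data: a covariant labelling of loops and reference paths. -/
structure LbData (X : Type) [TopologicalSpace X] (G : Type) [Group G] (x₀ : X) where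
  cl : Path.Homotopic.Quotient x₀ x₀ ≃ G
  cl_trans : ∀ q q', cl (q.trans q') = cl q * cl q'
  P : ∀ x, Path x₀ x
  P_base : P x₀ = Path.refl x₀

open Path.Homotopic.Quotient in
theorem lb_trans_cancel {x y z : X} {a b : Path.Homotopic.Quotient x y}
    (c : Path.Homotopic.Quotient y z) (h : a.trans c = b.trans c) : a = b := by
  have := congrArg (fun q : Path.Homotopic.Quotient x z => q.trans c.symm) h
  simpa only [trans_assoc, trans_symm, trans_refl] using this

namespace LbData

open Path.Homotopic.Quotient

variable {G : Type} [Group G] {x₀ : X} (D : LbData X G x₀)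

theorem cl_refl : D.cl (.refl x₀) = 1 := by
  have h := D.cl_trans (.refl x₀) (.refl x₀)
  rw [refl_trans] at h
  exact (mul_eq_left.1 h.symm)

theorem symm_mul (g g' : G) : D.cl.symm (g * g') = (D.cl.symm g).trans (D.cl.symm g') := by
  apply D.cl.injective
  rw [D.cl_trans]
  simp

/-- The label of a homotopy class of paths. -/
noncomputable def m {x y : X} (q : Path.Homotopic.Quotient x y) : G :=
  D.cl ((Path.Homotopic.Quotient.mk (D.P x)).trans (q.trans (Path.Homotopic.Quotient.mk (D.P y)).symm))

theorem m_trans {x y z : X} (q : Path.Homotopic.Quotient x y) (q' : Path.Homotopic.Quotient y z) :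
    D.m (q.trans q') = D.m q * D.m q' := by
  unfold m
  rw [← D.cl_trans]
  congr 1
  simp only [trans_assoc]
  rw [← trans_assoc (Path.Homotopic.Quotient.mk (D.P y)).symm, symm_trans, refl_trans]

theorem m_refl (x : X) : D.m (.refl x) = 1 := by
  unfold m
  rw [refl_trans, trans_symm, D.cl_refl]

theorem m_base (q : Path.Homotopic.Quotient x₀ x₀) : D.m q = D.cl q := by
  unfold m
  have h : (refl x₀).symm = refl x₀ := by
    rw [← refl_trans (refl x₀).symm, trans_symm]
  rw [D.P_base, mk_refl, refl_trans, h, trans_refl]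

theorem m_P (x : X) : D.m (Path.Homotopic.Quotient.mk (D.P x)) = 1 := by
  unfold m
  rw [D.P_base, mk_refl, refl_trans, trans_symm, D.cl_refl]

open Classical in
/-- The value of the path function. -/
noncomputable def val (c : ℝ → X) : G :=
  if h : ContinuousOn c (Icc 0 1) then D.m (Path.Homotopic.Quotient.mk (lbPa c h)) else 1

theorem val_eq {x y : X} (q : Path x y) {c : ℝ → X} (h : ∀ t : unitInterval, c t = q t) :
    D.val c = D.m (Path.Homotopic.Quotient.mk q) := by
  have hc := lb_continuousOn q h
  obtain rfl : x = c 0 := by simpa using (h 0).symm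
  obtain rfl : y = c 1 := by simpa using (h 1).symm
  unfold val
  rw [dif_pos hc]
  congr 2
  ext t
  exact h t

/-- The path function. -/
noncomputable def pf : PF (univ : Set X) G where
  val := D.val
  congr := by
    intro γ γ' h
    by_cases hc : ContinuousOn γ (Icc 0 1)
    · rw [D.val_eq (lbPa γ hc) (c := γ) fun _ => rfl,
        D.val_eq (lbPa γ hc) (c := γ') fun t => (h t.2).symm]
    · have hc' : ¬ ContinuousOn γ' (Icc 0 1) := fun h' => hc (h'.congr h)
      unfold val
      rw [dif_neg hc, dif_neg hc']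
  const := by
    intro y _
    rw [D.val_eq (Path.refl y) fun _ => rfl, mk_refl, D.m_refl]
  sq := by
    intro K hK _
    have h0 : (0 : ℝ) ∈ Icc (0 : ℝ) 1 := left_mem_Icc.2 zero_le_one
    have h1 : (1 : ℝ) ∈ Icc (0 : ℝ) 1 := right_mem_Icc.2 zero_le_one
    have : ContractibleSpace Sq :=
      Convex.contractibleSpace (s := Sq) ((convex_Icc (0 : ℝ) 1).prod (convex_Icc (0 : ℝ) 1))
        ⟨(0, 0), h0, h0⟩
    let k : C(Sq, X) := ⟨Sq.domRestrict K, hK.domRestrict⟩
    let hor (b : ℝ) (hb : b ∈ Icc (0 : ℝ) 1) :
        Path (⟨(0, b), h0, hb⟩ : Sq) ⟨(1, b), h1, hb⟩ :=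
      ⟨⟨fun t => ⟨(t, b), t.2, hb⟩, by fun_prop⟩, rfl, rfl⟩
    let ver (a : ℝ) (ha : a ∈ Icc (0 : ℝ) 1) :
        Path (⟨(a, 0), ha, h0⟩ : Sq) ⟨(a, 1), ha, h1⟩ :=
      ⟨⟨fun t => ⟨(a, t), ha, t.2⟩, by fun_prop⟩, rfl, rfl⟩
    rw [D.val_eq ((hor 0 h0).map k.continuous) (c := fun s => K (s, 0)) fun _ => rfl,
      D.val_eq ((hor 1 h1).map k.continuous) (c := fun s => K (s, 1)) fun _ => rfl,
      D.val_eq ((ver 0 h0).map k.continuous) (c := fun t => K (0, t)) fun _ => rfl,
      D.val_eq ((ver 1 h1).map k.continuous) (c := fun t => K (1, t)) fun _ => rfl,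
      ← D.m_trans, ← D.m_trans, ← mk_trans, ← mk_trans, ← Path.map_trans, ← Path.map_trans]
    congr 1
    exact Path.Homotopic.Quotient.eq.2
      ((SimplyConnectedSpace.paths_homotopic ((hor 0 h0).trans (ver 1 h1))
        ((ver 0 h0).trans (hor 1 h1))).map k)

end LbData

section universal

variable {H : Type} [Group H] (ν : PF (univ : Set X) H)

theorem lb_isPath {x y : X} (q : Path x y) : IsPath univ q.extend :=
  ⟨q.continuous_extend.continuousOn, mapsTo_univ _ _⟩

theorem lb_val_homotopic {x y : X} {q q' : Path x y} (h : q.Homotopic q') :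
    ν.val q.extend = ν.val q'.extend := by
  obtain ⟨F⟩ := h
  have hsq := ν.sq (fun z => F (projIcc 0 1 zero_le_one z.2, projIcc 0 1 zero_le_one z.1))
    (Continuous.continuousOn (F.continuous.comp
      ((continuous_projIcc.comp continuous_snd).prodMk (continuous_projIcc.comp continuous_fst))))
    (mapsTo_univ _ _)
  have e0 : projIcc (0 : ℝ) 1 zero_le_one 0 = 0 := projIcc_left _
  have e1 : projIcc (0 : ℝ) 1 zero_le_one 1 = 1 := projIcc_right _
  simp only [e0, e1, F.source, F.target, ν.const _ (mem_univ _), mul_one, one_mul] at hsq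
  have a0 : ν.val q.extend = ν.val fun s => F (0, projIcc 0 1 zero_le_one s) :=
    ν.congr fun t ht => by
      rw [q.extend_apply ht, projIcc_of_mem _ ht]
      exact (F.apply_zero _).symm
  have a1 : ν.val q'.extend = ν.val fun s => F (1, projIcc 0 1 zero_le_one s) :=
    ν.congr fun t ht => by
      rw [q'.extend_apply ht, projIcc_of_mem _ ht]
      exact (F.apply_one _).symm
  rw [a0, a1, hsq]

theorem lb_val_trans {x y z : X} (q : Path x y) (q' : Path y z) :
    ν.val (q.trans q').extend = ν.val q.extend * ν.val q'.extend := by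
  rw [ν.split (lb_isPath (q.trans q')) (a := 1 / 2) ⟨by norm_num, by norm_num⟩]
  congr 1
  · refine ν.congr fun t ht => ?_
    have h : seg (0 : ℝ) (1 / 2) t = t / 2 := by simp [seg]; ring
    simp only [h]
    rw [Path.extend_trans_of_le_half _ _ (by linarith [ht.2])]
    congr 1
    ring
  · refine ν.congr fun t ht => ?_
    have h : seg (1 / 2 : ℝ) 1 t = (1 + t) / 2 := by simp [seg]; ring
    simp only [h]
    rw [Path.extend_trans_of_half_le _ _ (by linarith [ht.1])]
    congr 1
    ring

/-- A path function on homotopy classes. -/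
noncomputable def lbNq {x y : X} (q : Path.Homotopic.Quotient x y) : H :=
  Quotient.lift (s := Path.Homotopic.setoid x y) (fun q : Path x y => ν.val q.extend)
    (fun _ _ h => lb_val_homotopic ν h) q

theorem lbNq_mk {x y : X} (q : Path x y) :
    lbNq ν (Path.Homotopic.Quotient.mk q) = ν.val q.extend := rfl

theorem lbNq_trans {x y z : X} (q : Path.Homotopic.Quotient x y)
    (q' : Path.Homotopic.Quotient y z) : lbNq ν (q.trans q') = lbNq ν q * lbNq ν q' := by
  induction q using Path.Homotopic.Quotient.ind with | mk q =>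
  induction q' using Path.Homotopic.Quotient.ind with | mk q' =>
  exact lb_val_trans ν q q'

theorem lbNq_symm {x y : X} (q : Path.Homotopic.Quotient x y) :
    lbNq ν q.symm = (lbNq ν q)⁻¹ := by
  have h := lbNq_trans ν q q.symm
  rw [Path.Homotopic.Quotient.trans_symm] at h
  have h1 : lbNq ν (Path.Homotopic.Quotient.refl x) = 1 := ν.const x (mem_univ _)
  rw [h1] at h
  exact (eq_inv_of_mul_eq_one_right h.symm)

end universal

theorem lb_monodromy_inj (hp : IsCoveringMap p) [SimplyConnectedSpace E] {x y : X}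
    (e : p ⁻¹' {x}) {q q' : Path.Homotopic.Quotient x y}
    (h : hp.monodromy q e = hp.monodromy q' e) : q = q' := by
  have key (r : Path.Homotopic.Quotient x y) (e' : p ⁻¹' {y}) (hr : hp.monodromy r e = e') :
      ∃ Γ : Path.Homotopic.Quotient e.1 e'.1, Γ.map ⟨p, hp.continuous⟩ = r.cast e.2 e'.2 := by
    subst hr
    exact ⟨_, hp.map_liftPathQuotient r e⟩
  obtain ⟨Γ, hΓ⟩ := key q _ h
  obtain ⟨Γ', hΓ'⟩ := key q' _ rfl
  obtain rfl : Γ = Γ' := Subsingleton.elim _ _
  have h2 := hΓ.symm.trans hΓ'
  exact eq_of_heq (((Path.Homotopic.Quotient.cast_heq _ _).symm.trans (heq_of_eq h2)).trans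
    (Path.Homotopic.Quotient.cast_heq _ _))

theorem lb_exists_data [PathConnectedSpace X] {G : Type} [Group G] {x : X}
    (iso : FundamentalGroup X x ≃* G) (x₀ : X) : Nonempty (LbData X G x₀) := by
  classical
  let j : FundamentalGroup X x₀ ≃* G :=
    (FundamentalGroup.fundamentalGroupMulEquivOfPathConnected x₀ x).trans iso
  refine ⟨⟨j.toEquiv.trans (Equiv.inv G), fun q q' => ?_,
    fun y => if h : x₀ = y then (Path.refl x₀).cast rfl h.symm else PathConnectedSpace.somePath x₀ y,
    by simp⟩⟩
  have h := map_mul j (FundamentalGroup.fromPath q') (FundamentalGroup.fromPath q)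
  rw [FundamentalGroup.mul_def] at h
  change (j (FundamentalGroup.fromPath (q.trans q')))⁻¹ =
    (j (FundamentalGroup.fromPath q))⁻¹ * (j (FundamentalGroup.fromPath q'))⁻¹
  rw [← mul_inv_rev, ← h]

theorem exists_lab (hp : IsCoveringMap p) (hs : Function.Surjective p) [ContractibleSpace E]
    {G : Type} [Group G] {x : X} (iso : FundamentalGroup X x ≃* G) (x₀ : X) :
    Nonempty (Lab p G x₀) := by
  have : PathConnectedSpace X := hs.pathConnectedSpace hp.continuous
  obtain ⟨D⟩ := lb_exists_data iso x₀
  obtain ⟨e₀, he₀⟩ := hs x₀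
  let lab (y : X) (g : G) : p ⁻¹' {y} :=
    hp.monodromy ((D.cl.symm g).trans (Path.Homotopic.Quotient.mk (D.P y))) ⟨e₀, he₀⟩
  refine ⟨⟨D.pf, fun y g => (lab y g).1, fun y => (D.P y).extend, fun y g => (lab y g).2, ?_, ?_,
    ?_, ?_, ?_, ?_, ?_⟩⟩
  · intro y g g' h
    exact D.cl.symm.injective (lb_trans_cancel _ (lb_monodromy_inj hp _ (Subtype.ext h)))
  · intro c g hc h0
    have hv : D.pf.val (fun t => p (c t)) =
        D.m ((Path.Homotopic.Quotient.mk (lbPa c hc.1)).map ⟨p, hp.continuous⟩) :=
      D.val_eq ((lbPa c hc.1).map hp.continuous) fun _ => rfl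
    have h1 : lab (p (c 0)) g = ⟨c 0, rfl⟩ := Subtype.ext h0.symm
    have h2 := hp.monodromy_map (Path.Homotopic.Quotient.mk (lbPa c hc.1))
    have h4 {y z : X} (q : Path.Homotopic.Quotient y z) :
        lab z (g * D.m q) = hp.monodromy q (lab y g) := by
      simp only [lab]
      rw [← hp.monodromy_trans_apply, D.symm_mul, LbData.m, Equiv.symm_apply_apply]
      simp only [Path.Homotopic.Quotient.trans_assoc, Path.Homotopic.Quotient.symm_trans,
        Path.Homotopic.Quotient.trans_refl]
    have h3 : lab (p (c 1)) (g * D.pf.val fun t => p (c t)) =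
        hp.monodromy ((Path.Homotopic.Quotient.mk (lbPa c hc.1)).map ⟨p, hp.continuous⟩)
          (lab (p (c 0)) g) := by
      rw [hv]
      exact h4 _
    rw [h1] at h3
    exact congrArg Subtype.val (h3.trans h2).symm
  · intro y
    exact ⟨lb_isPath _, Path.extend_zero _, Path.extend_one _⟩
  · simp only [D.P_base]
    rfl
  · intro y
    exact (D.val_eq (D.P y) fun t => Path.extend_extends' _ t).trans (D.m_P y)
  · intro g
    obtain ⟨q, hq⟩ := Path.Homotopic.Quotient.mk_surjective (D.cl.symm g)
    refine ⟨q.extend, lb_isPath q, q.extend_zero, q.extend_one, ?_⟩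
    refine (D.val_eq q fun t => Path.extend_extends' _ t).trans ?_
    rw [D.m_base, hq, Equiv.apply_symm_apply]
  · intro H _ ν
    refine ⟨MonoidHom.mk' (fun g => lbNq ν (D.cl.symm g)) fun g g' => ?_, fun c hc => ?_⟩
    · rw [D.symm_mul, lbNq_trans]
    · have hv : D.pf.val c = D.m (Path.Homotopic.Quotient.mk (lbPa c hc.1)) :=
        D.val_eq (lbPa c hc.1) fun _ => rfl
      have hc' : ν.val (lbPa c hc.1).extend = ν.val c :=
        ν.congr fun t ht => Path.extend_apply _ ht
      rw [hv, MonoidHom.mk'_apply, LbData.m, Equiv.symm_apply_apply, lbNq_trans, lbNq_trans,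
        lbNq_symm, lbNq_mk, lbNq_mk, lbNq_mk, hc', mul_assoc]

end Crest.Agent.R197
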