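import Crest.Agent.R197.RADefs

/-! R197: generators of the Bestvina-Brady group, and the `H²` data.

`piE_surj`: let `H ≤ RA L` be the image of the range of `lift (piE L)`.  For adjacent `u`, `v` and
`k : ℤ`, `gen u ^ k * (gen v ^ k)⁻¹ = ((gen v)⁻¹ * gen u) ^ k ∈ H` (either `u < v` or `v < u`); by
induction along a walk this holds for all `u`, `v`.  By `RA.induction`,
`g * (gen v₀ ^ htz g)⁻¹ ∈ H` for all `g`: `η v₀^k * v^{±1} = η (v₀^k v^{-k}) (v^{k±1} v₀^{-(k±1)}) v₀^{k±1}`.
`exists_h2_data`: for a triangle `u < v < w` take `a = piE e01`, `b = piE e12` and the exponent sums of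
`u` and of `w` (`RA.lift (fun x => ofAdd (if x = u then 1 else 0))` restricted to `BB L`). -/

set_option autoImplicit false

namespace Crest.Agent.R197

variable {V : Type} [LinearOrder V] {L : SimpleGraph V}

private theorem levA_adj (H : Subgroup (RA L)) (hH : ∀ a : EdgeT L, (piE L a : RA L) ∈ H)
    {u v : V} (h : L.Adj u v) (k : ℤ) : gen L u ^ k * (gen L v ^ k)⁻¹ ∈ H := by
  have hc : Commute (gen L u) (gen L v) := gen_comm h
  have e : gen L u ^ k * (gen L v ^ k)⁻¹ = ((gen L v)⁻¹ * gen L u) ^ k := by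
    rw [hc.symm.inv_left.mul_zpow, inv_zpow, ((hc.zpow_zpow k k).inv_right).eq]
  rw [e]
  refine H.zpow_mem ?_ k
  rcases lt_or_gt_of_ne h.ne with h1 | h1
  · have := H.inv_mem (hH ⟨(u, v), h1, h⟩)
    simpa [piE] using this
  · exact hH ⟨(v, u), h1, h.symm⟩

private theorem levA_walk (H : Subgroup (RA L)) (hH : ∀ a : EdgeT L, (piE L a : RA L) ∈ H)
    {u v : V} (p : L.Walk u v) (k : ℤ) : gen L u ^ k * (gen L v ^ k)⁻¹ ∈ H := by
  induction p with
  | nil => simp [H.one_mem]
  | @cons a b c h _ ih =>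
    have := H.mul_mem (levA_adj H hH h k) ih
    simpa [mul_assoc] using this

private theorem levA_all (hL : L.Connected) (H : Subgroup (RA L))
    (hH : ∀ a : EdgeT L, (piE L a : RA L) ∈ H) (v₀ : V) (g : RA L) :
    g * (gen L v₀ ^ htz g)⁻¹ ∈ H := by
  have hw : ∀ u v k, gen L u ^ k * (gen L v ^ (k : ℤ))⁻¹ ∈ H := fun u v k =>
    (hL.preconnected u v).elim fun p => levA_walk H hH p k
  induction g using RA.induction with
  | h1 => simp [H.one_mem]
  | hs g s ih =>
    obtain ⟨v, _ | _⟩ := s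
    · have := H.mul_mem (H.mul_mem ih (hw v₀ v (htz g))) (hw v v₀ (htz g + -1))
      have e : g * lt L (v, false) * (gen L v₀ ^ htz (g * lt L (v, false)))⁻¹ =
          g * (gen L v₀ ^ htz g)⁻¹ * (gen L v₀ ^ htz g * (gen L v ^ htz g)⁻¹) *
            (gen L v ^ (htz g + -1) * (gen L v₀ ^ (htz g + -1))⁻¹) := by
        simp only [lt_false, htz_mul, htz_inv, htz_gen]
        group
      rw [e]; exact this
    · have := H.mul_mem (H.mul_mem ih (hw v₀ v (htz g))) (hw v v₀ (htz g + 1))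
      have e : g * lt L (v, true) * (gen L v₀ ^ htz (g * lt L (v, true)))⁻¹ =
          g * (gen L v₀ ^ htz g)⁻¹ * (gen L v₀ ^ htz g * (gen L v ^ htz g)⁻¹) *
            (gen L v ^ (htz g + 1) * (gen L v₀ ^ (htz g + 1))⁻¹) := by
        simp only [lt_true, htz_mul, htz_gen]
        group
      rw [e]; exact this

/-- exponent sum of a generator -/
private def levA_exp (L : SimpleGraph V) (u : V) : RA L →* Multiplicative ℤ :=
  RA.lift L (fun x => Multiplicative.ofAdd (if x = u then 1 else 0)) fun _ _ _ => Commute.all _ _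

theorem piE_surj (hL : L.Connected) : Function.Surjective (FreeGroup.lift (piE L)) := by
  intro g
  obtain ⟨v₀⟩ := hL.nonempty
  have := levA_all hL ((FreeGroup.lift (piE L)).range.map (BB L).subtype)
    (fun a => ⟨piE L a, ⟨FreeGroup.of a, by simp⟩, rfl⟩) v₀ g
  rw [mem_BB.1 g.2] at this
  simp only [zpow_zero, inv_one, mul_one] at this
  obtain ⟨x, ⟨w, hw⟩, hx⟩ := this
  exact ⟨w, hw.trans (Subtype.ext hx)⟩

theorem lift_relT (i : TriT L × Bool) : FreeGroup.lift (piE L) (relT L i) = 1 := by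
  obtain ⟨⟨⟨u, v, w⟩, h1, h2, huv, hvw, huw⟩, _ | _⟩ := i
  · apply Subtype.ext
    simp only [relT, cond_false, map_mul, map_inv,
      Subgroup.coe_mul, Subgroup.coe_inv, Subgroup.coe_one]
    have c1 : Commute (gen L u) ((gen L w)⁻¹ * gen L v) :=
      (gen_comm huw).inv_right.mul_right (gen_comm huv)
    have c2 : Commute (gen L v) (gen L w)⁻¹ := (gen_comm hvw).inv_right
    calc ((gen L u)⁻¹ * gen L v)⁻¹ * ((gen L v)⁻¹ * gen L w)⁻¹ * ((gen L u)⁻¹ * gen L w)
        = (gen L v)⁻¹ * (gen L u * ((gen L w)⁻¹ * gen L v)) * (gen L u)⁻¹ * gen L w := by group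
      _ = (gen L v)⁻¹ * ((gen L w)⁻¹ * gen L v) * gen L w := by rw [c1.eq]; group
      _ = 1 := by rw [← c2.eq]; group
  · apply Subtype.ext
    simp only [relT, cond_true, map_mul, map_inv, FreeGroup.lift_apply_of,
      Subgroup.coe_mul, Subgroup.coe_inv, Subgroup.coe_one]
    change (gen L u)⁻¹ * gen L v * ((gen L v)⁻¹ * gen L w) * ((gen L u)⁻¹ * gen L w)⁻¹ = 1
    group

theorem fg_BB [Finite V] (hL : L.Connected) : Group.FG (BB L) := by
  have : Group.FG (FreeGroup (EdgeT L)) := by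
    refine Group.fg_iff.2 ⟨Set.range FreeGroup.of, FreeGroup.closure_range_of _, ?_⟩
    exact Set.finite_range _
  exact Group.fg_of_surjective (piE_surj hL)

theorem exists_h2_data (t : TriT L) : ∃ (φ ψ : BB L →* Multiplicative ℤ) (a b : BB L),
    Commute a b ∧ (φ a).toAdd * (ψ b).toAdd ≠ (φ b).toAdd * (ψ a).toAdd := by
  obtain ⟨⟨u, v, w⟩, h1, h2, huv, hvw, huw⟩ := t
  simp only at h1 h2 huv hvw huw
  refine ⟨(levA_exp L u).comp (BB L).subtype, (levA_exp L w).comp (BB L).subtype,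
    piE L ⟨(u, v), h1, huv⟩, piE L ⟨(v, w), h2, hvw⟩, ?_, ?_⟩
  · apply Subtype.ext
    have c : Commute ((gen L u)⁻¹ * gen L v) ((gen L v)⁻¹ * gen L w) :=
      Commute.mul_left
        (((gen_comm huv).inv_right.mul_right (gen_comm huw)).inv_left)
        ((Commute.refl _).inv_right.mul_right (gen_comm hvw))
    exact c.eq
  · have n1 : v ≠ u := h1.ne'
    have n2 : w ≠ u := (h1.trans h2).ne'
    have n3 : u ≠ w := (h1.trans h2).ne
    have n4 : v ≠ w := h2.ne
    simp [levA_exp, piE, n1, n2, n3, n4]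

end Crest.Agent.R197
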