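import Crest.Agent.R197.ChHt
import Crest.Agent.R197.LevA

/-! R197: the level set complex is acyclic.

Cells of the cube complex that cross level `0` (`htz g < 0 < htz g + card σ`) are called straddling;
`st` is the projection (`Finsupp.filter`) onto them.  Define injections on cells
`j1 ((u,v), x) = (x * (gen u)⁻¹, {u, v})`, `j2 ((t, true), x) = (x * (gen u)⁻¹, {u,v,w})`,
`j2 ((t, false), x) = (x * (gen v)⁻¹ * (gen w)⁻¹, {u,v,w})` and `ι1 = lmapDomain j1`,
`ι2 = lmapDomain j2`.  Their ranges are the straddling cells of degree `2` and `3` (`Finset.card_eq_two`,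
`card_eq_three` with sorting).  On cells: `st (dC (ι2 c)) = - ι1 (bd2 (piE L) (relT L) c)`
(`fox_mul`, `fox_inv`, `fox_of`; `sg` on `{u,v,w}` is `1, -1, 1`).  Let `up` be the projection onto cells
with `0 ≤ htz g`; on cells `dC (up (dC (ι1 c))) = lmapDomain (fun x => (x, ∅)) (bd1 (piE L) c)`.
`inj`: if `bd2 c = 0`, write `dC (ι2 c) = a + b`, `b = up (..)`, `a` supported on top height `≤ 0`.
`dC a = - dC b` is supported on cells of degree `1` with top `≤ 0` and bottom `≥ 0`, so it is `0`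
(`dC` preserves both conditions).  `a = dC a'`, `b = dC b'` (`below_exact`, `above_exact`),
`ι2 c - a' - b'` is a cycle of degree `3`, hence `0` (`cube_exact`, `NoK4`); apply `st`.
`exact`: if `bd1 c = 0`, write `dC (ι1 c) = a + b` as before, `dC b = 0`, so `dC a = 0`,
`ι1 c - a' - b' = dC d` with `d` of degree `3`; apply `st`: `ι1 c = st (dC (st d))` (faces of cells
that do not straddle do not straddle) and `st d = ι2 c'`. -/

set_option autoImplicit false

namespace Crest.Agent.R197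

open Finsupp

variable {V : Type} [LinearOrder V] {L : SimpleGraph V}

namespace LevB

/-- The empty clique. -/
def c0 : Cl L := ⟨∅, by simp⟩

/-- A vertex as a clique. -/
def c1 (v : V) : Cl L := ⟨{v}, by simp⟩

/-- An edge as a clique. -/
def cE (a : EdgeT L) : Cl L := ⟨{a.1.1, a.1.2}, by
  simpa [SimpleGraph.isClique_pair] using fun _ => a.2.2⟩

/-- A triangle as a clique. -/
def cT (t : TriT L) : Cl L := ⟨{t.1.1, t.1.2.1, t.1.2.2}, by
  obtain ⟨⟨u, v, w⟩, h1, h2, h3, h4, h5⟩ := t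
  exact (SimpleGraph.is3Clique_triple_iff.2 ⟨h3, h5, h4⟩).isClique⟩

theorem card_cE (a : EdgeT L) : (cE a).1.card = 2 := Finset.card_pair a.2.1.ne

theorem card_cT (t : TriT L) : (cT t).1.card = 3 :=
  Finset.card_eq_three.2 ⟨_, _, _, t.2.1.ne, (t.2.1.trans t.2.2.1).ne, t.2.2.1.ne, rfl⟩

theorem cE_injective : Function.Injective (cE : EdgeT L → Cl L) := by
  rintro ⟨⟨u, v⟩, h1, h2⟩ ⟨⟨u', v'⟩, h1', h2'⟩ h
  have h3 : ({u, v} : Finset V) = {u', v'} := congrArg Subtype.val h
  have h4 := Finset.ext_iff.1 h3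
  have a1 := h4 u
  have a2 := h4 v
  have a3 := h4 u'
  have a4 := h4 v'
  simp only [Finset.mem_insert, Finset.mem_singleton, true_or, or_true, true_iff, iff_true]
    at a1 a2 a3 a4 h1 h1'
  have : u = u' ∧ v = v' := by grind
  obtain ⟨rfl, rfl⟩ := this
  rfl

theorem cT_injective : Function.Injective (cT : TriT L → Cl L) := by
  rintro ⟨⟨u, v, w⟩, h1, h2, h3⟩ ⟨⟨u', v', w'⟩, h1', h2', h3'⟩ h
  have h3 : ({u, v, w} : Finset V) = {u', v', w'} := congrArg Subtype.val h
  have h4 := Finset.ext_iff.1 h3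
  have a1 := h4 u
  have a2 := h4 v
  have a3 := h4 w
  have a4 := h4 u'
  have a5 := h4 v'
  have a6 := h4 w'
  simp only [Finset.mem_insert, Finset.mem_singleton, true_or, or_true, true_iff, iff_true]
    at a1 a2 a3 a4 a5 a6 h1 h1' h2 h2'
  have : u = u' ∧ v = v' ∧ w = w' := by grind
  obtain ⟨rfl, rfl, rfl⟩ := this
  rfl

theorem exists_cT (σ : Cl L) (h : σ.1.card = 3) : ∃ t, cT t = σ := by
  let f := σ.1.orderEmbOfFin h
  have hf : ∀ i, f i ∈ σ.1 := fun i => Finset.orderEmbOfFin_mem _ _ _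
  have hlt : ∀ i j : Fin 3, i < j → f i < f j := fun i j hij => f.strictMono hij
  have hadj : ∀ i j : Fin 3, i < j → L.Adj (f i) (f j) := fun i j hij =>
    σ.2 (hf i) (hf j) (hlt i j hij).ne
  let t : TriT L := ⟨(f 0, f 1, f 2), hlt 0 1 (by decide), hlt 1 2 (by decide),
    hadj 0 1 (by decide), hadj 1 2 (by decide), hadj 0 2 (by decide)⟩
  refine ⟨t, Subtype.ext (Finset.eq_of_subset_of_card_le ?_ (by rw [card_cT, h]))⟩
  intro x hx
  simp only [cT, t, Finset.mem_insert, Finset.mem_singleton] at hx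
  rcases hx with rfl | rfl | rfl <;> exact hf _

theorem dC_c1 (g : RA L) (v : V) :
    dC L (single (g, c1 v) 1) = single (g * gen L v, c0) 1 - single (g, c0) 1 := by
  have e : (c1 v : Cl L).erase v = c0 := Subtype.ext (by simp [Cl.erase, c1, c0])
  have s : sg v ({v} : Finset V) = 1 := by simp [sg, Finset.filter_singleton]
  rw [dC_single]
  change ∑ x ∈ ({v} : Finset V), sg x {v} • _ = _
  rw [Finset.sum_singleton, e, s, one_smul]

theorem dC_cE (g : RA L) (a : EdgeT L) :
    dC L (single (g, cE a) 1) =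
      (single (g * gen L a.1.1, c1 a.1.2) 1 - single (g, c1 a.1.2) 1) -
        (single (g * gen L a.1.2, c1 a.1.1) 1 - single (g, c1 a.1.1) 1) := by
  obtain ⟨⟨u, v⟩, h1, h2⟩ := a
  have h1' : u < v := h1
  have e1 : (cE ⟨(u, v), h1, h2⟩ : Cl L).erase u = c1 v := Subtype.ext (by
    ext x; simp only [Cl.erase, cE, c1, Finset.mem_erase, Finset.mem_insert, Finset.mem_singleton]
    grind)
  have e2 : (cE ⟨(u, v), h1, h2⟩ : Cl L).erase v = c1 u := Subtype.ext (by
    ext x; simp only [Cl.erase, cE, c1, Finset.mem_erase, Finset.mem_insert, Finset.mem_singleton]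
    grind)
  have s1 : sg u ({u, v} : Finset V) = 1 := by
    simp [sg, Finset.filter_insert, Finset.filter_singleton, h1'.not_gt]
  have s2 : sg v ({u, v} : Finset V) = -1 := by
    simp [sg, Finset.filter_insert, Finset.filter_singleton, h1']
  rw [dC_single]
  change ∑ x ∈ ({u, v} : Finset V), sg x {u, v} • _ = _
  rw [Finset.sum_pair h1'.ne, e1, e2, s1, s2, one_smul, neg_one_smul, sub_eq_add_neg
    (_ - _)]

theorem dC_cT (g : RA L) (t : TriT L) :
    dC L (single (g, cT t) 1) =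
      (single (g * gen L t.1.1, cE t.e12) 1 - single (g, cE t.e12) 1) -
        (single (g * gen L t.1.2.1, cE t.e02) 1 - single (g, cE t.e02) 1) +
        (single (g * gen L t.1.2.2, cE t.e01) 1 - single (g, cE t.e01) 1) := by
  obtain ⟨⟨u, v, w⟩, h1, h2, h3⟩ := t
  have h1' : u < v := h1
  have h2' : v < w := h2
  have h3' : u < w := h1'.trans h2'
  set t : TriT L := ⟨(u, v, w), h1, h2, h3⟩ with ht
  have e1 : (cT t).erase u = cE t.e12 := Subtype.ext (by
    ext x
    simp only [ht, Cl.erase, cE, cT, TriT.e12, Finset.mem_erase, Finset.mem_insert,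
      Finset.mem_singleton]
    grind)
  have e2 : (cT t).erase v = cE t.e02 := Subtype.ext (by
    ext x
    simp only [ht, Cl.erase, cE, cT, TriT.e02, Finset.mem_erase, Finset.mem_insert,
      Finset.mem_singleton]
    grind)
  have e3 : (cT t).erase w = cE t.e01 := Subtype.ext (by
    ext x
    simp only [ht, Cl.erase, cE, cT, TriT.e01, Finset.mem_erase, Finset.mem_insert,
      Finset.mem_singleton]
    grind)
  have s1 : sg u ({u, v, w} : Finset V) = 1 := by
    simp [sg, Finset.filter_insert, Finset.filter_singleton, h1'.not_gt, h3'.not_gt]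
  have s2 : sg v ({u, v, w} : Finset V) = -1 := by
    simp [sg, Finset.filter_insert, Finset.filter_singleton, h1', h2'.not_gt]
  have s3 : sg w ({u, v, w} : Finset V) = 1 := by
    simp [sg, Finset.filter_insert, Finset.filter_singleton, h2', h3', Finset.card_pair h1'.ne]
  rw [dC_single]
  change ∑ x ∈ ({u, v, w} : Finset V), sg x {u, v, w} • _ = _
  rw [Finset.sum_insert (by simp [h1'.ne, h3'.ne]), Finset.sum_pair h2'.ne, e1, e2, e3, s1, s2, s3,
    one_smul, one_smul, neg_one_smul]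
  abel

/-- Bottom height at least zero. -/
def Hi (b : RA L × Cl L) : Prop := 0 ≤ htz b.1

/-- Top height at most zero. -/
def Lo (b : RA L × Cl L) : Prop := htz b.1 + b.2.1.card ≤ 0

/-- Straddling cells. -/
def St (b : RA L × Cl L) : Prop := htz b.1 < 0 ∧ 0 < htz b.1 + b.2.1.card

open Classical in
/-- Projection onto the cells with property `P`. -/
noncomputable def prj {B : Type} (P : B → Prop) : (B →₀ ℤ) →ₗ[ℤ] (B →₀ ℤ) :=
  (Finsupp.filterAddHom P).toIntLinearMap

open Classical in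
theorem prj_apply {B : Type} (P : B → Prop) (c : B →₀ ℤ) (b : B) :
    prj P c b = if P b then c b else 0 := Finsupp.filter_apply P c b

theorem prj_pos {B : Type} {P : B → Prop} {c : B →₀ ℤ} (h : ∀ b ∈ c.support, P b) :
    prj P c = c := by
  ext b
  rw [prj_apply]
  split_ifs with hb
  · rfl
  · by_contra h0
    exact hb (h b (mem_support_iff.2 (Ne.symm h0)))

theorem prj_neg {B : Type} {P : B → Prop} {c : B →₀ ℤ} (h : ∀ b ∈ c.support, ¬P b) :
    prj P c = 0 := by
  ext b
  rw [prj_apply]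
  split_ifs with hb
  · by_contra h0
    exact h b (mem_support_iff.2 h0) hb
  · rfl

theorem prj_single_pos {B : Type} {P : B → Prop} {b : B} (h : P b) (n : ℤ) :
    prj P (single b n) = single b n :=
  prj_pos fun x hx => by rwa [Finset.mem_singleton.1 (support_single_subset hx)]

theorem prj_single_neg {B : Type} {P : B → Prop} {b : B} (h : ¬P b) (n : ℤ) :
    prj P (single b n) = 0 :=
  prj_neg fun x hx => by rwa [Finset.mem_singleton.1 (support_single_subset hx)]

theorem mem_prj {B : Type} {P : B → Prop} {c : B →₀ ℤ} {b : B} (h : b ∈ (prj P c).support) :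
    P b ∧ b ∈ c.support := by
  rw [mem_support_iff, prj_apply] at h
  split_ifs at h with hb
  · exact ⟨hb, mem_support_iff.2 h⟩
  · exact (h rfl).elim

theorem mem_sub_prj {B : Type} {P : B → Prop} {c : B →₀ ℤ} {b : B}
    (h : b ∈ (c - prj P c).support) : ¬P b ∧ b ∈ c.support := by
  rw [mem_support_iff, Finsupp.sub_apply, prj_apply] at h
  split_ifs at h with hb
  · exact (h (sub_self _)).elim
  · exact ⟨hb, mem_support_iff.2 (by simpa using h)⟩

/-- A cell in the boundary of a chain is a face of a cell of the chain. -/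
theorem mem_dC {c : RA L × Cl L →₀ ℤ} {b : RA L × Cl L} (h : b ∈ (dC L c).support) :
    ∃ a ∈ c.support, b.2.1.card + 1 = a.2.1.card ∧ (htz b.1 = htz a.1 + 1 ∨ htz b.1 = htz a.1) := by
  classical
  rw [dC, linearCombination_apply] at h
  obtain ⟨a, ha, h⟩ := Finset.mem_biUnion.1 (support_sum h)
  obtain ⟨v, hv, h⟩ := Finset.mem_biUnion.1 (Finsupp.support_finsetSum (support_smul h))
  refine ⟨a, ha, ?_⟩
  rcases Finset.mem_union.1 (support_sub (support_smul h)) with h | h <;>
    rw [Finset.mem_singleton.1 (support_single_subset h)]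
  · exact ⟨Finset.card_erase_add_one hv, Or.inl (by simp)⟩
  · exact ⟨Finset.card_erase_add_one hv, Or.inr rfl⟩

theorem lo_of_st {c : RA L × Cl L →₀ ℤ} (h : prj St c = 0) {b : RA L × Cl L}
    (hb : b ∈ (c - prj Hi c).support) : Lo b ∧ b ∈ c.support := by
  obtain ⟨h1, h2⟩ := mem_sub_prj hb
  refine ⟨?_, h2⟩
  by_contra h3
  have h4 := DFunLike.congr_fun h b
  rw [prj_apply, if_pos ⟨not_le.1 h1, not_le.1 h3⟩] at h4
  exact mem_support_iff.1 h2 h4

/-- Mayer-Vietoris step. -/
theorem split (hL : Acyc L) {n : ℕ} (hn : 1 ≤ n) {c : RA L × Cl L →₀ ℤ}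
    (hc : ∀ b ∈ c.support, b.2.1.card = n + 1) (h1 : prj St (dC L c) = 0)
    (h2 : dC L (prj Hi (dC L c)) = 0) :
    ∃ d : RA L × Cl L →₀ ℤ, (∀ b ∈ d.support, b.2.1.card = n + 2) ∧
      prj St c = prj St (dC L d) := by
  classical
  have hdeg : ∀ b ∈ (dC L c).support, b.2.1.card = n := fun b hb => by
    obtain ⟨a, ha, h, -⟩ := mem_dC hb
    have := hc a ha
    omega
  obtain ⟨a', ha', hda⟩ := below_exact hL hn (dC L c - prj Hi (dC L c))
    (fun b hb => ⟨hdeg b (lo_of_st h1 hb).2, (lo_of_st h1 hb).1⟩)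
    (by rw [map_sub, dC_dC, h2, sub_zero])
  obtain ⟨b', hb', hdb⟩ := above_exact hL hn (prj Hi (dC L c))
    (fun b hb => ⟨hdeg b (mem_prj hb).2, (mem_prj hb).1⟩) h2
  obtain ⟨d, hd, hdd⟩ := cube_exact (n := n + 1) (by omega) (c - a' - b')
    (fun b hb => by
      rcases Finset.mem_union.1 (support_sub hb) with hb | hb
      · rcases Finset.mem_union.1 (support_sub hb) with hb | hb
        · exact hc b hb
        · exact (ha' b hb).1
      · exact (hb' b hb).1)
    (by rw [map_sub, map_sub, hda, hdb]; abel)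
  refine ⟨d, hd, ?_⟩
  rw [hdd, map_sub, map_sub, prj_neg (c := a') fun b hb h => not_le.2 h.2 (ha' b hb).2,
    prj_neg (c := b') fun b hb h => not_le.2 h.1 (hb' b hb).2, sub_zero, sub_zero]

/-- Edges of the level set as squares. -/
def j1 (p : EdgeT L × BB L) : RA L × Cl L := (p.2.1 * (gen L p.1.1.1)⁻¹, cE p.1)

/-- Triangles of the level set as cubes. -/
def j2 (p : (TriT L × Bool) × BB L) : RA L × Cl L :=
  (cond p.1.2 (p.2.1 * (gen L p.1.1.1.1)⁻¹)
    (p.2.1 * (gen L p.1.1.1.2.1)⁻¹ * (gen L p.1.1.1.2.2)⁻¹), cT p.1.1)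

theorem htz_BB (x : BB L) : htz x.1 = 0 := mem_BB.1 x.2

theorem j1_injective : Function.Injective (j1 : EdgeT L × BB L → RA L × Cl L) := by
  rintro ⟨a, x⟩ ⟨a', x'⟩ h
  obtain rfl : a = a' := cE_injective (congrArg Prod.snd h)
  obtain rfl : x = x' := Subtype.ext (mul_right_cancel (congrArg Prod.fst h))
  rfl

theorem j2_injective : Function.Injective (j2 : (TriT L × Bool) × BB L → RA L × Cl L) := by
  rintro ⟨⟨t, b⟩, x⟩ ⟨⟨t', b'⟩, x'⟩ h
  obtain rfl : t = t' := cT_injective (congrArg Prod.snd h)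
  have h1 := congrArg Prod.fst h
  have h2 := congrArg htz h1
  cases b <;> cases b' <;> simp [j2, htz_BB] at h1 h2 <;> simp [h1]

theorem j1_st (p : EdgeT L × BB L) : (j1 p).2.1.card = 2 ∧ St (j1 p) := by
  simp [j1, St, card_cE, htz_BB]

theorem j2_st (p : (TriT L × Bool) × BB L) : (j2 p).2.1.card = 3 ∧ St (j2 p) := by
  obtain ⟨⟨t, _ | _⟩, x⟩ := p <;> simp [j2, St, card_cT, htz_BB]

theorem exists_j2 (b : RA L × Cl L) (h3 : b.2.1.card = 3) (hs : St b) : ∃ p, j2 p = b := by
  obtain ⟨g, σ⟩ := b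
  obtain ⟨t, rfl⟩ := exists_cT σ h3
  obtain ⟨h1, h2⟩ := hs
  simp only [card_cT, Nat.cast_ofNat] at h1 h2
  rcases (by omega : htz g = -1 ∨ htz g = -2) with h | h
  · exact ⟨((t, true), ⟨g * gen L t.1.1, by simp [mem_BB, h]⟩), by simp [j2]⟩
  · exact ⟨((t, false), ⟨g * gen L t.1.2.2 * gen L t.1.2.1, by simp [mem_BB, h]⟩), by simp [j2]⟩

theorem mem_lmap {A B : Type} {j : A → B} {c : A →₀ ℤ} {b : B}
    (h : b ∈ (lmapDomain ℤ ℤ j c).support) : ∃ a, j a = b := by
  classical
  obtain ⟨a, -, rfl⟩ := Finset.mem_image.1 (mapDomain_support h)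
  exact ⟨a, rfl⟩

theorem st_dC_j2 (c : (TriT L × Bool) × BB L →₀ ℤ) :
    prj St (dC L (lmapDomain ℤ ℤ j2 c)) = -lmapDomain ℤ ℤ j1 (bd2 (piE L) (relT L) c) := by
  refine chain_ext (f := prj St ∘ₗ dC L ∘ₗ lmapDomain ℤ ℤ j2)
    (g := -(lmapDomain ℤ ℤ j1 ∘ₗ bd2 (piE L) (relT L))) ?_ c
  rintro ⟨⟨t, _ | _⟩, x⟩
  · have huv := gen_comm t.2.2.2.1
    have hvw := gen_comm t.2.2.2.2.1
    have huw := gen_comm t.2.2.2.2.2
    simp only [LinearMap.comp_apply, lmapDomain_apply, mapDomain_single, j2, cond_false, dC_cT,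
      map_add, map_sub, LinearMap.neg_apply, bd2_single, one_smul, relT, fox_mul, fox_inv, fox_of,
      map_neg, map_mul, map_inv, FreeGroup.lift_apply_of]
    rw [prj_single_pos (by simp [St, card_cE, htz_BB]), prj_single_neg (by simp [St, card_cE, htz_BB]),
      prj_single_pos (by simp [St, card_cE, htz_BB]), prj_single_neg (by simp [St, card_cE, htz_BB]),
      prj_single_pos (by simp [St, card_cE, htz_BB]), prj_single_neg (by simp [St, card_cE, htz_BB])]
    have e1 : j1 (t.e01, x * (piE L t.e01)⁻¹) =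
        (x.1 * (gen L t.1.2.1)⁻¹ * (gen L t.1.2.2)⁻¹ * gen L t.1.2.2, cE t.e01) := by
      simp [j1, piE, TriT.e01, mul_assoc]
    have e2 : j1 (t.e12, x * (piE L t.e01)⁻¹ * (piE L t.e12)⁻¹) =
        (x.1 * (gen L t.1.2.1)⁻¹ * (gen L t.1.2.2)⁻¹ * gen L t.1.1, cE t.e12) := by
      simp [j1, piE, TriT.e01, TriT.e12, mul_assoc, huw.inv_right.eq]
    have e3 : j1 (t.e02, x * ((piE L t.e01)⁻¹ * (piE L t.e12)⁻¹)) =
        (x.1 * (gen L t.1.2.1)⁻¹ * (gen L t.1.2.2)⁻¹ * gen L t.1.2.1, cE t.e02) := by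
      have := (huw.inv_right.mul_right huv).eq
      simp only [j1, piE, TriT.e01, TriT.e12, TriT.e02, Subgroup.coe_mul, InvMemClass.coe_inv,
        mul_inv_rev, inv_inv, Prod.mk.injEq, and_true]
      calc _ = x.1 * (gen L t.1.2.1)⁻¹ * (gen L t.1.1 * ((gen L t.1.2.2)⁻¹ * gen L t.1.2.1)) *
          (gen L t.1.1)⁻¹ := by group
        _ = _ := by rw [this]; group
    rw [e1, e2, e3]
    abel
  · simp only [LinearMap.comp_apply, lmapDomain_apply, mapDomain_single, j2, cond_true, dC_cT,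
      map_add, map_sub, LinearMap.neg_apply, bd2_single, one_smul, relT, fox_mul, fox_inv, fox_of,
      map_neg, map_mul, map_inv, FreeGroup.lift_apply_of]
    rw [prj_single_neg (by simp [St, card_cE, htz_BB]), prj_single_pos (by simp [St, card_cE, htz_BB]),
      prj_single_neg (by simp [St, card_cE, htz_BB]), prj_single_pos (by simp [St, card_cE, htz_BB]),
      prj_single_neg (by simp [St, card_cE, htz_BB]), prj_single_pos (by simp [St, card_cE, htz_BB])]
    have e1 : j1 (t.e01, x) = (x.1 * (gen L t.1.1)⁻¹, cE t.e01) := rfl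
    have e2 : j1 (t.e12, x * piE L t.e01) = (x.1 * (gen L t.1.1)⁻¹, cE t.e12) := by
      simp [j1, piE, TriT.e01, TriT.e12, mul_assoc]
    have e3 : j1 (t.e02, x * (piE L t.e01 * piE L t.e12) * (piE L t.e02)⁻¹) =
        (x.1 * (gen L t.1.1)⁻¹, cE t.e02) := by
      simp [j1, piE, TriT.e01, TriT.e12, TriT.e02, mul_assoc]
    rw [e1, e2, e3]
    abel

theorem dC_hi_dC_j1 (c : EdgeT L × BB L →₀ ℤ) :
    dC L (prj Hi (dC L (lmapDomain ℤ ℤ j1 c))) =
      lmapDomain ℤ ℤ (fun x : BB L => (x.1, c0)) (bd1 (piE L) c) := by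
  refine chain_ext (f := dC L ∘ₗ prj Hi ∘ₗ dC L ∘ₗ lmapDomain ℤ ℤ j1)
    (g := lmapDomain ℤ ℤ (fun x : BB L => (x.1, c0)) ∘ₗ bd1 (piE L)) ?_ c
  rintro ⟨a, x⟩
  have huv := gen_comm a.2.2
  simp only [LinearMap.comp_apply, lmapDomain_apply, mapDomain_single, j1, dC_cE, map_sub,
    bd1_single, one_smul]
  rw [prj_single_pos (by simp [Hi, htz_BB]), prj_single_neg (by simp [Hi, htz_BB]),
    prj_single_pos (by simp [Hi, htz_BB]), prj_single_neg (by simp [Hi, htz_BB]), dC_c1, dC_c1,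
    map_zero]
  have e1 : x.1 * (gen L a.1.1)⁻¹ * gen L a.1.2 * gen L a.1.1 =
      x.1 * (gen L a.1.1)⁻¹ * gen L a.1.1 * gen L a.1.2 := by
    rw [mul_assoc _ (gen L a.1.2), ← huv.eq, ← mul_assoc]
  have e2 : ((x * piE L a : BB L) : RA L) = x.1 * (gen L a.1.1)⁻¹ * gen L a.1.2 := by
    simp [piE, mul_assoc]
  rw [e1, e2, inv_mul_cancel_right]
  abel

end LevB

open LevB in

theorem level_inj (hL : Acyc L) (h4 : NoK4 L) : Function.Injective (bd2 (piE L) (relT L)) := by
  rw [injective_iff_map_eq_zero]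
  intro c hc
  have hj : ∀ b ∈ (lmapDomain ℤ ℤ j2 c).support, b.2.1.card = 3 ∧ St b := fun b hb => by
    obtain ⟨p, rfl⟩ := mem_lmap hb
    exact j2_st p
  have h1 : prj St (dC L (lmapDomain ℤ ℤ j2 c)) = 0 := by rw [st_dC_j2, hc, map_zero, neg_zero]
  have h2 : dC L (prj Hi (dC L (lmapDomain ℤ ℤ j2 c))) = 0 := by
    rw [← support_eq_empty, Finset.eq_empty_iff_forall_notMem]
    intro b hb
    obtain ⟨a, ha, h3, h4⟩ := mem_dC hb
    obtain ⟨h5, ha⟩ := mem_prj ha
    obtain ⟨a', ha', h6, -⟩ := mem_dC ha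
    have h7 := (hj a' ha').1
    have e : dC L (prj Hi (dC L (lmapDomain ℤ ℤ j2 c))) =
        -dC L (dC L (lmapDomain ℤ ℤ j2 c) - prj Hi (dC L (lmapDomain ℤ ℤ j2 c))) := by
      rw [map_sub, dC_dC, zero_sub, neg_neg]
    rw [e, support_neg] at hb
    obtain ⟨a'', ha'', h8, h9⟩ := mem_dC hb
    have h10 := (lo_of_st h1 ha'').1
    unfold Lo at h10
    unfold Hi at h5
    omega
  obtain ⟨d, hd, h3⟩ := split hL (n := 2) (by omega) (fun b hb => (hj b hb).1) h1 h2
  have hd0 : d = 0 := by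
    rw [← support_eq_empty, Finset.eq_empty_iff_forall_notMem]
    intro b hb
    have := hd b hb
    have := h4 b.2
    omega
  rw [hd0, map_zero, map_zero, prj_pos fun b hb => (hj b hb).2] at h3
  exact mapDomain_injective j2_injective (h3.trans mapDomain_zero.symm)

open LevB in

theorem level_exact (hL : Acyc L) (h4 : NoK4 L) (c : EdgeT L × BB L →₀ ℤ)
    (hc : bd1 (piE L) c = 0) : c ∈ LinearMap.range (bd2 (piE L) (relT L)) := by
  have hj : ∀ b ∈ (lmapDomain ℤ ℤ j1 c).support, b.2.1.card = 2 ∧ St b := fun b hb => by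
    obtain ⟨p, rfl⟩ := mem_lmap hb
    exact j1_st p
  have h1 : prj St (dC L (lmapDomain ℤ ℤ j1 c)) = 0 := prj_neg fun b hb h => by
    obtain ⟨a, ha, h3, -⟩ := mem_dC hb
    have h4 := (hj a ha).1
    unfold St at h
    omega
  obtain ⟨d, hd, h3⟩ := split hL (n := 1) le_rfl (fun b hb => (hj b hb).1) h1
    (by rw [dC_hi_dC_j1, hc, map_zero])
  have h5 : prj St (dC L (d - prj St d)) = 0 := prj_neg fun b hb h => by
    obtain ⟨a, ha, h6, h7⟩ := mem_dC hb
    have h8 := (mem_sub_prj ha).1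
    unfold St at h h8
    omega
  obtain ⟨c', hc'⟩ : ∃ c', lmapDomain ℤ ℤ j2 c' = prj St d :=
    ⟨comapDomain j2 (prj St d) j2_injective.injOn, mapDomain_comapDomain _ j2_injective _
      fun b hb => exists_j2 b (hd b (mem_prj hb).2) (mem_prj hb).1⟩
  rw [map_sub, map_sub, sub_eq_zero, ← h3, ← hc', st_dC_j2, prj_pos fun b hb => (hj b hb).2,
    ← map_neg, ← map_neg] at h5
  exact ⟨-c', (mapDomain_injective j1_injective h5).symm⟩

/-- The level set complex of the Bestvina-Brady group. -/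
def levelBB [Finite V] (hc : L.Connected) (hL : Acyc L) (h4 : NoK4 L) : Level (BB L) where
  A := EdgeT L
  I := TriT L × Bool
  finA := inferInstance
  finI := inferInstance
  π := piE L
  e := relT L
  surj := piE_surj hc
  he := lift_relT
  inj := level_inj hL h4
  exact := level_exact hL h4

end Crest.Agent.R197
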