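import Crest.Agent.R197.PFDefs

/-! R197: lifting lemmas for covering maps, and the data `Lab`.

`exists_lift_convex`: `IsCoveringMap.existsUnique_continuousMap_lifts` on the subtype `C`
(`Convex.contractibleSpace`, `Convex.locallyPathConnectedSpace`-type instances; or lift the homotopy
`(t, z) ↦ F (seg a z t)` with `IsCoveringMap.liftHomotopy`), extended by junk.
`isOpen_image_section`: near `s x`, `p` is injective on an open `V` with `p '' V` open; the open set
`V ∩ p ⁻¹' (O ∩ s ⁻¹' V)` is contained in `s '' O`.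
`t2Space_of_covering`: points in different fibres are separated by preimages, points in the same fibre
by `IsCoveringMap.isSeparatedMap`. -/

set_option autoImplicit false

namespace Crest.Agent.R197

open Set Topology

variable {X E : Type} [TopologicalSpace X] [TopologicalSpace E] {p : E → X}

theorem exists_lift_convex (hp : IsCoveringMap p) {W : Type} [NormedAddCommGroup W]
    [NormedSpace ℝ W] {C : Set W} (hC : Convex ℝ C) {F : W → X} (hF : ContinuousOn F C) {a : W}
    (ha : a ∈ C) {e : E} (he : p e = F a) :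
    ∃ F' : W → E, ContinuousOn F' C ∧ (∀ z ∈ C, p (F' z) = F z) ∧ F' a = e := by
  classical
  have := hC.contractibleSpace ⟨a, ha⟩
  have := hC.locallyPathConnectedSpace
  obtain ⟨G, ⟨hG1, hG2⟩, -⟩ := hp.existsUnique_continuousMap_lifts (A := C)
    ⟨C.restrict F, hF.restrict⟩ ⟨a, ha⟩ e he
  refine ⟨fun z => if h : z ∈ C then G ⟨z, h⟩ else e, ?_, fun z hz => ?_, ?_⟩
  · rw [continuousOn_iff_continuous_restrict]
    convert G.continuous using 1
    funext z
    simp [z.2]
  · simp only [hz, dif_pos]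
    exact congr_fun hG2 ⟨z, hz⟩
  · simp only [ha, dif_pos]
    exact hG1

theorem isOpen_image_section (hp : IsCoveringMap p) {O : Set X} (hO : IsOpen O) {s : X → E}
    (hs : ContinuousOn s O) (hps : ∀ x ∈ O, p (s x) = x) : IsOpen (s '' O) := by
  rw [isOpen_iff_mem_nhds]
  rintro _ ⟨x, hx, rfl⟩
  obtain ⟨φ, hφ, hpφ⟩ := hp.isLocalHomeomorph (s x)
  have h1 : O ∩ s ⁻¹' φ.source ∈ 𝓝 (p (s x)) := by
    rw [hps x hx]
    exact (hs.isOpen_inter_preimage hO φ.open_source).mem_nhds ⟨hx, hφ⟩
  filter_upwards [φ.open_source.mem_nhds hφ, hp.continuous.continuousAt.preimage_mem_nhds h1]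
    with y hy1 hy2
  refine ⟨p y, hy2.1, φ.injOn hy2.2 hy1 ?_⟩
  rw [← hpφ]
  exact hps _ hy2.1

theorem t2Space_of_covering [T2Space X] (hp : IsCoveringMap p) : T2Space E := by
  refine ⟨fun x y hxy => ?_⟩
  by_cases h : p x = p y
  · exact hp.isSeparatedMap x y h hxy
  · exact separated_by_continuous hp.continuous h

/-- The fundamental group as a path function, with a labelling of the fibres of a universal cover. -/
structure Lab (p : E → X) (G : Type) [Group G] (x₀ : X) where
  μ : PF (univ : Set X) G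
  lab : X → G → E
  γ : X → ℝ → X
  p_lab : ∀ x g, p (lab x g) = x
  lab_inj : ∀ x, Function.Injective (lab x)
  lift_end : ∀ (c : ℝ → E) (g : G), IsPath univ c → c 0 = lab (p (c 0)) g →
    c 1 = lab (p (c 1)) (g * μ.val fun t => p (c t))
  γ_path : ∀ x, IsPath univ (γ x) ∧ γ x 0 = x₀ ∧ γ x 1 = x
  γ_base : γ x₀ = fun _ => x₀
  μ_γ : ∀ x, μ.val (γ x) = 1
  surj : ∀ g, ∃ c, IsPath univ c ∧ c 0 = x₀ ∧ c 1 = x₀ ∧ μ.val c = g
  universal : ∀ (H : Type) [Group H] (ν : PF (univ : Set X) H), ∃ ψ : G →* H,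
    ∀ c, IsPath univ c → ψ (μ.val c) = ν.val (γ (c 0)) * ν.val c * (ν.val (γ (c 1)))⁻¹

end Crest.Agent.R197
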