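import Crest.Agent.R197.Walls

/-! R197: meets, gates, weights and depth (only the statements of `Walls.lean` are needed).

`exists_meet`: strong induction on `(symmDiff (sep p) (sep y)).card`.  If `p = y` take `p`.  If some
letter `s` has `wl p s ∈ sep p \ sep y`, replace `p` by `p * lt s`; the same for `y`.  Otherwise take `s`
from `exists_toward` with `W = wl p s ∈ sep y \ sep p`, `p' = p * lt s`, and a meet `m'` of `p'`, `y`.  If
`m' ≠ y`, a letter at `y` toward `m'` is a descent of `y` with wall outside `sep p`: excluded.  So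
`sep y ⊆ sep p'`.  If `y ≠ p'`, a letter `t` at `p'` toward `y` is a descent of `p'` different from
`(s.1, !s.2)`, hence adjacent, and `wl p t = wl p' t ∈ sep p \ sep y`: excluded.  If `y = p'` then
`(s.1, !s.2)` is a descent of `y` with wall `W ∉ sep p`: excluded.
`exists_gate`: take `p` with `W ∈ sep p` of least length; a meet `m` of `p` and `y` has `W ∈ sep m ⊆ sep p`,
so `sep m = sep p`.  `len_le_sum_Dw`: the gate `p ≠ 1` has a letter `s` with `wl 1 s ∈ sep p`
(`exists_toward` for `1`, `p`), so `Beyond W s`; count.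
`exists_desc_of_max_dep`.  Lemma A: if `wl y t ∈ sep y`, `y' = y * lt t`, `wl y' s ∈ sep y'`,
`¬ L.Adj s.1 t.1`, then every `z` with `sep z ⊆ sep y` and `wl y t ∈ sep z` has `wl y' s ∈ sep z`
(induction on `len y - len z`: a letter `r` at `y` toward `z` is a descent `≠ t`, so adjacent to `t`, a
descent of `y'`, `≠ s`, so adjacent to `s`; pass to `y * lt r`).  Lemma B: if `sep p ⊆ sep a`, `p` the
gate of `W`, then `W` is a descent wall of `a` or some `W' ∈ sep a` has `dep W < dep W'`: induction on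
`len a` with a letter `t` at `a` toward `p` (`a' = a * lt t`); if `W = wl a' s` and `s`, `t` are adjacent
then `W = wl a s`; if not, Lemma A for the gate `p'` of `W' = wl a t` gives `W ∈ sep p'`, so
`sep p ⊂ sep p'` (`W' ∉ sep p`).  At `a = p` any descent of `p` has wall `W` by minimality. -/

set_option autoImplicit false

namespace Crest.Agent.R197

variable {V : Type} {L : SimpleGraph V}

theorem meet_desc {g : RA L} {s : V × Bool} (h : wl g s ∈ sep g) (W : Wall L) :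
    W ∈ sep (g * lt L s) ↔ W ∈ sep g ∧ W ≠ wl g s := by
  rw [mem_sep_mul_lt]
  by_cases e : W = wl g s
  · simp [e, h]
  · simp [e]

theorem meet_asc {g : RA L} {s : V × Bool} (h : wl g s ∉ sep g) (W : Wall L) :
    W ∈ sep (g * lt L s) ↔ W ∈ sep g ∨ W = wl g s := by
  rw [mem_sep_mul_lt]
  by_cases e : W = wl g s
  · simp [e, h]
  · simp [e]

theorem meet_toward {y z : RA L} (h : sep z ⊆ sep y) (hne : y ≠ z) :
    ∃ r, wl y r ∈ sep y ∧ wl y r ∉ sep z := by
  obtain ⟨r, hr⟩ := exists_toward hne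
  refine ⟨r, ?_⟩
  have := @h (wl y r)
  tauto

theorem meet_card_lt {g y : RA L} {s : V × Bool} (h : ¬ (wl g s ∈ sep g ↔ wl g s ∈ sep y)) :
    (symmDiff (sep (g * lt L s)) (sep y)).card < (symmDiff (sep g) (sep y)).card := by
  refine Finset.card_lt_card ⟨fun W hW => ?_, fun hsub => ?_⟩
  · rw [Finset.mem_symmDiff] at hW ⊢
    rw [mem_sep_mul_lt] at hW
    by_cases e : W = wl g s
    · subst e; tauto
    · tauto
  · have h1 : wl g s ∈ symmDiff (sep g) (sep y) := by rw [Finset.mem_symmDiff]; tauto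
    have h2 := hsub h1
    rw [Finset.mem_symmDiff, mem_sep_mul_lt] at h2
    tauto

theorem exists_meet (p y : RA L) : ∃ m : RA L, sep m = sep p ∩ sep y := by
  induction h : (symmDiff (sep p) (sep y)).card using Nat.strong_induction_on generalizing p y with
  | _ n ih =>
  subst h
  by_cases hA : ∃ s, wl p s ∈ sep p ∧ wl p s ∉ sep y
  · obtain ⟨s, h1, h2⟩ := hA
    obtain ⟨m, hm⟩ := ih _ (meet_card_lt (y := y) (by tauto)) (p * lt L s) y rfl
    refine ⟨m, hm.trans (Finset.ext fun W => ?_)⟩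
    simp only [Finset.mem_inter, meet_desc h1]
    exact ⟨fun h => ⟨h.1.1, h.2⟩, fun h => ⟨⟨h.1, fun e => h2 (e ▸ h.2)⟩, h.2⟩⟩
  by_cases hB : ∃ s, wl y s ∈ sep y ∧ wl y s ∉ sep p
  · obtain ⟨s, h1, h2⟩ := hB
    obtain ⟨m, hm⟩ := ih _ ((meet_card_lt (y := p) (by tauto)).trans_eq (by rw [symmDiff_comm]))
      (y * lt L s) p rfl
    refine ⟨m, hm.trans (Finset.ext fun W => ?_)⟩
    simp only [Finset.mem_inter, meet_desc h1]
    exact ⟨fun h => ⟨h.2, h.1.1⟩, fun h => ⟨⟨h.2, fun e => h2 (e ▸ h.1)⟩, h.1⟩⟩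
  by_cases hpy : p = y
  · exact ⟨p, by simp [hpy]⟩
  exfalso
  obtain ⟨s, hs⟩ := exists_toward hpy
  have h1 : wl p s ∉ sep p := fun h => hA ⟨s, h, by tauto⟩
  have h2 : wl p s ∈ sep y := by tauto
  obtain ⟨m, hm⟩ := ih _ (meet_card_lt hs) (p * lt L s) y rfl
  have hmy : y = m := by
    by_contra hne
    obtain ⟨t, ht1, ht2⟩ := meet_toward (hm ▸ Finset.inter_subset_right) hne
    refine hB ⟨t, ht1, fun h => ht2 ?_⟩
    rw [hm, Finset.mem_inter, meet_asc h1]
    exact ⟨Or.inl h, ht1⟩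
  subst hmy
  have hsub : sep y ⊆ sep (p * lt L s) := hm ▸ Finset.inter_subset_left
  by_cases hyp : p * lt L s = y
  · refine hB ⟨(s.1, !s.2), ?_⟩
    rw [← hyp, wl_mul_lt_self, hyp]
    exact ⟨h2, h1⟩
  obtain ⟨t, ht1, ht2⟩ := meet_toward hsub hyp
  have h3 : wl (p * lt L s) (s.1, !s.2) ∈ sep (p * lt L s) := by
    rw [wl_mul_lt_self]; exact hsub h2
  have h4 : L.Adj t.1 s.1 := desc_adj (t := (s.1, !s.2)) ht1 h3 fun e =>
    ht2 (by rw [e, wl_mul_lt_self]; exact h2)
  rw [wl_mul_lt_of_adj h4] at ht1 ht2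
  rcases (meet_asc h1 _).1 ht1 with h | h
  · exact hA ⟨t, h, ht2⟩
  · exact ht2 (h ▸ h2)

theorem meet_dep_le {W : Wall L} {g : RA L} (h : W ∈ sep g) : dep W ≤ len g :=
  Nat.sInf_le ⟨g, h, rfl⟩

theorem exists_gate {W : Wall L} {g : RA L} (h : W ∈ sep g) :
    ∃ p : RA L, W ∈ sep p ∧ len p = dep W ∧ ∀ y : RA L, W ∈ sep y → sep p ⊆ sep y := by
  obtain ⟨p, hp, hl⟩ := Nat.sInf_mem (s := len '' {x : RA L | W ∈ sep x}) ⟨_, g, h, rfl⟩
  refine ⟨p, hp, hl, fun y hy => ?_⟩
  obtain ⟨m, hm⟩ := exists_meet p y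
  have h1 : W ∈ sep m := hm ▸ Finset.mem_inter.2 ⟨hp, hy⟩
  have h2 : sep m = sep p := Finset.eq_of_subset_of_card_le (hm ▸ Finset.inter_subset_left)
    (hl.le.trans (meet_dep_le h1))
  rw [← h2, hm]
  exact Finset.inter_subset_right

theorem meet_filter_le {A B : Finset (Wall L)} {W : Wall L} (h : ∀ U ∈ A, U ≠ W → U ∈ B)
    (P : Wall L → Prop) [DecidablePred P] : (A.filter P).card ≤ (B.filter P).card + 1 := by
  refine (Finset.card_le_card (t := insert W (B.filter P)) fun U hU => ?_).trans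
    (Finset.card_insert_le _ _)
  rw [Finset.mem_filter] at hU
  by_cases e : U = W
  · simp [e]
  · exact Finset.mem_insert_of_mem (Finset.mem_filter.2 ⟨h U hU.1 e, hU.2⟩)

theorem Dw_mul_lt_le (g : RA L) (s : V × Bool) (v : V) :
    Dw (g * lt L s) v ≤ Dw g v + 2 ∧ Dw g v ≤ Dw (g * lt L s) v + 2 := by
  classical
  have h1 : ∀ U ∈ sep (g * lt L s), U ≠ wl g s → U ∈ sep g := fun U hU e =>
    ((mem_sep_mul_lt g s U).1 hU).2 e
  have h2 : ∀ U ∈ sep g, U ≠ wl g s → U ∈ sep (g * lt L s) := fun U hU e =>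
    (mem_sep_mul_lt g s U).2 ⟨fun _ => e, fun _ => hU⟩
  have h3 := meet_filter_le h1 fun W => Beyond W (v, true)
  have h4 := meet_filter_le h1 fun W => Beyond W (v, false)
  have h5 := meet_filter_le h2 fun W => Beyond W (v, true)
  have h6 := meet_filter_le h2 fun W => Beyond W (v, false)
  unfold Dw
  constructor <;> omega

theorem len_le_sum_Dw [Fintype V] (g : RA L) : len g ≤ ∑ v, Dw g v := by
  classical
  have h1 : sep g ⊆ (Finset.univ : Finset (V × Bool)).biUnion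
      fun s => (sep g).filter fun W => Beyond W s := by
    intro W hW
    obtain ⟨p, hp, -, hgate⟩ := exists_gate hW
    have hne : (1 : RA L) ≠ p := fun e => by simp [← e] at hp
    obtain ⟨s, hs⟩ := exists_toward hne
    have hs' : wl 1 s ∈ sep p := by simpa using hs
    exact Finset.mem_biUnion.2 ⟨s, Finset.mem_univ _,
      Finset.mem_filter.2 ⟨hW, fun x hx => hgate x hx hs'⟩⟩
  refine ((Finset.card_le_card h1).trans Finset.card_biUnion_le).trans_eq ?_
  rw [Fintype.sum_prod_type]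
  exact Finset.sum_congr rfl fun v _ => by rw [Fintype.sum_bool, Dw]

theorem exists_of_Dw_ne_zero {g : RA L} {v : V} (h : Dw g v ≠ 0) : ∃ b, wl 1 (v, b) ∈ sep g := by
  classical
  by_contra hc
  refine h ?_
  rw [Dw, Nat.add_eq_zero_iff, Finset.card_eq_zero, Finset.card_eq_zero, Finset.filter_eq_empty_iff,
    Finset.filter_eq_empty_iff]
  exact ⟨fun W hW hB => hc ⟨_, hB g hW⟩, fun W hW hB => hc ⟨_, hB g hW⟩⟩

theorem one_le_dep {W : Wall L} {g : RA L} (h : W ∈ sep g) : 1 ≤ dep W := by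
  obtain ⟨p, hp, hl, -⟩ := exists_gate h
  rw [← hl]
  exact Finset.card_pos.2 ⟨W, hp⟩

theorem meet_lemA {y z : RA L} {s t : V × Bool} (ht : wl y t ∈ sep y)
    (hs : wl (y * lt L t) s ∈ sep (y * lt L t)) (hst : ¬ L.Adj s.1 t.1) (hz : sep z ⊆ sep y)
    (hzt : wl y t ∈ sep z) : wl (y * lt L t) s ∈ sep z := by
  induction h : len y using Nat.strong_induction_on generalizing y with
  | _ n ih =>
  subst h
  by_cases e : y = z
  · exact e ▸ ((meet_desc ht _).1 hs).1
  obtain ⟨r, hr1, hr2⟩ := meet_toward hz e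
  have hrt : wl y r ≠ wl y t := fun h => hr2 (h ▸ hzt)
  have a1 : L.Adj r.1 t.1 := desc_adj hr1 ht fun h => hrt (by rw [h])
  have hr3 : wl (y * lt L t) r ∈ sep (y * lt L t) := by
    rw [wl_mul_lt_of_adj a1]
    exact (meet_desc ht _).2 ⟨hr1, hrt⟩
  have hsr : s ≠ r := fun h => hst (h ▸ a1)
  have a2 : L.Adj s.1 r.1 := desc_adj hs hr3 hsr
  have e1 : y * lt L r * lt L t = y * lt L t * lt L r := by
    rw [mul_assoc, mul_assoc, (lt_comm a1).eq]
  have e2 : wl (y * lt L r) t = wl y t := wl_mul_lt_of_adj a1.symm y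
  have e3 : wl (y * lt L r * lt L t) s = wl (y * lt L t) s := by rw [e1, wl_mul_lt_of_adj a2]
  rw [← e3]
  refine ih _ (by have := len_mul_lt_of_mem hr1; omega) (y := y * lt L r) ?_ ?_ ?_ ?_ rfl
  · rw [e2]
    exact (meet_desc hr1 _).2 ⟨ht, hrt.symm⟩
  · rw [e3, e1]
    exact (meet_desc hr3 _).2 ⟨hs, fun h => hsr (wl_inj h)⟩
  · exact fun W hW => (meet_desc hr1 _).2 ⟨hz hW, fun h => hr2 (h ▸ hW)⟩
  · rwa [e2]

theorem meet_lemB {W : Wall L} {p : RA L} (hp : W ∈ sep p) (hl : len p = dep W)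
    (hgate : ∀ y : RA L, W ∈ sep y → sep p ⊆ sep y) {a : RA L} (ha : sep p ⊆ sep a) :
    (∃ s, wl a s = W) ∨ ∃ W' ∈ sep a, dep W < dep W' := by
  induction h : len a using Nat.strong_induction_on generalizing a with
  | _ n ih =>
  subst h
  by_cases e : a = p
  · subst e
    obtain ⟨s, hs⟩ := exists_desc (g := a) fun e => by simp [e] at hp
    refine Or.inl ⟨s, by_contra fun hne => ?_⟩
    have h1 := meet_dep_le ((meet_desc hs W).2 ⟨hp, fun h => hne h.symm⟩)
    have h2 := len_mul_lt_of_mem hs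
    omega
  obtain ⟨t, ht1, ht2⟩ := meet_toward ha e
  have ha' : sep p ⊆ sep (a * lt L t) := fun U hU =>
    (meet_desc ht1 _).2 ⟨ha hU, fun h => ht2 (h ▸ hU)⟩
  rcases ih _ (by have := len_mul_lt_of_mem ht1; omega) ha' rfl with ⟨s, hs⟩ | ⟨W', h1, h2⟩
  swap
  · exact Or.inr ⟨W', ((meet_desc ht1 _).1 h1).1, h2⟩
  by_cases hst : L.Adj s.1 t.1
  · exact Or.inl ⟨s, (wl_mul_lt_of_adj hst a).symm.trans hs⟩
  obtain ⟨p', hp', hl', hgate'⟩ := exists_gate ht1
  have h1 : W ∈ sep p' := hs ▸ meet_lemA ht1 (hs ▸ ha' hp) hst (hgate' a ht1) hp'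
  refine Or.inr ⟨wl a t, ht1, ?_⟩
  rw [← hl, ← hl']
  exact Finset.card_lt_card ⟨hgate p' h1, fun h => ht2 (h hp')⟩

theorem exists_desc_of_max_dep {W : Wall L} {a : RA L} (h : W ∈ sep a)
    (hmax : ∀ W' ∈ sep a, dep W' ≤ dep W) : ∃ s, wl a s = W := by
  obtain ⟨p, hp, hl, hgate⟩ := exists_gate h
  rcases meet_lemB hp hl hgate (hgate a h) with h1 | ⟨W', h1, h2⟩
  · exact h1
  · exact absurd (hmax W' h1) h2.not_ge

end Crest.Agent.R197
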