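import Mathlib

/-! R197: multiplicative, homotopy invariant path functions ("transports").

Paths are functions `ℝ → Y`, only their values on `[0,1]` matter.  A `PF S H` gives every path in the
set `S` an element of the group `H`, such that the two ways round a square in `S` agree. -/

set_option autoImplicit false

namespace Crest.Agent.R197

open Set

variable {Y : Type} [TopologicalSpace Y] {H : Type} [Group H]

/-- `γ` is a path in `S`. -/
def IsPath (S : Set Y) (γ : ℝ → Y) : Prop := ContinuousOn γ (Icc 0 1) ∧ MapsTo γ (Icc 0 1) S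

/-- The unit square. -/
def Sq : Set (ℝ × ℝ) := Icc 0 1 ×ˢ Icc 0 1

/-- Path functions on `S` with values in `H`. -/
structure PF (S : Set Y) (H : Type) [Group H] where
  val : (ℝ → Y) → H
  congr : ∀ {γ γ' : ℝ → Y}, EqOn γ γ' (Icc 0 1) → val γ = val γ'
  const : ∀ y ∈ S, val (fun _ => y) = 1
  sq : ∀ K : ℝ × ℝ → Y, ContinuousOn K Sq → MapsTo K Sq S →
    val (fun s => K (s, 0)) * val (fun t => K (1, t)) =
      val (fun t => K (0, t)) * val (fun s => K (s, 1))

theorem IsPath.mono {S S' : Set Y} {γ : ℝ → Y} (h : IsPath S γ) (hS : S ⊆ S') : IsPath S' γ :=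
  ⟨h.1, h.2.mono_right hS⟩

theorem IsPath.zero_mem {S : Set Y} {γ : ℝ → Y} (h : IsPath S γ) : γ 0 ∈ S :=
  h.2 (left_mem_Icc.2 zero_le_one)

theorem IsPath.one_mem {S : Set Y} {γ : ℝ → Y} (h : IsPath S γ) : γ 1 ∈ S :=
  h.2 (right_mem_Icc.2 zero_le_one)

theorem IsPath.comp {Y' : Type} [TopologicalSpace Y'] {S : Set Y} {S' : Set Y'} {γ : ℝ → Y'}
    (h : IsPath S' γ) {F : Y' → Y} (hF : ContinuousOn F S') (hS : MapsTo F S' S) :
    IsPath S fun t => F (γ t) :=
  ⟨hF.comp h.1 h.2, hS.comp h.2⟩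

namespace PF

variable {S : Set Y}

/-- `f` is a potential of `μ` on `U`. -/
def Pot (μ : PF S H) (U : Set Y) (f : Y → H) : Prop :=
  ∀ γ, IsPath U γ → μ.val γ = (f (γ 0))⁻¹ * f (γ 1)

/-- Change of values along a homomorphism. -/
def map {H' : Type} [Group H'] (μ : PF S H) (φ : H →* H') : PF S H' where
  val γ := φ (μ.val γ)
  congr h := by rw [μ.congr h]
  const y hy := by rw [μ.const y hy, map_one]
  sq K h1 h2 := by rw [← map_mul, μ.sq K h1 h2, map_mul]

/-- Gauge transformation. -/
def gauge (μ : PF S H) (b : Y → H) : PF S H where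
  val γ := (b (γ 0))⁻¹ * μ.val γ * b (γ 1)
  congr h := by
    rw [μ.congr h, h (left_mem_Icc.2 zero_le_one), h (right_mem_Icc.2 zero_le_one)]
  const y hy := by rw [μ.const y hy]; simp
  sq K h1 h2 := by
    have := μ.sq K h1 h2
    calc _ = (b (K (0, 0)))⁻¹ * (μ.val (fun s => K (s, 0)) * μ.val (fun t => K (1, t))) *
          b (K (1, 1)) := by group
      _ = _ := by rw [this]; group

/-- Pull-back along a map that is continuous on `S'`. -/
def comap {Y' : Type} [TopologicalSpace Y'] (μ : PF S H) (S' : Set Y') (F : Y' → Y)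
    (hF : ContinuousOn F S') (hS : MapsTo F S' S) : PF S' H where
  val γ := μ.val fun t => F (γ t)
  congr h := μ.congr fun t ht => by simp only [h ht]
  const y hy := μ.const _ (hS hy)
  sq K h1 h2 := μ.sq (fun p => F (K p)) (hF.comp h1 h2) (hS.comp h2)

/-- Restriction to a smaller set. -/
def mono (μ : PF S H) {S' : Set Y} (h : S' ⊆ S) : PF S' H where
  val := μ.val
  congr := μ.congr
  const y hy := μ.const y (h hy)
  sq K h1 h2 := μ.sq K h1 (h2.mono_right h)

@[simp] theorem map_val {H' : Type} [Group H'] (μ : PF S H) (φ : H →* H') (γ : ℝ → Y) :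
    (μ.map φ).val γ = φ (μ.val γ) := rfl

@[simp] theorem gauge_val (μ : PF S H) (b : Y → H) (γ : ℝ → Y) :
    (μ.gauge b).val γ = (b (γ 0))⁻¹ * μ.val γ * b (γ 1) := rfl

@[simp] theorem comap_val {Y' : Type} [TopologicalSpace Y'] (μ : PF S H) (S' : Set Y') (F : Y' → Y)
    (hF : ContinuousOn F S') (hS : MapsTo F S' S) (γ : ℝ → Y') :
    (μ.comap S' F hF hS).val γ = μ.val fun t => F (γ t) := rfl

@[simp] theorem mono_val (μ : PF S H) {S' : Set Y} (h : S' ⊆ S) (γ : ℝ → Y) :
    (μ.mono h).val γ = μ.val γ := rfl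

end PF

/-- The segment from `a` to `b`. -/
def seg {W : Type} [AddCommGroup W] [Module ℝ W] (a b : W) (t : ℝ) : W := a + t • (b - a)

@[simp] theorem seg_zero {W : Type} [AddCommGroup W] [Module ℝ W] (a b : W) : seg a b 0 = a := by
  simp [seg]

@[simp] theorem seg_one {W : Type} [AddCommGroup W] [Module ℝ W] (a b : W) : seg a b 1 = b := by
  simp [seg]

@[simp] theorem seg_self {W : Type} [AddCommGroup W] [Module ℝ W] (a : W) (t : ℝ) :
    seg a a t = a := by simp [seg]

theorem isPath_seg {W : Type} [NormedAddCommGroup W] [NormedSpace ℝ W] {C : Set W}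
    (hC : Convex ℝ C) {a b : W} (ha : a ∈ C) (hb : b ∈ C) : IsPath C (seg a b) :=
  ⟨by unfold seg; fun_prop, fun _ ht => hC.add_smul_sub_mem ha hb ht⟩

/-- The corners of the square of radius `1/2`. -/
noncomputable def d0 : Fin 2 → ℝ := ![1 / 2, 1 / 2]
noncomputable def d1 : Fin 2 → ℝ := ![-1 / 2, 1 / 2]
noncomputable def d2 : Fin 2 → ℝ := ![-1 / 2, -1 / 2]
noncomputable def d3 : Fin 2 → ℝ := ![1 / 2, -1 / 2]

/-- The value of `μ` on the image under `F` of the boundary of the square of radius `1/2`. -/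
noncomputable def loopVal {S : Set Y} (μ : PF S H) (F : (Fin 2 → ℝ) → Y) : H :=
  μ.val (fun t => F (seg d0 d1 t)) * μ.val (fun t => F (seg d1 d2 t)) *
    μ.val (fun t => F (seg d2 d3 t)) * μ.val (fun t => F (seg d3 d0 t))

/-- The punctured open square. -/
def Punct : Set (Fin 2 → ℝ) := Metric.ball 0 1 \ {0}

end Crest.Agent.R197
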