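import Crest.Prelude.Def_ClassifyingComplex
import Crest.Agent.R197.Hol2
import Crest.Agent.R197.Label
import Crest.Agent.R197.Inj2

/-! R197: a two-dimensional classifying complex gives an aspherical presentation.

Take a vertex `x₀ ∈ Sk X 1` (`exists_vertex`), `Λ : Lab p G x₀`, `η` from `exists_hol1`, `η₂` from
`exists_hol2`.  Letters `Cell X 1`, `π e = Λ.μ (ed e)`; relators `R = Cell X 2 ⊕ {v // v ∈ Sk X 1 ∧ v ≠ x₀}`,
`rel (inl r) = w r`, `rel (inr v) = ℓ v` where `mk (ℓ v) = η₂ (Λ.γ v)`.  With `m`, `b` for `μ = Λ.μ`: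
`lift π (w r) = m (mk (w r)) = 1`, `lift π (ℓ v) = Λ.μ (γ v) = 1`, and `Λ.surj` gives surjectivity.
Kernel: let `N` be the normal closure of all relators, `ν = η₂.map (F ⧸ .. →* F ⧸ N)`; `ν (γ v) = 1` for
every vertex `v` (`γ_base` and `const` for `x₀`), so `ψ (π e) = ν (ed e) = mk (of e)` and
`ψ ∘ lift π = mk' N`.  Injectivity: let `ν' : PF univ (Wr G (Multiplicative (X × G →₀ ℤ)))`,
`val γ = ⟨fun g => ofAdd (single (γ 1, g * Λ.μ γ) 1 - single (γ 0, g) 1), Λ.μ γ⟩`;
`lift (ν' ∘ ed) = holW π (ofAdd ∘ a)`, `a (e, g) = single (ed e 1, g * π e) 1 - single (ed e 0, g) 1`.  By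
`hol_eq_fox`, `D = linearCombination ℤ a` has `D (fox π (w r) g) = 0` and
`D (fox π (ℓ v) g) = single (v, g) 1 - single (x₀, g) 1`.  If `bd2 π rel c = 0`, the coefficient of
`(v, g)` in `D (bd2 π rel c)` is `c (inr v, g)`; so `c = rl inl c'` and `inj2` applies. -/

set_option autoImplicit false

namespace Crest.Agent.R197

open Set Metric _root_.Topology

open Finsupp Multiplicative in
/-- The path function recording the end points in the universal cover. -/
noncomputable def presEnd {X G : Type} [TopologicalSpace X] [Group G] (μ : PF (univ : Set X) G) :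
    PF (univ : Set X) (Wr G (Multiplicative (X × G →₀ ℤ))) where
  val γ := ⟨fun g => ofAdd (single (γ 1, g * μ.val γ) 1 - single (γ 0, g) 1), μ.val γ⟩
  congr h := by
    rw [μ.congr h, h (left_mem_Icc.2 zero_le_one), h (right_mem_Icc.2 zero_le_one)]
  const y hy := by
    rw [μ.const y hy]
    refine Wr.ext (funext fun g => ?_) rfl
    simp
  sq K h1 h2 := by
    have := μ.sq K h1 h2
    refine Wr.ext (funext fun g => ?_) this
    simp only [Wr.mul_f, ← ofAdd_add, mul_assoc, this]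
    congr 1
    abel

open Finsupp Multiplicative in
theorem pres_alg {S R V X G : Type} [Group G] (π : S → G) (w : R → FreeGroup S)
    (ℓ : V → FreeGroup S) (hw : Function.Injective (bd2 π w)) (a : S × G → (X × G →₀ ℤ))
    (j : V → X) (hj : Function.Injective j) (x₀ : X) (hx₀ : ∀ v, j v ≠ x₀)
    (h1 : ∀ r g, linearCombination ℤ a (fox π (w r) g) = 0)
    (h2 : ∀ v g, linearCombination ℤ a (fox π (ℓ v) g) = single (j v, g) 1 - single (x₀, g) 1) :
    Function.Injective (bd2 π (Sum.elim w ℓ)) := by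
  classical
  rw [injective_iff_map_eq_zero]
  intro c hc
  have h3 : ∀ v g, c (Sum.inr v, g) = 0 := by
    intro v g
    have := chain_ext (f := lapply (j v, g) ∘ₗ linearCombination ℤ a ∘ₗ bd2 π (Sum.elim w ℓ))
      (g := lapply (Sum.inr v, g)) (by
        rintro ⟨r | v', g'⟩
        · simp [h1]
        · simp only [LinearMap.comp_apply, bd2_single, one_smul, Sum.elim_inr, h2, lapply_apply,
            coe_sub, Pi.sub_apply, single_apply, Prod.mk.injEq, hj.eq_iff, (hx₀ v).symm,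
            false_and, if_false, sub_zero, Sum.inr.injEq]) c
    simpa [hc] using this.symm
  let ι : R × G → (R ⊕ V) × G := fun p => (Sum.inl p.1, p.2)
  have hι : Function.Injective ι := fun p q h => by
    simp only [ι, Prod.mk.injEq, Sum.inl.injEq] at h
    exact Prod.ext h.1 h.2
  have h4 : rl Sum.inl (comapDomain ι c hι.injOn) = c := by
    refine mapDomain_comapDomain ι hι c ?_
    rintro ⟨r | v, g⟩ hp
    · exact ⟨(r, g), rfl⟩
    · exact absurd (h3 v g) (by simpa using hp)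
  have h5 : ∀ c' : R × G →₀ ℤ, bd2 π (Sum.elim w ℓ) (rl Sum.inl c') = bd2 π w c' := fun c' =>
    chain_ext (f := bd2 π (Sum.elim w ℓ) ∘ₗ rl Sum.inl) (g := bd2 π w) (by simp) c'
  have h6 : comapDomain ι c hι.injOn = 0 := by
    apply hw
    rw [← h5, h4, hc, map_zero]
  rw [← h4, h6, map_zero]

theorem exists_asphPres {G : Type} [Group G] (h : Crest.Topology.HasClassifyingComplex G 2) :
    Nonempty (AsphPres G) := by
  obtain ⟨X, _, _, _, hdim, ⟨E, _, p, _, hp, hs⟩, x, ⟨iso⟩⟩ := h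
  have : Nonempty X := ⟨x⟩
  obtain ⟨x₀, hx₀⟩ := exists_vertex (X := X)
  obtain ⟨Λ⟩ := exists_lab hp hs iso x₀
  obtain ⟨η, hη, hηe⟩ := exists_hol1 (X := X) hdim
  have hh := exists_hol2 hdim η hη
  set w : Cell X 2 → FreeGroup (Cell X 1) := fun r => loopVal η (chr 2 r) with hw
  obtain ⟨η₂, h1, h2⟩ := hh
  let π : Cell X 1 → G := fun e => Λ.μ.val (ed e)
  let V : Type := {v : X // v ∈ Sk X 1 ∧ v ≠ x₀}
  let ℓ : V → FreeGroup (Cell X 1) := fun v => (η₂.val (Λ.γ v.1)).out
  have hℓ : ∀ v, QuotientGroup.mk (ℓ v) = η₂.val (Λ.γ v.1) := fun v => QuotientGroup.out_eq' _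
  have key : ∀ (H : Type) [Group H] (μ : PF (univ : Set X) H),
      (∀ r, FreeGroup.lift (fun e => μ.val (ed e)) (w r) = 1) ∧
      ∀ c u, IsPath univ c → c 0 ∈ Sk X 1 → c 1 ∈ Sk X 1 → QuotientGroup.mk u = η₂.val c →
        FreeGroup.lift (fun e => μ.val (ed e)) u = μ.val c := by
    intro H _ μ
    obtain ⟨m, b, hm, hb, hγ⟩ := h2 H μ
    refine ⟨fun r => ?_, fun c u hc h0 h1 hu => ?_⟩
    · rw [← hm, (QuotientGroup.eq_one_iff _).2 (Subgroup.subset_normalClosure (mem_range_self r)),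
        map_one]
    · rw [hγ c hc, hb _ h0, hb _ h1, ← hm, hu]
      simp
  have keyℓ : ∀ (H : Type) [Group H] (μ : PF (univ : Set X) H) (v : V),
      FreeGroup.lift (fun e => μ.val (ed e)) (ℓ v) = μ.val (Λ.γ v.1) := fun H _ μ v =>
    (key H μ).2 _ _ (Λ.γ_path v.1).1 (by rw [(Λ.γ_path v.1).2.1]; exact hx₀)
      (by rw [(Λ.γ_path v.1).2.2]; exact v.2.1) (hℓ v)
  refine ⟨⟨Cell X 1, Cell X 2 ⊕ V, π, Sum.elim w ℓ, fun g => ?_, ?_, ?_⟩⟩
  · obtain ⟨c, hc, h0, h1, rfl⟩ := Λ.surj g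
    exact ⟨(η₂.val c).out, (key G Λ.μ).2 c _ hc (h0 ▸ hx₀) (h1 ▸ hx₀) (QuotientGroup.out_eq' _)⟩
  · apply le_antisymm
    · set N := Subgroup.normalClosure (range (Sum.elim w ℓ)) with hN
      have hle : Subgroup.normalClosure (range w) ≤ N.comap (MonoidHom.id _) :=
        Subgroup.normalClosure_mono (by rintro _ ⟨r, rfl⟩; exact ⟨Sum.inl r, rfl⟩)
      let φ := QuotientGroup.map _ N (MonoidHom.id _) hle
      have hφ : ∀ u, φ (QuotientGroup.mk u) = QuotientGroup.mk u := fun u => rfl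
      obtain ⟨ψ, hψ⟩ := Λ.universal _ (η₂.map φ)
      have hγ : ∀ v ∈ Sk X 1, (η₂.map φ).val (Λ.γ v) = 1 := by
        intro v hv
        by_cases hvx : v = x₀
        · rw [hvx, Λ.γ_base]
          exact (η₂.map φ).const _ (mem_univ _)
        · rw [PF.map_val, ← hℓ ⟨v, hv, hvx⟩, hφ]
          exact (QuotientGroup.eq_one_iff _).2
            (Subgroup.subset_normalClosure ⟨Sum.inr ⟨v, hv, hvx⟩, rfl⟩)
      have hcomp : ψ.comp (FreeGroup.lift π) = QuotientGroup.mk' N := by
        ext e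
        obtain ⟨he, he0, he1⟩ := isPath_ed e
        simp only [MonoidHom.comp_apply, FreeGroup.lift_apply_of, QuotientGroup.mk'_apply, π]
        rw [hψ _ (he.mono (subset_univ _)), hγ _ he0, hγ _ he1, PF.map_val,
          h1 _ (he.mono Sk_two_subset_Sp), hηe, hφ]
        simp
      intro u hu
      have := DFunLike.congr_fun hcomp u
      rw [MonoidHom.comp_apply, MonoidHom.mem_ker.1 hu, map_one] at this
      exact (QuotientGroup.eq_one_iff _).1 this.symm
    · refine Subgroup.normalClosure_le_normal ?_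
      rintro _ ⟨r | v, rfl⟩
      · exact (key G Λ.μ).1 r
      · exact (keyℓ G Λ.μ v).trans (Λ.μ_γ _)
  · let a : Cell X 1 × G → (X × G →₀ ℤ) := fun q =>
      Finsupp.single (ed q.1 1, q.2 * π q.1) 1 - Finsupp.single (ed q.1 0, q.2) 1
    have hW : FreeGroup.lift (fun e => (presEnd Λ.μ).val (ed e)) =
        holW π (fun q => Multiplicative.ofAdd (a q)) := rfl
    refine pres_alg π w ℓ (inj2 hdim η hη hp Λ) a (fun v => v.1) Subtype.val_injective x₀
      (fun v => v.2.2) (fun r g => ?_) (fun v g => ?_)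
    · have h3 := (key _ (presEnd Λ.μ)).1 r
      rw [hW] at h3
      have h4 := ((holW_eq_one_iff _ _ _).1 h3).2 g
      rw [hol_eq_fox] at h4
      exact h4
    · have h3 := keyℓ _ (presEnd Λ.μ) v
      rw [hW] at h3
      have h4 := congrFun (congrArg Wr.f h3) g
      rw [holW_f, hol_eq_fox] at h4
      have h5 := Multiplicative.ofAdd.injective h4
      rw [h5, Λ.μ_γ, mul_one, (Λ.γ_path v.1).2.1, (Λ.γ_path v.1).2.2]

end Crest.Agent.R197
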