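import Crest.Agent.R197.Wr

/-! R197: right-angled Artin groups, walls, cubes: definitions. -/

set_option autoImplicit false

namespace Crest.Agent.R197

open Finsupp Multiplicative

variable {V : Type} (L : SimpleGraph V)

/-- The commutation relators. -/
def raRels : Set (FreeGroup V) :=
  {r | ∃ u v, L.Adj u v ∧
    r = FreeGroup.of u * FreeGroup.of v * (FreeGroup.of u)⁻¹ * (FreeGroup.of v)⁻¹}

/-- The right-angled Artin group of `L`. -/
def RA : Type := PresentedGroup (raRels L)

instance : Group (RA L) := inferInstanceAs (Group (PresentedGroup (raRels L)))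

noncomputable instance : DecidableEq (RA L) := Classical.decEq _

/-- The standard generators. -/
def gen (v : V) : RA L := PresentedGroup.of (rels := raRels L) v

/-- Signed letters: `(v, true)` is `v`, `(v, false)` is `v⁻¹`. -/
def lt (s : V × Bool) : RA L := cond s.2 (gen L s.1) (gen L s.1)⁻¹

@[simp] theorem lt_true (v : V) : lt L (v, true) = gen L v := rfl
@[simp] theorem lt_false (v : V) : lt L (v, false) = (gen L v)⁻¹ := rfl

theorem lt_not (s : V × Bool) : lt L (s.1, !s.2) = (lt L s)⁻¹ := by
  obtain ⟨v, _ | _⟩ := s <;> simp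

variable {L} in
theorem gen_comm {u v : V} (h : L.Adj u v) : Commute (gen L u) (gen L v) := by
  have h1 : PresentedGroup.mk (raRels L)
      (FreeGroup.of u * FreeGroup.of v * (FreeGroup.of u)⁻¹ * (FreeGroup.of v)⁻¹) = 1 :=
    PresentedGroup.one_of_mem ⟨u, v, h, rfl⟩
  rw [map_mul, map_mul, map_mul, map_inv, map_inv] at h1
  exact commutatorElement_eq_one_iff_commute.1 h1

variable {L} in
theorem lt_comm {s t : V × Bool} (h : L.Adj s.1 t.1) : Commute (lt L s) (lt L t) := by
  obtain ⟨u, _ | _⟩ := s <;> obtain ⟨v, _ | _⟩ := t <;> simpa using gen_comm h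

/-- The universal property. -/
def RA.lift {H : Type} [Group H] (f : V → H) (hf : ∀ u v, L.Adj u v → Commute (f u) (f v)) :
    RA L →* H :=
  PresentedGroup.toGroup (rels := raRels L) (f := f) (by
    rintro _ ⟨u, v, h, rfl⟩
    simp only [map_mul, map_inv, FreeGroup.lift_apply_of]
    exact commutatorElement_eq_one_iff_commute.2 (hf u v h))

@[simp] theorem RA.lift_gen {H : Type} [Group H] (f : V → H)
    (hf : ∀ u v, L.Adj u v → Commute (f u) (f v)) (v : V) : RA.lift L f hf (gen L v) = f v :=
  PresentedGroup.toGroup.of _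

variable {L} in
theorem RA.hom_ext {H : Type} [Group H] {φ ψ : RA L →* H} (h : ∀ v, φ (gen L v) = ψ (gen L v)) :
    φ = ψ := PresentedGroup.ext h

variable {L} in
/-- Induction along the Cayley graph. -/
@[elab_as_elim] theorem RA.induction {P : RA L → Prop} (g : RA L) (h1 : P 1)
    (hs : ∀ g s, P g → P (g * lt L s)) : P g := by
  have hg : g ∈ Subgroup.closure (Set.range (gen L)) := by
    have : Subgroup.closure (Set.range (gen L)) = ⊤ := PresentedGroup.closure_range_of _
    rw [this]; trivial
  induction hg using Subgroup.closure_induction_right with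
  | one => exact h1
  | mul_right x _ y hy ih => obtain ⟨v, rfl⟩ := hy; exact hs x (v, true) ih
  | mul_inv_cancel x _ y hy ih => obtain ⟨v, rfl⟩ := hy; exact hs x (v, false) ih

/-- The height homomorphism. -/
def ht : RA L →* Multiplicative ℤ := RA.lift L (fun _ => ofAdd 1) fun _ _ _ => Commute.refl _

variable {L} in
/-- The height as an integer. -/
def htz (g : RA L) : ℤ := toAdd (ht L g)

@[simp] theorem htz_one : htz (1 : RA L) = 0 := by simp [htz]
@[simp] theorem htz_gen (v : V) : htz (gen L v) = 1 := by simp [htz, ht]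
variable {L} in
@[simp] theorem htz_mul (g h : RA L) : htz (g * h) = htz g + htz h := by simp [htz]
variable {L} in
@[simp] theorem htz_inv (g : RA L) : htz g⁻¹ = -htz g := by simp [htz]
variable {L} in
@[simp] theorem htz_pow (g : RA L) (n : ℕ) : htz (g ^ n) = n * htz g := by simp [htz]
variable {L} in
@[simp] theorem htz_zpow (g : RA L) (n : ℤ) : htz (g ^ n) = n * htz g := by simp [htz]

/-- The Bestvina-Brady group. -/
def BB : Subgroup (RA L) := (ht L).ker

variable {L} in
theorem mem_BB {g : RA L} : g ∈ BB L ↔ htz g = 0 := by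
  simp [BB, htz, MonoidHom.mem_ker]

/-- The subgroup generated by the neighbours of `v`. -/
def lkSub (v : V) : Subgroup (RA L) := Subgroup.closure (gen L '' L.neighborSet v)

/-- Walls (hyperplanes): a type `v` and a coset of `lkSub v`. -/
def Wall : Type := Σ v : V, RA L ⧸ lkSub L v

noncomputable instance : DecidableEq (Wall L) := Classical.decEq _

variable {L}

/-- The wall dual to the edge from `g` to `g * lt s`. -/
def wl (g : RA L) (s : V × Bool) : Wall L :=
  ⟨s.1, QuotientGroup.mk (cond s.2 g (g * (gen L s.1)⁻¹))⟩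

@[simp] theorem wl_fst (g : RA L) (s : V × Bool) : (wl g s).1 = s.1 := rfl

theorem wl_mul_lt_of_adj {s t : V × Bool} (h : L.Adj s.1 t.1) (g : RA L) :
    wl (g * lt L t) s = wl g s := by
  have hm : lt L t ∈ lkSub L s.1 := by
    have : gen L t.1 ∈ lkSub L s.1 := Subgroup.subset_closure ⟨t.1, h, rfl⟩
    obtain ⟨v, _ | _⟩ := t
    · exact inv_mem this
    · exact this
  obtain ⟨u, _ | _⟩ := s
  · refine congrArg (Sigma.mk u) (QuotientGroup.eq.2 ?_)
    have hc : Commute (lt L (u, true)) (lt L t) := lt_comm h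
    have : (g * lt L t * (gen L u)⁻¹)⁻¹ * (g * (gen L u)⁻¹) = (lt L t)⁻¹ := by
      have h2 : gen L u * (lt L t)⁻¹ = (lt L t)⁻¹ * gen L u := hc.inv_right.eq
      calc _ = gen L u * (lt L t)⁻¹ * (gen L u)⁻¹ := by group
        _ = _ := by rw [h2]; group
    exact this ▸ inv_mem hm
  · refine congrArg (Sigma.mk u) (QuotientGroup.eq.2 ?_)
    simpa using hm

variable (L) in
/-- The crossing cocycle as a homomorphism to a wreath product. -/
noncomputable def etaW : RA L →* Wr (RA L) (Multiplicative (Wall L →₀ ℤ)) :=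
  RA.lift L (fun v => ⟨fun g => ofAdd (single (wl g (v, true)) 1), gen L v⟩) fun u v h => by
    refine Wr.ext (funext fun g => ?_) (gen_comm h).eq
    have h1 := wl_mul_lt_of_adj (s := (u, true)) (t := (v, true)) h g
    have h2 := wl_mul_lt_of_adj (s := (v, true)) (t := (u, true)) h.symm g
    simp only [lt_true] at h1 h2
    simp only [Wr.mul_f, h1, h2, mul_comm]

/-- Signed crossing numbers of a path from `1` to `g`. -/
noncomputable def eta (g : RA L) : Wall L →₀ ℤ := toAdd ((etaW L g).f 1)

/-- The walls that separate `g` from `1`. -/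
noncomputable def sep (g : RA L) : Finset (Wall L) := (eta g).support

/-- The word length. -/
noncomputable def len (g : RA L) : ℕ := (sep g).card

open Classical in
/-- The sign of a crossing of `W` away from `1`. -/
noncomputable def sgnW (W : Wall L) : ℤ := if ∃ g : RA L, eta g W = -1 then -1 else 1

/-- The half space of `W` away from `1` lies in that of the wall `wl 1 s`. -/
def Beyond (W : Wall L) (s : V × Bool) : Prop := ∀ x : RA L, W ∈ sep x → wl 1 s ∈ sep x

open Classical in
/-- The weight of the vertex `v` of `L` in the direction from `1` to `g`. -/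
noncomputable def Dw (g : RA L) (v : V) : ℕ :=
  ((sep g).filter fun W => Beyond W (v, true)).card +
    ((sep g).filter fun W => Beyond W (v, false)).card

/-- The distance from `1` to the far half space of `W`. -/
noncomputable def dep (W : Wall L) : ℕ := sInf (len '' {x : RA L | W ∈ sep x})

/-- Points of the cube complex in wall coordinates. -/
def InR (y : Wall L → ℝ) : Prop :=
  ∃ a : RA L, (∀ W, W ∉ sep a → y W = 0) ∧ (∀ W, y W ∈ Set.Icc (0 : ℝ) 1) ∧
    ∀ W ∈ sep a, y W ≠ 1 → ∃ s, wl a s = W

variable [LinearOrder V]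

variable (L) in
/-- The product of the generators in `σ` (used for cliques). -/
def pr (σ : Finset V) : RA L := ((σ.sort (· ≤ ·)).map (gen L)).prod

/-- The directions of the cube `(g, σ)` that lead away from `1`. -/
noncomputable def asc (g : RA L) (σ : Finset V) : Finset V :=
  σ.filter fun v => wl g (v, true) ∉ sep g

/-- The vertex of the cube `(g, σ)` farthest from `1`. -/
noncomputable def apex (g : RA L) (σ : Finset V) : RA L := g * pr L (asc g σ)

variable (L)

/-- Edges of `L`, oriented by the order. -/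
def EdgeT : Type := {p : V × V // p.1 < p.2 ∧ L.Adj p.1 p.2}

/-- Triangles of `L`, with ordered vertices. -/
def TriT : Type := {p : V × V × V // p.1 < p.2.1 ∧ p.2.1 < p.2.2 ∧
  L.Adj p.1 p.2.1 ∧ L.Adj p.2.1 p.2.2 ∧ L.Adj p.1 p.2.2}

instance [Finite V] : Finite (EdgeT L) := inferInstanceAs (Finite (Subtype _))
instance [Finite V] : Finite (TriT L) := inferInstanceAs (Finite (Subtype _))

/-- The generators `u⁻¹ v` of the Bestvina-Brady group. -/
def piE (a : EdgeT L) : BB L := ⟨(gen L a.1.1)⁻¹ * gen L a.1.2, by simp [mem_BB]⟩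

variable {L}

def TriT.e01 (t : TriT L) : EdgeT L := ⟨(t.1.1, t.1.2.1), t.2.1, t.2.2.2.1⟩
def TriT.e12 (t : TriT L) : EdgeT L := ⟨(t.1.2.1, t.1.2.2), t.2.2.1, t.2.2.2.2.1⟩
def TriT.e02 (t : TriT L) : EdgeT L := ⟨(t.1.1, t.1.2.2), t.2.1.trans t.2.2.1, t.2.2.2.2.2⟩

variable (L) in
/-- The two relators of a triangle (lower: `true`, upper: `false`). -/
def relT (i : TriT L × Bool) : FreeGroup (EdgeT L) :=
  cond i.2 (FreeGroup.of i.1.e01 * FreeGroup.of i.1.e12 * (FreeGroup.of i.1.e02)⁻¹)
    ((FreeGroup.of i.1.e01)⁻¹ * (FreeGroup.of i.1.e12)⁻¹ * FreeGroup.of i.1.e02)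

variable (L)

/-- Cliques (simplices of the flag complex, the empty one included). -/
def Cl : Type := {σ : Finset V // L.IsClique (σ : Set V)}

noncomputable instance : DecidableEq (Cl L) := Classical.decEq _

variable {L} in
/-- A face of a simplex. -/
def Cl.erase (σ : Cl L) (v : V) : Cl L :=
  ⟨σ.1.erase v, σ.2.subset (Finset.coe_subset.2 (Finset.erase_subset v σ.1))⟩

/-- The sign of `v` in `σ`. -/
def sg (v : V) (σ : Finset V) : ℤ := (-1) ^ (σ.filter (· < v)).card

/-- The augmented simplicial boundary. -/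
noncomputable def dL : (Cl L →₀ ℤ) →ₗ[ℤ] (Cl L →₀ ℤ) :=
  linearCombination ℤ fun σ => ∑ v ∈ σ.1, sg v σ.1 • single (σ.erase v) (1 : ℤ)

/-- The flag complex is acyclic: the augmented chain complex is contractible. -/
def Acyc : Prop := ∃ k : (Cl L →₀ ℤ) →ₗ[ℤ] (Cl L →₀ ℤ), ∀ c, dL L (k c) + k (dL L c) = c

/-- The flag complex has dimension at most two. -/
def NoK4 : Prop := ∀ σ : Cl L, σ.1.card ≤ 3

/-- The cellular boundary of the cube complex; `(g, σ)` is the cube with bottom vertex `g`. -/
noncomputable def dC : (RA L × Cl L →₀ ℤ) →ₗ[ℤ] (RA L × Cl L →₀ ℤ) :=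
  linearCombination ℤ fun c => ∑ v ∈ c.2.1, sg v c.2.1 •
    (single (c.1 * gen L v, c.2.erase v) (1 : ℤ) - single (c.1, c.2.erase v) 1)

omit [LinearOrder V] in
/-- A flat `S³`-bundle over the flag complex with acute transition angles and a loop with
non-trivial holonomy. -/
structure Coc where
  c : V → V → S3
  refl : ∀ u, c u u = 1
  mul : ∀ u v w, (u = v ∨ L.Adj u v) → (v = w ∨ L.Adj v w) → (u = w ∨ L.Adj u w) →
    c u v * c v w = c u w
  re : ∀ u v, L.Adj u v → 0 ≤ (c u v : Quaternion ℝ).re
  v0 : V
  loop : L.Walk v0 v0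
  hol : (loop.darts.map fun d => c d.fst d.snd).prod ≠ 1

end Crest.Agent.R197
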