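import Crest.Agent.R197.Walls

/-! R197: right-angled Artin groups are residually finite.

Call `v` free at `x` if `wl x (v, true) ∉ sep x` and `wl x (v, false) ∉ sep x`.  On `M = RA L → ZMod p`
let `(X v f) x = if v is free at x then f (x * gen v) else 0` (linear).  `X v ^ 2 = 0` (after a step
`v`, `(v, false)` is a descent: `wl_mul_lt_self`, `mem_sep_mul_lt`), and `X u`, `X v` commute for
adjacent `u`, `v` (`wl_mul_lt_of_adj`; walls of different type differ).  So `v ↦ 1 + X v` (inverse
`1 - X v`) defines `ρ : RA L →* (Module.End (ZMod p) M)ˣ` with `ρ (gen v ^ e) = 1 + e X v`.  The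
submodule `M k` of functions that vanish where `k < len` is finite (`finite_len_le`) and invariant under
all `X v`; restrict (or define `X v` on `M k` from the start; or use the finite-index stabiliser
subgroup of a vector `f ∈ M k` and `Group.residuallyFinite_iff_exists_finiteIndex`).
Let `g ≠ 1` be `∏ (gen vᵢ) ^ eᵢ` for a list of pairs `(vᵢ, eᵢ)` of least length `k ≥ 1`; then all `eᵢ ≠ 0`,
and there are no `i < j` with `vᵢ = vⱼ` and all `vₘ` in between adjacent to `vᵢ` (merge).  Let
`y = ∏ gen vᵢ`, `f = Pi.single y 1`, `p` a prime larger than all `|eᵢ|`.  Claim: for a list `l` of vertices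
and `x = (l.map gen).prod`, if `wl x (v, b) ∈ sep x` then `l = l₁ ++ v :: l₂` with all of `l₂` adjacent to
`v` (reverse induction on `l`: `len x = l.length` by `abs_htz_le_len`, so the inverse of the last letter
is a descent; `desc_adj`).  Hence every `vᵢ` is free at `∏_{m<i} gen vₘ`.  By induction on the list, for
`x` of height `htz y - (length of the rest)` resp. smaller height, `(ρ (rest) f) x` is the product of
the `eᵢ` times `f (x * ∏ gen vᵢ)` if all steps are free, resp. `0`.  So `(ρ g f) 1 = ∏ eᵢ ≠ 0 = f 1`.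

The proof below is a different one (canonical completion): on the finite interval
`B = {x | sep x ⊆ sep g}` let `v` act as the cyclic successor on each line `x * v ^ ℤ ∩ B`.  These
permutations commute for adjacent vertices, and `g` moves `1` to `g`. -/

set_option autoImplicit false

namespace Crest.Agent.R197

section RF

variable {V : Type} {L : SimpleGraph V}

theorem rf_exists_cs (I : Set ℤ) (hI : I.Finite) (h0 : 0 ∈ I) :
    ∃ c ∈ I, (∀ n ∈ I, 0 < n → 0 < c ∧ c ≤ n) ∧ ((∀ n ∈ I, n ≤ 0) → ∀ n ∈ I, c ≤ n) := by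
  by_cases h : ∃ n ∈ I, 0 < n
  · obtain ⟨c, hc, hc'⟩ := Set.exists_min_image {n ∈ I | 0 < n} id (hI.subset fun _ h => h.1) h
    refine ⟨c, hc.1, fun n hn hn' => ⟨hc.2, hc' n ⟨hn, hn'⟩⟩, fun h' => ?_⟩
    exact absurd (h' c hc.1) (not_le.2 hc.2)
  · obtain ⟨c, hc, hc'⟩ := Set.exists_min_image I id hI ⟨0, h0⟩
    exact ⟨c, hc, fun n hn hn' => absurd ⟨n, hn, hn'⟩ h, fun _ => hc'⟩

open Classical in
/-- cyclic successor of `0` in a finite set of integers -/
noncomputable def rfCs (I : Set ℤ) : ℤ :=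
  if h : I.Finite ∧ 0 ∈ I then (rf_exists_cs I h.1 h.2).choose else 0

theorem rfCs_spec {I : Set ℤ} (hI : I.Finite) (h0 : 0 ∈ I) :
    rfCs I ∈ I ∧ (∀ n ∈ I, 0 < n → 0 < rfCs I ∧ rfCs I ≤ n) ∧
      ((∀ n ∈ I, n ≤ 0) → ∀ n ∈ I, rfCs I ≤ n) := by
  rw [rfCs, dif_pos ⟨hI, h0⟩]
  exact (rf_exists_cs I hI h0).choose_spec

theorem rf_sep_zpow (x : RA L) (v : V) (n : ℤ) {W : Wall L} (hW : W.1 ≠ v) :
    W ∈ sep (x * gen L v ^ n) ↔ W ∈ sep x := by
  have key : ∀ (y : RA L) (b : Bool), W ∈ sep (y * lt L (v, b)) ↔ W ∈ sep y := by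
    intro y b
    have : W ≠ wl y (v, b) := fun h => hW (by rw [h]; rfl)
    rw [mem_sep_mul_lt]; simp [this]
  induction n using Int.induction_on with
  | zero => simp
  | succ n ih => rw [zpow_add_one, ← mul_assoc]; exact (key _ true).trans ih
  | pred n ih => rw [zpow_sub_one, ← mul_assoc]; exact (key _ false).trans ih

/-- the interval between `1` and `g` -/
def rfB (g : RA L) : Set (RA L) := {x | sep x ⊆ sep g}

theorem rfB_finite (g : RA L) : (rfB g).Finite := by
  refine Set.Finite.of_finite_image (f := sep) ?_ sep_injective.injOn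
  refine (sep g).powerset.finite_toSet.subset ?_
  rintro _ ⟨x, hx, rfl⟩
  exact Finset.mem_powerset.2 hx

/-- the trace of the interval on the `v`-line through `x` -/
def rfI (g x : RA L) (v : V) : Set ℤ := {n | x * gen L v ^ n ∈ rfB g}

theorem rf_zpow_inj (x : RA L) (v : V) : Function.Injective fun n : ℤ => x * gen L v ^ n := by
  intro m n h
  have := congrArg htz h
  simpa using this

theorem rfI_finite (g x : RA L) (v : V) : (rfI g x v).Finite :=
  (rfB_finite g).preimage (rf_zpow_inj x v).injOn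

theorem rfI_zero {g x : RA L} (hx : x ∈ rfB g) (v : V) : 0 ∈ rfI g x v := by
  simpa [rfI] using hx

theorem rfI_adj {g x : RA L} {u v : V} (h : L.Adj u v) {m : ℤ} (hx : x ∈ rfB g)
    (hm : x * gen L u ^ m ∈ rfB g) : rfI g (x * gen L u ^ m) v = rfI g x v := by
  have key : ∀ (x : RA L) (m n : ℤ), x * gen L u ^ m ∈ rfB g → x * gen L v ^ n ∈ rfB g →
      x * gen L u ^ m * gen L v ^ n ∈ rfB g := by
    intro x m n h1 h2 W hW
    by_cases hv : W.1 = v
    · rw [mul_assoc, ((gen_comm h).zpow_zpow m n).eq, ← mul_assoc,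
        rf_sep_zpow _ _ _ (by rw [hv]; exact h.ne')] at hW
      exact h2 hW
    · exact h1 ((rf_sep_zpow _ _ _ hv).1 hW)
  ext n
  refine ⟨fun hn => ?_, fun hn => key x m n hm hn⟩
  have := key (x * gen L u ^ m) (-m) n (by simpa using hx) hn
  simpa [rfI] using this

/-- the cyclic successor map -/
noncomputable def rfF (g : RA L) (v : V) (x : rfB g) : rfB g :=
  ⟨x.1 * gen L v ^ rfCs (rfI g x.1 v), (rfCs_spec (rfI_finite g x.1 v) (rfI_zero x.2 v)).1⟩

theorem rfF_injective (g : RA L) (v : V) : Function.Injective (rfF g v) := by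
  have key : ∀ x y : rfB g, rfF g v x = rfF g v y →
      ¬ rfCs (rfI g y.1 v) < rfCs (rfI g x.1 v) := by
    intro x y h hlt
    obtain ⟨-, a1, -⟩ := rfCs_spec (rfI_finite g x.1 v) (rfI_zero x.2 v)
    obtain ⟨-, b1, b2⟩ := rfCs_spec (rfI_finite g y.1 v) (rfI_zero y.2 v)
    set c := rfCs (rfI g x.1 v)
    set c' := rfCs (rfI g y.1 v)
    have e : x.1 * gen L v ^ c = y.1 * gen L v ^ c' := congrArg Subtype.val h
    have e1 : x.1 * gen L v ^ (c - c') = y.1 := by
      rw [zpow_sub, ← mul_assoc, e]; simp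
    have e2 : y.1 * gen L v ^ (c' - c) = x.1 := by
      rw [zpow_sub, ← mul_assoc, ← e]; simp
    have h1 := a1 (c - c') (by rw [rfI, Set.mem_ofPred_eq, e1]; exact y.2) (by omega)
    have h2 := b2 (fun n hn => by
      by_contra hn'
      have := b1 n hn (by omega)
      omega) (c' - c) (by rw [rfI, Set.mem_ofPred_eq, e2]; exact x.2)
    omega
  intro x y h
  have e : rfCs (rfI g x.1 v) = rfCs (rfI g y.1 v) :=
    le_antisymm (not_lt.1 (key x y h)) (not_lt.1 (key y x h.symm))
  have e' : x.1 * gen L v ^ rfCs (rfI g x.1 v) = y.1 * gen L v ^ rfCs (rfI g y.1 v) :=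
    congrArg Subtype.val h
  rw [e] at e'
  exact Subtype.ext (mul_right_cancel e')

instance (g : RA L) : Finite (rfB g) := rfB_finite g

/-- the cyclic successor permutation -/
noncomputable def rfP (g : RA L) (v : V) : Equiv.Perm (rfB g) :=
  Equiv.ofBijective (rfF g v) (rfF_injective g v).bijective_of_finite

theorem rfP_comm (g : RA L) {u v : V} (h : L.Adj u v) : Commute (rfP g u) (rfP g v) := by
  ext x
  show (rfF g u (rfF g v x)).1 = (rfF g v (rfF g u x)).1
  have h1 := rfI_adj h x.2 (rfF g u x).2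
  have h2 := rfI_adj h.symm x.2 (rfF g v x).2
  simp only [rfF, h1, h2, mul_assoc, ((gen_comm h).zpow_zpow _ _).eq]

theorem rfP_apply {g : RA L} {v : V} (x y : rfB g) (h : x.1 * gen L v = y.1) : rfP g v x = y := by
  obtain ⟨-, a1, -⟩ := rfCs_spec (rfI_finite g x.1 v) (rfI_zero x.2 v)
  have := a1 1 (by rw [rfI, Set.mem_ofPred_eq, zpow_one, h]; exact y.2) one_pos
  apply Subtype.ext
  show x.1 * gen L v ^ rfCs (rfI g x.1 v) = y.1
  rw [(by omega : rfCs (rfI g x.1 v) = 1), zpow_one, h]

/-- the permutation representation -/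
noncomputable def rfRho (g : RA L) : RA L →* Equiv.Perm (rfB g) :=
  RA.lift L (fun v => (rfP g v)⁻¹) fun _ _ h => (rfP_comm g h).inv_inv

theorem rfRho_apply (g : RA L) (n : ℕ) : ∀ x : rfB g, len x.1 = n →
    rfRho g x.1 x = ⟨1, by simp [rfB]⟩ := by
  induction n with
  | zero =>
    intro x hx
    have : x.1 = 1 := sep_injective (by rw [sep_one]; exact Finset.card_eq_zero.1 hx)
    obtain ⟨x, hx'⟩ := x
    subst this
    simp
  | succ n ih =>
    intro x hx
    have h1 : x.1 ≠ 1 := by intro h; rw [h] at hx; simp [len] at hx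
    obtain ⟨s, hs⟩ := exists_desc h1
    have hy : x.1 * lt L s ∈ rfB g := by
      intro W hW
      rw [mem_sep_mul_lt] at hW
      by_cases h : W = wl x.1 s
      · rw [h]; exact x.2 hs
      · exact x.2 (hW.2 h)
    have := ih ⟨_, hy⟩ (by have := len_mul_lt_of_mem hs; simp only; omega)
    rw [← this, map_mul, Equiv.Perm.mul_apply]
    congr 1
    obtain ⟨v, _ | _⟩ := s
    · simp only [lt_false, map_inv, rfRho, RA.lift_gen, inv_inv]
      exact (rfP_apply _ _ (by simp)).symm
    · simp only [lt_true, rfRho, RA.lift_gen]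
      rw [Equiv.Perm.eq_inv_iff_eq]
      exact rfP_apply _ _ rfl

end RF

theorem residuallyFinite_RA {V : Type} [Finite V] (L : SimpleGraph V) :
    Group.ResiduallyFinite (RA L) := by
  refine Group.residuallyFinite_of_forall_exists_finite_monoidHom fun g hg => ?_
  refine ⟨Equiv.Perm (rfB g), inferInstance, inferInstance, rfRho g, fun h => hg ?_⟩
  have := rfRho_apply g _ ⟨g, fun _ h => h⟩ rfl
  rw [h] at this
  exact congrArg Subtype.val this

end Crest.Agent.R197
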