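import Crest.Agent.R197.Wr

/-! R197: linear algebra of the Fox boundary maps.

`exists_comb`.  Choose `w a : FreeGroup P.X` with `lift P.π (w a) = Z.π a`.  Take `R' = P.R ⊕ Z.A`,
`rel' (inl r) = map inr (P.rel r)`, `rel' (inr a) = (of (inl a))⁻¹ * map inr (w a)`.  Kernel: with
`ρ = lift (Sum.elim w of) : FreeGroup (A ⊕ X) →* FreeGroup X` every `u` is congruent to `map inr (ρ u)`
modulo the normal closure `N'` (two homomorphisms to the quotient agree on letters), and
`lift π u = lift P.π (ρ u)`; `map inr` sends the normal closure of `P.rel` into `N'`.  Injectivity: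
evaluate `bd2 c` at `(inl a, g * (Z.π a)⁻¹)`: this is `- c (inr a, g)`; so `c = rl inl c'` and
`rl inr (bd2 P.π P.rel c') = 0` (`fox_map_letter`), `rl inr` is injective (`mapDomain_injective`).

`exists_split`.  Write `πA a = π (inl a)`.  Choose `u x` with `lift πA (u x) = π (inr x)`.  By
`fox_mem_range_bd2` choose `φ i` and `σ x` with `bd2 (φ i) = rl inl (fox πA (e i) 1)`
(`fox_map_letter`) and `bd2 (σ x) = fox π (of (inr x) * (map inl (u x))⁻¹) 1
= single (inr x, 1) 1 - rl inl (fox πA (u x) 1)`.  Let `S' = eqv (Sum.elim 0 σ)` and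
`Q = eqv (Sum.elim (fun a => single (a,1) 1) (fun x => fox πA (u x) 1))`.  On cells (`chain_ext`,
`tr_bd2`, `tr_rl`, `fox_eq_tr`): `c - bd2 (S' c) = rl inl (Q c)`, `bd1 πA (Q c) = bd1 π c`,
`Q (rl inl c) = c`.  So `Q (fox π (rel r) 1)` is a cycle (`bd1_fox`), `= bd2 πA e (lam r)`.  Then
`bd2 (eqv φ c) = rl inl (bd2 πA e c)` and `bd2 πA e (eqv lam c) = Q (bd2 π rel c)` for all `c`.
Injectivity of the two `bd2` gives `eqv φ (lam r) = single (r,1) 1 - S' (fox π (rel r) 1)` and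
`eqv lam (φ i) = single (i,1) 1`.  Take `L = Sum.elim (Sum.elim 0 σ) φ`. -/

set_option autoImplicit false

namespace Crest.Agent.R197

open Finsupp

variable {G : Type} [Group G]

theorem split_eqv_rl {R S T : Type} (t : T → (S × G →₀ ℤ)) (j : R → T) (c : R × G →₀ ℤ) :
    eqv t (rl j c) = eqv (fun r => t (j r)) c :=
  chain_ext (f := eqv t ∘ₗ rl j) (g := eqv fun r => t (j r)) (by simp) c

theorem split_eqv_zero {R S : Type} (c : R × G →₀ ℤ) :
    eqv (fun _ => (0 : S × G →₀ ℤ)) c = 0 :=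
  chain_ext (f := eqv fun _ => (0 : S × G →₀ ℤ)) (g := 0) (by simp) c

theorem split_eqv_id {R : Type} (c : R × G →₀ ℤ) :
    eqv (fun r => (single (r, 1) 1 : R × G →₀ ℤ)) c = c :=
  chain_ext (f := eqv fun r => (single (r, 1) 1 : R × G →₀ ℤ)) (g := LinearMap.id) (by simp) c

theorem split_comb_inj {A X R : Type} (πA : A → G) (πX : X → G) (rel : R → FreeGroup X)
    (hinj : Function.Injective (bd2 πX rel)) (w : A → FreeGroup X) :
    Function.Injective (bd2 (Sum.elim πA πX) (Sum.elim (fun r => FreeGroup.map .inr (rel r))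
      fun a => (FreeGroup.of (.inl a))⁻¹ * FreeGroup.map .inr (w a))) := by
  set rel' : R ⊕ A → FreeGroup (A ⊕ X) := Sum.elim (fun r => FreeGroup.map .inr (rel r))
      fun a => (FreeGroup.of (.inl a))⁻¹ * FreeGroup.map .inr (w a) with hrel'
  let pA : ((A ⊕ X) × G →₀ ℤ) →ₗ[ℤ] (A × G →₀ ℤ) :=
    eqv (Sum.elim (fun a => single (a, 1) 1) fun _ => 0)
  let pX : ((A ⊕ X) × G →₀ ℤ) →ₗ[ℤ] (X × G →₀ ℤ) :=
    eqv (Sum.elim (fun _ => 0) fun x => single (x, 1) 1)
  let M : (A × G →₀ ℤ) →ₗ[ℤ] (A × G →₀ ℤ) := eqv fun a => -single (a, πA a) 1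
  let qR : ((R ⊕ A) × G →₀ ℤ) →ₗ[ℤ] (R × G →₀ ℤ) :=
    eqv (Sum.elim (fun a => single (a, 1) 1) fun _ => 0)
  let qA : ((R ⊕ A) × G →₀ ℤ) →ₗ[ℤ] (A × G →₀ ℤ) :=
    eqv (Sum.elim (fun _ => 0) fun x => single (x, 1) 1)
  have hA : ∀ c, pA (rl .inr c) = 0 := fun c => by
    simp only [pA, split_eqv_rl, Sum.elim_inr, split_eqv_zero]
  have hX : ∀ c, pX (rl .inr c) = c := fun c => by
    simp only [pX, split_eqv_rl, Sum.elim_inr, split_eqv_id]
  have h1 : ∀ c, M (pA (bd2 (Sum.elim πA πX) rel' c)) = qA c :=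
    chain_ext (f := M ∘ₗ pA ∘ₗ bd2 (Sum.elim πA πX) rel') (g := qA) (by
      rintro ⟨r | a, g⟩
      · simp [hrel', fox_map_letter, hA, qA]
      · simp only [LinearMap.comp_apply, bd2_single, hrel', Sum.elim_inr, one_smul, fox_mul,
          fox_inv, fox_of, fox_map_letter, map_add, map_neg, hA, add_zero]
        simp [pA, M, qA])
  have h2 : ∀ c, c = rl .inl (qR c) + rl .inr (qA c) :=
    chain_ext (f := LinearMap.id) (g := rl .inl ∘ₗ qR + rl .inr ∘ₗ qA) (by
      rintro ⟨r | a, g⟩ <;> simp [qR, qA])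
  have h3 : ∀ c, bd2 (Sum.elim πA πX) rel' (rl .inl c) = rl .inr (bd2 πX rel c) :=
    chain_ext (f := bd2 (Sum.elim πA πX) rel' ∘ₗ rl .inl) (g := rl .inr ∘ₗ bd2 πX rel) (by
      rintro ⟨r, g⟩
      simp [hrel', fox_map_letter])
  rw [injective_iff_map_eq_zero]
  intro c hc
  have a1 : qA c = 0 := by rw [← h1, hc, map_zero, map_zero]
  have a2 : c = rl .inl (qR c) := by
    conv_lhs => rw [h2 c, a1, map_zero, add_zero]
  have a3 : bd2 πX rel (qR c) = 0 := by
    rw [← hX (bd2 πX rel (qR c)), ← h3, ← a2, hc, map_zero]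
  have a4 : qR c = 0 := hinj (by rw [a3, map_zero])
  rw [a2, a4, map_zero]

theorem split_comb_ker {A X R : Type} (πA : A → G) (πX : X → G) (rel : R → FreeGroup X)
    (hker : (FreeGroup.lift πX).ker = Subgroup.normalClosure (Set.range rel))
    (w : A → FreeGroup X) (hw : ∀ a, FreeGroup.lift πX (w a) = πA a)
    (rel' : R ⊕ A → FreeGroup (A ⊕ X)) (h1' : ∀ r, rel' (.inl r) = FreeGroup.map .inr (rel r))
    (h2' : ∀ a, rel' (.inr a) = (FreeGroup.of (.inl a))⁻¹ * FreeGroup.map .inr (w a)) :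
    (FreeGroup.lift (Sum.elim πA πX)).ker = Subgroup.normalClosure (Set.range rel') := by
  have hrel : ∀ r, FreeGroup.lift πX (rel r) = 1 := fun r => by
    rw [← MonoidHom.mem_ker, hker]
    exact Subgroup.subset_normalClosure ⟨r, rfl⟩
  have hl : ∀ v : FreeGroup X, FreeGroup.lift (Sum.elim πA πX) (FreeGroup.map .inr v) =
      FreeGroup.lift πX v := fun v => lift_map_letter _ _ v
  apply le_antisymm
  · intro u hu
    obtain ⟨ρ, hρ1, hρ2⟩ : ∃ ρ : FreeGroup (A ⊕ X) →* FreeGroup X,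
        (∀ a, ρ (FreeGroup.of (.inl a)) = w a) ∧ ∀ x, ρ (FreeGroup.of (.inr x)) = FreeGroup.of x :=
      ⟨FreeGroup.lift (Sum.elim w FreeGroup.of), fun a => by simp, fun x => by simp⟩
    have h1 : QuotientGroup.mk' (Subgroup.normalClosure (Set.range rel')) =
        (QuotientGroup.mk' (Subgroup.normalClosure (Set.range rel'))).comp
          ((FreeGroup.map .inr).comp ρ) := by
      refine FreeGroup.ext_hom _ _ fun s => ?_
      rcases s with a | x
      · rw [MonoidHom.comp_apply, MonoidHom.comp_apply, hρ1, QuotientGroup.mk'_apply,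
          QuotientGroup.mk'_apply, QuotientGroup.eq, ← h2']
        exact Subgroup.subset_normalClosure ⟨.inr a, rfl⟩
      · rw [MonoidHom.comp_apply, MonoidHom.comp_apply, hρ2, FreeGroup.map.of]
    have h2 : FreeGroup.lift (Sum.elim πA πX) = (FreeGroup.lift πX).comp ρ := by
      refine FreeGroup.ext_hom _ _ fun s => ?_
      rcases s with a | x
      · simp [hρ1, hw]
      · simp [hρ2]
    have h3 : ρ u ∈ Subgroup.normalClosure (Set.range rel) := by
      rw [← hker, MonoidHom.mem_ker, ← MonoidHom.comp_apply, ← h2]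
      exact hu
    have h4 : Subgroup.normalClosure (Set.range rel) ≤
        (Subgroup.normalClosure (Set.range rel')).comap (FreeGroup.map .inr) :=
      Subgroup.normalClosure_le_normal (by
        rintro _ ⟨r, rfl⟩
        rw [SetLike.mem_coe, Subgroup.mem_comap, ← h1']
        exact Subgroup.subset_normalClosure ⟨.inl r, rfl⟩)
    have h5 := DFunLike.congr_fun h1 u
    rw [MonoidHom.comp_apply, MonoidHom.comp_apply, QuotientGroup.mk'_apply,
      QuotientGroup.mk'_apply, (QuotientGroup.eq_one_iff _).2 (Subgroup.mem_comap.1 (h4 h3))] at h5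
    exact (QuotientGroup.eq_one_iff _).1 h5
  · refine Subgroup.normalClosure_le_normal ?_
    rintro _ ⟨r | a, rfl⟩
    · simp [h1', hl, hrel]
    · simp [h2', hl, hw]

theorem exists_comb (P : AsphPres G) (Z : Level G) :
    ∃ (R : Type) (rel : R → FreeGroup (Z.A ⊕ P.X)),
      (FreeGroup.lift (Sum.elim Z.π P.π)).ker = Subgroup.normalClosure (Set.range rel) ∧
      Function.Injective (bd2 (Sum.elim Z.π P.π) rel) := by
  have hw : ∀ a, ∃ w, FreeGroup.lift P.π w = Z.π a := fun a => P.surj (Z.π a)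
  choose w hw using hw
  have h1 := split_comb_ker Z.π P.π P.rel P.ker w hw
    (Sum.elim (fun r => FreeGroup.map .inr (P.rel r))
      fun a => (FreeGroup.of (.inl a))⁻¹ * FreeGroup.map .inr (w a))
    (fun _ => Sum.elim_inl _ _ _) fun _ => Sum.elim_inr _ _ _
  have h2 := split_comb_inj Z.π P.π P.rel P.inj w
  exact ⟨P.R ⊕ Z.A, _, h1, h2⟩

theorem exists_split {A X R I : Type} (π : A ⊕ X → G) (rel : R → FreeGroup (A ⊕ X))
    (hker : (FreeGroup.lift π).ker = Subgroup.normalClosure (Set.range rel))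
    (hinj : Function.Injective (bd2 π rel)) (e : I → FreeGroup A)
    (hsurj : Function.Surjective (FreeGroup.lift fun a => π (.inl a)))
    (he : ∀ i, FreeGroup.lift (fun a => π (.inl a)) (e i) = 1)
    (hinjZ : Function.Injective (bd2 (fun a => π (.inl a)) e))
    (hex : ∀ c, bd1 (fun a => π (.inl a)) c = 0 → c ∈ LinearMap.range (bd2 (fun a => π (.inl a)) e)) :
    ∃ (φ : I → (R × G →₀ ℤ)) (lam : R → (I × G →₀ ℤ)) (L : (A ⊕ X) ⊕ I → (R × G →₀ ℤ)),
      (∀ i, bd2 π rel (φ i) = fox π (FreeGroup.map .inl (e i)) 1) ∧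
      (∀ i, eqv lam (φ i) = single (i, 1) 1) ∧
      (∀ a, L (.inl (.inl a)) = 0) ∧
      ∀ r, eqv L (rl .inl (fox π (rel r) 1) + rl .inr (lam r)) = single (r, 1) 1 := by
  set πA : A → G := fun a => π (.inl a) with hπA
  have hrel : ∀ r, FreeGroup.lift π (rel r) = 1 := fun r => by
    rw [← MonoidHom.mem_ker, hker]
    exact Subgroup.subset_normalClosure ⟨r, rfl⟩
  have hl : ∀ v : FreeGroup A, FreeGroup.lift π (FreeGroup.map .inl v) = FreeGroup.lift πA v :=
    fun v => lift_map_letter _ _ v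
  have hf : ∀ (v : FreeGroup A) (g : G), fox π (FreeGroup.map .inl v) g = rl .inl (fox πA v g) :=
    fun v g => fox_map_letter _ _ v g
  choose u hu using fun x => hsurj (π (.inr x))
  have hφ : ∀ i, ∃ c, bd2 π rel c = fox π (FreeGroup.map .inl (e i)) 1 := fun i =>
    fox_mem_range_bd2 π rel hrel (by rw [← hker, MonoidHom.mem_ker, hl, he]) 1
  choose φ hφ using hφ
  have hσ : ∀ x, ∃ c, bd2 π rel c = single (.inr x, 1) 1 - rl .inl (fox πA (u x) 1) := fun x => by
    obtain ⟨c, hc⟩ := fox_mem_range_bd2 π rel hrel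
      (w := FreeGroup.of (.inr x) * (FreeGroup.map .inl (u x))⁻¹)
      (by rw [← hker, MonoidHom.mem_ker]; simp [hl, hu]) 1
    refine ⟨c, ?_⟩
    rw [hc, fox_mul, fox_inv, hf, hl, hu]
    simp [sub_eq_add_neg]
  choose σ hσ using hσ
  let S' : ((A ⊕ X) × G →₀ ℤ) →ₗ[ℤ] (R × G →₀ ℤ) := eqv (Sum.elim (fun _ => 0) σ)
  let Q : ((A ⊕ X) × G →₀ ℤ) →ₗ[ℤ] (A × G →₀ ℤ) :=
    eqv (Sum.elim (fun a => single (a, 1) 1) fun x => fox πA (u x) 1)
  have h1 : ∀ c, c - bd2 π rel (S' c) = rl .inl (Q c) :=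
    chain_ext (f := LinearMap.id - bd2 π rel ∘ₗ S') (g := rl .inl ∘ₗ Q) (by
      rintro ⟨a | x, g⟩
      · simp [S', Q]
      · simp [S', Q, ← tr_bd2, hσ, tr_rl])
  have h2 : ∀ c, bd1 πA (Q c) = bd1 π c :=
    chain_ext (f := bd1 πA ∘ₗ Q) (g := bd1 π) (by
      rintro ⟨a | x, g⟩
      · simp [Q, hπA]
      · simp [Q, ← fox_eq_tr, bd1_fox, hu])
  have h3 : ∀ c, Q (rl .inl c) = c := fun c => by
    simp only [Q, split_eqv_rl, Sum.elim_inl, split_eqv_id]
  have hlam : ∀ r, ∃ c, bd2 πA e c = Q (fox π (rel r) 1) := fun r =>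
    hex _ (by rw [h2, bd1_fox, hrel, mul_one, sub_self])
  choose lam hlam using hlam
  have h4 : ∀ c, bd2 π rel (eqv φ c) = rl .inl (bd2 πA e c) :=
    chain_ext (f := bd2 π rel ∘ₗ eqv φ) (g := rl .inl ∘ₗ bd2 πA e) (by
      rintro ⟨i, g⟩
      simp [← tr_bd2, hφ, hf, tr_rl, ← fox_eq_tr])
  have h5 : ∀ c, bd2 πA e (eqv lam c) = Q (bd2 π rel c) :=
    chain_ext (f := bd2 πA e ∘ₗ eqv lam) (g := Q ∘ₗ bd2 π rel) (by
      rintro ⟨r, g⟩
      simp only [LinearMap.comp_apply, eqv_single, one_smul, ← tr_bd2, hlam, bd2_single]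
      rw [fox_eq_tr π (rel r) g]
      exact tr_eqv _ _ _)
  refine ⟨φ, lam, Sum.elim (Sum.elim (fun _ => 0) σ) φ, hφ, fun i => hinjZ ?_, fun a => rfl,
    fun r => ?_⟩
  · rw [h5, hφ, hf, h3, bd2_single, one_smul]
  · have h6 : eqv φ (lam r) = single (r, 1) 1 - S' (fox π (rel r) 1) := hinj (by
      rw [h4, hlam, ← h1, map_sub, bd2_single, one_smul])
    rw [map_add, split_eqv_rl, split_eqv_rl]
    simp only [Sum.elim_inl, Sum.elim_inr]
    rw [h6]
    exact add_sub_cancel _ _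

end Crest.Agent.R197
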