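import Crest.Agent.R197.RADefs

/-! R197: walls of a right-angled Artin group.

`(etaW g).g = g` (`RA.hom_ext`), hence `eta_mul_gen`, and `eta (g * lt s) = eta g ± single (wl g s) 1`.
`gen v ∉ lkSub v` (exponent of `v`: `RA.lift` to `Multiplicative ℤ`); this gives `wl_inj`.  Elements of
`lkSub v` commute with `gen v`, and `eta (g * k) W = eta g W` if `k ∈ lkSub v`, `W.1 = v`.
`eta_eq`: for `W = ⟨v, mk a⟩` show `eta (a * g) W - eta a W ∈ {0, 1}` by `RA.induction` on `g` (if the
last edge is dual to `W` then the end point is in `a * lkSub v` or in `a * lkSub v * gen v`); use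
`eta 1 W = 0`.
Left action: `c • ⟨v, mk g⟩ = ⟨v, mk (c * g)⟩`; `wl (c * g) s = c • wl g s` and
`eta (c * h) = eta c + mapDomain (c • ·) (eta h)` (induction on `h`).  With `eta_eq`:
`W ∈ sep h` iff `c • W` is in exactly one of `sep c`, `sep (c * h)`.  So `exists_toward`, `toward_adj`
for `(g, h)` reduce to descents of `h⁻¹ * g`.
(K2) `g ≠ 1` has a descent: take a shortest list of letters with product `g`, `g = g' * lt s`.  If
`W = wl g' s ∉ sep g` then `W ∈ sep g'`, so some prefix `p` with next letter `t` has `wl p t = W`,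
`W ∉ sep p`; comparing signs `t = (s.1, !s.2)`, the word is `p t γ s` with `γ ∈ lkSub s.1`, and both
letters can be deleted.  (K4) by induction on `len`, every `g` is the product of a list of `len g`
letters, and `len g ≤` the length of any list.  (Q) two descents `s ≠ t` of `g`: take a list `γ` of
length `len g - 1` for `g * lt s`; `W = wl g t ∈ sep (g * lt s)` is crossed by `γ`:
`γ = p ++ t⁻¹ :: γ'` and `γ' ++ [s⁻¹]` has its product in `lkSub t.1`.  The retraction
`RA.lift (fun u => if L.Adj t.1 u then gen u else 1)` fixes `lkSub t.1` and deletes the other letters;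
as the whole word is shortest, no letter is deleted, so `L.Adj t.1 s.1`. -/

set_option autoImplicit false

namespace Crest.Agent.R197

open Finsupp

variable {V : Type} {L : SimpleGraph V}

theorem wl_mul_lt_self (g : RA L) (s : V × Bool) : wl (g * lt L s) (s.1, !s.2) = wl g s := by
  obtain ⟨v, _ | _⟩ := s
  · rfl
  · simp [wl]

private theorem walls_mk_eq {v : V} {a b : RA L}
    (h : (⟨v, QuotientGroup.mk a⟩ : Wall L) = ⟨v, QuotientGroup.mk b⟩) : a⁻¹ * b ∈ lkSub L v :=
  QuotientGroup.eq.1 (eq_of_heq (Sigma.mk.inj_iff.1 h).2)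

private theorem walls_gen_notMem (v : V) : gen L v ∉ lkSub L v := by
  classical
  let φ : RA L →* Multiplicative ℤ :=
    RA.lift L (fun u => if u = v then Multiplicative.ofAdd 1 else 1) fun _ _ _ => Commute.all _ _
  have h1 : lkSub L v ≤ φ.ker := by
    refine (Subgroup.closure_le _).2 ?_
    rintro _ ⟨u, hu, rfl⟩
    have : u ≠ v := fun e => L.loopless.irrefl v (by rw [e] at hu; exact hu)
    simp [φ, this]
  intro h
  have h2 := h1 h
  simp [φ] at h2

private theorem walls_comm {v : V} {k : RA L} (hk : k ∈ lkSub L v) : Commute k (gen L v) := by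
  induction hk using Subgroup.closure_induction with
  | mem x hx => obtain ⟨u, hu, rfl⟩ := hx; exact (gen_comm hu).symm
  | one => exact Commute.one_left _
  | mul x y _ _ hx hy => exact hx.mul_left hy
  | inv x _ hx => exact hx.inv_left

private theorem walls_comm_lt {s : V × Bool} {k : RA L} (hk : k ∈ lkSub L s.1) :
    Commute k (lt L s) := by
  obtain ⟨v, _ | _⟩ := s
  · exact (walls_comm hk).inv_right
  · exact walls_comm hk

/-- conjugation by the letter does not matter -/
private theorem walls_conj {s : V × Bool} {k : RA L}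
    (hk : (lt L s)⁻¹ * k * lt L s ∈ lkSub L s.1) : k ∈ lkSub L s.1 := by
  have h1 := (walls_comm_lt hk).eq
  have h2 : k = (lt L s)⁻¹ * k * lt L s := by
    calc k = lt L s * ((lt L s)⁻¹ * k * lt L s) * (lt L s)⁻¹ := by group
      _ = _ := by rw [← h1]; group
  rw [h2]; exact hk

private theorem walls_same {p g : RA L} {t : V × Bool} (h : wl p t = wl g t) :
    p⁻¹ * g ∈ lkSub L t.1 := by
  obtain ⟨v, _ | _⟩ := t
  · have h1 := walls_mk_eq h
    refine walls_conj (s := (v, false)) ?_
    simpa [mul_assoc] using h1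
  · exact walls_mk_eq h

theorem wl_inj {g : RA L} {s t : V × Bool} (h : wl g s = wl g t) : s = t := by
  obtain ⟨u, b⟩ := s
  obtain ⟨v, c⟩ := t
  obtain rfl : u = v := congrArg Sigma.fst h
  cases b <;> cases c
  · rfl
  · exact absurd (by simpa using walls_mk_eq h) (walls_gen_notMem (L := L) u)
  · exact absurd (by simpa using walls_mk_eq h) (walls_gen_notMem (L := L) u)
  · rfl

private theorem walls_etaW_g (g : RA L) : (etaW L g).g = g := by
  have : Wr.proj.comp (etaW L) = MonoidHom.id _ := RA.hom_ext fun v => by simp [etaW]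
  exact DFunLike.congr_fun this g

@[simp] theorem eta_one : eta (1 : RA L) = 0 := by
  simp [eta]

theorem eta_mul_gen (g : RA L) (v : V) : eta (g * gen L v) = eta g + single (wl g (v, true)) 1 := by
  unfold eta
  rw [map_mul, Wr.mul_f, walls_etaW_g, one_mul, toAdd_mul]
  simp [etaW]

/-- the sign of a letter -/
private def walls_sg (s : V × Bool) : ℤ := cond s.2 1 (-1)

private theorem walls_sg_eq (s : V × Bool) : walls_sg s = 1 ∨ walls_sg s = -1 := by
  obtain ⟨v, _ | _⟩ := s <;> simp [walls_sg]

private theorem walls_eq_not {s t : V × Bool} (h1 : t.1 = s.1) (h2 : walls_sg t = -walls_sg s) :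
    t = (s.1, !s.2) := by
  obtain ⟨u, b⟩ := s
  obtain ⟨v, c⟩ := t
  cases b <;> cases c <;> simp_all [walls_sg]

private theorem walls_eta_lt (g : RA L) (s : V × Bool) :
    eta (g * lt L s) = eta g + single (wl g s) (walls_sg s) := by
  obtain ⟨v, _ | _⟩ := s
  · have h := eta_mul_gen (g * (gen L v)⁻¹) v
    rw [inv_mul_cancel_right] at h
    have h2 : wl (g * (gen L v)⁻¹) (v, true) = wl g (v, false) := rfl
    rw [lt_false, h, h2, add_assoc, ← single_add]
    simp [walls_sg]
  · exact eta_mul_gen g v

private theorem walls_eta_self (g : RA L) (s : V × Bool) :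
    eta (g * lt L s) (wl g s) = eta g (wl g s) + walls_sg s := by
  rw [walls_eta_lt]; simp

private theorem walls_eta_ne (g : RA L) (s : V × Bool) {W : Wall L} (h : W ≠ wl g s) :
    eta (g * lt L s) W = eta g W := by
  rw [walls_eta_lt, Finsupp.add_apply, single_eq_of_ne h, add_zero]

private theorem walls_eta_lk {W : Wall L} {k : RA L} (hk : k ∈ lkSub L W.1) (g : RA L) :
    eta (g * k) W = eta g W := by
  induction hk using Subgroup.closure_induction generalizing g with
  | mem x hx =>
    obtain ⟨u, hu, rfl⟩ := hx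
    refine walls_eta_ne g (u, true) fun e => ?_
    have : W.1 = u := congrArg Sigma.fst e
    exact L.loopless.irrefl u (by rw [this] at hu; exact hu)
  | one => rw [mul_one]
  | mul x y _ _ hx hy => rw [← mul_assoc, hy, hx]
  | inv x _ hx => rw [← hx (g * x⁻¹), inv_mul_cancel_right]

private theorem walls_two (v : V) (a g : RA L) :
    eta (a * g) ⟨v, QuotientGroup.mk a⟩ = eta a ⟨v, QuotientGroup.mk a⟩ ∨
      eta (a * g) ⟨v, QuotientGroup.mk a⟩ = eta a ⟨v, QuotientGroup.mk a⟩ + 1 := by
  induction g using RA.induction with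
  | h1 => left; rw [mul_one]
  | hs g s ih =>
    rw [← mul_assoc]
    by_cases h : (⟨v, QuotientGroup.mk a⟩ : Wall L) = wl (a * g) s
    · obtain ⟨u, b⟩ := s
      obtain rfl : v = u := congrArg Sigma.fst h
      cases b
      · left
        have h1 : g * (gen L v)⁻¹ ∈ lkSub L v := by simpa [mul_assoc] using walls_mk_eq h
        rw [lt_false, mul_assoc]
        exact walls_eta_lk (W := ⟨v, QuotientGroup.mk a⟩) h1 a
      · right
        have h1 : g ∈ lkSub L v := by simpa using walls_mk_eq h
        have h2 := walls_eta_self (a * g) (v, true)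
        rw [← h, walls_eta_lk (W := ⟨v, QuotientGroup.mk a⟩) h1 a] at h2
        exact h2
    · rw [walls_eta_ne _ _ h]; exact ih

theorem sgnW_eq (W : Wall L) : sgnW W = 1 ∨ sgnW W = -1 := by
  unfold sgnW
  split_ifs
  · exact Or.inr rfl
  · exact Or.inl rfl

theorem eta_eq (g : RA L) (W : Wall L) : eta g W = 0 ∨ eta g W = sgnW W := by
  obtain ⟨v, q⟩ := W
  obtain ⟨a, rfl⟩ := QuotientGroup.mk_surjective q
  have h : ∀ x : RA L, eta x ⟨v, QuotientGroup.mk a⟩ = eta a ⟨v, QuotientGroup.mk a⟩ ∨
      eta x ⟨v, QuotientGroup.mk a⟩ = eta a ⟨v, QuotientGroup.mk a⟩ + 1 := fun x => by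
    have := walls_two v a (a⁻¹ * x)
    rwa [mul_inv_cancel_left] at this
  have h1 := h 1
  have hg := h g
  rw [eta_one, Finsupp.zero_apply] at h1
  unfold sgnW
  split_ifs with hx
  · obtain ⟨x, hx⟩ := hx
    have := h x
    omega
  · have : eta a ⟨v, QuotientGroup.mk a⟩ ≠ -1 := fun e => hx ⟨a, e⟩
    omega

private theorem walls_mem {g : RA L} {W : Wall L} : W ∈ sep g ↔ eta g W ≠ 0 :=
  Finsupp.mem_support_iff

@[simp] theorem sep_one : sep (1 : RA L) = ∅ := by
  simp [sep]

theorem mem_sep_mul_lt (g : RA L) (s : V × Bool) (W : Wall L) :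
    W ∈ sep (g * lt L s) ↔ (W ∈ sep g ↔ W ≠ wl g s) := by
  rw [walls_mem, walls_mem]
  by_cases h : W = wl g s
  · subst h
    have h1 := walls_eta_self g s
    have h2 := eta_eq g (wl g s)
    have h3 := eta_eq (g * lt L s) (wl g s)
    have h4 := walls_sg_eq s
    simp only [ne_eq, not_true_eq_false, iff_false, not_not]
    omega
  · rw [walls_eta_ne g s h]; simp [h]

theorem len_mul_lt_of_not_mem {g : RA L} {s : V × Bool} (h : wl g s ∉ sep g) :
    len (g * lt L s) = len g + 1 := by
  have : sep (g * lt L s) = insert (wl g s) (sep g) := by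
    ext W
    rw [mem_sep_mul_lt, Finset.mem_insert]
    by_cases e : W = wl g s
    · subst e; simp [h]
    · simp [e]
  unfold len
  rw [this, Finset.card_insert_of_notMem h]

theorem len_mul_lt_of_mem {g : RA L} {s : V × Bool} (h : wl g s ∈ sep g) :
    len (g * lt L s) + 1 = len g := by
  have : sep (g * lt L s) = (sep g).erase (wl g s) := by
    ext W
    rw [mem_sep_mul_lt, Finset.mem_erase]
    by_cases e : W = wl g s
    · subst e; simp [h]
    · simp [e]
  unfold len
  rw [this, Finset.card_erase_add_one h]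

/-! ### the left action on walls -/

private def walls_act (c : RA L) (W : Wall L) : Wall L := ⟨W.1, c • W.2⟩

private theorem walls_act_wl (c g : RA L) (s : V × Bool) :
    walls_act c (wl g s) = wl (c * g) s := by
  obtain ⟨v, _ | _⟩ := s
  · refine congrArg (Sigma.mk v) ?_
    show QuotientGroup.mk (c * (g * (gen L v)⁻¹)) = QuotientGroup.mk (c * g * (gen L v)⁻¹)
    rw [mul_assoc]
  · rfl

private theorem walls_act_inj (c : RA L) : Function.Injective (walls_act c : Wall L → Wall L) :=
  Function.LeftInverse.injective (g := walls_act c⁻¹) fun W => by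
    obtain ⟨v, q⟩ := W
    exact congrArg (Sigma.mk v) (inv_smul_smul c q)

private theorem walls_eta_act (c h : RA L) (W : Wall L) :
    eta (c * h) (walls_act c W) = eta c (walls_act c W) + eta h W := by
  induction h using RA.induction with
  | h1 => simp
  | hs g s ih =>
    rw [← mul_assoc]
    by_cases e : W = wl g s
    · subst e
      rw [walls_eta_self, ← add_assoc, ← ih, walls_act_wl, walls_eta_self]
    · rw [walls_eta_ne _ _ e, ← ih, walls_eta_ne]
      rw [← walls_act_wl]
      exact fun e' => e (walls_act_inj c e')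

private theorem walls_toward (g h : RA L) (s : V × Bool) :
    ¬ (wl g s ∈ sep g ↔ wl g s ∈ sep h) ↔ wl (h⁻¹ * g) s ∈ sep (h⁻¹ * g) := by
  have h1 := walls_eta_act h (h⁻¹ * g) (wl (h⁻¹ * g) s)
  rw [walls_act_wl, mul_inv_cancel_left] at h1
  have h2 := eta_eq g (wl g s)
  have h3 := eta_eq h (wl g s)
  have h4 := sgnW_eq (wl g s)
  rw [walls_mem, walls_mem, walls_mem]
  omega

/-! ### words -/

private def walls_ev (l : List (V × Bool)) : RA L := (l.map (lt L)).prod

private theorem walls_ev_nil : (walls_ev [] : RA L) = 1 := rfl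

private theorem walls_ev_append (l l' : List (V × Bool)) :
    (walls_ev (l ++ l') : RA L) = walls_ev l * walls_ev l' := by
  simp [walls_ev]

private theorem walls_ev_cons (s : V × Bool) (l : List (V × Bool)) :
    (walls_ev (s :: l) : RA L) = lt L s * walls_ev l := by
  simp [walls_ev]

private theorem walls_ev_snoc (l : List (V × Bool)) (s : V × Bool) :
    (walls_ev (l ++ [s]) : RA L) = walls_ev l * lt L s := by
  simp [walls_ev]

private theorem walls_ev_surj (g : RA L) : ∃ l, walls_ev l = g := by
  induction g using RA.induction with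
  | h1 => exact ⟨[], rfl⟩
  | hs g s ih => obtain ⟨l, rfl⟩ := ih; exact ⟨l ++ [s], walls_ev_snoc l s⟩

private theorem walls_len_le (l : List (V × Bool)) : len (walls_ev l : RA L) ≤ l.length := by
  induction l using List.reverseRecOn with
  | nil => simp [walls_ev_nil, len]
  | append_singleton l s ih =>
    rw [walls_ev_snoc, List.length_append, List.length_singleton]
    by_cases h : wl (walls_ev l : RA L) s ∈ sep (walls_ev l)
    · have := len_mul_lt_of_mem h; omega
    · have := len_mul_lt_of_not_mem h; omega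

/-- the first crossing of a separating wall -/
private theorem walls_cross {W : Wall L} (l : List (V × Bool)) (h : W ∈ sep (walls_ev l)) :
    ∃ p t q, l = p ++ t :: q ∧ wl (walls_ev p) t = W ∧ walls_sg t = sgnW W := by
  induction l using List.reverseRecOn with
  | nil => simp [walls_ev_nil] at h
  | append_singleton l s ih =>
    by_cases h1 : W ∈ sep (walls_ev l)
    · obtain ⟨p, t, q, rfl, h2⟩ := ih h1
      exact ⟨p, t, q ++ [s], by simp, h2⟩
    · rw [walls_ev_snoc] at h
      have h2 : W = wl (walls_ev l) s := by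
        by_contra e
        exact h1 (((mem_sep_mul_lt _ _ _).1 h).2 e)
      subst h2
      refine ⟨l, s, [], rfl, rfl, ?_⟩
      have h3 := walls_eta_self (walls_ev l : RA L) s
      have h4 := eta_eq (walls_ev l * lt L s) (wl (walls_ev l : RA L) s)
      rw [walls_mem] at h h1
      omega

/-- the sign of a descent -/
private theorem walls_sg_desc {g : RA L} {s : V × Bool} (h : wl g s ∈ sep g) :
    sgnW (wl g s) = -walls_sg s := by
  have h1 := walls_eta_self g s
  have h2 := eta_eq g (wl g s)
  have h3 := eta_eq (g * lt L s) (wl g s)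
  have h4 := walls_sg_eq s
  rw [walls_mem] at h
  omega

/-- a descent of `g` whose wall is crossed by the word `l` -/
private theorem walls_cross_desc {g : RA L} {s : V × Bool} (h : wl g s ∈ sep g)
    (l : List (V × Bool)) (hl : wl g s ∈ sep (walls_ev l)) :
    ∃ p q, l = p ++ (s.1, !s.2) :: q ∧ (walls_ev p)⁻¹ * (g * lt L s) ∈ lkSub L s.1 := by
  obtain ⟨p, t, q, rfl, h1, h2⟩ := walls_cross l hl
  obtain rfl : t = (s.1, !s.2) :=
    walls_eq_not (congrArg Sigma.fst h1) (h2.trans (walls_sg_desc h))
  refine ⟨p, q, rfl, ?_⟩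
  rw [← wl_mul_lt_self g s] at h1
  exact walls_same (t := (s.1, !s.2)) h1

private theorem walls_desc_aux (n : ℕ) : ∀ l : List (V × Bool), l.length ≤ n →
    (walls_ev l : RA L) ≠ 1 → ∃ s, wl (walls_ev l : RA L) s ∈ sep (walls_ev l) := by
  induction n with
  | zero =>
    intro l hl h1
    obtain rfl : l = [] := List.length_eq_zero_iff.1 (by omega)
    exact absurd rfl h1
  | succ n ih =>
    intro l hl h1
    rcases List.eq_nil_or_concat l with rfl | ⟨l', s, rfl⟩
    · exact absurd rfl h1
    rw [List.concat_eq_append] at hl h1 ⊢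
    by_cases h2 : wl (walls_ev l' : RA L) s ∈ sep (walls_ev l')
    · obtain ⟨p, q, rfl, h3⟩ := walls_cross_desc h2 l' h2
      have h4 : (walls_ev p)⁻¹ * (walls_ev (p ++ (s.1, !s.2) :: q) * lt L s) =
          (lt L s)⁻¹ * walls_ev q * lt L s := by
        rw [walls_ev_append, walls_ev_cons, lt_not]; group
      rw [h4] at h3
      have h5 := (walls_comm_lt (walls_conj h3)).eq
      have h6 : (walls_ev (p ++ (s.1, !s.2) :: q ++ [s]) : RA L) = walls_ev (p ++ q) := by
        rw [walls_ev_snoc, walls_ev_append, walls_ev_append, walls_ev_cons, lt_not, mul_assoc,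
          mul_assoc, h5]
        group
      rw [h6] at h1 ⊢
      refine ih _ ?_ h1
      simp only [List.length_append, List.length_cons, List.length_nil] at hl ⊢
      omega
    · refine ⟨(s.1, !s.2), ?_⟩
      rw [walls_ev_snoc, wl_mul_lt_self, mem_sep_mul_lt]
      simp [h2]

private theorem walls_desc {g : RA L} (hg : g ≠ 1) : ∃ s, wl g s ∈ sep g := by
  obtain ⟨l, rfl⟩ := walls_ev_surj g
  exact walls_desc_aux _ l le_rfl hg

private theorem walls_geo (n : ℕ) : ∀ g : RA L, len g = n →
    ∃ l : List (V × Bool), walls_ev l = g ∧ l.length = n := by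
  induction n with
  | zero =>
    intro g hg
    by_cases h1 : g = 1
    · exact ⟨[], h1.symm, rfl⟩
    · obtain ⟨s, hs⟩ := walls_desc h1
      have := len_mul_lt_of_mem hs
      omega
  | succ n ih =>
    intro g hg
    have h1 : g ≠ 1 := by
      rintro rfl
      simp [len] at hg
    obtain ⟨s, hs⟩ := walls_desc h1
    have h2 := len_mul_lt_of_mem hs
    obtain ⟨l, h3, h4⟩ := ih (g * lt L s) (by omega)
    refine ⟨l ++ [(s.1, !s.2)], ?_, by simp [h4]⟩
    rw [walls_ev_snoc, h3, lt_not, mul_inv_cancel_right]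

open Classical in
/-- the retraction to the link -/
private noncomputable def walls_ret (v : V) : RA L →* RA L :=
  RA.lift L (fun u => if L.Adj v u then gen L u else 1) fun a b h => by
    split_ifs
    · exact gen_comm h
    · exact Commute.one_right _
    · exact Commute.one_left _
    · exact Commute.one_left _

private theorem walls_ret_lk {v : V} {k : RA L} (hk : k ∈ lkSub L v) : walls_ret v k = k := by
  induction hk using Subgroup.closure_induction with
  | mem x hx =>
    obtain ⟨u, hu, rfl⟩ := hx
    have : L.Adj v u := hu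
    simp [walls_ret, this]
  | one => exact map_one _
  | mul x y _ _ hx hy => rw [map_mul, hx, hy]
  | inv x _ hx => rw [map_inv, hx]

private theorem walls_ret_pos {v : V} {s : V × Bool} (h : L.Adj v s.1) :
    walls_ret v (lt L s) = lt L s := by
  obtain ⟨u, _ | _⟩ := s <;> simp_all [walls_ret]

private theorem walls_ret_neg {v : V} {s : V × Bool} (h : ¬ L.Adj v s.1) :
    walls_ret v (lt L s) = 1 := by
  obtain ⟨u, _ | _⟩ := s <;> simp_all [walls_ret]

private theorem walls_ret_ev (v : V) (q : List (V × Bool)) :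
    ∃ q' : List (V × Bool), walls_ret v (walls_ev q : RA L) = walls_ev q' ∧
      q'.length ≤ q.length := by
  induction q with
  | nil => exact ⟨[], map_one _, le_rfl⟩
  | cons s q ih =>
    obtain ⟨q', h1, h2⟩ := ih
    rw [walls_ev_cons, map_mul, h1]
    by_cases h : L.Adj v s.1
    · exact ⟨s :: q', by rw [walls_ret_pos h, walls_ev_cons], by simpa using h2⟩
    · exact ⟨q', by rw [walls_ret_neg h, one_mul], by simp; omega⟩

private theorem walls_desc_adj {g : RA L} {s t : V × Bool} (hs : wl g s ∈ sep g)
    (ht : wl g t ∈ sep g) (hst : s ≠ t) : L.Adj s.1 t.1 := by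
  obtain ⟨l, h1, h2⟩ := walls_geo _ (g * lt L s) rfl
  have h3 := len_mul_lt_of_mem hs
  have h4 : wl g t ∈ sep (walls_ev l) := by
    rw [h1, mem_sep_mul_lt]
    exact iff_of_true ht fun e => hst (wl_inj e).symm
  obtain ⟨p, q, rfl, h5⟩ := walls_cross_desc ht l h4
  rw [walls_ev_append, walls_ev_cons, lt_not] at h1
  have h6 : g = walls_ev p * ((lt L t)⁻¹ * (walls_ev q * (lt L s)⁻¹)) := by
    rw [← mul_assoc, ← mul_assoc, mul_assoc (walls_ev p), h1, mul_inv_cancel_right]
  have h7 : (walls_ev p)⁻¹ * (g * lt L t) =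
      (lt L t)⁻¹ * (walls_ev q * (lt L s)⁻¹) * lt L t := by
    conv_lhs => rw [h6]
    group
  rw [h7] at h5
  have h8 := walls_ret_lk (walls_conj h5)
  by_contra hn
  obtain ⟨q', h9, h10⟩ := walls_ret_ev (L := L) t.1 q
  rw [map_mul, map_inv, walls_ret_neg (fun e => hn e.symm), inv_one, mul_one, h9] at h8
  have h11 : g = walls_ev (p ++ (t.1, !t.2) :: q') := by
    rw [walls_ev_append, walls_ev_cons, lt_not, h8]
    exact h6
  have h12 := walls_len_le (L := L) (p ++ (t.1, !t.2) :: q')
  rw [← h11] at h12
  simp only [List.length_append, List.length_cons] at h2 h12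
  omega

theorem exists_toward {g h : RA L} (hne : g ≠ h) : ∃ s, ¬ (wl g s ∈ sep g ↔ wl g s ∈ sep h) := by
  obtain ⟨s, hs⟩ := walls_desc (g := h⁻¹ * g) fun e => hne (inv_mul_eq_one.1 e).symm
  exact ⟨s, (walls_toward g h s).2 hs⟩

theorem toward_adj {g h : RA L} {s t : V × Bool} (hs : ¬ (wl g s ∈ sep g ↔ wl g s ∈ sep h))
    (ht : ¬ (wl g t ∈ sep g ↔ wl g t ∈ sep h)) (hst : s ≠ t) : L.Adj s.1 t.1 :=
  walls_desc_adj ((walls_toward g h s).1 hs) ((walls_toward g h t).1 ht) hst

theorem exists_desc {g : RA L} (hg : g ≠ 1) : ∃ s, wl g s ∈ sep g := by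
  obtain ⟨s, hs⟩ := exists_toward hg
  exact ⟨s, by simpa using hs⟩

theorem desc_adj {g : RA L} {s t : V × Bool} (hs : wl g s ∈ sep g) (ht : wl g t ∈ sep g)
    (hst : s ≠ t) : L.Adj s.1 t.1 :=
  toward_adj (h := 1) (by simpa using hs) (by simpa using ht) hst

theorem init_adj {g : RA L} {s t : V × Bool} (hs : wl 1 s ∈ sep g) (ht : wl 1 t ∈ sep g)
    (hst : s ≠ t) : L.Adj s.1 t.1 :=
  toward_adj (g := 1) (h := g) (by simpa using hs) (by simpa using ht) hst

theorem sep_injective : Function.Injective (sep : RA L → Finset (Wall L)) := fun g h e => by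
  by_contra hne
  obtain ⟨s, hs⟩ := exists_toward hne
  exact hs (by rw [e])

theorem abs_htz_le_len (g : RA L) : |htz g| ≤ len g := by
  obtain ⟨l, h1, h2⟩ := walls_geo _ g rfl
  rw [← h2, ← h1]
  clear h1 h2
  induction l with
  | nil => simp [walls_ev_nil]
  | cons s l ih =>
    have h3 : htz (lt L s) = 1 ∨ htz (lt L s) = -1 := by
      obtain ⟨v, _ | _⟩ := s <;> simp
    rw [walls_ev_cons, htz_mul, List.length_cons]
    rw [abs_le] at ih ⊢
    push_cast
    omega

theorem finite_len_le [Finite V] (n : ℕ) : {g : RA L | len g ≤ n}.Finite := by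
  refine ((List.finite_length_le (V × Bool) n).image walls_ev).subset fun g hg => ?_
  obtain ⟨l, h1, h2⟩ := walls_geo _ g rfl
  exact ⟨l, le_trans h2.le hg, h1⟩

end Crest.Agent.R197
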