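import Crest.Agent.R197.Wr

/-! R197: evaluation of words in a group with zero. -/

set_option autoImplicit false

namespace Crest.Agent.R197

open Set
open scoped Quaternion

section ev

variable {S K K' : Type} [GroupWithZero K] [GroupWithZero K']

open Classical in
/-- A unit equal to `q` if `q ≠ 0`. -/
noncomputable def wsU (q : K) : Kˣ := if h : q = 0 then 1 else Units.mk0 q h

theorem wsU_coe {q : K} (h : q ≠ 0) : (wsU q : K) = q := by simp [wsU, h]

theorem wsU_zero : wsU (0 : K) = 1 := by simp [wsU]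

/-- Evaluation of a word. -/
noncomputable def wsEv (y : S → K) (u : FreeGroup S) : K :=
  (FreeGroup.lift (fun s => wsU (y s)) u : Kˣ)

theorem wsEv_one (y : S → K) : wsEv y 1 = 1 := by simp [wsEv]

theorem wsEv_mul (y : S → K) (u v : FreeGroup S) : wsEv y (u * v) = wsEv y u * wsEv y v := by
  simp [wsEv]

theorem wsEv_inv (y : S → K) (u : FreeGroup S) : wsEv y u⁻¹ = (wsEv y u)⁻¹ := by
  simp [wsEv]

theorem wsEv_of (y : S → K) {s : S} (h : y s ≠ 0) : wsEv y (FreeGroup.of s) = y s := by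
  simp [wsEv, wsU_coe h]

theorem wsEv_ne_zero (y : S → K) (u : FreeGroup S) : wsEv y u ≠ 0 := Units.ne_zero _

theorem wsEv_map (c : K →*₀ K') (y : S → K) (u : FreeGroup S) :
    c (wsEv y u) = wsEv (fun s => c (y s)) u := by
  induction u using FreeGroup.induction_on with
  | C1 => rw [wsEv_one, wsEv_one, map_one]
  | of s =>
    by_cases h : y s = 0
    · simp [wsEv, h, wsU_zero]
    · rw [wsEv_of _ h, wsEv_of]
      simpa using h
  | inv_of s ih => rw [wsEv_inv, wsEv_inv, map_inv₀, ih]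
  | mul u v ihu ihv => rw [wsEv_mul, wsEv_mul, map_mul, ihu, ihv]

theorem wsEv_const_one (u : FreeGroup S) : wsEv (fun _ => (1 : K)) u = 1 := by
  induction u using FreeGroup.induction_on with
  | C1 => rw [wsEv_one]
  | of s => exact wsEv_of _ one_ne_zero
  | inv_of s ih => rw [wsEv_inv, ih, inv_one]
  | mul u v ihu ihv => rw [wsEv_mul, ihu, ihv, mul_one]

end ev

theorem wsEv_S3 {S : Type} (y : S → S3) (u : FreeGroup S) :
    wsEv (fun s => (y s : ℍ[ℝ])) u = (FreeGroup.lift y u : S3) := by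
  induction u using FreeGroup.induction_on with
  | C1 => rw [wsEv_one, map_one]; rfl
  | of s =>
    rw [wsEv_of, FreeGroup.lift_apply_of]
    rw [← norm_ne_zero_iff, S3.norm_coe]
    exact one_ne_zero
  | inv_of s ih => rw [wsEv_inv, ih, map_inv, Metric.unitSphere.coe_inv]
  | mul u v ihu ihv => rw [wsEv_mul, ihu, ihv, map_mul, Metric.unitSphere.coe_mul]

section unimod

variable {V P : Type} [Fintype V] [DecidableEq V]

theorem ws_unimod {A : Type} [AddCommGroup A] (M : Matrix V V ℤ) (hM : IsUnit M.det) (z : V → A)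
    (h : ∀ b, ∑ v, M b v • z v = 0) (u : V) : z u = 0 := by
  have h1 : M⁻¹ * M = 1 := Matrix.nonsing_inv_mul M hM
  calc z u = ∑ v, (M⁻¹ * M) u v • z v := by
        rw [h1]
        simp [Matrix.one_apply]
    _ = ∑ v, ∑ b, M⁻¹ u b • M b v • z v := by
        refine Finset.sum_congr rfl fun v _ => ?_
        rw [Matrix.mul_apply, Finset.sum_smul]
        simp only [mul_smul]
    _ = ∑ b, M⁻¹ u b • ∑ v, M b v • z v := by
        rw [Finset.sum_comm]
        simp only [Finset.smul_sum]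
    _ = 0 := by simp [h]

omit [DecidableEq V] in
theorem ws_hom {A : Type} [CommGroup A] (φ : FreeGroup (V ⊕ P) →* A)
    (h : ∀ p, φ (FreeGroup.of (.inr p)) = 1) (u : FreeGroup (V ⊕ P)) :
    φ u = ∏ v, φ (FreeGroup.of (.inl v)) ^ expo u (.inl v) := by
  classical
  induction u using FreeGroup.induction_on with
  | C1 => simp
  | of s =>
    rcases s with v | p
    · rw [Finset.prod_eq_single v]
      · simp
      · intro b _ hb
        simp [hb.symm]
      · simp
    · simp [h]
  | inv_of s ih => rw [map_inv, ih]; simp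
  | mul u v ihu ihv => rw [map_mul, ihu, ihv]; simp [zpow_add, Finset.prod_mul_distrib]

theorem ws_comm {K : Type} [CommGroupWithZero K] (w : V → FreeGroup (V ⊕ P))
    (hM : IsUnit (Matrix.of fun b v : V => expo (w b) (.inl v)).det) (y : V ⊕ P → K)
    (h0 : ∀ v, y (.inl v) ≠ 0) (h1 : ∀ p, y (.inr p) = 1) (h : ∀ b, wsEv y (w b) = 1) (u : V) :
    y (.inl u) = 1 := by
  set φ : FreeGroup (V ⊕ P) →* Kˣ := FreeGroup.lift fun s => wsU (y s) with hφ
  have h2 : ∀ p, φ (FreeGroup.of (.inr p)) = 1 := by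
    intro p
    ext
    simp [hφ, h1, wsU_coe]
  have h3 : ∀ b, φ (w b) = 1 := fun b => Units.ext (h b)
  have h4 := ws_unimod _ hM (fun v => Additive.ofMul (φ (FreeGroup.of (.inl v)))) (by
    intro b
    have := ws_hom φ h2 (w b)
    rw [h3] at this
    have h5 := congrArg Additive.ofMul this
    rw [ofMul_prod] at h5
    simpa [ofMul_zpow] using h5.symm) u
  have h5 : φ (FreeGroup.of (.inl u)) = 1 := h4
  have h6 := congrArg Units.val h5
  simpa [hφ, wsU_coe (h0 u)] using h6

end unimod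

section calculus

variable {S : Type}

theorem wsEv_continuousOn {X : Type} [TopologicalSpace X] {A : Set X} (Y : X → S → ℍ[ℝ])
    (hY : ∀ s, ContinuousOn (fun p => Y p s) A) (h0 : ∀ p ∈ A, ∀ s, Y p s ≠ 0) (u : FreeGroup S) :
    ContinuousOn (fun p => wsEv (Y p) u) A := by
  induction u using FreeGroup.induction_on with
  | C1 => simp only [wsEv_one]; exact continuousOn_const
  | of s => exact (hY s).congr fun p hp => wsEv_of _ (h0 p hp s)
  | inv_of s ih => simp only [wsEv_inv]; exact ih.inv₀ fun p _ => wsEv_ne_zero _ _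
  | mul u v ihu ihv => simp only [wsEv_mul]; exact ihu.mul ihv

theorem wsEv_contDiffOn {X : Type} [NormedAddCommGroup X] [NormedSpace ℝ X] {A : Set X}
    (Y : X → S → ℍ[ℝ]) (hY : ∀ s, ContDiffOn ℝ 1 (fun p => Y p s) A)
    (h0 : ∀ p ∈ A, ∀ s, Y p s ≠ 0) (u : FreeGroup S) :
    ContDiffOn ℝ 1 (fun p => wsEv (Y p) u) A := by
  induction u using FreeGroup.induction_on with
  | C1 => simp only [wsEv_one]; exact contDiffOn_const
  | of s => exact (hY s).congr fun p hp => wsEv_of _ (h0 p hp s)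
  | inv_of s ih =>
    simp only [wsEv_inv]
    intro p hp
    have h1 : ContDiffAt ℝ 1 (Inv.inv : ℍ[ℝ] → ℍ[ℝ]) (wsEv (Y p) (FreeGroup.of s)) := by
      simpa only [Ring.inverse_eq_inv'] using!
        contDiffAt_ringInverse ℝ (Units.mk0 _ (wsEv_ne_zero (Y p) (FreeGroup.of s)))
    exact h1.comp_contDiffWithinAt p (ih p hp)
  | mul u v ihu ihv => simp only [wsEv_mul]; exact ihu.mul ihv

theorem wsEv_hasFDerivAt {V P : Type} [Fintype V] (u : FreeGroup (V ⊕ P)) :
    HasFDerivAt (fun x : V → ℍ[ℝ] => wsEv (Sum.elim x fun _ => 1) u)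
      (∑ v, expo u (.inl v) • ContinuousLinearMap.proj (R := ℝ) (φ := fun _ : V => ℍ[ℝ]) v) 1 := by
  classical
  have hone : ∀ u : FreeGroup (V ⊕ P), wsEv (Sum.elim (1 : V → ℍ[ℝ]) fun _ => 1) u = 1 := by
    intro u
    have : (Sum.elim (1 : V → ℍ[ℝ]) fun _ : P => (1 : ℍ[ℝ])) = fun _ => 1 := by
      funext s
      cases s <;> rfl
    rw [this, wsEv_const_one]
  induction u using FreeGroup.induction_on with
  | C1 => simp only [wsEv_one]; simpa using hasFDerivAt_const _ _
  | of s =>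
    rcases s with v | p
    · have h1 : (∑ v', expo (FreeGroup.of (Sum.inl v : V ⊕ P)) (.inl v') •
          ContinuousLinearMap.proj (R := ℝ) (φ := fun _ : V => ℍ[ℝ]) v') =
          ContinuousLinearMap.proj (R := ℝ) (φ := fun _ : V => ℍ[ℝ]) v := by
        rw [Finset.sum_eq_single v]
        · simp
        · intro b _ hb
          simp [hb.symm]
        · simp
      rw [h1]
      refine (ContinuousLinearMap.proj (R := ℝ) (φ := fun _ : V => ℍ[ℝ]) v).hasFDerivAt.congr_of_eventuallyEq ?_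
      have : ∀ᶠ x : V → ℍ[ℝ] in nhds 1, x v ≠ 0 :=
        (continuous_apply v).continuousAt.eventually_ne one_ne_zero
      filter_upwards [this] with x hx
      exact wsEv_of _ hx
    · have h1 : ∀ x : V → ℍ[ℝ], wsEv (Sum.elim x fun _ => 1) (FreeGroup.of (Sum.inr p : V ⊕ P)) = 1 :=
        fun x => wsEv_of _ one_ne_zero
      simp only [h1]
      simpa using hasFDerivAt_const _ _
  | inv_of s ih =>
    simp only [wsEv_inv]
    have h1 := (hasFDerivAt_inv' (𝕜 := ℝ) (wsEv_ne_zero (Sum.elim (1 : V → ℍ[ℝ]) fun _ => 1)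
      (FreeGroup.of s))).comp (1 : V → ℍ[ℝ]) ih
    refine h1.congr_fderiv ?_
    ext1 h
    simp [hone]
  | mul u v ihu ihv =>
    simp only [wsEv_mul]
    refine (ihu.mul' ihv).congr_fderiv ?_
    ext1 h
    simp [hone, add_smul, Finset.sum_add_distrib, add_comm]

end calculus

/-- Conjugation by `i`. -/
noncomputable def wsC : ℍ[ℝ] →*₀ ℍ[ℝ] where
  toFun q := ⟨q.re, q.imI, -q.imJ, -q.imK⟩
  map_zero' := by ext <;> simp
  map_one' := by ext <;> simp
  map_mul' a b := by ext <;> simp <;> ring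

theorem wsC_apply (q : ℍ[ℝ]) : wsC q = ⟨q.re, q.imI, -q.imJ, -q.imK⟩ := rfl

theorem wsC_sub_one (q : ℍ[ℝ]) : wsC (q - 1) = wsC q - 1 := by
  ext <;> simp [wsC_apply]

theorem wsC_norm (q : ℍ[ℝ]) : ‖wsC q‖ = ‖q‖ := by
  have h : Quaternion.normSq (wsC q) = Quaternion.normSq q := by
    simp [Quaternion.normSq_def', wsC_apply]
  rw [Quaternion.normSq_eq_norm_mul_self, Quaternion.normSq_eq_norm_mul_self] at h
  exact (mul_self_inj (norm_nonneg _) (norm_nonneg _)).1 h

theorem wsC_fix {q : ℍ[ℝ]} (h : wsC q = q) : ∃ z : ℂ, Quaternion.ofComplex z = q := by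
  refine ⟨⟨q.re, q.imI⟩, ?_⟩
  have h1 := congrArg QuaternionAlgebra.imJ h
  have h2 := congrArg QuaternionAlgebra.imK h
  simp only [wsC_apply] at h1 h2
  ext <;> simp <;> linarith

end Crest.Agent.R197
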