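import Crest.Agent.R197.Wr
import Crest.Agent.R197.DegMain
import Crest.Agent.R197.WordSqAux1

/-! R197: square unimodular systems of word equations over the unit quaternions.

Proof.  Apply `equivDeg'` on `E = V → ℍ[ℝ]`, `ι = V × Fin 4`, `e` built from
`QuaternionAlgebra.linearEquivTuple` (`LinearEquiv.toContinuousLinearEquiv`), `M = {p | 2 ≤ p.2}`,
`τ x v = ⟨(x v).re, (x v).imI, -(x v).imJ, -(x v).imK⟩` (conjugation by `i`; a ring automorphism `c` of `ℍ`
with `‖c q‖ = ‖q‖`), `Ω = {x | (∀ v, 1/2 < ‖x v‖ ∧ ‖x v‖ < 2) ∧ ∀ v ∈ Zs, ‖x v - 1‖ < δ₀}`,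
`H t x b = ev (Sum.elim x (α t)) (w b) - 1` where
`ev y u = (u.toWord.map fun l => if l.2 then y l.1 else (y l.1)⁻¹).prod`.  If all `y s ≠ 0` then
`ev y u = ↑(FreeGroup.lift (fun s => Units.mk0 (y s) _) u)` (`FreeGroup.lift_mk`, `mk_toWord`), which
gives induction principles.  Facts, by induction on the list: continuity in `(t, x)` on
`[0,1] × closure Ω` and `ContDiffOn` in `x` (inverse: `q⁻¹ = (normSq q)⁻¹ • star q`, or
`contDiffAt_ringInverse`); `c (ev y u) = ev (c ∘ y) u`; `log ‖ev y u‖ = ∑ s, expo u s * log ‖y s‖`, so a zero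
of `H t` has `M *ᵥ (log ‖x ·‖) = 0`, hence `‖x v‖ = 1` for all `v` (a zero in `closure Ω` is a solution in
`S3` with `‖x v - 1‖ ≤ δ₀`, and `hgap` puts it in `Ω`); the derivative of `x ↦ ev (Sum.elim x 1) u` at
`x = 1` is `h ↦ ∑ v, expo u (inl v) • h v`, injective by unimodularity; if `τ x = x` all `x v` lie in the
commutative subfield `ℂ` (`Quaternion.coeComplex`/pairwise `Commute`), so
`ev = ∏ v, (x v)^(expo ..)` and unimodularity forces `x = 1` (for units `x` of a commutative group with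
`∏ v, x v ^ M b v = 1` for all `b`: pass to `Additive` and multiply by the inverse matrix). -/

set_option autoImplicit false

namespace Crest.Agent.R197

open Set
open scoped Quaternion

/-- Real coordinates of tuples of quaternions. -/
noncomputable def wsE (V : Type) [Fintype V] : (V → ℍ[ℝ]) ≃L[ℝ] (V × Fin 4 → ℝ) :=
  LinearEquiv.toContinuousLinearEquiv (E := V → ℍ[ℝ])
    ((LinearEquiv.piCongrRight fun _ : V =>
      QuaternionAlgebra.linearEquivTuple (R := ℝ) (-1) 0 (-1)).trans
        (LinearEquiv.curry ℝ ℝ V (Fin 4)).symm)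

theorem wsE_apply {V : Type} [Fintype V] (x : V → ℍ[ℝ]) (p : V × Fin 4) :
    wsE V x p = ![(x p.1).re, (x p.1).imI, (x p.1).imJ, (x p.1).imK] p.2 := rfl

theorem wordSq {V P : Type} [Fintype V] [DecidableEq V] (w : V → FreeGroup (V ⊕ P))
    (hM : IsUnit (Matrix.of fun b v : V => expo (w b) (.inl v)).det)
    (Zs : Finset V) {δ₀ : ℝ} (hδ : 0 < δ₀) (α : ℝ → P → S3)
    (hα : ∀ p, ContinuousOn (fun t => α t p) (Icc 0 1)) (h0 : ∀ p, α 0 p = 1)
    (hgap : ∀ t ∈ Icc (0 : ℝ) 1, ∀ x : V → S3,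
      (∀ b, FreeGroup.lift (Sum.elim x (α t)) (w b) = 1) →
      (∀ v ∈ Zs, dv (x v) ≤ δ₀) → ∀ v ∈ Zs, dv (x v) < δ₀) :
    ∃ x : V → S3, (∀ b, FreeGroup.lift (Sum.elim x (α 1)) (w b) = 1) ∧
      ∀ v ∈ Zs, dv (x v) ≤ δ₀ := by
  classical
  set Ω : Set (V → ℍ[ℝ]) := {x | (∀ v, 1 / 2 < ‖x v‖ ∧ ‖x v‖ < 2) ∧ ∀ v ∈ Zs, ‖x v - 1‖ < δ₀}
    with hΩ
  set Y : ℝ → (V → ℍ[ℝ]) → V ⊕ P → ℍ[ℝ] := fun t x => Sum.elim x fun p => (α t p : ℍ[ℝ]) with hY
  set H : ℝ → (V → ℍ[ℝ]) → V → ℍ[ℝ] := fun t x b => wsEv (Y t x) (w b) - 1 with hH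
  have hcl : ∀ x ∈ closure Ω, (∀ v, 1 / 2 ≤ ‖x v‖) ∧ ∀ v ∈ Zs, ‖x v - 1‖ ≤ δ₀ := by
    have h1 : IsClosed {x : V → ℍ[ℝ] | (∀ v, 1 / 2 ≤ ‖x v‖) ∧ ∀ v ∈ Zs, ‖x v - 1‖ ≤ δ₀} := by
      simp only [ofPred_and, ofPred_forall]
      exact (isClosed_iInter fun v => isClosed_le continuous_const (by fun_prop)).inter
        (isClosed_iInter fun v => isClosed_iInter fun _ => isClosed_le (by fun_prop)
          continuous_const)
    have h2 : Ω ⊆ {x : V → ℍ[ℝ] | (∀ v, 1 / 2 ≤ ‖x v‖) ∧ ∀ v ∈ Zs, ‖x v - 1‖ ≤ δ₀} :=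
      fun x hx => ⟨fun v => (hx.1 v).1.le, fun v hv => (hx.2 v hv).le⟩
    exact fun x hx => closure_minimal h2 h1 hx
  have hne : ∀ t, ∀ x ∈ closure Ω, ∀ s, Y t x s ≠ 0 := by
    intro t x hx s
    rw [← norm_ne_zero_iff]
    rcases s with v | p
    · have := (hcl x hx).1 v
      exact ne_of_gt (lt_of_lt_of_le (by norm_num) this)
    · exact (S3.norm_coe (α t p)).trans_ne one_ne_zero
  have hY0 : ∀ x, Y 0 x = Sum.elim x fun _ => 1 := by
    intro x
    simp only [hY, h0]
    rfl
  have hsol : ∀ t, ∀ x ∈ closure Ω, H t x = 0 → ∃ x' : V → S3, (∀ v, (x' v : ℍ[ℝ]) = x v) ∧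
      (∀ b, FreeGroup.lift (Sum.elim x' (α t)) (w b) = 1) ∧ ∀ v ∈ Zs, dv (x' v) ≤ δ₀ := by
    intro t x hx h
    have h1 : ∀ b, wsEv (Y t x) (w b) = 1 := fun b => sub_eq_zero.1 (congrFun h b)
    have h2 : ∀ v, ‖x v‖ = 1 := ws_comm w hM (fun s => normHom (Y t x s))
      (fun v => norm_ne_zero_iff.2 (hne t x hx _)) (fun p => S3.norm_coe (α t p))
      fun b => by rw [← wsEv_map, h1, map_one]
    refine ⟨fun v => ⟨x v, by simpa using h2 v⟩, fun _ => rfl, fun b => Subtype.ext ?_,
      fun v hv => (hcl x hx).2 v hv⟩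
    rw [← wsEv_S3]
    refine Eq.trans ?_ (h1 b)
    congr 1
    funext s
    cases s <;> rfl
  obtain ⟨x, hx, hx0⟩ := equivDeg' (wsE V) (Finset.univ.filter fun p => 2 ≤ p.2)
    (fun x v => wsC (x v)) (Ω := Ω) (H := H) (x₀ := 1)
    (by
      intro x
      funext ⟨v, j⟩
      fin_cases j <;> simp [wsE_apply, flipM, wsC_apply])
    (by
      simp only [hΩ, ofPred_and, ofPred_forall]
      exact (isOpen_iInter_of_finite fun v => (isOpen_lt continuous_const (by fun_prop)).inter
        (isOpen_lt (by fun_prop) continuous_const)).inter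
        (isOpen_iInter_of_finite fun v => isOpen_iInter_of_finite fun _ =>
          isOpen_lt (by fun_prop) continuous_const))
    (by
      refine (Metric.isBounded_closedBall (x := 0) (r := 2)).subset fun x hx => ?_
      rw [mem_closedBall_zero_iff, pi_norm_le_iff_of_nonneg (by norm_num)]
      exact fun v => (hx.1 v).2.le)
    (by
      intro x hx
      refine ⟨fun v => ?_, fun v hv => ?_⟩
      · rw [wsC_norm]; exact hx.1 v
      · rw [← wsC_sub_one, wsC_norm]; exact hx.2 v hv)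
    (by
      refine continuousOn_pi.2 fun b => ContinuousOn.sub ?_ continuousOn_const
      refine wsEv_continuousOn (fun p : ℝ × (V → ℍ[ℝ]) => Y p.1 p.2) ?_
        (fun p hp => hne p.1 p.2 hp.2) _
      rintro (v | p)
      · exact (by fun_prop : Continuous fun p : ℝ × (V → ℍ[ℝ]) => p.2 v).continuousOn
      · exact continuous_subtype_val.comp_continuousOn
          ((hα p).comp continuousOn_fst fun q hq => hq.1))
    (by
      intro t _
      refine contDiffOn_pi.2 fun b => ContDiffOn.sub ?_ contDiffOn_const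
      refine wsEv_contDiffOn (Y t) ?_ (fun x hx => hne t x (subset_closure hx)) _
      rintro (v | p)
      · exact (contDiff_apply ℝ _ v).contDiffOn
      · exact contDiffOn_const)
    (by
      intro t ht x hx h
      obtain ⟨x', h1, h2, h3⟩ := hsol t x hx h
      refine ⟨fun v => ?_, fun v hv => ?_⟩
      · rw [← h1, S3.norm_coe]; norm_num
      · rw [← h1]; exact hgap t ht x' h2 h3 v hv)
    (by
      intro x _
      funext b
      simp only [hH, hY0, wsC_sub_one, wsEv_map]
      congr 2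
      funext s
      cases s <;> simp)
    ⟨fun v => by norm_num, fun v _ => by simpa using hδ⟩
    (by funext v; exact map_one wsC)
    (by
      funext b
      have : (Sum.elim (1 : V → ℍ[ℝ]) fun _ : P => (1 : ℍ[ℝ])) = fun _ => 1 := by
        funext s
        cases s <;> rfl
      simp only [hH, hY0, this, wsEv_const_one, sub_self, Pi.zero_apply])
    (by
      have h1 : HasFDerivAt (H 0) (ContinuousLinearMap.pi fun b => ∑ v, expo (w b) (.inl v) •
          ContinuousLinearMap.proj (R := ℝ) (φ := fun _ : V => ℍ[ℝ]) v) 1 := by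
        refine hasFDerivAt_pi.2 fun b => ?_
        simp only [hY0]
        exact (wsEv_hasFDerivAt (w b)).sub_const 1
      rw [h1.fderiv, injective_iff_map_eq_zero]
      intro z hz
      funext u
      refine ws_unimod _ hM z (fun b => ?_) u
      simpa using congrFun hz b)
    (by
      intro x hx h1 h2
      choose z hz using fun v => wsC_fix (congrFun h1 v)
      have h3 : ∀ v, z v = 1 := ws_comm w hM (Sum.elim z fun _ => 1)
        (fun v hv => hne 0 x (subset_closure hx) (.inl v) (by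
          have : z v = 0 := hv
          show x v = 0
          rw [← hz, this, map_zero])) (fun _ => rfl) fun b => by
          apply Quaternion.ofComplex.injective
          have h4 := wsEv_map Quaternion.ofComplex.toRingHom.toMonoidWithZeroHom
            (Sum.elim z fun _ => 1) (w b)
          have h5 : wsEv (Y 0 x) (w b) = 1 := sub_eq_zero.1 (congrFun h2 b)
          rw [map_one, ← h5, hY0]
          refine h4.trans ?_
          congr 1
          funext s
          rcases s with v | p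
          · exact hz v
          · exact map_one _
      funext v
      rw [← hz, h3, map_one]
      rfl)
  obtain ⟨x', -, h2, h3⟩ := hsol 1 x (subset_closure hx) hx0
  exact ⟨x', h2, h3⟩

end Crest.Agent.R197
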