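import Crest.Agent.R197.WordSq

/-! R197: finite systems of word equations with a split Jacobian.

Proof.  Let `V₀ : Finset V` contain `Zs` and every `v` with `expo (w b) (inl v) ≠ 0` for some `b`.
Substitute `1` for the variables outside `V₀`: `k : FreeGroup (V ⊕ P) →* FreeGroup ((V₀ ⊕ B) ⊕ P)`,
`inl v ↦ of (inl (inl ⟨v, _⟩))` if `v ∈ V₀`, else `1`; `inr p ↦ of (inr p)`.  New unknowns `V' = V₀ ⊕ B`;
index the equations by `V'` as well: for `inr b` the word `k (w b)`, for `inl v` the word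
`of (inl (inl v)) * ∏ b, of (inl (inr b)) ^ (L v b)` (any order: `(Finset.univ.toList.map ..).prod`).
The exponent matrix is `fromBlocks 1 Λ M 0` with `M b v = expo (w b) (inl v)`, `Λ v b = L v b`,
`M * Λ = 1` (this is `hL` evaluated at `b'`), and has the inverse `fromBlocks (1 - Λ M) Λ M (-1)`; so
its determinant is a unit (`Matrix.isUnit_det_of_right_inverse`).  A solution `x'` of the new system
gives the solution `x v = if h : v ∈ V₀ then x' (inl ⟨v, h⟩) else 1` of the old one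
(`lift (Sum.elim x' a) ∘ k = lift (Sum.elim x a)`).  Apply `wordSq` with the image of `Zs`. -/

set_option autoImplicit false

namespace Crest.Agent.R197

open Set

theorem wsys_expo_zpow {S : Type} (u : FreeGroup S) (n : ℤ) : expo (u ^ n) = n • expo u := by
  simp [expo]

theorem wsys_expo_surj {S : Type} (c : S →₀ ℤ) : ∃ u : FreeGroup S, expo u = c := by
  induction c using Finsupp.induction_linear with
  | zero => exact ⟨1, expo_one⟩
  | add f g hf hg =>
    obtain ⟨u, hu⟩ := hf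
    obtain ⟨v, hv⟩ := hg
    exact ⟨u * v, by rw [expo_mul, hu, hv]⟩
  | single a n => exact ⟨FreeGroup.of a ^ n, by rw [wsys_expo_zpow, expo_of]; simp⟩

theorem wsys_lin {V P B : Type} (L : V → B →₀ ℤ) (c : V ⊕ P →₀ ℤ) (V₀ : Finset V)
    (h : ∀ v, c (.inl v) ≠ 0 → v ∈ V₀) (b : B) :
    Finsupp.linearCombination ℤ (Sum.elim L fun _ => 0) c b = ∑ v ∈ V₀, c (.inl v) * L v b := by
  classical
  rw [Finsupp.linearCombination_apply, Finsupp.sum, Finset.sum_apply']
  have h1 : ∑ s ∈ c.support, (c s • (Sum.elim L fun _ => 0 : V ⊕ P → B →₀ ℤ) s) b =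
      ∑ s ∈ c.support ∪ V₀.map Function.Embedding.inl,
        (c s • (Sum.elim L fun _ => 0 : V ⊕ P → B →₀ ℤ) s) b := by
    refine Finset.sum_subset Finset.subset_union_left fun s _ hs => ?_
    rw [Finsupp.notMem_support_iff.1 hs]
    simp
  have h2 : ∑ s ∈ V₀.map Function.Embedding.inl,
        (c s • (Sum.elim L fun _ => 0 : V ⊕ P → B →₀ ℤ) s) b =
      ∑ s ∈ c.support ∪ V₀.map Function.Embedding.inl,
        (c s • (Sum.elim L fun _ => 0 : V ⊕ P → B →₀ ℤ) s) b := by
    refine Finset.sum_subset Finset.subset_union_right fun s _ hs => ?_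
    rcases s with v | p
    · have hv : v ∉ V₀ := fun hv => hs (Finset.mem_map.2 ⟨v, hv, rfl⟩)
      have : c (.inl v) = 0 := by
        by_contra hc
        exact hv (h v hc)
      rw [this]
      simp
    · simp
  rw [h1, ← h2, Finset.sum_map]
  refine Finset.sum_congr rfl fun v _ => ?_
  simp

open scoped Classical in
/-- Substitute `1` for the variables outside `V₀`. -/
noncomputable def wsysK {V : Type} (P B : Type) (V₀ : Finset V) :
    FreeGroup (V ⊕ P) →* FreeGroup ((V₀ ⊕ B) ⊕ P) :=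
  FreeGroup.lift (Sum.elim
    (fun v => if h : v ∈ V₀ then FreeGroup.of (.inl (.inl ⟨v, h⟩)) else 1)
    fun p => FreeGroup.of (.inr p))

theorem wsysK_inl {V P B : Type} (V₀ : Finset V) (u : FreeGroup (V ⊕ P)) (v : V₀) :
    expo (wsysK P B V₀ u) (.inl (.inl v)) = expo u (.inl v) := by
  classical
  induction u using FreeGroup.induction_on with
  | C1 => simp
  | of s =>
    rcases s with v' | p
    · by_cases h : v' ∈ V₀
      · simp [wsysK, h, Finsupp.single_apply, Subtype.ext_iff]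
      · have : v' ≠ v := fun e => h (e ▸ v.2)
        simp [wsysK, h, this]
    · simp [wsysK]
  | inv_of s ih => rw [map_inv, expo_inv, expo_inv, Finsupp.neg_apply, Finsupp.neg_apply, ih]
  | mul a b iha ihb =>
    rw [map_mul, expo_mul, expo_mul, Finsupp.add_apply, Finsupp.add_apply, iha, ihb]

theorem wsysK_inr {V P B : Type} (V₀ : Finset V) (u : FreeGroup (V ⊕ P)) (b : B) :
    expo (wsysK P B V₀ u) (.inl (.inr b)) = 0 := by
  classical
  induction u using FreeGroup.induction_on with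
  | C1 => simp
  | of s =>
    rcases s with v' | p
    · by_cases h : v' ∈ V₀
      · simp [wsysK, h]
      · simp [wsysK, h]
    · simp [wsysK]
  | inv_of s ih => rw [map_inv, expo_inv, Finsupp.neg_apply, ih, neg_zero]
  | mul a b iha ihb => rw [map_mul, expo_mul, Finsupp.add_apply, iha, ihb, add_zero]

open scoped Classical in
theorem wsysK_lift {V P B G : Type} [Group G] (V₀ : Finset V) (x' : V₀ ⊕ B → G) (a : P → G)
    (u : FreeGroup (V ⊕ P)) :
    FreeGroup.lift (Sum.elim x' a) (wsysK P B V₀ u) =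
      FreeGroup.lift (Sum.elim (fun v => if h : v ∈ V₀ then x' (.inl ⟨v, h⟩) else 1) a) u := by
  have : (FreeGroup.lift (Sum.elim x' a)).comp (wsysK P B V₀) =
      FreeGroup.lift (Sum.elim (fun v => if h : v ∈ V₀ then x' (.inl ⟨v, h⟩) else 1) a) := by
    ext s
    rcases s with v | p
    · by_cases h : v ∈ V₀ <;> simp [wsysK, h]
    · simp [wsysK]
  exact DFunLike.congr_fun this u

theorem wordSys {V P B : Type} [Finite B] (w : B → FreeGroup (V ⊕ P)) (L : V → B →₀ ℤ)
    (hL : ∀ b, Finsupp.linearCombination ℤ (Sum.elim L fun _ => 0) (expo (w b)) = Finsupp.single b 1)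
    (Zs : Finset V) {δ₀ : ℝ} (hδ : 0 < δ₀) (α : ℝ → P → S3)
    (hα : ∀ p, ContinuousOn (fun t => α t p) (Icc 0 1)) (h0 : ∀ p, α 0 p = 1)
    (hgap : ∀ t ∈ Icc (0 : ℝ) 1, ∀ x : V → S3,
      (∀ b, FreeGroup.lift (Sum.elim x (α t)) (w b) = 1) →
      (∀ v ∈ Zs, dv (x v) ≤ δ₀) → ∀ v ∈ Zs, dv (x v) < δ₀) :
    ∃ x : V → S3, (∀ b, FreeGroup.lift (Sum.elim x (α 1)) (w b) = 1) ∧
      ∀ v ∈ Zs, dv (x v) ≤ δ₀ := by
  classical
  haveI := Fintype.ofFinite B
  obtain ⟨V₀, hZ, hV₀⟩ : ∃ V₀ : Finset V, Zs ⊆ V₀ ∧ ∀ b v, expo (w b) (.inl v) ≠ 0 → v ∈ V₀ := by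
    refine ⟨Zs ∪ Finset.univ.biUnion fun b =>
      (expo (w b)).support.preimage Sum.inl Sum.inl_injective.injOn, Finset.subset_union_left, ?_⟩
    intro b v hv
    refine Finset.mem_union_right _ (Finset.mem_biUnion.2 ⟨b, Finset.mem_univ _, ?_⟩)
    rw [Finset.mem_preimage, Finsupp.mem_support_iff]
    exact hv
  choose u hu using fun v : V₀ => wsys_expo_surj (S := (V₀ ⊕ B) ⊕ P)
    (Finsupp.single (.inl (.inl v)) 1 + Finsupp.mapDomain (fun b => .inl (.inr b)) (L v))
  set w' : V₀ ⊕ B → FreeGroup ((V₀ ⊕ B) ⊕ P) := Sum.elim u fun b => wsysK P B V₀ (w b) with hw'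
  set M : Matrix B V₀ ℤ := Matrix.of fun b v => expo (w b) (.inl v) with hM
  set Λ : Matrix V₀ B ℤ := Matrix.of fun v b => L v b with hΛ
  have hMΛ : M * Λ = 1 := by
    ext b b'
    have h1 := wsys_lin L (expo (w b)) V₀ (hV₀ b) b'
    rw [hL b, ← Finset.sum_coe_sort] at h1
    rw [Matrix.mul_apply, Matrix.one_apply, ← Finsupp.single_apply (a := b) (a' := b') (b := (1 : ℤ)),
      h1]
    rfl
  have hmat : (Matrix.of fun b v : V₀ ⊕ B => expo (w' b) (.inl v)) =
      Matrix.fromBlocks 1 Λ M 0 := by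
    have hinj : Function.Injective (fun b : B => (Sum.inl (Sum.inr b) : (V₀ ⊕ B) ⊕ P)) :=
      fun b b' h => Sum.inr_injective (Sum.inl_injective h)
    ext i j
    rcases i with v | b <;> rcases j with v' | b'
    · simp only [hw', Matrix.of_apply, Sum.elim_inl, hu, Matrix.fromBlocks_apply₁₁,
        Finsupp.add_apply]
      rw [Finsupp.mapDomain_notin_range _ _ (by simp), add_zero, Finsupp.single_apply,
        Matrix.one_apply]
      simp
    · simp only [hw', Matrix.of_apply, Sum.elim_inl, hu, Matrix.fromBlocks_apply₁₂,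
        Finsupp.add_apply]
      rw [Finsupp.mapDomain_apply hinj]
      simp [hΛ]
    · simp only [hw', Matrix.of_apply, Sum.elim_inr, Matrix.fromBlocks_apply₂₁, wsysK_inl, hM]
    · simp only [hw', Matrix.of_apply, Sum.elim_inr, Matrix.fromBlocks_apply₂₂, wsysK_inr,
        Matrix.zero_apply]
  have hdet : IsUnit (Matrix.of fun b v : V₀ ⊕ B => expo (w' b) (.inl v)).det := by
    rw [hmat]
    refine Matrix.isUnit_det_of_right_inverse
      (B := Matrix.fromBlocks (1 - Λ * M) Λ M (-1)) ?_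
    rw [Matrix.fromBlocks_multiply, ← Matrix.fromBlocks_one]
    congr 1
    · simp
    · simp
    · rw [Matrix.mul_sub, ← Matrix.mul_assoc, hMΛ]
      simp
    · simp [hMΛ]
  let j : V₀ → V₀ ⊕ B := Sum.inl
  set Zs' : Finset (V₀ ⊕ B) := (Finset.univ.filter fun v : V₀ => (v : V) ∈ Zs).image Sum.inl
    with hZs'
  have hmem : ∀ i, i ∈ Zs' ↔ ∃ v : V₀, (v : V) ∈ Zs ∧ Sum.inl v = i := by
    intro i
    simp only [hZs', Finset.mem_image, Finset.mem_filter, Finset.mem_univ, true_and]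
  have hsol : ∀ (t : ℝ) (x' : V₀ ⊕ B → S3),
      (∀ i, FreeGroup.lift (Sum.elim x' (α t)) (w' i) = 1) →
      ∀ b, FreeGroup.lift (Sum.elim
        (fun v => if h : v ∈ V₀ then x' (.inl ⟨v, h⟩) else 1) (α t)) (w b) = 1 := by
    intro t x' h b
    have := h (.inr b)
    simp only [hw', Sum.elim_inr] at this
    rw [wsysK_lift] at this
    convert this
  have hle : ∀ (x' : V₀ ⊕ B → S3), (∀ i ∈ Zs', dv (x' i) ≤ δ₀) →
      ∀ v ∈ Zs, dv ((fun v => if h : v ∈ V₀ then x' (.inl ⟨v, h⟩) else 1) v) ≤ δ₀ := by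
    intro x' h v hv
    simp only [dif_pos (hZ hv)]
    exact h _ ((hmem _).2 ⟨⟨v, hZ hv⟩, hv, rfl⟩)
  obtain ⟨x', h1, h2⟩ := wordSq w' hdet Zs' hδ α hα h0 (by
    intro t ht x' h1 h2 i hi
    obtain ⟨v, hv, rfl⟩ := (hmem i).1 hi
    have := hgap t ht _ (hsol t x' h1) (hle x' h2) v hv
    simpa only [dif_pos v.2] using this)
  exact ⟨_, hsol 1 x' h1, hle x' h2⟩

end Crest.Agent.R197
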