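import Mathlib

/-! R197: holonomy of words, Fox chains, presentations.

`hol π α w x` is the holonomy of the word `w` read from the vertex `x` of the Cayley graph of
`(G, π)`, for the "connection" `α` that gives the edge `(s, x)` from `x` to `x * π s` the value
`α (s, x)`.  `fox π w x` is the cellular `1`-chain of that edge path. -/

set_option autoImplicit false

namespace Crest.Agent.R197

open scoped Quaternion

/-- Unit quaternions. -/
abbrev S3 : Type := Metric.sphere (0 : ℍ[ℝ]) 1

/-- Distance of a unit quaternion from `1`. -/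
noncomputable def dv (a : S3) : ℝ := ‖(a : ℍ[ℝ]) - 1‖

theorem S3.norm_coe (a : S3) : ‖(a : ℍ[ℝ])‖ = 1 := by simp

theorem dv_nonneg (a : S3) : 0 ≤ dv a := norm_nonneg _

@[simp] theorem dv_one : dv 1 = 0 := by simp [dv]

theorem dv_eq_zero {a : S3} (h : dv a = 0) : a = 1 :=
  Subtype.ext (by simpa [dv, sub_eq_zero] using h)

theorem continuous_dv : Continuous dv := (continuous_subtype_val.sub continuous_const).norm

theorem dv_mul_le (a b : S3) : dv (a * b) ≤ dv a + dv b := by
  have h : ((a * b : S3) : ℍ[ℝ]) - 1 = ((a : ℍ[ℝ]) - 1) * b + ((b : ℍ[ℝ]) - 1) := by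
    rw [Metric.unitSphere.coe_mul]; noncomm_ring
  rw [dv, h]
  refine (norm_add_le _ _).trans ?_
  rw [norm_mul, S3.norm_coe, mul_one]; rfl

theorem dv_inv_mul (a b : S3) : dv (a⁻¹ * b) = ‖(b : ℍ[ℝ]) - a‖ := by
  have h : (b : ℍ[ℝ]) - a = (a : ℍ[ℝ]) * (((a⁻¹ * b : S3) : ℍ[ℝ]) - 1) := by
    rw [mul_sub, ← Metric.unitSphere.coe_mul, mul_inv_cancel_left, mul_one]
  rw [h, norm_mul, S3.norm_coe, one_mul, dv]

theorem dv_inv (a : S3) : dv a⁻¹ = dv a := by
  have := dv_inv_mul a 1
  rw [mul_one] at this
  rw [this, dv, norm_sub_rev]; rfl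

theorem dv_conj (c a : S3) : dv (c * a * c⁻¹) = dv a := by
  have h : ((c * a * c⁻¹ : S3) : ℍ[ℝ]) - 1 = (c : ℍ[ℝ]) * ((a : ℍ[ℝ]) - 1) * (c⁻¹ : S3) := by
    rw [mul_sub, sub_mul, mul_one, ← Metric.unitSphere.coe_mul c c⁻¹, mul_inv_cancel]
    simp only [Metric.unitSphere.coe_mul, Metric.unitSphere.coe_one]
  rw [dv, h, norm_mul, norm_mul, S3.norm_coe, S3.norm_coe, one_mul, mul_one, dv]

theorem dv_comm_le (a b : S3) : dv (a * b * a⁻¹ * b⁻¹) ≤ 2 * dv a * dv b := by
  have h1 : a * b * a⁻¹ * b⁻¹ = (b * a) * ((b * a)⁻¹ * (a * b)) * (b * a)⁻¹ := by group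
  rw [h1, dv_conj, dv_inv_mul]
  have h : ((a * b : S3) : ℍ[ℝ]) - (b * a : S3) =
      ((a : ℍ[ℝ]) - 1) * ((b : ℍ[ℝ]) - 1) - ((b : ℍ[ℝ]) - 1) * ((a : ℍ[ℝ]) - 1) := by
    simp only [Metric.unitSphere.coe_mul]; noncomm_ring
  rw [h]
  refine (norm_sub_le _ _).trans (le_of_eq ?_)
  rw [norm_mul, norm_mul, dv, dv]; ring

/-- Unrestricted wreath product (right translation). -/
@[ext] structure Wr (G H : Type) where
  f : G → H
  g : G

namespace Wr

variable {G H : Type} [Group G] [Group H]

instance : Mul (Wr G H) := ⟨fun a b => ⟨fun x => a.f x * b.f (x * a.g), a.g * b.g⟩⟩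
instance : One (Wr G H) := ⟨⟨fun _ => 1, 1⟩⟩
instance : Inv (Wr G H) := ⟨fun a => ⟨fun x => (a.f (x * a.g⁻¹))⁻¹, a.g⁻¹⟩⟩

@[simp] theorem mul_f (a b : Wr G H) (x : G) : (a * b).f x = a.f x * b.f (x * a.g) := rfl
@[simp] theorem mul_g (a b : Wr G H) : (a * b).g = a.g * b.g := rfl
@[simp] theorem one_f (x : G) : (1 : Wr G H).f x = 1 := rfl
@[simp] theorem one_g : (1 : Wr G H).g = 1 := rfl
@[simp] theorem inv_f (a : Wr G H) (x : G) : a⁻¹.f x = (a.f (x * a.g⁻¹))⁻¹ := rfl
@[simp] theorem inv_g (a : Wr G H) : a⁻¹.g = a.g⁻¹ := rfl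

instance : Group (Wr G H) where
  mul_assoc a b c := by ext <;> simp [mul_assoc]
  one_mul a := by ext <;> simp
  mul_one a := by ext <;> simp
  inv_mul_cancel a := by ext <;> simp

/-- The projection to `G`. -/
def proj : Wr G H →* G where
  toFun a := a.g
  map_one' := rfl
  map_mul' _ _ := rfl

@[simp] theorem proj_apply (a : Wr G H) : proj a = a.g := rfl

end Wr

section hol

variable {G H S : Type} [Group G] [Group H]

/-- The homomorphism to the wreath product given by a connection. -/
def holW (π : S → G) (α : S × G → H) : FreeGroup S →* Wr G H :=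
  FreeGroup.lift fun s => ⟨fun x => α (s, x), π s⟩

/-- Holonomy of `w` read from `x`. -/
def hol (π : S → G) (α : S × G → H) (w : FreeGroup S) (x : G) : H := (holW π α w).f x

variable (π : S → G) (α : S × G → H)

@[simp] theorem holW_g (w : FreeGroup S) : (holW π α w).g = FreeGroup.lift π w := by
  have : Wr.proj.comp (holW π α) = FreeGroup.lift π := by
    ext s; simp [holW]
  exact DFunLike.congr_fun this w

theorem holW_f (w : FreeGroup S) (x : G) : (holW π α w).f x = hol π α w x := rfl

@[simp] theorem hol_one (x : G) : hol π α 1 x = 1 := by simp [hol]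

@[simp] theorem hol_of (s : S) (x : G) : hol π α (FreeGroup.of s) x = α (s, x) := by
  simp [hol, holW]

theorem hol_mul (u v : FreeGroup S) (x : G) :
    hol π α (u * v) x = hol π α u x * hol π α v (x * FreeGroup.lift π u) := by
  simp [hol]

theorem hol_inv (u : FreeGroup S) (x : G) :
    hol π α u⁻¹ x = (hol π α u (x * (FreeGroup.lift π u)⁻¹))⁻¹ := by
  simp [hol]

theorem holW_eq_one_iff (w : FreeGroup S) :
    holW π α w = 1 ↔ FreeGroup.lift π w = 1 ∧ ∀ x, hol π α w x = 1 := by
  constructor
  · intro h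
    exact ⟨by rw [← holW_g π α, h]; rfl, fun x => by rw [hol, h]; rfl⟩
  · rintro ⟨h1, h2⟩
    ext x
    · exact h2 x
    · simpa using h1

/-- General naturality: change the letters along `j`, the group along `q`, the values along `φ`. -/
theorem hol_natural {G' H' S' : Type} [Group G'] [Group H'] (π' : S' → G') (α' : S' × G' → H')
    (j : S → S') (q : G →* G') (φ : H →* H') (c : G') (hπ : ∀ s, π' (j s) = q (π s))
    (hα : ∀ s x, α' (j s, c * q x) = φ (α (s, x))) (w : FreeGroup S) (x : G) :
    hol π' α' (FreeGroup.map j w) (c * q x) = φ (hol π α w x) := by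
  have hl : ∀ w : FreeGroup S,
      FreeGroup.lift π' (FreeGroup.map j w) = q (FreeGroup.lift π w) := fun w => by
    have : (FreeGroup.lift π').comp (FreeGroup.map j) = q.comp (FreeGroup.lift π) := by
      ext s; simp [hπ]
    exact DFunLike.congr_fun this w
  induction w using FreeGroup.induction_on generalizing x with
  | C1 => simp
  | of s => simp [hα]
  | inv_of s ih =>
    rw [map_inv, hol_inv, hol_inv, map_inv, ← ih, hl, map_mul, map_inv, mul_assoc]
  | mul u v ihu ihv =>
    rw [map_mul, hol_mul, hol_mul, map_mul, ihu, ← ihv, hl, map_mul, mul_assoc]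

theorem map_id_eq (w : FreeGroup S) : FreeGroup.map (fun s => s) w = w := FreeGroup.map.id' w

theorem hol_map_val {H' : Type} [Group H'] (φ : H →* H') (w : FreeGroup S) (x : G) :
    hol π (fun p => φ (α p)) w x = φ (hol π α w x) := by
  simpa using hol_natural π α π (fun p => φ (α p)) (fun s => s) (MonoidHom.id G) φ 1
    (fun _ => rfl) (by simp) w x

theorem hol_map_letter {S' : Type} (π' : S' → G) (α' : S' × G → H) (j : S → S')
    (w : FreeGroup S) (x : G) :
    hol π' α' (FreeGroup.map j w) x = hol (fun s => π' (j s)) (fun p => α' (j p.1, p.2)) w x := by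
  simpa using hol_natural (fun s => π' (j s)) (fun p => α' (j p.1, p.2)) π' α' j (MonoidHom.id G)
    (MonoidHom.id H) 1 (fun _ => rfl) (by simp) w x

theorem hol_pullback {Φ : Type} [Group Φ] (q : G →* Φ) (β : S × Φ → H) (w : FreeGroup S) (x : G) :
    hol π (fun p => β (p.1, q p.2)) w x = hol (fun s => q (π s)) β w (q x) := by
  simpa using (hol_natural π (fun p => β (p.1, q p.2)) (fun s => q (π s)) β (fun s => s) q
    (MonoidHom.id H) 1 (fun _ => rfl) (by simp) w x).symm

theorem hol_translate (c : G) (w : FreeGroup S) (x : G) :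
    hol π α w (c * x) = hol π (fun p => α (p.1, c * p.2)) w x := by
  simpa using hol_natural π (fun p => α (p.1, c * p.2)) π α (fun s => s) (MonoidHom.id G)
    (MonoidHom.id H) c (fun _ => rfl) (by simp) w x

theorem lift_map_letter {S' : Type} (π' : S' → G) (j : S → S') (w : FreeGroup S) :
    FreeGroup.lift π' (FreeGroup.map j w) = FreeGroup.lift (fun s => π' (j s)) w := by
  have : (FreeGroup.lift π').comp (FreeGroup.map j) = FreeGroup.lift fun s => π' (j s) := by
    ext s; simp
  exact DFunLike.congr_fun this w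

end hol

section fox

open Multiplicative Finsupp

variable {G S R T : Type} [Group G]

/-- The cellular `1`-chain of the edge path `w` read from `x`. -/
noncomputable def fox (π : S → G) (w : FreeGroup S) (x : G) : S × G →₀ ℤ :=
  toAdd (hol π (fun p => ofAdd (single p (1 : ℤ))) w x)

/-- Left translation of chains. -/
noncomputable def tr (g : G) : (S × G →₀ ℤ) →ₗ[ℤ] (S × G →₀ ℤ) :=
  lmapDomain ℤ ℤ fun p => (p.1, g * p.2)

/-- Relabelling of chains. -/
noncomputable def rl (j : S → T) : (S × G →₀ ℤ) →ₗ[ℤ] (T × G →₀ ℤ) :=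
  lmapDomain ℤ ℤ fun p => (j p.1, p.2)

/-- The equivariant linear map with the given values on the cells `(r, 1)`. -/
noncomputable def eqv (t : R → (S × G →₀ ℤ)) : (R × G →₀ ℤ) →ₗ[ℤ] (S × G →₀ ℤ) :=
  linearCombination ℤ fun p => tr p.2 (t p.1)

/-- The cellular boundary `C₂ → C₁` of the Cayley complex. -/
noncomputable def bd2 (π : S → G) (rel : R → FreeGroup S) : (R × G →₀ ℤ) →ₗ[ℤ] (S × G →₀ ℤ) :=
  linearCombination ℤ fun p => fox π (rel p.1) p.2

/-- The cellular boundary `C₁ → C₀` of the Cayley graph. -/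
noncomputable def bd1 (π : S → G) : (S × G →₀ ℤ) →ₗ[ℤ] (G →₀ ℤ) :=
  linearCombination ℤ fun p => single (p.2 * π p.1) 1 - single p.2 1

@[simp] theorem tr_single (g : G) (p : S × G) (n : ℤ) :
    tr g (single p n) = single (p.1, g * p.2) n := by simp [tr]

omit [Group G] in
@[simp] theorem rl_single (j : S → T) (p : S × G) (n : ℤ) :
    rl j (single p n) = single (j p.1, p.2) n := by simp [rl]

@[simp] theorem eqv_single (t : R → (S × G →₀ ℤ)) (p : R × G) (n : ℤ) :
    eqv t (single p n) = n • tr p.2 (t p.1) := by simp [eqv]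

@[simp] theorem bd2_single (π : S → G) (rel : R → FreeGroup S) (p : R × G) (n : ℤ) :
    bd2 π rel (single p n) = n • fox π (rel p.1) p.2 := by simp [bd2]

@[simp] theorem bd1_single (π : S → G) (p : S × G) (n : ℤ) :
    bd1 π (single p n) = n • (single (p.2 * π p.1) 1 - single p.2 1) := by simp [bd1]

/-- Two linear maps on chains agree if they agree on cells. -/
theorem chain_ext {B M : Type} [AddCommGroup M] {f g : (B →₀ ℤ) →ₗ[ℤ] M}
    (h : ∀ b, f (single b 1) = g (single b 1)) (c : B →₀ ℤ) : f c = g c := by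
  have : f = g := Finsupp.lhom_ext' fun b => LinearMap.ext_ring (by simpa using h b)
  rw [this]

@[simp] theorem tr_one (c : S × G →₀ ℤ) : tr 1 c = c :=
  chain_ext (f := tr 1) (g := LinearMap.id) (by simp) c

theorem tr_tr (g h : G) (c : S × G →₀ ℤ) : tr g (tr h c) = tr (g * h) c :=
  chain_ext (f := tr g ∘ₗ tr h) (g := tr (g * h)) (by simp [mul_assoc]) c

theorem tr_rl (g : G) (j : S → T) (c : S × G →₀ ℤ) : tr g (rl j c) = rl j (tr g c) :=
  chain_ext (f := tr g ∘ₗ rl j) (g := rl j ∘ₗ tr g) (by simp) c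

theorem tr_eqv (g : G) (t : R → (S × G →₀ ℤ)) (c : R × G →₀ ℤ) :
    tr g (eqv t c) = eqv t (tr g c) :=
  chain_ext (f := tr g ∘ₗ eqv t) (g := eqv t ∘ₗ tr g) (by simp [tr_tr]) c

variable (π : S → G)

@[simp] theorem fox_one (x : G) : fox π 1 x = 0 := by simp [fox]

@[simp] theorem fox_of (s : S) (x : G) : fox π (FreeGroup.of s) x = single (s, x) 1 := by
  simp [fox]

theorem fox_mul (u v : FreeGroup S) (x : G) :
    fox π (u * v) x = fox π u x + fox π v (x * FreeGroup.lift π u) := by
  simp [fox, hol_mul]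

theorem fox_inv (u : FreeGroup S) (x : G) :
    fox π u⁻¹ x = -fox π u (x * (FreeGroup.lift π u)⁻¹) := by
  simp [fox, hol_inv]

theorem fox_translate (c : G) (w : FreeGroup S) (x : G) :
    fox π w (c * x) = tr c (fox π w x) := by
  induction w using FreeGroup.induction_on generalizing x with
  | C1 => simp
  | of s => simp
  | inv_of s ih => rw [fox_inv, fox_inv, map_neg, ← ih, mul_assoc]
  | mul u v ihu ihv => rw [fox_mul, fox_mul, map_add, ← ihu, ← ihv, mul_assoc]

theorem fox_eq_tr (w : FreeGroup S) (x : G) : fox π w x = tr x (fox π w 1) := by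
  rw [← fox_translate, mul_one]

theorem fox_map_letter (π' : T → G) (j : S → T) (w : FreeGroup S) (x : G) :
    fox π' (FreeGroup.map j w) x = rl j (fox (fun s => π' (j s)) w x) := by
  induction w using FreeGroup.induction_on generalizing x with
  | C1 => simp
  | of s => simp
  | inv_of s ih => rw [map_inv, fox_inv, fox_inv, map_neg, ← ih, lift_map_letter]
  | mul u v ihu ihv => rw [map_mul, fox_mul, fox_mul, map_add, ← ihu, ← ihv, lift_map_letter]

theorem bd2_eq_eqv (rel : R → FreeGroup S) (c : R × G →₀ ℤ) :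
    bd2 π rel c = eqv (fun r => fox π (rel r) 1) c :=
  chain_ext (fun p => by simp [← fox_eq_tr]) c

theorem tr_bd2 (rel : R → FreeGroup S) (g : G) (c : R × G →₀ ℤ) :
    tr g (bd2 π rel c) = bd2 π rel (tr g c) := by
  rw [bd2_eq_eqv, bd2_eq_eqv, tr_eqv]

theorem bd1_fox (w : FreeGroup S) (x : G) :
    bd1 π (fox π w x) = single (x * FreeGroup.lift π w) 1 - single x 1 := by
  induction w using FreeGroup.induction_on generalizing x with
  | C1 => simp
  | of s => simp
  | inv_of s ih => rw [fox_inv, map_neg, ih]; simp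
  | mul u v ihu ihv => rw [fox_mul, map_add, ihu, ihv, map_mul, mul_assoc]; abel

/-- Holonomy with values in an abelian group is a linear function of the Fox chain. -/
theorem hol_eq_fox {M : Type} [AddCommGroup M] (a : S × G → M) (w : FreeGroup S) (x : G) :
    hol π (fun p => ofAdd (a p)) w x = ofAdd (linearCombination ℤ a (fox π w x)) := by
  induction w using FreeGroup.induction_on generalizing x with
  | C1 => simp
  | of s => simp
  | inv_of s ih => rw [fox_inv, hol_inv, ih]; simp
  | mul u v ihu ihv => rw [fox_mul, hol_mul, ihu, ihv]; simp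

/-- The Fox chain of a consequence of the relators is a boundary. -/
theorem fox_mem_range_bd2 (rel : R → FreeGroup S) (hrel : ∀ r, FreeGroup.lift π (rel r) = 1)
    {w : FreeGroup S} (hw : w ∈ Subgroup.normalClosure (Set.range rel)) (x : G) :
    fox π w x ∈ LinearMap.range (bd2 π rel) := by
  let N : Subgroup (FreeGroup S) :=
    { carrier := {w | FreeGroup.lift π w = 1 ∧ ∀ x, fox π w x ∈ LinearMap.range (bd2 π rel)}
      one_mem' := ⟨by simp, fun x => by simp⟩
      mul_mem' := fun {a b} ha hb => ⟨by simp [ha.1, hb.1], fun x => by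
        rw [fox_mul]; exact add_mem (ha.2 _) (hb.2 _)⟩
      inv_mem' := fun {a} ha => ⟨by simp [ha.1], fun x => by
        rw [fox_inv]; exact neg_mem (ha.2 _)⟩ }
  have : N.Normal := ⟨fun n hn g => ⟨by simp [hn.1], fun x => by
    have : fox π (g * n * g⁻¹) x = fox π n (x * FreeGroup.lift π g) := by
      rw [fox_mul, fox_mul, fox_inv, map_mul, hn.1]; simp
    rw [this]; exact hn.2 _⟩⟩
  have : Subgroup.normalClosure (Set.range rel) ≤ N := Subgroup.normalClosure_le_normal (by
    rintro _ ⟨r, rfl⟩
    exact ⟨hrel r, fun x => ⟨single (r, x) 1, by simp⟩⟩)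
  exact (this hw).2 x

/-- Exponent sums of a word. -/
noncomputable def expo (w : FreeGroup S) : S →₀ ℤ :=
  toAdd (FreeGroup.lift (fun s => ofAdd (single s (1 : ℤ))) w)

@[simp] theorem expo_one : expo (1 : FreeGroup S) = 0 := by simp [expo]
@[simp] theorem expo_of (s : S) : expo (FreeGroup.of s) = single s 1 := by simp [expo]
@[simp] theorem expo_mul (u v : FreeGroup S) : expo (u * v) = expo u + expo v := by simp [expo]
@[simp] theorem expo_inv (u : FreeGroup S) : expo u⁻¹ = -expo u := by simp [expo]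

end fox

/-- A presentation (any size) whose Cayley complex has injective boundary `C₂ → C₁`. -/
structure AsphPres (G : Type) [Group G] where
  X : Type
  R : Type
  π : X → G
  rel : R → FreeGroup X
  surj : Function.Surjective (FreeGroup.lift π)
  ker : (FreeGroup.lift π).ker = Subgroup.normalClosure (Set.range rel)
  inj : Function.Injective (bd2 π rel)

/-- A free cocompact acyclic `2`-complex with one orbit of vertices. -/
structure Level (G : Type) [Group G] where
  A : Type
  I : Type
  finA : Finite A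
  finI : Finite I
  π : A → G
  e : I → FreeGroup A
  surj : Function.Surjective (FreeGroup.lift π)
  he : ∀ i, FreeGroup.lift π (e i) = 1
  inj : Function.Injective (bd2 π e)
  exact : ∀ c, bd1 π c = 0 → c ∈ LinearMap.range (bd2 π e)

end Crest.Agent.R197
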